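import Vale.Agent.KTV.Avg

/-!
# Row C1: the abstract combination argument
-/

open Finset

namespace Vale.Agent.H27.CT

open Vale.Agent.KTV

theorem cs_sum {α : Type*} (s : Finset α) {r f g : α → ℝ} (hf : ∀ i ∈ s, 0 ≤ f i)
    (hg : ∀ i ∈ s, 0 ≤ g i) (h : ∀ i ∈ s, r i ^ 2 = f i * g i) :
    (∑ i ∈ s, r i) ^ 2 ≤ (∑ i ∈ s, f i) * ∑ i ∈ s, g i :=
  sum_sq_le_sum_mul_sum_of_sq_le_mul s hf hg (fun i hi => (h i hi).le)

theorem cs_sum2 {κ Ω : Type*} [Fintype κ] [Fintype Ω] {r f g : κ → Ω → ℝ}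
    (hf : ∀ l x, 0 ≤ f l x) (hg : ∀ l x, 0 ≤ g l x) (h : ∀ l x, r l x ^ 2 = f l x * g l x) :
    (∑ l, ∑ x, r l x) ^ 2 ≤ (∑ l, ∑ x, f l x) * ∑ l, ∑ x, g l x := by
  have h1 := cs_sum (univ : Finset (κ × Ω)) (r := fun p => r p.1 p.2) (f := fun p => f p.1 p.2)
    (g := fun p => g p.1 p.2) (fun p _ => hf _ _) (fun p _ => hg _ _) (fun p _ => h _ _)
  simpa only [Fintype.sum_prod_type] using h1

section
variable {Ω : Type*} [Fintype Ω] {r : Ω → Ω → Prop}

/-- orthogonality of `F - avg F` to invariant functions -/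
theorem sum_sub_avg_mul (hr : Equivalence r) (F : Ω → ℝ) {θ : Ω → ℝ}
    (hθ : ∀ x y, r x y → θ x = θ y) : ∑ x, (F x - avg r F x) * θ x = 0 := by
  have h1 : ip (avg r F) θ = ip F θ := by
    rw [ip_avg hr, avg_of_inv hr hθ]
  unfold ip at h1
  simp only [sub_mul, sum_sub_distrib]
  linarith

theorem pyth (hr : Equivalence r) (F : Ω → ℝ) {θ : Ω → ℝ} (hθ : ∀ x y, r x y → θ x = θ y) :
    ∑ x, (F x - θ x) ^ 2 = ∑ x, (F x - avg r F x) ^ 2 + ∑ x, (avg r F x - θ x) ^ 2 := by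
  have h1 := sum_sub_avg_mul hr F (θ := fun x => avg r F x - θ x)
    (fun x y hxy => by rw [hθ x y hxy, avg_congr hr F hxy])
  have h2 : ∑ x, (F x - θ x) ^ 2 = ∑ x, ((F x - avg r F x) ^ 2 + (avg r F x - θ x) ^ 2
      + 2 * ((F x - avg r F x) * (avg r F x - θ x))) := sum_congr rfl (fun x _ => by ring)
  rw [h2, sum_add_distrib, sum_add_distrib, ← mul_sum, h1]
  ring

end

theorem comb_arith {M n C1 C2 Z D D1 D2 T1 T2 T3 T4 : ℝ} (hM0 : 0 ≤ M) (hn : 0 ≤ n)
    (hC1 : 0 ≤ C1) (hC2 : 0 ≤ C2) (hZ0 : 0 ≤ Z) (hD0 : 0 ≤ D) (hD1le : D1 ≤ D)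
    (hD2le : D2 ≤ 4 * n * D) (main : Z = T1 + T2 - T3 - T4) (b1 : T1 ^ 2 ≤ D1 * (C1 * Z))
    (b2 : T2 ^ 2 ≤ D1 * Z) (b3 : T3 ^ 2 ≤ D1 * (M * (C1 * Z))) (b4 : T4 ^ 2 ≤ D2 * (C2 * Z)) :
    Z ≤ (6 * (1 + (M + 1) * C1) + 8 * n * C2) * D := by
  have fin : Z * Z ≤ ((6 * (1 + (M + 1) * C1) + 8 * n * C2) * D) * Z := by
    have s1 : Z * Z = (T1 + T2 - T3 - T4) ^ 2 := by rw [← main]; ring
    have s2 : (T1 + T2 - T3 - T4) ^ 2 ≤ 6 * (T1 ^ 2 + T2 ^ 2 + T3 ^ 2) + 2 * T4 ^ 2 := by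
      nlinarith [sq_nonneg (T1 - T2), sq_nonneg (T1 + T3), sq_nonneg (T2 + T3),
        sq_nonneg (T1 + T2 - T3 + T4)]
    have s3 : 6 * (T1 ^ 2 + T2 ^ 2 + T3 ^ 2) + 2 * T4 ^ 2 ≤
        6 * (D1 * (C1 * Z) + D1 * Z + D1 * (M * (C1 * Z))) + 2 * (D2 * (C2 * Z)) := by
      linarith
    have s4 : 6 * (D1 * (C1 * Z) + D1 * Z + D1 * (M * (C1 * Z))) + 2 * (D2 * (C2 * Z)) =
        (6 * (1 + (M + 1) * C1) * Z) * D1 + (2 * C2 * Z) * D2 := by ring
    have s5 : (6 * (1 + (M + 1) * C1) * Z) * D1 ≤ (6 * (1 + (M + 1) * C1) * Z) * D :=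
      mul_le_mul_of_nonneg_left hD1le (by positivity)
    have s6 : (2 * C2 * Z) * D2 ≤ (2 * C2 * Z) * (4 * n * D) :=
      mul_le_mul_of_nonneg_left hD2le (by positivity)
    have s7 : (6 * (1 + (M + 1) * C1) * Z) * D + (2 * C2 * Z) * (4 * n * D) =
      ((6 * (1 + (M + 1) * C1) + 8 * n * C2) * D) * Z := by ring
    linarith
  rcases hZ0.eq_or_lt with h0 | h0
  · rw [← h0]; positivity
  · exact le_of_mul_le_mul_right fin h0

theorem comb {Ω κ : Type*} [Fintype Ω] [Fintype κ] [DecidableEq κ]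
    (hκ : 2 ≤ Fintype.card κ)
    (r1 : κ → Ω → Ω → Prop) (r2 : κ → κ → Ω → Ω → Prop)
    (h1 : ∀ l, Equivalence (r1 l)) (h2 : ∀ l k, Equivalence (r2 l k))
    (hsymm : ∀ l k x y, r2 l k x y → r2 k l x y) (h12 : ∀ l k x y, r1 l x y → r2 l k x y)
    (X : κ → Ω → ℝ) (hX : ∀ l x, 0 ≤ X l x) (n C1 C2 : ℝ) (hn : 0 ≤ n) (hC1 : 0 ≤ C1)
    (hC2 : 0 ≤ C2)
    (hwall : ∀ l (θ : Ω → ℝ), (∀ x y, r1 l x y → θ x = θ y) →
      ∑ x, X l x * θ x ^ 2 ≤ n * ∑ x, θ x ^ 2)
    (F : Ω → ℝ) (W B : κ → Ω → ℝ) (hF : ∀ x, ∑ l, (W l x + B l x) = F x)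
    (horth : ∀ l (θ : Ω → ℝ), (∀ x y, r1 l x y → θ x = θ y) → ∑ x, θ x * (W l x + B l x) = 0)
    (hB : ∑ l, ∑ x, B l x ^ 2 ≤ C1 * ∑ x, F x ^ 2)
    (hW0 : ∀ l x, X l x = 0 → W l x = 0)
    (hW : ∑ l, ∑ x, W l x ^ 2 / X l x ≤ C2 * ∑ x, F x ^ 2) :
    ∑ x, F x ^ 2 ≤ (6 * (1 + (Fintype.card κ + 1) * C1) + 8 * n * C2) *
      ∑ l, ∑ k ∈ univ.erase l, ∑ x, (F x - avg (r2 l k) F x) ^ 2 := by
  set M : ℝ := (Fintype.card κ : ℝ) with hM
  have hM0 : 0 ≤ M := by positivity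
  set D := ∑ l, ∑ k ∈ univ.erase l, ∑ x, (F x - avg (r2 l k) F x) ^ 2 with hD
  have hD0 : 0 ≤ D := sum_nonneg fun l _ => sum_nonneg fun k _ => sum_nonneg fun x _ => sq_nonneg _
  set Z := ∑ x, F x ^ 2 with hZ
  have hZ0 : 0 ≤ Z := sum_nonneg fun x _ => sq_nonneg _
  -- invariance facts
  have inv1 : ∀ l x y, r1 l x y → avg (r1 l) F x = avg (r1 l) F y :=
    fun l x y hxy => avg_congr (h1 l) F hxy
  have inv2 : ∀ l k x y, r1 l x y → avg (r2 l k) F x = avg (r2 l k) F y :=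
    fun l k x y hxy => avg_congr (h2 l k) F (h12 l k x y hxy)
  have e2symm : ∀ l k, avg (r2 l k) F = avg (r2 k l) F := by
    intro l k
    have : r2 l k = r2 k l := by
      funext x y; exact propext ⟨hsymm l k x y, hsymm k l x y⟩
    rw [this]
  have py : ∀ l k, ∑ x, (F x - avg (r2 l k) F x) ^ 2 =
      ∑ x, (F x - avg (r1 l) F x) ^ 2 + ∑ x, (avg (r1 l) F x - avg (r2 l k) F x) ^ 2 :=
    fun l k => pyth (h1 l) F (inv2 l k)
  -- D1
  set D1 := ∑ l, ∑ x, (F x - avg (r1 l) F x) ^ 2 with hD1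
  have hD10 : 0 ≤ D1 := sum_nonneg fun l _ => sum_nonneg fun x _ => sq_nonneg _
  have hD1le : D1 ≤ D := by
    refine sum_le_sum fun l _ => ?_
    have hne : (univ.erase l).Nonempty := by
      rw [← card_pos, card_erase_of_mem (mem_univ l), card_univ]; omega
    obtain ⟨k, hk⟩ := hne
    have hs : ∑ x, (F x - avg (r2 l k) F x) ^ 2 ≤
        ∑ k ∈ univ.erase l, ∑ x, (F x - avg (r2 l k) F x) ^ 2 :=
      single_le_sum (f := fun k => ∑ x, (F x - avg (r2 l k) F x) ^ 2)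
        (fun k _ => sum_nonneg fun x _ => sq_nonneg _) hk
    refine le_trans ?_ hs
    rw [py l k]
    have : 0 ≤ ∑ x, (avg (r1 l) F x - avg (r2 l k) F x) ^ 2 := sum_nonneg fun x _ => sq_nonneg _
    linarith
  -- H
  set S : Ω → ℝ := fun x => ∑ l, X l x with hS
  have hS0 : ∀ x, 0 ≤ S x := fun x => sum_nonneg fun l _ => hX l x
  set H : Ω → ℝ := fun x => if S x = 0 then F x else ∑ k, (X k x / S x) * avg (r1 k) F x with hH
  have hXS : ∀ l x, X l x ≤ S x := fun l x =>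
    single_le_sum (f := fun l => X l x) (fun l _ => hX l x) (mem_univ l)
  have hw1 : ∀ x, S x ≠ 0 → ∑ k, X k x / S x = 1 := by
    intro x hx
    rw [← sum_div]; exact div_self hx
  have jens : ∀ x, S x ≠ 0 → ∀ a : κ → ℝ, (∑ k, (X k x / S x) * a k) ^ 2 ≤
      ∑ k, (X k x / S x) * a k ^ 2 := by
    intro x hx a
    have := cs_sum (univ : Finset κ) (r := fun k => (X k x / S x) * a k)
      (f := fun k => X k x / S x) (g := fun k => (X k x / S x) * a k ^ 2)
      (fun k _ => div_nonneg (hX k x) (hS0 x))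
      (fun k _ => mul_nonneg (div_nonneg (hX k x) (hS0 x)) (sq_nonneg _)) (fun k _ => by ring)
    rwa [hw1 x hx, one_mul] at this
  -- ‖F - H‖² ≤ D1
  have hFH : ∑ x, (F x - H x) ^ 2 ≤ D1 := by
    rw [hD1, sum_comm]
    refine sum_le_sum fun x _ => ?_
    by_cases hx : S x = 0
    · simp only [hH, hx, if_true, sub_self]
      have : 0 ≤ ∑ l, (F x - avg (r1 l) F x) ^ 2 := sum_nonneg fun l _ => sq_nonneg _
      simpa using this
    · have e1 : F x - H x = ∑ k, (X k x / S x) * (F x - avg (r1 k) F x) := by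
        simp only [hH, hx, if_false, mul_sub, sum_sub_distrib, ← sum_mul]
        rw [hw1 x hx, one_mul]
      rw [e1]
      refine (jens x hx _).trans (sum_le_sum fun k _ => ?_)
      have : X k x / S x ≤ 1 := div_le_one_of_le₀ (hXS k x) (hS0 x)
      nlinarith [sq_nonneg (F x - avg (r1 k) F x)]
  -- D2
  set D2 := ∑ l, ∑ x, X l x * (avg (r1 l) F x - H x) ^ 2 with hD2
  have hD20 : 0 ≤ D2 := sum_nonneg fun l _ => sum_nonneg fun x _ =>
    mul_nonneg (hX l x) (sq_nonneg _)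
  have hD2le : D2 ≤ 4 * n * D := by
    have step1 : ∀ x, ∑ l, X l x * (avg (r1 l) F x - H x) ^ 2 ≤
        ∑ l, ∑ k ∈ univ.erase l, (2 * (X l x * (avg (r1 l) F x - avg (r2 l k) F x) ^ 2)
          + 2 * (X k x * (avg (r1 k) F x - avg (r2 l k) F x) ^ 2)) := by
      intro x
      by_cases hx : S x = 0
      · have hX0 : ∀ l, X l x = 0 := fun l => le_antisymm (hx ▸ hXS l x) (hX l x)
        simp [hX0]
      · refine sum_le_sum fun l _ => ?_
        have e1 : avg (r1 l) F x - H x =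
            ∑ k, (X k x / S x) * (avg (r1 l) F x - avg (r1 k) F x) := by
          simp only [hH, hx, if_false, mul_sub, sum_sub_distrib, ← sum_mul]
          rw [hw1 x hx, one_mul]
        have e2 : (avg (r1 l) F x - H x) ^ 2 ≤
            ∑ k, (X k x / S x) * (avg (r1 l) F x - avg (r1 k) F x) ^ 2 := by
          rw [e1]; exact jens x hx _
        have e3 : X l x * (avg (r1 l) F x - H x) ^ 2 ≤
            ∑ k, X l x * ((X k x / S x) * (avg (r1 l) F x - avg (r1 k) F x) ^ 2) := by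
          rw [← mul_sum]; exact mul_le_mul_of_nonneg_left e2 (hX l x)
        refine e3.trans ?_
        rw [← sum_erase (a := l) univ (by simp)]
        refine sum_le_sum fun k _ => ?_
        set p := avg (r1 l) F x
        set q := avg (r1 k) F x
        set m := avg (r2 l k) F x
        have hSx : 0 < S x := lt_of_le_of_ne (hS0 x) (Ne.symm hx)
        have f1 : X l x * (X k x / S x) ≤ X l x := by
          have : X k x / S x ≤ 1 := div_le_one_of_le₀ (hXS k x) (hS0 x)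
          nlinarith [hX l x]
        have f2 : X l x * (X k x / S x) ≤ X k x := by
          have : X l x / S x ≤ 1 := div_le_one_of_le₀ (hXS l x) (hS0 x)
          have e : X l x * (X k x / S x) = (X l x / S x) * X k x := by ring
          rw [e]
          nlinarith [hX k x]
        have f0 : 0 ≤ X l x * (X k x / S x) :=
          mul_nonneg (hX l x) (div_nonneg (hX k x) (hS0 x))
        have f3 : (p - q) ^ 2 ≤ 2 * (p - m) ^ 2 + 2 * (q - m) ^ 2 := by
          nlinarith [sq_nonneg ((p - m) + (q - m))]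
        calc X l x * (X k x / S x * (p - q) ^ 2)
            = (X l x * (X k x / S x)) * (p - q) ^ 2 := by ring
          _ ≤ (X l x * (X k x / S x)) * (2 * (p - m) ^ 2 + 2 * (q - m) ^ 2) :=
              mul_le_mul_of_nonneg_left f3 f0
          _ = 2 * ((X l x * (X k x / S x)) * (p - m) ^ 2)
              + 2 * ((X l x * (X k x / S x)) * (q - m) ^ 2) := by ring
          _ ≤ 2 * (X l x * (p - m) ^ 2) + 2 * (X k x * (q - m) ^ 2) := by
              have g1 := mul_le_mul_of_nonneg_right f1 (sq_nonneg (p - m))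
              have g2 := mul_le_mul_of_nonneg_right f2 (sq_nonneg (q - m))
              linarith
    have step2 : D2 ≤ ∑ l, ∑ k ∈ univ.erase l, (2 * ∑ x, X l x *
        (avg (r1 l) F x - avg (r2 l k) F x) ^ 2
          + 2 * ∑ x, X k x * (avg (r1 k) F x - avg (r2 l k) F x) ^ 2) := by
      rw [hD2, sum_comm]
      refine (sum_le_sum fun x _ => step1 x).trans (le_of_eq ?_)
      rw [sum_comm]
      refine sum_congr rfl fun l _ => ?_
      rw [sum_comm]
      refine sum_congr rfl fun k _ => ?_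
      rw [sum_add_distrib, mul_sum, mul_sum]
    have bnd : ∀ l k, ∑ x, X l x * (avg (r1 l) F x - avg (r2 l k) F x) ^ 2 ≤
        n * ∑ x, (F x - avg (r2 l k) F x) ^ 2 := by
      intro l k
      refine (hwall l (fun x => avg (r1 l) F x - avg (r2 l k) F x) (fun x y hxy => by
        rw [inv1 l x y hxy, inv2 l k x y hxy])).trans ?_
      refine mul_le_mul_of_nonneg_left ?_ hn
      rw [py l k]
      have : 0 ≤ ∑ x, (F x - avg (r1 l) F x) ^ 2 := sum_nonneg fun x _ => sq_nonneg _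
      linarith
    have step3 : ∀ l, ∀ k, (2 * ∑ x, X l x *
        (avg (r1 l) F x - avg (r2 l k) F x) ^ 2
          + 2 * ∑ x, X k x * (avg (r1 k) F x - avg (r2 l k) F x) ^ 2) ≤
        4 * n * ∑ x, (F x - avg (r2 l k) F x) ^ 2 := by
      intro l k
      have b1 := bnd l k
      have b2 := bnd k l
      rw [← e2symm l k] at b2
      linarith
    calc D2 ≤ _ := step2
      _ ≤ ∑ l, ∑ k ∈ univ.erase l, 4 * n * ∑ x, (F x - avg (r2 l k) F x) ^ 2 :=
          sum_le_sum fun l _ => sum_le_sum fun k _ => step3 l k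
      _ = 4 * n * D := by
          rw [hD, mul_sum]; exact sum_congr rfl fun l _ => by rw [mul_sum]
  -- main identity
  set T1 := ∑ l, ∑ x, (F x - avg (r1 l) F x) * B l x with hT1
  set T2 := ∑ x, (F x - H x) * F x with hT2
  set T3 := ∑ x, (F x - H x) * ∑ l, B l x with hT3
  set T4 := ∑ l, ∑ x, (avg (r1 l) F x - H x) * W l x with hT4
  have main : Z = T1 + T2 - T3 - T4 := by
    have m1 : Z = ∑ l, ∑ x, (F x - avg (r1 l) F x) * (W l x + B l x) := by
      have : ∀ l, ∑ x, (F x - avg (r1 l) F x) * (W l x + B l x) =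
          ∑ x, F x * (W l x + B l x) := by
        intro l
        have := horth l (avg (r1 l) F) (inv1 l)
        simp only [sub_mul, sum_sub_distrib, this, sub_zero]
      rw [sum_congr rfl fun l _ => this l, sum_comm, hZ]
      refine sum_congr rfl fun x _ => ?_
      rw [← mul_sum, hF]; ring
    have m2 : ∀ x, ∑ l, W l x = F x - ∑ l, B l x := by
      intro x
      have := hF x
      rw [sum_add_distrib] at this
      linarith
    have m3 : T2 - T3 = ∑ x, (F x - H x) * ∑ l, W l x := by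
      rw [hT2, hT3, ← sum_sub_distrib]
      refine sum_congr rfl fun x _ => ?_
      rw [m2]; ring
    have m4 : ∑ x, (F x - H x) * ∑ l, W l x = ∑ l, ∑ x, (F x - H x) * W l x := by
      rw [sum_comm]
      exact sum_congr rfl fun x _ => mul_sum _ _ _
    have m5 : T1 + ((∑ l, ∑ x, (F x - H x) * W l x) - T4) = Z := by
      rw [m1, hT1, hT4, ← sum_sub_distrib, ← sum_add_distrib]
      refine sum_congr rfl fun l _ => ?_
      rw [← sum_sub_distrib, ← sum_add_distrib]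
      refine sum_congr rfl fun x _ => ?_
      ring
    linarith
  have b1 : T1 ^ 2 ≤ D1 * (C1 * Z) := by
    refine (cs_sum2 (r := fun l x => (F x - avg (r1 l) F x) * B l x)
      (f := fun l x => (F x - avg (r1 l) F x) ^ 2) (g := fun l x => B l x ^ 2)
      (fun _ _ => sq_nonneg _) (fun _ _ => sq_nonneg _) (fun _ _ => by ring)).trans ?_
    exact mul_le_mul_of_nonneg_left hB hD10
  have b2 : T2 ^ 2 ≤ D1 * Z := by
    refine (cs_sum univ (r := fun x => (F x - H x) * F x) (f := fun x => (F x - H x) ^ 2)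
      (g := fun x => F x ^ 2) (fun _ _ => sq_nonneg _) (fun _ _ => sq_nonneg _)
      (fun _ _ => by ring)).trans ?_
    exact mul_le_mul_of_nonneg_right hFH hZ0
  have b3 : T3 ^ 2 ≤ D1 * (M * (C1 * Z)) := by
    refine (cs_sum univ (r := fun x => (F x - H x) * ∑ l, B l x) (f := fun x => (F x - H x) ^ 2)
      (g := fun x => (∑ l, B l x) ^ 2) (fun _ _ => sq_nonneg _) (fun _ _ => sq_nonneg _)
      (fun _ _ => by ring)).trans ?_
    have : ∑ x, (∑ l, B l x) ^ 2 ≤ M * (C1 * Z) := by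
      calc ∑ x, (∑ l, B l x) ^ 2 ≤ ∑ x, M * ∑ l, B l x ^ 2 :=
            sum_le_sum fun x _ => by
              have := sq_sum_le_card_mul_sum_sq (s := (univ : Finset κ)) (f := fun l => B l x)
              rwa [card_univ] at this
        _ = M * ∑ l, ∑ x, B l x ^ 2 := by rw [← mul_sum, sum_comm]
        _ ≤ M * (C1 * Z) := mul_le_mul_of_nonneg_left hB hM0
    calc (∑ x, (F x - H x) ^ 2) * ∑ x, (∑ l, B l x) ^ 2
        ≤ D1 * ∑ x, (∑ l, B l x) ^ 2 :=
          mul_le_mul_of_nonneg_right hFH (sum_nonneg fun x _ => sq_nonneg _)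
      _ ≤ D1 * (M * (C1 * Z)) := mul_le_mul_of_nonneg_left this hD10
  have b4 : T4 ^ 2 ≤ D2 * (C2 * Z) := by
    refine (cs_sum2 (r := fun l x => (avg (r1 l) F x - H x) * W l x)
      (f := fun l x => X l x * (avg (r1 l) F x - H x) ^ 2) (g := fun l x => W l x ^ 2 / X l x)
      (fun l x => mul_nonneg (hX l x) (sq_nonneg _))
      (fun l x => div_nonneg (sq_nonneg _) (hX l x)) (fun l x => ?_)).trans ?_
    · by_cases h0 : X l x = 0
      · rw [hW0 l x h0, h0]; ring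
      · field_simp
    · exact mul_le_mul_of_nonneg_left hW hD20
  exact comb_arith hM0 hn hC1 hC2 hZ0 hD0 hD1le hD2le main b1 b2 b3 b4

end Vale.Agent.H27.CT
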