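import Vale.Agent.KTV.Avg

/-! Row C2: mixing of an average of projections. -/

open Finset

namespace Vale.Agent.H27.CT

open Vale.Agent.KTV

section Gen
open scoped Classical
variable {Ω I : Type*} [Fintype Ω] [Fintype I] [Nonempty I]

theorem mp_pyth {r : Ω → Ω → Prop} (hr : Equivalence r) (f : Ω → ℝ) :
    ∑ x, avg r f x ^ 2 = ∑ x, f x ^ 2 - ∑ x, (f x - avg r f x) ^ 2 := by
  have h1 : ip f (avg r f) = ip (avg r f) (avg r f) := by
    rw [ip_avg hr f (avg r f), avg_idem hr f]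
  unfold ip at h1
  have h2 : ∑ x, (f x - avg r f x) ^ 2
      = ∑ x, f x ^ 2 - 2 * ∑ x, f x * avg r f x + ∑ x, avg r f x * avg r f x := by
    rw [mul_sum, ← sum_sub_distrib, ← sum_add_distrib]
    exact sum_congr rfl (fun x _ => by ring)
  have h3 : ∑ x, avg r f x ^ 2 = ∑ x, avg r f x * avg r f x :=
    sum_congr rfl (fun x _ => by ring)
  rw [h2, h3, h1]
  ring

/-- the average of the projections -/
noncomputable def Qop (R : I → Ω → Ω → Prop) (f : Ω → ℝ) (y : Ω) : ℝ :=
  (1 / (Fintype.card I : ℝ)) * ∑ i, avg (R i) f y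

theorem sum_Qop {R : I → Ω → Ω → Prop} (hR : ∀ i, Equivalence (R i)) (f : Ω → ℝ) :
    ∑ y, Qop R f y = ∑ y, f y := by
  have hc : (0 : ℝ) < Fintype.card I := by
    have := Fintype.card_pos (α := I); positivity
  unfold Qop
  rw [← mul_sum, sum_comm, sum_congr rfl (fun i _ => sum_avg (hR i) f), sum_const, card_univ,
    nsmul_eq_mul]
  field_simp

theorem Qop_sq_le {R : I → Ω → Ω → Prop} (hR : ∀ i, Equivalence (R i)) {γ : ℝ} (f : Ω → ℝ)
    (hgap : (Fintype.card I : ℝ) * γ * ∑ x, f x ^ 2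
      ≤ ∑ i, ∑ x, (f x - avg (R i) f x) ^ 2) :
    ∑ y, Qop R f y ^ 2 ≤ (1 - γ) * ∑ y, f y ^ 2 := by
  have hc : (0 : ℝ) < Fintype.card I := by
    have := Fintype.card_pos (α := I); positivity
  have h1 : ∀ y, Qop R f y ^ 2 ≤ (1 / (Fintype.card I : ℝ)) * ∑ i, avg (R i) f y ^ 2 := by
    intro y
    have h := sq_sum_le_card_mul_sum_sq (s := (univ : Finset I)) (f := fun i => avg (R i) f y)
    rw [card_univ] at h
    unfold Qop
    rw [mul_pow]
    calc (1 / (Fintype.card I : ℝ)) ^ 2 * (∑ i, avg (R i) f y) ^ 2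
        ≤ (1 / (Fintype.card I : ℝ)) ^ 2 *
          ((Fintype.card I : ℝ) * ∑ i, avg (R i) f y ^ 2) := by gcongr
      _ = (1 / (Fintype.card I : ℝ)) * ∑ i, avg (R i) f y ^ 2 := by field_simp
  have h2 : ∑ y, Qop R f y ^ 2 ≤ (1 / (Fintype.card I : ℝ)) *
      ∑ i, (∑ x, f x ^ 2 - ∑ x, (f x - avg (R i) f x) ^ 2) := by
    calc ∑ y, Qop R f y ^ 2
        ≤ ∑ y, (1 / (Fintype.card I : ℝ)) * ∑ i, avg (R i) f y ^ 2 :=
          sum_le_sum (fun y _ => h1 y)
      _ = (1 / (Fintype.card I : ℝ)) * ∑ i, ∑ y, avg (R i) f y ^ 2 := by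
          rw [← mul_sum, sum_comm]
      _ = _ := by
          congr 1
          exact sum_congr rfl (fun i _ => mp_pyth (hR i) f)
  refine h2.trans ?_
  rw [sum_sub_distrib, sum_const, card_univ, nsmul_eq_mul, one_div, inv_mul_le_iff₀ hc]
  nlinarith

end Gen

theorem mp_row {Ω I : Type*} [Fintype Ω] [DecidableEq Ω] [Fintype I]
    (R : I → Ω → Ω → Prop) (hR : ∀ i, Equivalence (R i)) (P : Matrix Ω Ω ℝ)
    (hP : ∀ x y, P x y = (1 / (Fintype.card I : ℝ)) *
      ∑ i, (open scoped Classical in if R i x y then 1 / ((cls (R i) x).card : ℝ) else 0))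
    (t : ℕ) (x y : Ω) : (P ^ (t + 1)) x y = Qop R (fun k => (P ^ t) x k) y := by
  classical
  rw [pow_succ, Matrix.mul_apply]
  unfold Qop
  have e1 : ∀ k, (P ^ t) x k * P k y = (1 / (Fintype.card I : ℝ)) *
      ∑ i, (if R i y k then (P ^ t) x k / ((cls (R i) y).card : ℝ) else 0) := by
    intro k
    rw [hP, ← mul_assoc, mul_comm ((P ^ t) x k) (1 / (Fintype.card I : ℝ)), mul_assoc, mul_sum]
    congr 1
    refine sum_congr rfl (fun i _ => ?_)
    by_cases h : R i k y
    · rw [if_pos h, if_pos ((hR i).symm h), cls_congr (hR i) h]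
      ring
    · rw [if_neg h, if_neg (fun h' => h ((hR i).symm h')), mul_zero]
  rw [sum_congr rfl (fun k _ => e1 k), ← mul_sum, sum_comm]
  congr 1
  refine sum_congr rfl (fun i _ => ?_)
  unfold avg cls
  rw [sum_div, sum_filter]

theorem mix_proj {Ω I : Type*} [Fintype Ω] [Nonempty Ω] [DecidableEq Ω] [Fintype I] [Nonempty I]
    (R : I → Ω → Ω → Prop) (hR : ∀ i, Equivalence (R i)) (P : Matrix Ω Ω ℝ)
    (hP : ∀ x y, P x y = (1 / (Fintype.card I : ℝ)) *
      ∑ i, (open scoped Classical in if R i x y then 1 / ((cls (R i) x).card : ℝ) else 0))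
    {γ : ℝ} (hγ : 0 ≤ γ) (hγ1 : γ ≤ 1)
    (hgap : ∀ f : Ω → ℝ, ∑ x, f x = 0 → (Fintype.card I : ℝ) * γ * ∑ x, f x ^ 2
      ≤ ∑ i, ∑ x, (f x - avg (R i) f x) ^ 2)
    (x : Ω) (t : ℕ) :
    (∑ y, |(P ^ t) x y - 1 / (Fintype.card Ω : ℝ)|) ^ 2
      ≤ (Fintype.card Ω : ℝ) * (1 - γ) ^ t := by
  have hN : (0 : ℝ) < Fintype.card Ω := by
    have := Fintype.card_pos (α := Ω); positivity
  have hc : (0 : ℝ) < Fintype.card I := by
    have := Fintype.card_pos (α := I); positivity
  have key : (∑ y, ((P ^ t) x y - 1 / (Fintype.card Ω : ℝ)) = 0) ∧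
      ∑ y, ((P ^ t) x y - 1 / (Fintype.card Ω : ℝ)) ^ 2 ≤ (1 - γ) ^ t := by
    induction t with
    | zero =>
      have h1 : ∀ y, (P ^ 0) x y = if x = y then (1 : ℝ) else 0 := by
        intro y; rw [pow_zero, Matrix.one_apply]
      simp only [h1]
      constructor
      · rw [sum_sub_distrib, sum_ite_eq univ x, if_pos (mem_univ x), sum_const, card_univ,
          nsmul_eq_mul]
        field_simp
        ring
      · have h2 : ∀ y, ((if x = y then (1 : ℝ) else 0) - 1 / (Fintype.card Ω : ℝ)) ^ 2 =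
            (if x = y then (1 - 2 / (Fintype.card Ω : ℝ)) else 0)
              + (1 / (Fintype.card Ω : ℝ)) ^ 2 := by
          intro y; split_ifs <;> ring
        rw [sum_congr rfl (fun y _ => h2 y), sum_add_distrib, sum_ite_eq univ x,
          if_pos (mem_univ x), sum_const, card_univ, nsmul_eq_mul, pow_zero]
        have h3 : (Fintype.card Ω : ℝ) * (1 / (Fintype.card Ω : ℝ)) ^ 2
            = 1 / (Fintype.card Ω : ℝ) := by field_simp
        rw [h3]
        have h4 : 0 ≤ 1 / (Fintype.card Ω : ℝ) := by positivity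
        have h5 : 2 / (Fintype.card Ω : ℝ) = 2 * (1 / (Fintype.card Ω : ℝ)) := by ring
        rw [h5]
        linarith
    | succ t ih =>
      obtain ⟨ih1, ih2⟩ := ih
      have h1 : ∀ y, (P ^ (t + 1)) x y - 1 / (Fintype.card Ω : ℝ) =
          Qop R (fun k => (P ^ t) x k - 1 / (Fintype.card Ω : ℝ)) y := by
        intro y
        rw [mp_row R hR P hP]
        unfold Qop
        have e : ∀ i, avg (R i) (fun k => (P ^ t) x k - 1 / (Fintype.card Ω : ℝ)) y
            = avg (R i) (fun k => (P ^ t) x k) y - 1 / (Fintype.card Ω : ℝ) := by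
          intro i
          have h2 := congrFun (avg_sub (r := R i) (fun k => (P ^ t) x k)
            (fun _ => 1 / (Fintype.card Ω : ℝ))) y
          have h3 := congrFun (avg_of_inv (hR i) (g := fun _ : Ω => 1 / (Fintype.card Ω : ℝ))
            (fun _ _ _ => rfl)) y
          rw [Pi.sub_apply, h3] at h2
          exact h2
        rw [sum_congr rfl (fun i _ => e i), sum_sub_distrib, sum_const, card_univ, nsmul_eq_mul]
        field_simp
      simp only [h1]
      constructor
      · rw [sum_Qop hR, ih1]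
      · refine (Qop_sq_le hR _ (hgap _ ih1)).trans ?_
        rw [pow_succ, mul_comm]
        exact mul_le_mul_of_nonneg_right ih2 (by linarith)
  have h3 := sq_sum_le_card_mul_sum_sq (s := (univ : Finset Ω))
    (f := fun y => |(P ^ t) x y - 1 / (Fintype.card Ω : ℝ)|)
  simp only [sq_abs, card_univ] at h3
  exact h3.trans (mul_le_mul_of_nonneg_left key.2 hN.le)

end Vale.Agent.H27.CT
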