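import Mathlib

/-!
# Contingency tables: definitions

Two-row systems (a box `s` and a level), and multi-row tables with a hub row.
-/

open Finset

namespace Vale.Agent.H27.CT

section TwoRow
variable {ι : Type*} [Fintype ι] [DecidableEq ι]

/-- vectors `x ≤ s` with total `k` -/
def lev (s : ι → ℕ) (k : ℕ) : Finset (ι → ℕ) :=
  (Fintype.piFinset (fun a => Finset.range (s a + 1))).filter (fun x => ∑ a, x a = k)

theorem mem_lev {s : ι → ℕ} {k : ℕ} {x : ι → ℕ} :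
    x ∈ lev s k ↔ (∀ a, x a ≤ s a) ∧ ∑ a, x a = k := by
  simp [lev, Fintype.mem_piFinset]

/-- add one token in column `a` -/
def up (x : ι → ℕ) (a : ι) : ι → ℕ := Function.update x a (x a + 1)

/-- remove one token from column `a` (truncated) -/
def dn (x : ι → ℕ) (a : ι) : ι → ℕ := Function.update x a (x a - 1)

@[simp] theorem up_same (x : ι → ℕ) (a : ι) : up x a a = x a + 1 := by simp [up]
@[simp] theorem dn_same (x : ι → ℕ) (a : ι) : dn x a a = x a - 1 := by simp [dn]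
theorem up_ne (x : ι → ℕ) {a b : ι} (h : b ≠ a) : up x a b = x b := by simp [up, h]
theorem dn_ne (x : ι → ℕ) {a b : ι} (h : b ≠ a) : dn x a b = x b := by simp [dn, h]

theorem dn_up (x : ι → ℕ) (a : ι) : dn (up x a) a = x := by
  funext b; by_cases h : b = a
  · subst h; simp
  · rw [dn_ne _ h, up_ne _ h]

theorem up_dn {x : ι → ℕ} {a : ι} (h : 1 ≤ x a) : up (dn x a) a = x := by
  funext b; by_cases hb : b = a
  · subst hb; simp; omega
  · rw [up_ne _ hb, dn_ne _ hb]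

theorem up_comm (x : ι → ℕ) (a b : ι) : up (up x a) b = up (up x b) a := by
  funext c
  by_cases hab : a = b
  · subst hab; rfl
  by_cases h1 : c = a
  · subst h1; rw [up_ne _ hab, up_same, up_same, up_ne _ hab]
  by_cases h2 : c = b
  · subst h2; rw [up_same, up_ne _ h1, up_ne _ h1, up_same]
  · rw [up_ne _ h2, up_ne _ h1, up_ne _ h1, up_ne _ h2]

theorem dn_comm (x : ι → ℕ) (a b : ι) : dn (dn x a) b = dn (dn x b) a := by
  funext c
  by_cases hab : a = b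
  · subst hab; rfl
  by_cases h1 : c = a
  · subst h1; rw [dn_ne _ hab, dn_same, dn_same, dn_ne _ hab]
  by_cases h2 : c = b
  · subst h2; rw [dn_same, dn_ne _ h1, dn_ne _ h1, dn_same]
  · rw [dn_ne _ h2, dn_ne _ h1, dn_ne _ h1, dn_ne _ h2]

theorem up_dn_comm (x : ι → ℕ) {a b : ι} (hab : a ≠ b) : up (dn x a) b = dn (up x b) a := by
  funext c
  by_cases h1 : c = a
  · subst h1; rw [up_ne _ hab, dn_same, dn_same, up_ne _ hab]
  by_cases h2 : c = b
  · subst h2; rw [up_same, dn_ne _ h1, dn_ne _ h1, up_same]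
  · rw [up_ne _ h2, dn_ne _ h1, dn_ne _ h1, up_ne _ h2]

theorem sum_up (x : ι → ℕ) (a : ι) : ∑ b, up x a b = (∑ b, x b) + 1 := by
  have h1 : ∑ b ∈ univ.erase a, up x a b = ∑ b ∈ univ.erase a, x b :=
    sum_congr rfl (fun b hb => up_ne x (ne_of_mem_erase hb))
  rw [← add_sum_erase univ _ (mem_univ a), ← add_sum_erase univ x (mem_univ a), h1, up_same]
  ring

theorem sum_dn {x : ι → ℕ} {a : ι} (h : 1 ≤ x a) : ∑ b, dn x a b + 1 = ∑ b, x b := by
  have := sum_up (dn x a) a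
  rw [up_dn h] at this
  omega

theorem up_mem {s : ι → ℕ} {k : ℕ} {x : ι → ℕ} {a : ι} (hx : x ∈ lev s k) (ha : x a < s a) :
    up x a ∈ lev s (k + 1) := by
  rw [mem_lev] at hx ⊢
  refine ⟨fun b => ?_, by rw [sum_up, hx.2]⟩
  by_cases h : b = a
  · subst h; rw [up_same]; omega
  · rw [up_ne _ h]; exact hx.1 b

theorem dn_mem {s : ι → ℕ} {k : ℕ} {x : ι → ℕ} {a : ι} (hx : x ∈ lev s (k + 1)) (ha : 1 ≤ x a) :
    dn x a ∈ lev s k := by
  rw [mem_lev] at hx ⊢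
  refine ⟨fun b => ?_, by have := sum_dn ha; omega⟩
  by_cases h : b = a
  · subst h; rw [dn_same]; have := hx.1 b; omega
  · rw [dn_ne _ h]; exact hx.1 b

/-- remove one of the `k` tokens of `x` uniformly at random and average `u` -/
noncomputable def Vop (k : ℕ) (u : (ι → ℕ) → ℝ) (x : ι → ℕ) : ℝ :=
  (∑ b, (x b : ℝ) * u (dn x b)) / (k : ℝ)

/-- `J_a(x) = x_a (u(x - e_a) - V u(x))` -/
noncomputable def Jf (k : ℕ) (u : (ι → ℕ) → ℝ) (a : ι) (x : ι → ℕ) : ℝ :=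
  (x a : ℝ) * (u (dn x a) - Vop k u x)

/-- `h_a(x) = Σ_{b ≠ a} x_b (x_a + 1) (u(x) - u(x + e_a - e_b))` -/
noncomputable def hst (u : (ι → ℕ) → ℝ) (a : ι) (x : ι → ℕ) : ℝ :=
  ∑ b ∈ univ.erase a, (x b : ℝ) * ((x a : ℝ) + 1) * (u x - u (dn (up x a) b))

/-- second difference at level `r + 2` -/
noncomputable def gd (r : ℕ) (u : (ι → ℕ) → ℝ) (t : ι → ℕ) (a c : ι) : ℝ :=
  u (dn (dn t a) c) - Vop (r + 1) u (dn t a) - Vop (r + 1) u (dn t c) + Vop (r + 2) (Vop (r + 1) u) t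

/-- `Γ_a(t) = Σ_{c ≠ a} t_c g_ac(t)` -/
noncomputable def Gam (r : ℕ) (u : (ι → ℕ) → ℝ) (t : ι → ℕ) (a : ι) : ℝ :=
  ∑ c ∈ univ.erase a, (t c : ℝ) * gd r u t a c

/-- the second-order energy -/
noncomputable def YY (s : ι → ℕ) (r : ℕ) (u : (ι → ℕ) → ℝ) : ℝ :=
  ∑ t ∈ lev s (r + 2),
    ((∑ a, ∑ c ∈ univ.erase a, (t a : ℝ) * (t c : ℝ) * gd r u t a c ^ 2)
      + ∑ a ∈ univ.filter (fun a => 1 ≤ t a), Gam r u t a ^ 2)

/-- the weighted star operator of a two-row system -/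
noncomputable def GG (s : ι → ℕ) (u : (ι → ℕ) → ℝ) (x : ι → ℕ) : ℝ :=
  ∑ a ∈ univ.filter (fun a => x a < s a), hst u a x

/-- the wall part of `GG` for a choice `c x` of a non-full column -/
noncomputable def Wf (s : ι → ℕ) (r : ℕ) (u : (ι → ℕ) → ℝ) (c : (ι → ℕ) → ι) (x : ι → ℕ) : ℝ :=
  -(((r : ℝ) + 1) * ∑ a ∈ univ.filter (fun a => x a = s a), Jf (r + 1) u a (up x (c x)))

/-- points of a level with `x_a = k` -/
def Kc (s : ι → ℕ) (ρ : ℕ) (a : ι) (k : ℕ) : Finset (ι → ℕ) :=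
  (lev s ρ).filter (fun x => x a = k)

/-- cost potential for column `a` -/
noncomputable def cost (s : ι → ℕ) (a : ι) (x : ι → ℕ) : ℝ :=
  (x a : ℝ) + (s a : ℝ) * ∑ c ∈ univ.erase a, ((harmonic (s c) : ℝ) - (harmonic (x c) : ℝ))

/-- second-order energy seen when removing a token from column `a` at `x_a = i` -/
noncomputable def Ecell (s : ι → ℕ) (r : ℕ) (u : (ι → ℕ) → ℝ) (a : ι) (i : ℕ) : ℝ :=
  ∑ x ∈ Kc s (r + 1) a i, ∑ c ∈ univ.filter (fun c => c ≠ a ∧ x c < s c),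
    2 * ((up x c a : ℝ) * (up x c c : ℝ) * gd r u (up x c) a c ^ 2 + Gam r u (up x c) a ^ 2)

/-- `Φ_A(x) = J_a(x)² / (cost(x) + A)` -/
noncomputable def Phi (s : ι → ℕ) (r : ℕ) (u : (ι → ℕ) → ℝ) (a : ι) (A : ℝ) (x : ι → ℕ) : ℝ :=
  Jf (r + 1) u a x ^ 2 / (cost s a x + A)

/-- a flow from level `j` to level `j + 1` of the box `s`: out of every point a unit is sent
along the upward edges, and every point of level `j + 1` receives the same amount -/
def HasFlow (s : ι → ℕ) (j : ℕ) : Prop :=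
  ∃ q : (ι → ℕ) → ι → ℝ, (∀ z c, 0 ≤ q z c) ∧ (∀ z ∈ lev s j, ∀ c, z c = s c → q z c = 0) ∧
    (∀ z ∈ lev s j, ∑ c, q z c = 1) ∧
    ∀ z ∈ lev s (j + 1), ∑ c ∈ univ.filter (fun c => 1 ≤ z c), q (dn z c) c
      = ((lev s j).card : ℝ) / ((lev s (j + 1)).card : ℝ)

/-- total mass `Σ_a x_a` over the full columns -/
def full (s : ι → ℕ) (x : ι → ℕ) : ℕ := ∑ a ∈ univ.filter (fun a => x a = s a), x a

end TwoRow

section Multi
variable {κ ι : Type*} [Fintype κ] [DecidableEq κ] [Fintype ι] [DecidableEq ι]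

/-- tables `T` (rows `κ`, columns `ι`) with row sums `rr` and column sums at most `c`;
the missing row (the hub) is `c_a - Σ_l T_la`. -/
def Om (c : ι → ℕ) (rr : κ → ℕ) : Finset (κ → ι → ℕ) :=
  (Fintype.piFinset (fun _ : κ => Fintype.piFinset (fun a : ι => Finset.range (c a + 1)))).filter
    (fun T => (∀ l, ∑ a, T l a = rr l) ∧ ∀ a, ∑ l, T l a ≤ c a)

theorem mem_Om {c : ι → ℕ} {rr : κ → ℕ} {T : κ → ι → ℕ} :
    T ∈ Om c rr ↔ (∀ l, ∑ a, T l a = rr l) ∧ ∀ a, ∑ l, T l a ≤ c a := by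
  rw [Om, mem_filter, and_iff_right_iff_imp]
  rintro ⟨-, h2⟩
  simp only [Fintype.mem_piFinset, mem_range, Nat.lt_succ_iff]
  exact fun l a => (single_le_sum (f := fun l => T l a) (fun _ _ => Nat.zero_le _)
    (mem_univ l)).trans (h2 a)

/-- hub entry -/
def hub (c : ι → ℕ) (T : κ → ι → ℕ) (a : ι) : ℕ := c a - ∑ l, T l a

/-- capacities of the two-row system (hub, row `l`) -/
def sec (c : ι → ℕ) (T : κ → ι → ℕ) (l : κ) (a : ι) : ℕ := c a - ∑ k ∈ univ.erase l, T k a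

/-- restriction of `u` to the section of `T` in row `l` -/
def res (u : (κ → ι → ℕ) → ℝ) (T : κ → ι → ℕ) (l : κ) : (ι → ℕ) → ℝ :=
  fun x => u (Function.update T l x)

/-- weighted star operator of row `l` -/
noncomputable def Gl (c : ι → ℕ) (l : κ) (u : (κ → ι → ℕ) → ℝ) (T : κ → ι → ℕ) : ℝ :=
  GG (sec c T l) (res u T l) (T l)

/-- its part using hub column `a` -/
noncomputable def hl (l : κ) (u : (κ → ι → ℕ) → ℝ) (a : ι) (T : κ → ι → ℕ) : ℝ :=
  hst (res u T l) a (T l)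

end Multi

end Vale.Agent.H27.CT
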