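import Vale.Agent.H27.CT.G1

/-!
# Definitions for the reduction to 2x2 blocks
-/

open Finset

namespace Vale.Agent.H27.CT

section TwoRow
variable {ι : Type*} [Fintype ι] [DecidableEq ι]

/-- average of `f` over a finite set -/
noncomputable def av (S : Finset (ι → ℕ)) (f : (ι → ℕ) → ℝ) : ℝ :=
  (∑ x ∈ S, f x) / (S.card : ℝ)

/-- `f` changes by at most `L` along unit moves inside `D` -/
def LipOn (D : Finset (ι → ℕ)) (L : ℝ) (f : (ι → ℕ) → ℝ) : Prop :=
  ∀ x ∈ D, ∀ a b, 1 ≤ x a → up (dn x a) b ∈ D → |f x - f (up (dn x a) b)| ≤ L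

/-- the box without columns `a` and `b` -/
def bath (s : ι → ℕ) (a b : ι) : ι → ℕ := Function.update (Function.update s a 0) b 0

/-- the points of `lev s r` with `x_a + x_b = k` -/
def Lk (s : ι → ℕ) (r : ℕ) (a b : ι) (k : ℕ) : Finset (ι → ℕ) :=
  (lev s r).filter (fun x => x a + x b = k)

/-- number of bath configurations when `x_a + x_b = k` -/
def wk (s : ι → ℕ) (r : ℕ) (a b : ι) (k : ℕ) : ℕ :=
  if k ≤ r then (lev (bath s a b) (r - k)).card else 0

/-- the cost of one unit of capacity in column `b` -/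
noncomputable def Dq (t : ι → ℕ) (r : ℕ) (b : ι) : ℝ :=
  ((Kc t r b (t b)).card : ℝ) / ((lev t r).card : ℝ) *
    ((∑ j ∈ range (t b), ((t b : ℝ) - j) * ((Kc t r b j).card : ℝ)) /
      ((lev (dn t b) r).card : ℝ))

end TwoRow

/-- number of pairs `(i,j)` with `i ≤ α`, `j ≤ β`, `i + j = k` -/
def tz (α β k : ℕ) : ℕ := min (min (k + 1) (α + β + 1 - k)) (min (α + 1) (β + 1))

section Multi
variable {κ ι : Type*} [Fintype κ] [DecidableEq κ] [Fintype ι] [DecidableEq ι]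

/-- agreement off row `l`, columns `a`, `b` (and the hub) -/
def Ag22 (c : ι → ℕ) (rr : κ → ℕ) (l : κ) (a b : ι) (T T' : {T // T ∈ Om c rr}) : Prop :=
  (∀ j, j ≠ l → T.1 j = T'.1 j) ∧ ∀ q, q ≠ a → q ≠ b → T.1 l q = T'.1 l q

/-- `f` changes by at most `L` when row `k` makes a unit move and row `l` changes arbitrarily -/
def LipR (c : ι → ℕ) (rr : κ → ℕ) (l k : κ) (L : ℝ) (f : {T // T ∈ Om c rr} → ℝ) : Prop :=
  ∀ T T' : {T // T ∈ Om c rr}, (∀ j, j ≠ l → j ≠ k → T.1 j = T'.1 j) →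
    ∀ a b, 1 ≤ T.1 k a → T'.1 k = up (dn (T.1 k) a) b → |f T - f T'| ≤ L

end Multi

end Vale.Agent.H27.CT
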