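import Vale.Agent.H27.CT.Defs2

/-!
# Row E1 : one unit of capacity
-/

open Finset

namespace Vale.Agent.H27.CT

section TwoRow
variable {ι : Type*} [Fintype ι] [DecidableEq ι]

namespace E1

theorem flow_sum {s' : ι → ℕ} {j : ℕ} {q : (ι → ℕ) → ι → ℝ}
    (hqin : ∀ z ∈ lev s' (j + 1), ∑ c ∈ univ.filter (fun c => 1 ≤ z c), q (dn z c) c
      = ((lev s' j).card : ℝ) / ((lev s' (j + 1)).card : ℝ)) (F : (ι → ℕ) → ℝ) :
    ∑ z ∈ lev s' j, ∑ c ∈ univ.filter (fun c => z c < s' c), q z c * F (up z c)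
      = ((lev s' j).card : ℝ) / ((lev s' (j + 1)).card : ℝ) * ∑ z ∈ lev s' (j + 1), F z := by
  have swap : ∑ z ∈ lev s' j, ∑ c ∈ univ.filter (fun c => z c < s' c), q z c * F (up z c)
      = ∑ z' ∈ lev s' (j + 1), ∑ c ∈ univ.filter (fun c => 1 ≤ z' c), q (dn z' c) c * F z' := by
    rw [sum_sigma', sum_sigma']
    refine sum_nbij' (fun p => ⟨up p.1 p.2, p.2⟩) (fun p => ⟨dn p.1 p.2, p.2⟩) ?_ ?_ ?_ ?_ ?_
    · rintro ⟨z, c⟩ hp
      simp only [mem_sigma, mem_filter, mem_univ, true_and] at hp ⊢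
      exact ⟨up_mem hp.1 hp.2, by rw [up_same]; omega⟩
    · rintro ⟨z, c⟩ hp
      simp only [mem_sigma, mem_filter, mem_univ, true_and] at hp ⊢
      refine ⟨dn_mem hp.1 hp.2, ?_⟩
      rw [dn_same]
      have := (mem_lev.1 hp.1).1 c
      omega
    · rintro ⟨z, c⟩ _
      simp [dn_up]
    · rintro ⟨z, c⟩ hp
      simp only [mem_sigma, mem_filter, mem_univ, true_and] at hp
      simp [up_dn hp.2]
    · rintro ⟨z, c⟩ _
      simp [dn_up]
  rw [swap, mul_sum]
  refine sum_congr rfl (fun z' hz' => ?_)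
  rw [← sum_mul, hqin z' hz']

/-- one step down in column `b` costs at most `1` -/
theorem step (t : ι → ℕ) (r : ℕ) (b : ι) (f : (ι → ℕ) → ℝ) (hf : LipOn (lev t r) 1 f) {i : ℕ}
    (hi : 1 ≤ i) (hib : i ≤ t b) (hir : i ≤ r) (hfl : HasFlow (Function.update t b 0) (r - i)) :
    ∑ x ∈ Kc t r b i, f x ≤ ((Kc t r b i).card : ℝ) / ((Kc t r b (i - 1)).card : ℝ) *
      ∑ x ∈ Kc t r b (i - 1), f x + ((Kc t r b i).card : ℝ) := by
  obtain ⟨q, hq0, hqf, hq1, hqin⟩ := hfl
  set s' := Function.update t b 0 with hs'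
  set j := r - i with hj
  have hj1 : r - (i - 1) = j + 1 := by omega
  have hib1 : i - 1 ≤ t b := by omega
  have hir1 : i - 1 ≤ r := by omega
  rw [P1.Kc_card t b hib1 hir1, P1.Kc_card t b hib hir, P1.Kc_image t b hib hir,
    P1.Kc_image t b hib1 hir1, ← hs', hj1, ← hj]
  have hsa : s' b = 0 := by simp [hs']
  have hsne : ∀ c, c ≠ b → s' c = t c := fun c hc => by simp [hs', hc]
  have pt : ∀ z ∈ lev s' j, f (Function.update z b i)
      ≤ ∑ c ∈ univ.filter (fun c => z c < s' c),
          q z c * f (Function.update (up z c) b (i - 1)) + 1 := by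
    intro z hz
    have hzb : z b = 0 := by
      have := (mem_lev.1 hz).1 b; omega
    set x := Function.update z b i with hx
    have hxb : x b = i := by simp [hx]
    have hxne : ∀ c, c ≠ b → x c = z c := fun c hc => by simp [hx, hc]
    have hxm : x ∈ lev t r := by
      rw [mem_lev] at hz ⊢
      refine ⟨fun a => ?_, ?_⟩
      · by_cases ha : a = b
        · subst ha; rw [hxb]; exact hib
        · rw [hxne a ha, ← hsne a ha]; exact hz.1 a
      · rw [← add_sum_erase _ _ (mem_univ b), hxb]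
        have h1 : ∑ a ∈ univ.erase b, x a = ∑ a ∈ univ.erase b, z a :=
          sum_congr rfl (fun a ha => hxne a (ne_of_mem_erase ha))
        have h2 := add_sum_erase univ z (mem_univ b)
        have h3 := hz.2
        rw [h1]
        omega
    have hsum : ∑ c ∈ univ.filter (fun c => z c < s' c), q z c = 1 := by
      rw [← hq1 z hz, sum_filter]
      refine sum_congr rfl (fun c _ => ?_)
      split_ifs with h
      · rfl
      · exact (hqf z hz c (le_antisymm ((mem_lev.1 hz).1 c) (not_lt.1 h))).symm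
    have hmove : ∀ c ∈ univ.filter (fun c => z c < s' c),
        f x ≤ f (Function.update (up z c) b (i - 1)) + 1 := by
      intro c hc
      simp only [mem_filter, mem_univ, true_and] at hc
      have hcb : c ≠ b := by rintro rfl; omega
      have h2 : up (dn x b) c = Function.update (up z c) b (i - 1) := by
        funext a
        by_cases ha : a = b
        · subst ha; rw [up_ne _ hcb.symm, dn_same, hxb, Function.update_self]
        · rw [Function.update_of_ne ha]
          by_cases hac : a = c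
          · subst hac; rw [up_same, dn_ne _ ha, up_same, hxne a ha]
          · rw [up_ne _ hac, dn_ne _ ha, up_ne _ hac, hxne a ha]
      have hmem : up (dn x b) c ∈ lev t r := by
        obtain ⟨r', rfl⟩ : ∃ r', r = r' + 1 := ⟨r - 1, by omega⟩
        have h := dn_mem hxm (by rw [hxb]; exact hi)
        exact up_mem h (by rw [dn_ne _ hcb, hxne c hcb, ← hsne c hcb]; exact hc)
      have h3 := hf x hxm b c (by rw [hxb]; exact hi) hmem
      rw [h2] at h3
      have := (abs_le.1 h3).2
      linarith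
    calc f x = ∑ c ∈ univ.filter (fun c => z c < s' c), q z c * f x := by
          rw [← sum_mul, hsum, one_mul]
      _ ≤ ∑ c ∈ univ.filter (fun c => z c < s' c),
          (q z c * f (Function.update (up z c) b (i - 1)) + q z c) := by
          refine sum_le_sum (fun c hc => ?_)
          have h3 := mul_le_mul_of_nonneg_left (hmove c hc) (hq0 z c)
          linarith
      _ = _ := by rw [sum_add_distrib, hsum]
  refine (sum_le_sum pt).trans ?_
  rw [sum_add_distrib, sum_const, nsmul_eq_mul, mul_one]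
  rw [flow_sum hqin (fun z => f (Function.update z b (i - 1)))]

theorem sum_s' (t : ι → ℕ) (b : ι) : ∑ a, Function.update t b 0 a + t b = ∑ a, t a :=
  sum_update_zero t b

theorem Kc_empty (t : ι → ℕ) {r j : ℕ} (b : ι) (hj : r < j) : Kc t r b j = ∅ := by
  rw [Finset.eq_empty_iff_forall_notMem]
  intro x hx
  rw [Kc, mem_filter] at hx
  have := L2.le_of_mem hx.1 b
  omega

/-- domination -/
theorem dom (t : ι → ℕ) (r : ℕ) (b : ι) (hr : 2 * r ≤ ∑ a, t a) {j : ℕ} (hj : j ≤ t b) :
    (Kc t r b (t b)).card ≤ (Kc t r b j).card := by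
  rcases lt_or_ge r (t b) with h | h
  · rw [Kc_empty t b h]; simp
  · rw [card_Kc t b le_rfl h, card_Kc t b hj (hj.trans h)]
    refine lev_mono _ (by omega) ?_
    have := sum_s' t b
    omega

theorem lev_dn_sum (t : ι → ℕ) (r : ℕ) (b : ι) (hb : 1 ≤ t b) (f : (ι → ℕ) → ℝ) :
    ∑ x ∈ lev (dn t b) r, f x = ∑ j ∈ range (t b), ∑ x ∈ Kc t r b j, f x := by
  rw [← sum_fiberwise_of_maps_to (s := lev (dn t b) r) (t := range (t b)) (g := fun x => x b)]
  · refine sum_congr rfl (fun j hj => ?_)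
    refine sum_congr ?_ (fun _ _ => rfl)
    ext x
    rw [Kc, mem_filter, mem_filter, mem_lev, mem_lev]
    rw [mem_range] at hj
    constructor
    · rintro ⟨⟨h1, h2⟩, h3⟩
      refine ⟨⟨fun a => ?_, h2⟩, h3⟩
      have := h1 a
      by_cases ha : a = b
      · subst ha; rw [dn_same] at this; omega
      · rwa [dn_ne _ ha] at this
    · rintro ⟨⟨h1, h2⟩, h3⟩
      refine ⟨⟨fun a => ?_, h2⟩, h3⟩
      have := h1 a
      by_cases ha : a = b
      · subst ha; rw [dn_same]; omega
      · rwa [dn_ne _ ha]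
  · intro x hx
    rw [mem_lev] at hx
    have := hx.1 b
    rw [dn_same] at this
    rw [mem_range]
    omega

theorem lev_sum (t : ι → ℕ) (r : ℕ) (b : ι) (f : (ι → ℕ) → ℝ) :
    ∑ x ∈ lev t r, f x = ∑ j ∈ range (t b + 1), ∑ x ∈ Kc t r b j, f x := by
  rw [← sum_fiberwise_of_maps_to (s := lev t r) (t := range (t b + 1)) (g := fun x => x b)]
  · rfl
  · intro x hx
    have := (mem_lev.1 hx).1 b
    rw [mem_range]
    omega

theorem card_dn (t : ι → ℕ) (r : ℕ) (b : ι) (hb : 1 ≤ t b) :
    ((lev (dn t b) r).card : ℝ) = ∑ j ∈ range (t b), ((Kc t r b j).card : ℝ) := by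
  have := lev_dn_sum t r b hb (fun _ => 1)
  simpa using this

theorem card_lev' (t : ι → ℕ) (r : ℕ) (b : ι) :
    ((lev t r).card : ℝ) = ∑ j ∈ range (t b + 1), ((Kc t r b j).card : ℝ) := by
  have := lev_sum t r b (fun _ => 1)
  simpa using this

/-- consecutive cell averages -/
theorem step_abs (t : ι → ℕ) (r : ℕ) (b : ι) (hr : 2 * r ≤ ∑ a, t a) (htr : t b ≤ r)
    (f : (ι → ℕ) → ℝ) (hf : LipOn (lev t r) 1 f) {j : ℕ} (hj : j < t b)
    (hpos : ∀ j, j ≤ t b → 0 < ((Kc t r b j).card : ℝ)) :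
    |av (Kc t r b (j + 1)) f - av (Kc t r b j) f| ≤ 1 := by
  have hfl : HasFlow (Function.update t b 0) (r - (j + 1)) := by
    apply hasFlow
    have := sum_s' t b
    omega
  have hneg : LipOn (lev t r) 1 (fun x => - f x) := by
    intro x hx a c h1 h2
    have := hf x hx a c h1 h2
    rw [show -f x - -f (up (dn x a) c) = -(f x - f (up (dn x a) c)) by ring, abs_neg]
    exact this
  have h1 := step t r b f hf (i := j + 1) (by omega) (by omega) (by omega) hfl
  have h2 := step t r b (fun x => - f x) hneg (i := j + 1) (by omega) (by omega) (by omega) hfl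
  rw [show j + 1 - 1 = j by omega] at h1 h2
  rw [sum_neg_distrib, sum_neg_distrib] at h2
  have p1 := hpos (j + 1) (by omega)
  have p0 := hpos j (by omega)
  unfold av
  rw [abs_le]
  have e1 : (∑ x ∈ Kc t r b (j + 1), f x) / ((Kc t r b (j + 1)).card : ℝ)
      ≤ (∑ x ∈ Kc t r b j, f x) / ((Kc t r b j).card : ℝ) + 1 := by
    rw [div_le_iff₀ p1]
    refine h1.trans (le_of_eq ?_)
    field_simp
  have e2 : (∑ x ∈ Kc t r b j, f x) / ((Kc t r b j).card : ℝ) - 1
      ≤ (∑ x ∈ Kc t r b (j + 1), f x) / ((Kc t r b (j + 1)).card : ℝ) := by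
    rw [le_div_iff₀ p1]
    have h3 : ((Kc t r b (j + 1)).card : ℝ) / ((Kc t r b j).card : ℝ) *
      ∑ x ∈ Kc t r b j, f x - ((Kc t r b (j + 1)).card : ℝ) ≤ ∑ x ∈ Kc t r b (j + 1), f x := by
      linarith
    refine le_trans (le_of_eq ?_) h3
    field_simp
  constructor <;> linarith

theorem dist_abs (t : ι → ℕ) (r : ℕ) (b : ι) (hr : 2 * r ≤ ∑ a, t a) (htr : t b ≤ r)
    (f : (ι → ℕ) → ℝ) (hf : LipOn (lev t r) 1 f)
    (hpos : ∀ j, j ≤ t b → 0 < ((Kc t r b j).card : ℝ)) :
    ∀ n j, j + n ≤ t b → |av (Kc t r b (j + n)) f - av (Kc t r b j) f| ≤ n := by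
  intro n
  induction n with
  | zero => intro j _; simp
  | succ n ih =>
    intro j hj
    have h1 := ih j (by omega)
    have h2 := step_abs t r b hr htr f hf (j := j + n) (by omega) hpos
    rw [abs_le] at h1 h2 ⊢
    rw [show j + (n + 1) = j + n + 1 by ring]
    push_cast
    constructor <;> linarith

end E1

open E1

theorem cap_diff (t : ι → ℕ) (r : ℕ) (b : ι) (hb : 1 ≤ t b) (hr : 2 * r ≤ ∑ a, t a)
    (f : (ι → ℕ) → ℝ) (hf : LipOn (lev t r) 1 f) :
    |av (lev t r) f - av (lev (dn t b) r) f| ≤ Dq t r b := by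
  have hS := lev_sum t r b f
  have hSC := lev_dn_sum t r b hb f
  have hZ := card_lev' t r b
  have hZC := card_dn t r b hb
  set m := t b with hm
  rw [sum_range_succ] at hS hZ
  rw [← hSC] at hS
  rw [← hZC] at hZ
  rcases Nat.eq_zero_or_pos (Kc t r b m).card with h0 | h0
  · -- the top cell is empty
    have hemp : Kc t r b m = ∅ := Finset.card_eq_zero.1 h0
    rw [hemp] at hS hZ
    simp only [sum_empty, add_zero, card_empty, Nat.cast_zero] at hS hZ
    unfold av Dq
    rw [← hm, hS, hZ, h0]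
    simp
  have hmr : m ≤ r := by
    by_contra hcon
    rw [Kc_empty t b (by omega)] at h0
    simp at h0
  have hpos : ∀ j, j ≤ m → 0 < ((Kc t r b j).card : ℝ) := by
    intro j hj
    have := dom t r b hr hj
    exact_mod_cast lt_of_lt_of_le h0 this
  have hκ := hpos m le_rfl
  have hZC0 : 0 < ((lev (dn t b) r).card : ℝ) := by
    rw [hZC]
    refine sum_pos (fun j hj => hpos j (mem_range.1 hj).le) ?_
    exact ⟨0, mem_range.2 (by omega)⟩
  have hZ0 : 0 < ((lev t r).card : ℝ) := by rw [hZ]; linarith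
  -- averages of the cells
  have hcell : ∀ j, j ≤ m → ∑ x ∈ Kc t r b j, f x = ((Kc t r b j).card : ℝ) * av (Kc t r b j) f := by
    intro j hj
    unfold av
    have := (hpos j hj).ne'
    field_simp
  have hkey : av (lev t r) f - av (lev (dn t b) r) f
      = ((Kc t r b m).card : ℝ) / ((lev t r).card : ℝ) *
        ((∑ j ∈ range m, ((Kc t r b j).card : ℝ) * (av (Kc t r b m) f - av (Kc t r b j) f)) /
          ((lev (dn t b) r).card : ℝ)) := by
    have e1 : ∑ j ∈ range m, ((Kc t r b j).card : ℝ) * (av (Kc t r b m) f - av (Kc t r b j) f)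
        = ((lev (dn t b) r).card : ℝ) * av (Kc t r b m) f - ∑ x ∈ lev (dn t b) r, f x := by
      rw [hSC, hZC, sum_mul, ← sum_sub_distrib]
      refine sum_congr rfl (fun j hj => ?_)
      rw [hcell j (mem_range.1 hj).le]
      ring
    rw [e1]
    have e2 : av (lev t r) f = (∑ x ∈ lev (dn t b) r, f x
        + ((Kc t r b m).card : ℝ) * av (Kc t r b m) f) / ((lev t r).card : ℝ) := by
      rw [← hcell m le_rfl, ← hS]
      rfl
    rw [e2]
    have e3 : av (lev (dn t b) r) f = (∑ x ∈ lev (dn t b) r, f x)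
      / ((lev (dn t b) r).card : ℝ) := rfl
    rw [e3]
    have hZne := hZ0.ne'
    have hZCne := hZC0.ne'
    field_simp
    rw [hZ]
    ring
  rw [hkey, abs_mul, abs_div, abs_div]
  unfold Dq
  rw [← hm, abs_of_pos hκ, abs_of_pos hZ0, abs_of_pos hZC0]
  refine mul_le_mul_of_nonneg_left ?_ (by positivity)
  refine div_le_div_of_nonneg_right ?_ hZC0.le
  refine (abs_sum_le_sum_abs _ _).trans (sum_le_sum (fun j hj => ?_))
  rw [mem_range] at hj
  have h1 := dist_abs t r b hr (by rw [← hm]; exact hmr) f hf (by rw [← hm]; exact hpos)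
    (m - j) j (by omega)
  rw [show j + (m - j) = m by omega, Nat.cast_sub hj.le] at h1
  rw [abs_mul, abs_of_pos (hpos j hj.le), mul_comm]
  exact mul_le_mul_of_nonneg_right h1 (hpos j hj.le).le

theorem Dq_le_half (t : ι → ℕ) (r : ℕ) (b : ι) (hr : 2 * r ≤ ∑ a, t a) : Dq t r b ≤ 1 / 2 := by
  unfold Dq
  rcases Nat.eq_zero_or_pos (t b) with hb0 | hb
  · rw [hb0]; simp
  have hZ := card_lev' t r b
  have hZC := card_dn t r b hb
  set m := t b with hm
  rw [sum_range_succ, ← hZC] at hZ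
  rcases Nat.eq_zero_or_pos (Kc t r b m).card with h0 | h0
  · rw [h0]; simp
  obtain ⟨κ, hκ⟩ : ∃ κ : ℝ, κ = ((Kc t r b m).card : ℝ) := ⟨_, rfl⟩
  rw [← hκ]
  have hκ0 : 0 < κ := by rw [hκ]; exact_mod_cast h0
  have hdom : ∀ j ∈ range m, κ ≤ ((Kc t r b j).card : ℝ) := by
    intro j hj
    have := dom t r b hr (mem_range.1 hj).le
    rw [hκ]
    exact_mod_cast this
  obtain ⟨H, hH⟩ : ∃ H : ℝ, H = ∑ j ∈ range m, (((Kc t r b j).card : ℝ) - κ) := ⟨_, rfl⟩
  have hH0 : 0 ≤ H := by
    rw [hH]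
    exact sum_nonneg (fun j hj => by have := hdom j hj; linarith)
  have hZC2 : ((lev (dn t b) r).card : ℝ) = m * κ + H := by
    rw [hZC, hH, sum_sub_distrib, sum_const, card_range, nsmul_eq_mul]
    ring
  have hZ2 : ((lev t r).card : ℝ) = (m + 1) * κ + H := by
    rw [hZ, hZC2, hκ]; ring
  have hm1 : (1 : ℝ) ≤ m := by exact_mod_cast hb
  have hZC0 : 0 < ((lev (dn t b) r).card : ℝ) := by rw [hZC2]; positivity
  have hZ0 : 0 < ((lev t r).card : ℝ) := by rw [hZ2]; positivity
  have hnum : ∑ j ∈ range m, ((m : ℝ) - j) * ((Kc t r b j).card : ℝ)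
      ≤ κ * (m * (m + 1) / 2) + m * H := by
    have e1 : ∑ j ∈ range m, ((m : ℝ) - j) * ((Kc t r b j).card : ℝ)
        = κ * ∑ j ∈ range m, ((m : ℝ) - j)
          + ∑ j ∈ range m, ((m : ℝ) - j) * (((Kc t r b j).card : ℝ) - κ) := by
      rw [mul_sum, ← sum_add_distrib]
      refine sum_congr rfl (fun j _ => ?_)
      ring
    have e2 : ∑ j ∈ range m, ((m : ℝ) - j) = m * (m + 1) / 2 := by
      have e3 : ∀ n : ℕ, ∑ j ∈ range n, ((n : ℝ) - j) = n * (n + 1) / 2 := by
        intro n
        induction n with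
        | zero => simp
        | succ n ih =>
          rw [sum_range_succ]
          have e4 : ∑ j ∈ range n, (((n + 1 : ℕ) : ℝ) - j) = ∑ j ∈ range n, ((n : ℝ) - j) + n := by
            have : ∀ j ∈ range n, (((n + 1 : ℕ) : ℝ) - j) = ((n : ℝ) - j) + 1 := by
              intro j _; push_cast; ring
            rw [sum_congr rfl this, sum_add_distrib, sum_const, card_range, nsmul_eq_mul, mul_one]
          rw [e4, ih]
          push_cast
          ring
      exact e3 m
    rw [e1, e2, hH, mul_sum]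
    refine add_le_add_right (sum_le_sum (fun j hj => ?_)) _
    have := hdom j hj
    have hj0 : (0 : ℝ) ≤ j := Nat.cast_nonneg _
    exact mul_le_mul_of_nonneg_right (by linarith) (by linarith)
  rw [div_mul_div_comm, div_le_iff₀ (by positivity)]
  have h1 := mul_le_mul_of_nonneg_left hnum hκ0.le
  refine h1.trans ?_
  rw [hZ2, hZC2]
  nlinarith [mul_nonneg hκ0.le hH0, mul_nonneg hH0 hH0]

end TwoRow

end Vale.Agent.H27.CT
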