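import Vale.Agent.H27.CT.E3

/-!
# Row E2 : pair decomposition
-/

open Finset

namespace Vale.Agent.H27.CT

section TwoRow
variable {ι : Type*} [Fintype ι] [DecidableEq ι]

namespace E2

open E3

/-- bath `z`, with `i` tokens in column `a` and `k - i` in column `b` -/
def pt (a b : ι) (k : ℕ) (i : ℕ) (z : ι → ℕ) : ι → ℕ :=
  Function.update (Function.update z a i) b (k - i)

theorem pt_a {a b : ι} (hab : a ≠ b) (k i : ℕ) (z : ι → ℕ) : pt a b k i z a = i := by
  unfold pt; rw [Function.update_of_ne hab, Function.update_self]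

theorem pt_b (a b : ι) (k i : ℕ) (z : ι → ℕ) : pt a b k i z b = k - i := by
  unfold pt; rw [Function.update_self]

theorem pt_ne {a b c : ι} (ha : c ≠ a) (hb : c ≠ b) (k i : ℕ) (z : ι → ℕ) :
    pt a b k i z c = z c := by
  unfold pt; rw [Function.update_of_ne hb, Function.update_of_ne ha]

theorem rst_a (t : ι → ℕ) (a b : ι) : rst t a b a = 0 := by simp [rst]
theorem rst_b (t : ι → ℕ) (a b : ι) : rst t a b b = 0 := by simp [rst]
theorem rst_ne (t : ι → ℕ) {a b c : ι} (ha : c ≠ a) (hb : c ≠ b) : rst t a b c = t c := by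
  simp [rst, ha, hb]

theorem pt_sum {a b : ι} (hab : a ≠ b) {k i : ℕ} (hi : i ≤ k) {z : ι → ℕ} (hza : z a = 0)
    (hzb : z b = 0) : ∑ c, pt a b k i z c = ∑ c, z c + k := by
  have h1 := sum_rst (pt a b k i z) hab
  have h2 := sum_rst z hab
  have h3 : rst (pt a b k i z) a b = rst z a b := by
    funext c
    unfold rst
    split_ifs with h
    · rfl
    · push Not at h
      rw [pt_ne h.1 h.2]
  rw [h3, pt_a hab, pt_b] at h1
  omega

theorem zero_of_mem {t : ι → ℕ} {a b : ι} {k : ℕ} {z : ι → ℕ} (hz : z ∈ lev (rst t a b) k) :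
    z a = 0 ∧ z b = 0 := by
  have h1 := (mem_lev.1 hz).1 a
  have h2 := (mem_lev.1 hz).1 b
  rw [rst_a] at h1
  rw [rst_b] at h2
  omega

theorem pt_mem {s : ι → ℕ} {r k : ℕ} {a b : ι} (hab : a ≠ b) (hk : k ≤ r) {i : ℕ}
    (hia : i ≤ s a) (hik : i ≤ k) (hib : k - i ≤ s b) {z : ι → ℕ}
    (hz : z ∈ lev (rst s a b) (r - k)) : pt a b k i z ∈ lev s r := by
  obtain ⟨hza, hzb⟩ := zero_of_mem hz
  rw [mem_lev] at hz ⊢
  refine ⟨fun c => ?_, ?_⟩
  · by_cases hca : c = a
    · subst hca; rw [pt_a hab]; exact hia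
    · by_cases hcb : c = b
      · subst hcb; rw [pt_b]; exact hib
      · rw [pt_ne hca hcb]
        have := hz.1 c
        rwa [rst_ne s hca hcb] at this
  · rw [pt_sum hab hik hza hzb]
    omega

theorem Lk_sum' (s : ι → ℕ) {r k : ℕ} {a b : ι} (hab : a ≠ b) (hk : k ≤ r) (F : (ι → ℕ) → ℝ) :
    ∑ x ∈ Lk s r a b k, F x
      = ∑ z ∈ lev (rst s a b) (r - k), ∑ i ∈ Icc (k - s b) (min (s a) k), F (pt a b k i z) := by
  rw [← sum_product']
  refine sum_nbij' (fun x => (rst x a b, x a)) (fun p => pt a b k p.2 p.1) ?_ ?_ ?_ ?_ ?_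
  · intro x hx
    rw [Lk, mem_filter, mem_lev] at hx
    rw [mem_product, mem_lev, mem_Icc]
    have h1 := sum_rst x hab
    have h2 := hx.1.2
    have h3 := hx.2
    have h4 := hx.1.1 a
    have h5 := hx.1.1 b
    refine ⟨⟨rst_mono hx.1.1 a b, ?_⟩, ?_, ?_⟩
    · show ∑ c, rst x a b c = r - k
      omega
    · show k - s b ≤ x a
      omega
    · show x a ≤ min (s a) k
      omega
  · rintro ⟨z, i⟩ hp
    rw [mem_product, mem_Icc] at hp
    obtain ⟨hz, hi1, hi2⟩ := hp
    simp only at hz hi1 hi2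
    rw [Lk, mem_filter]
    refine ⟨pt_mem hab hk (by omega) (by omega) (by omega) hz, ?_⟩
    show pt a b k i z a + pt a b k i z b = k
    rw [pt_a hab, pt_b]
    omega
  · intro x hx
    rw [Lk, mem_filter] at hx
    funext c
    show pt a b k (x a) (rst x a b) c = x c
    by_cases hca : c = a
    · subst hca; rw [pt_a hab]
    · by_cases hcb : c = b
      · subst hcb; rw [pt_b]; omega
      · rw [pt_ne hca hcb, rst_ne x hca hcb]
  · rintro ⟨z, i⟩ hp
    rw [mem_product, mem_Icc] at hp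
    obtain ⟨hz, hi1, hi2⟩ := hp
    simp only at hz
    obtain ⟨hza, hzb⟩ := zero_of_mem hz
    show (rst (pt a b k i z) a b, pt a b k i z a) = (z, i)
    rw [pt_a hab]
    congr 1
    funext c
    by_cases hca : c = a
    · subst hca; rw [rst_a, hza]
    · by_cases hcb : c = b
      · subst hcb; rw [rst_b, hzb]
      · rw [rst_ne _ hca hcb, pt_ne hca hcb]
  · intro x hx
    rw [Lk, mem_filter] at hx
    show F x = F (pt a b k (x a) (rst x a b))
    congr 1
    funext c
    by_cases hca : c = a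
    · subst hca; rw [pt_a hab]
    · by_cases hcb : c = b
      · subst hcb; rw [pt_b]; omega
      · rw [pt_ne hca hcb, rst_ne x hca hcb]

theorem Lk_gt (s : ι → ℕ) {r k : ℕ} {a b : ι} (hab : a ≠ b) (hk : r < k) :
    Lk s r a b k = ∅ := by
  rw [Finset.eq_empty_iff_forall_notMem]
  intro x hx
  rw [Lk, mem_filter, mem_lev] at hx
  have h1 := sum_rst x hab
  omega

theorem rst_swap (s : ι → ℕ) (a b : ι) : rst (up (dn s a) b) a b = rst s a b := by
  funext c
  by_cases hca : c = a
  · subst hca; rw [rst_a, rst_a]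
  · by_cases hcb : c = b
    · subst hcb; rw [rst_b, rst_b]
    · rw [rst_ne _ hca hcb, rst_ne _ hca hcb, up_ne _ hcb, dn_ne _ hca]

theorem sub_up {s : ι → ℕ} {r : ℕ} {b : ι} {x : ι → ℕ} (hx : x ∈ lev s r) :
    x ∈ lev (up s b) r := by
  rw [mem_lev] at hx ⊢
  refine ⟨fun c => ?_, hx.2⟩
  have := hx.1 c
  by_cases hc : c = b
  · subst hc; rw [up_same]; omega
  · rwa [up_ne _ hc]

theorem sub_swap {s : ι → ℕ} {r : ℕ} {a b : ι} (hab : a ≠ b) {x : ι → ℕ}
    (hx : x ∈ lev (up (dn s a) b) r) : x ∈ lev (up s b) r := by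
  rw [mem_lev] at hx ⊢
  refine ⟨fun c => ?_, hx.2⟩
  have := hx.1 c
  by_cases hc : c = b
  · subst hc; rw [up_same, dn_ne _ hab.symm] at this; rw [up_same]; exact this
  · rw [up_ne _ hc] at this ⊢
    by_cases hca : c = a
    · subst hca; rw [dn_same] at this; omega
    · rwa [dn_ne _ hca] at this

/-- averages of a `1`-Lipschitz sequence on `[0, α]` and `[0, α - 1]` -/
theorem avg_seq (φ : ℕ → ℝ) {α : ℕ} (hα : 1 ≤ α)
    (hφ : ∀ i, i < α → |φ (i + 1) - φ i| ≤ 1) :
    |(α : ℝ) * ∑ i ∈ range (α + 1), φ i - (α + 1) * ∑ i ∈ range α, φ i|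
      ≤ (α : ℝ) * (α + 1) / 2 := by
  have h1 : ∀ n i, i + n ≤ α → |φ (i + n) - φ i| ≤ n := by
    intro n
    induction n with
    | zero => intro i _; simp
    | succ n ih =>
      intro i hi
      have e1 := ih i (by omega)
      have e2 := hφ (i + n) (by omega)
      rw [abs_le] at e1 e2 ⊢
      rw [show i + (n + 1) = i + n + 1 by ring]
      push_cast
      constructor <;> linarith
  have h2 : (α : ℝ) * ∑ i ∈ range (α + 1), φ i - (α + 1) * ∑ i ∈ range α, φ i
      = ∑ i ∈ range α, (φ α - φ i) := by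
    rw [sum_range_succ, sum_sub_distrib, sum_const, card_range, nsmul_eq_mul]
    ring
  rw [h2]
  refine (abs_sum_le_sum_abs _ _).trans ?_
  have e3 : ∀ n : ℕ, ∑ i ∈ range n, ((n : ℝ) - i) = (n : ℝ) * (n + 1) / 2 := by
    intro n
    induction n with
    | zero => simp
    | succ n ih =>
      rw [sum_range_succ]
      have : ∑ i ∈ range n, (((n + 1 : ℕ) : ℝ) - i) = ∑ i ∈ range n, ((n : ℝ) - i) + n := by
        have e4 : ∀ i ∈ range n, (((n + 1 : ℕ) : ℝ) - i) = ((n : ℝ) - i) + 1 := by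
          intro i _; push_cast; ring
        rw [sum_congr rfl e4, sum_add_distrib, sum_const, card_range, nsmul_eq_mul, mul_one]
      rw [this, ih]
      push_cast
      ring
  rw [← e3 α]
  refine sum_le_sum (fun i hi => ?_)
  rw [mem_range] at hi
  have := h1 (α - i) i (by omega)
  rw [show i + (α - i) = α by omega, Nat.cast_sub hi.le] at this
  exact this

end E2

open E2 E3

theorem card_Lk (s : ι → ℕ) (r : ℕ) {a b : ι} (hab : a ≠ b) (k : ℕ) :
    (Lk s r a b k).card = tz (s a) (s b) k * wk s r a b k := by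
  rcases Nat.lt_or_ge r k with h | h
  · rw [Lk_gt s hab h]
    unfold wk
    rw [if_neg (by omega)]
    simp
  · have h1 := Lk_sum' s hab h (fun _ => 1)
    simp only [sum_const, nsmul_eq_mul, mul_one, Nat.card_Icc] at h1
    have h2 : (Lk s r a b k).card
        = (lev (rst s a b) (r - k)).card * (min (s a) k + 1 - (k - s b)) := by
      exact_mod_cast h1
    rw [h2]
    unfold wk
    rw [if_pos h, bath_eq, mul_comm]
    congr 1
    unfold tz
    omega

theorem sum_Lk (s : ι → ℕ) (r : ℕ) (a b : ι) (f : (ι → ℕ) → ℝ) :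
    ∑ x ∈ lev s r, f x = ∑ k ∈ range (s a + s b + 1), ∑ x ∈ Lk s r a b k, f x := by
  rw [← sum_fiberwise_of_maps_to (s := lev s r) (t := range (s a + s b + 1))
    (g := fun x => x a + x b)]
  · rfl
  · intro x hx
    have h1 := (mem_lev.1 hx).1 a
    have h2 := (mem_lev.1 hx).1 b
    rw [mem_range]
    omega

theorem internal_lt (s : ι → ℕ) (r : ℕ) {a b : ι} (hab : a ≠ b) (ha : 1 ≤ s a)
    (hs : s a ≤ s b + 1) (f : (ι → ℕ) → ℝ) {k : ℕ} (hk : k < s a) :
    av (Lk s r a b k) f = av (Lk (up (dn s a) b) r a b k) f := by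
  have h : Lk s r a b k = Lk (up (dn s a) b) r a b k := by
    ext x
    rw [Lk, Lk, mem_filter, mem_filter, mem_lev, mem_lev]
    constructor
    · rintro ⟨⟨h1, h2⟩, h3⟩
      refine ⟨⟨fun c => ?_, h2⟩, h3⟩
      have := h1 c
      by_cases hcb : c = b
      · subst hcb; rw [up_same, dn_ne _ hab.symm]; omega
      · rw [up_ne _ hcb]
        by_cases hca : c = a
        · subst hca; rw [dn_same]; omega
        · rwa [dn_ne _ hca]
    · rintro ⟨⟨h1, h2⟩, h3⟩
      refine ⟨⟨fun c => ?_, h2⟩, h3⟩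
      have := h1 c
      by_cases hcb : c = b
      · subst hcb; omega
      · rw [up_ne _ hcb] at this
        by_cases hca : c = a
        · subst hca; rw [dn_same] at this; omega
        · rwa [dn_ne _ hca] at this
  rw [h]

theorem internal_mid (s : ι → ℕ) (r : ℕ) {a b : ι} (hab : a ≠ b) (ha : 1 ≤ s a)
    (f : (ι → ℕ) → ℝ) (hf : LipOn (lev (up s b) r) 1 f) {k : ℕ} (hk : s a ≤ k) (hk' : k ≤ s b) :
    |av (Lk s r a b k) f - av (Lk (up (dn s a) b) r a b k) f| ≤ 1 / 2 := by
  rcases Nat.lt_or_ge r k with h | h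
  · rw [Lk_gt s hab h, Lk_gt (up (dn s a) b) hab h]
    simp
  have c1 := Lk_sum' s hab h (fun _ => 1)
  have c2 := Lk_sum' (up (dn s a) b) hab h (fun _ => 1)
  have s1 := Lk_sum' s hab h f
  have s2 := Lk_sum' (up (dn s a) b) hab h f
  have hsa' : up (dn s a) b a = s a - 1 := by rw [up_ne _ hab, dn_same]
  have hsb' : up (dn s a) b b = s b + 1 := by rw [up_same, dn_ne _ hab.symm]
  have i1 : Icc (k - s b) (min (s a) k) = range (s a + 1) := by
    ext i; rw [mem_Icc, mem_range]; omega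
  have i2 : Icc (k - up (dn s a) b b) (min (up (dn s a) b a) k) = range (s a) := by
    rw [hsa', hsb']
    ext i; rw [mem_Icc, mem_range]; omega
  rw [i1] at c1 s1
  rw [i2, rst_swap] at c2 s2
  simp only [sum_const, nsmul_eq_mul, mul_one, card_range] at c1 c2
  set n : ℝ := ((lev (rst s a b) (r - k)).card : ℝ) with hn
  rcases (Nat.cast_nonneg (α := ℝ) (lev (rst s a b) (r - k)).card).eq_or_lt with h0 | h0
  · rw [← hn] at h0
    unfold av
    rw [c1, c2, ← h0]
    simp
  rw [← hn] at h0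
  have hα : (1 : ℝ) ≤ (s a : ℝ) := by exact_mod_cast ha
  have key : av (Lk s r a b k) f - av (Lk (up (dn s a) b) r a b k) f
      = (∑ z ∈ lev (rst s a b) (r - k), ((s a : ℝ) * ∑ i ∈ range (s a + 1), f (pt a b k i z)
          - ((s a : ℝ) + 1) * ∑ i ∈ range (s a), f (pt a b k i z)))
        / (n * ((s a : ℝ) * ((s a : ℝ) + 1))) := by
    unfold av
    rw [c1, c2, s1, s2, sum_sub_distrib, ← mul_sum, ← mul_sum]
    push_cast
    have h4 : (s a : ℝ) ≠ 0 := by linarith
    have h5 : (s a : ℝ) + 1 ≠ 0 := by linarith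
    have h6 : n ≠ 0 := h0.ne'
    field_simp
  rw [key, abs_div, abs_of_pos (by positivity : 0 < n * ((s a : ℝ) * ((s a : ℝ) + 1))),
    div_le_iff₀ (by positivity)]
  refine (abs_sum_le_sum_abs _ _).trans ?_
  have hz : ∀ z ∈ lev (rst s a b) (r - k),
      |(s a : ℝ) * ∑ i ∈ range (s a + 1), f (pt a b k i z)
          - ((s a : ℝ) + 1) * ∑ i ∈ range (s a), f (pt a b k i z)|
        ≤ (s a : ℝ) * ((s a : ℝ) + 1) / 2 := by
    intro z hz
    refine avg_seq (fun i => f (pt a b k i z)) ha (fun i hi => ?_)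
    have hx : pt a b k (i + 1) z ∈ lev s r := pt_mem hab h (by omega) (by omega) (by omega) hz
    have hx' : pt a b k i z ∈ lev s r := pt_mem hab h (by omega) (by omega) (by omega) hz
    have e : up (dn (pt a b k (i + 1) z) a) b = pt a b k i z := by
      funext c
      by_cases hcb : c = b
      · subst hcb; rw [up_same, dn_ne _ hab.symm, pt_b, pt_b]; omega
      · rw [up_ne _ hcb]
        by_cases hca : c = a
        · subst hca; rw [dn_same, pt_a hab, pt_a hab]; omega
        · rw [dn_ne _ hca, pt_ne hca hcb, pt_ne hca hcb]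
    have := hf _ (sub_up hx) a b (by rw [pt_a hab]; omega) (by rw [e]; exact sub_up hx')
    rwa [e] at this
  refine (sum_le_sum hz).trans ?_
  rw [sum_const, nsmul_eq_mul, ← hn]
  exact le_of_eq (by ring)

theorem internal_top (s : ι → ℕ) (r : ℕ) {a b : ι} (hab : a ≠ b) (ha : 1 ≤ s a)
    (hs : s a ≤ s b + 1) (f : (ι → ℕ) → ℝ) (hf : LipOn (lev (up s b) r) 1 f) {k : ℕ}
    (hk : s b + 1 ≤ k) :
    |av (Lk s r a b k) f - av (Lk (up (dn s a) b) r a b k) f| ≤ 1 := by
  have hbij : ∀ F : (ι → ℕ) → ℝ, ∑ y ∈ Lk (up (dn s a) b) r a b k, F y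
      = ∑ x ∈ Lk s r a b k, F (up (dn x a) b) := by
    intro F
    symm
    refine sum_nbij' (fun x => up (dn x a) b) (fun y => up (dn y b) a) ?_ ?_ ?_ ?_ ?_
    · intro x hx
      rw [Lk, mem_filter, mem_lev] at hx
      obtain ⟨⟨h1, h2⟩, h3⟩ := hx
      have ga := h1 a
      have gb := h1 b
      have hxa : 1 ≤ x a := by omega
      rw [Lk, mem_filter, mem_lev]
      refine ⟨⟨fun c => ?_, ?_⟩, ?_⟩
      · have := h1 c
        by_cases hcb : c = b
        · subst hcb; rw [up_same, up_same, dn_ne _ hab.symm, dn_ne _ hab.symm]; omega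
        · rw [up_ne _ hcb, up_ne _ hcb]
          by_cases hca : c = a
          · subst hca; rw [dn_same, dn_same]; omega
          · rwa [dn_ne _ hca, dn_ne _ hca]
      · have := sum_up (dn x a) b
        have h4 := sum_dn hxa
        omega
      · rw [up_same, up_ne _ hab, dn_same, dn_ne _ hab.symm]; omega
    · intro y hy
      rw [Lk, mem_filter, mem_lev] at hy
      obtain ⟨⟨h1, h2⟩, h3⟩ := hy
      have ga := h1 a
      have gb := h1 b
      rw [up_ne _ hab, dn_same] at ga
      rw [up_same, dn_ne _ hab.symm] at gb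
      have hyb : 1 ≤ y b := by omega
      rw [Lk, mem_filter, mem_lev]
      refine ⟨⟨fun c => ?_, ?_⟩, ?_⟩
      · have := h1 c
        by_cases hca : c = a
        · subst hca; rw [up_same, dn_ne _ hab]; omega
        · rw [up_ne _ hca]
          by_cases hcb : c = b
          · subst hcb; rw [dn_same]; omega
          · rw [dn_ne _ hcb]
            rw [up_ne _ hcb, dn_ne _ hca] at this
            exact this
      · have := sum_up (dn y b) a
        have h4 := sum_dn hyb
        omega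
      · rw [up_same, up_ne _ hab.symm, dn_same, dn_ne _ hab]; omega
    · intro x hx
      rw [Lk, mem_filter, mem_lev] at hx
      obtain ⟨⟨h1, h2⟩, h3⟩ := hx
      have gb := h1 b
      have hxa : 1 ≤ x a := by omega
      show up (dn (up (dn x a) b) b) a = x
      rw [dn_up, up_dn hxa]
    · intro y hy
      rw [Lk, mem_filter, mem_lev] at hy
      obtain ⟨⟨h1, h2⟩, h3⟩ := hy
      have ga := h1 a
      rw [up_ne _ hab, dn_same] at ga
      have hyb : 1 ≤ y b := by omega
      show up (dn (up (dn y b) a) a) b = y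
      rw [dn_up, up_dn hyb]
    · intro x _; rfl
  have hcard : ((Lk (up (dn s a) b) r a b k).card : ℝ) = ((Lk s r a b k).card : ℝ) := by
    have := hbij (fun _ => 1)
    simpa using this
  unfold av
  rw [hcard, hbij f, ← sub_div, ← sum_sub_distrib]
  rcases (Nat.cast_nonneg (α := ℝ) (Lk s r a b k).card).eq_or_lt with h0 | h0
  · rw [← h0]; simp
  rw [abs_div, abs_of_pos h0, div_le_one h0]
  refine (abs_sum_le_sum_abs _ _).trans ?_
  have e1 : ((Lk s r a b k).card : ℝ) = ∑ x ∈ Lk s r a b k, (1 : ℝ) := by simp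
  rw [e1]
  refine sum_le_sum (fun x hx => ?_)
  rw [Lk, mem_filter] at hx
  obtain ⟨hx1, h3⟩ := hx
  have gb := (mem_lev.1 hx1).1 b
  have hxa : 1 ≤ x a := by omega
  refine hf x (sub_up hx1) a b hxa ?_
  rw [mem_lev] at hx1 ⊢
  refine ⟨fun c => ?_, ?_⟩
  · have := hx1.1 c
    by_cases hcb : c = b
    · subst hcb; rw [up_same, up_same, dn_ne _ hab.symm]; omega
    · rw [up_ne _ hcb, up_ne _ hcb]
      by_cases hca : c = a
      · subst hca; rw [dn_same]; omega
      · rwa [dn_ne _ hca]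
  · have := sum_up (dn x a) b
    have h4 := sum_dn hxa
    omega

end TwoRow

end Vale.Agent.H27.CT
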