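import Vale.Agent.H27.CT.E1

/-!
# Row E3 : the conditional averages are Lipschitz in `k`
-/

open Finset

namespace Vale.Agent.H27.CT

section TwoRow
variable {ι : Type*} [Fintype ι] [DecidableEq ι]

namespace E3

theorem sum_q {s : ι → ℕ} {j : ℕ} {q : (ι → ℕ) → ι → ℝ}
    (hqf : ∀ z ∈ lev s j, ∀ c, z c = s c → q z c = 0)
    (hq1 : ∀ z ∈ lev s j, ∑ c, q z c = 1) {z : ι → ℕ} (hz : z ∈ lev s j) :
    ∑ c ∈ univ.filter (fun c => z c < s c), q z c = 1 := by
  rw [← hq1 z hz, sum_filter]
  refine sum_congr rfl (fun c _ => ?_)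
  split_ifs with h
  · rfl
  · exact (hqf z hz c (le_antisymm ((mem_lev.1 hz).1 c) (not_lt.1 h))).symm

theorem flow2 {s1 s2 : ι → ℕ} {j1 j2 : ℕ} (h1 : HasFlow s1 j1) (h2 : HasFlow s2 j2)
    (F : (ι → ℕ) → (ι → ℕ) → ℝ)
    (hF : ∀ y ∈ lev s1 j1, ∀ z ∈ lev s2 j2, ∀ c, y c < s1 c → ∀ d, z d < s2 d →
      |F y (up z d) - F (up y c) z| ≤ 1) :
    |((lev s2 j2).card : ℝ) / ((lev s2 (j2 + 1)).card : ℝ) *
        (∑ y ∈ lev s1 j1, ∑ z ∈ lev s2 (j2 + 1), F y z)
      - ((lev s1 j1).card : ℝ) / ((lev s1 (j1 + 1)).card : ℝ) *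
        (∑ z ∈ lev s2 j2, ∑ y ∈ lev s1 (j1 + 1), F y z)|
      ≤ ((lev s1 j1).card : ℝ) * ((lev s2 j2).card : ℝ) := by
  obtain ⟨q1, a0, af, a1, ain⟩ := h1
  obtain ⟨q2, b0, bf, b1, bin⟩ := h2
  have e1 : ((lev s2 j2).card : ℝ) / ((lev s2 (j2 + 1)).card : ℝ) *
        (∑ y ∈ lev s1 j1, ∑ z ∈ lev s2 (j2 + 1), F y z)
      = ∑ y ∈ lev s1 j1, ∑ z ∈ lev s2 j2, ∑ c ∈ univ.filter (fun c => y c < s1 c),
        ∑ d ∈ univ.filter (fun d => z d < s2 d), q1 y c * q2 z d * F y (up z d) := by
    rw [mul_sum]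
    refine sum_congr rfl (fun y hy => ?_)
    rw [← E1.flow_sum bin (fun z => F y z)]
    refine sum_congr rfl (fun z hz => ?_)
    have h3 : ∀ c ∈ univ.filter (fun c => y c < s1 c),
        ∑ d ∈ univ.filter (fun d => z d < s2 d), q1 y c * q2 z d * F y (up z d)
        = q1 y c * ∑ d ∈ univ.filter (fun d => z d < s2 d), q2 z d * F y (up z d) := by
      intro c _
      rw [mul_sum]
      exact sum_congr rfl (fun d _ => by ring)
    rw [sum_congr rfl h3, ← sum_mul, sum_q af a1 hy, one_mul]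
  have e2 : ((lev s1 j1).card : ℝ) / ((lev s1 (j1 + 1)).card : ℝ) *
        (∑ z ∈ lev s2 j2, ∑ y ∈ lev s1 (j1 + 1), F y z)
      = ∑ y ∈ lev s1 j1, ∑ z ∈ lev s2 j2, ∑ c ∈ univ.filter (fun c => y c < s1 c),
        ∑ d ∈ univ.filter (fun d => z d < s2 d), q1 y c * q2 z d * F (up y c) z := by
    rw [sum_comm (s := lev s1 j1), mul_sum]
    refine sum_congr rfl (fun z hz => ?_)
    rw [← E1.flow_sum ain (fun y => F y z)]
    refine sum_congr rfl (fun y hy => ?_)
    refine sum_congr rfl (fun c _ => ?_)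
    have h3 : ∑ d ∈ univ.filter (fun d => z d < s2 d), q1 y c * q2 z d * F (up y c) z
        = (∑ d ∈ univ.filter (fun d => z d < s2 d), q2 z d) * (q1 y c * F (up y c) z) := by
      rw [sum_mul]
      exact sum_congr rfl (fun d _ => by ring)
    rw [h3, sum_q bf b1 hz, one_mul]
  rw [e1, e2, ← sum_sub_distrib]
  refine (abs_sum_le_sum_abs _ _).trans ?_
  have e3 : ((lev s1 j1).card : ℝ) * ((lev s2 j2).card : ℝ)
      = ∑ y ∈ lev s1 j1, ((lev s2 j2).card : ℝ) := by rw [sum_const, nsmul_eq_mul]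
  rw [e3]
  refine sum_le_sum (fun y hy => ?_)
  rw [← sum_sub_distrib]
  refine (abs_sum_le_sum_abs _ _).trans ?_
  have e4 : ((lev s2 j2).card : ℝ) = ∑ z ∈ lev s2 j2, (1 : ℝ) := by simp
  rw [e4]
  refine sum_le_sum (fun z hz => ?_)
  rw [← sum_sub_distrib]
  refine (abs_sum_le_sum_abs _ _).trans ?_
  rw [← sum_q af a1 hy]
  refine sum_le_sum (fun c hc => ?_)
  rw [← sum_sub_distrib]
  refine (abs_sum_le_sum_abs _ _).trans ?_
  have e5 : q1 y c = ∑ d ∈ univ.filter (fun d => z d < s2 d), q1 y c * q2 z d := by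
    rw [← mul_sum, sum_q bf b1 hz, mul_one]
  refine le_trans ?_ e5.ge
  refine sum_le_sum (fun d hd => ?_)
  rw [← mul_sub, abs_mul, abs_of_nonneg (mul_nonneg (a0 y c) (b0 z d))]
  simp only [mem_filter, mem_univ, true_and] at hc hd
  exact mul_le_of_le_one_right (mul_nonneg (a0 y c) (b0 z d)) (hF y hy z hz c hc d hd)

/-- the box with only columns `a`, `b` -/
def pr (t : ι → ℕ) (a b : ι) : ι → ℕ := fun c => if c = a ∨ c = b then t c else 0

/-- the rest -/
def rst (t : ι → ℕ) (a b : ι) : ι → ℕ := fun c => if c = a ∨ c = b then 0 else t c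

theorem bath_eq (t : ι → ℕ) (a b : ι) : bath t a b = rst t a b := by
  funext c
  unfold bath rst
  by_cases h1 : c = b
  · subst h1; simp
  · by_cases h2 : c = a
    · subst h2; simp [Function.update_of_ne h1]
    · simp [Function.update_of_ne h1, Function.update_of_ne h2, h1, h2]

theorem pr_add_rst (t : ι → ℕ) (a b : ι) : pr t a b + rst t a b = t := by
  funext c
  simp only [Pi.add_apply, pr, rst]
  split_ifs <;> omega

theorem sum_pr (t : ι → ℕ) {a b : ι} (hab : a ≠ b) : ∑ c, pr t a b c = t a + t b := by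
  unfold pr
  rw [← sum_filter]
  have : univ.filter (fun c => c = a ∨ c = b) = {a, b} := by
    ext c; simp
  rw [this, sum_pair hab]

theorem sum_rst (t : ι → ℕ) {a b : ι} (hab : a ≠ b) :
    ∑ c, rst t a b c + (t a + t b) = ∑ c, t c := by
  have h : ∑ c, t c = ∑ c, (pr t a b + rst t a b) c := by rw [pr_add_rst]
  rw [h]
  simp only [Pi.add_apply]
  rw [sum_add_distrib, sum_pr t hab]
  ring

theorem pr_mono {x t : ι → ℕ} (h : ∀ c, x c ≤ t c) (a b : ι) (c : ι) :
    pr x a b c ≤ pr t a b c := by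
  unfold pr; split_ifs
  · exact h c
  · exact le_rfl

theorem rst_mono {x t : ι → ℕ} (h : ∀ c, x c ≤ t c) (a b : ι) (c : ι) :
    rst x a b c ≤ rst t a b c := by
  unfold rst; split_ifs
  · exact le_rfl
  · exact h c

theorem pr_of_le {y t : ι → ℕ} {a b : ι} (h : ∀ c, y c ≤ pr t a b c) : pr y a b = y := by
  funext c
  have := h c
  unfold pr at this ⊢
  split_ifs with hc
  · rfl
  · rw [if_neg hc] at this; omega

theorem rst_of_le {z t : ι → ℕ} {a b : ι} (h : ∀ c, z c ≤ rst t a b c) : rst z a b = z := by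
  funext c
  have := h c
  unfold rst at this ⊢
  split_ifs with hc
  · rw [if_pos hc] at this; omega
  · rfl

theorem Lk_sum (t : ι → ℕ) {r k : ℕ} {a b : ι} (hab : a ≠ b) (hk : k ≤ r) (F : (ι → ℕ) → ℝ) :
    ∑ x ∈ Lk t r a b k, F x
      = ∑ y ∈ lev (pr t a b) k, ∑ z ∈ lev (rst t a b) (r - k), F (y + z) := by
  rw [← sum_product']
  refine sum_nbij' (fun x => (pr x a b, rst x a b)) (fun p => p.1 + p.2) ?_ ?_ ?_ ?_ ?_
  · intro x hx
    rw [Lk, mem_filter, mem_lev] at hx
    rw [mem_product, mem_lev, mem_lev]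
    have h1 := sum_rst x hab
    have h2 := hx.1.2
    have h3 := hx.2
    refine ⟨⟨pr_mono hx.1.1 a b, ?_⟩, ⟨rst_mono hx.1.1 a b, ?_⟩⟩
    · show ∑ c, pr x a b c = k
      rw [sum_pr x hab]; exact h3
    · show ∑ c, rst x a b c = r - k
      omega
  · rintro ⟨y, z⟩ hp
    rw [mem_product, mem_lev, mem_lev] at hp
    obtain ⟨⟨hy1, hy2⟩, ⟨hz1, hz2⟩⟩ := hp
    simp only at hy1 hy2 hz1 hz2
    have hy := sum_pr y hab
    rw [pr_of_le hy1] at hy
    rw [Lk, mem_filter, mem_lev]
    have hza : z a = 0 := by have := hz1 a; simp [rst] at this; exact this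
    have hzb : z b = 0 := by have := hz1 b; simp [rst] at this; exact this
    refine ⟨⟨fun c => ?_, ?_⟩, ?_⟩
    · have h1 := hy1 c
      have h2 := hz1 c
      have h3 := congrFun (pr_add_rst t a b) c
      simp only [Pi.add_apply] at h3 ⊢
      omega
    · simp only [Pi.add_apply]
      rw [sum_add_distrib]
      omega
    · simp only [Pi.add_apply]
      omega
  · intro x _
    exact pr_add_rst x a b
  · rintro ⟨y, z⟩ hp
    rw [mem_product, mem_lev, mem_lev] at hp
    obtain ⟨⟨hy1, hy2⟩, ⟨hz1, hz2⟩⟩ := hp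
    simp only at hy1 hy2 hz1 hz2
    have e1 : pr (y + z) a b = y := by
      funext c
      have h1 := hy1 c
      have h2 := hz1 c
      simp only [pr, rst, Pi.add_apply] at h1 h2 ⊢
      split_ifs at h1 h2 ⊢ <;> omega
    have e2 : rst (y + z) a b = z := by
      funext c
      have h1 := hy1 c
      have h2 := hz1 c
      simp only [pr, rst, Pi.add_apply] at h1 h2 ⊢
      split_ifs at h1 h2 ⊢ <;> omega
    show (pr (y + z) a b, rst (y + z) a b) = (y, z)
    rw [e1, e2]
  · intro x _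
    show F x = F (pr x a b + rst x a b)
    rw [pr_add_rst]

theorem Lk_card (t : ι → ℕ) {r k : ℕ} {a b : ι} (hab : a ≠ b) (hk : k ≤ r) :
    ((Lk t r a b k).card : ℝ)
      = ((lev (pr t a b) k).card : ℝ) * ((lev (rst t a b) (r - k)).card : ℝ) := by
  have := Lk_sum t hab hk (fun _ => 1)
  simpa using this

theorem Lk_nonempty (t : ι → ℕ) {r k : ℕ} {a b : ι} (hab : a ≠ b) :
    (Lk t r a b k).Nonempty ↔ k ≤ t a + t b ∧ k ≤ r ∧ r - k ≤ ∑ c, rst t a b c := by
  constructor
  · rintro ⟨x, hx⟩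
    rw [Lk, mem_filter, mem_lev] at hx
    have h1 := sum_rst x hab
    have h2 := hx.1.2
    have h3 := hx.2
    have h4 := hx.1.1 a
    have h5 := hx.1.1 b
    have h6 : ∑ c, rst x a b c ≤ ∑ c, rst t a b c := sum_le_sum (fun c _ => rst_mono hx.1.1 a b c)
    omega
  · rintro ⟨h1, h2, h3⟩
    obtain ⟨y, hy⟩ := L2.lev_nonempty (pr t a b) k (by rw [sum_pr t hab]; exact h1)
    obtain ⟨z, hz⟩ := L2.lev_nonempty (rst t a b) (r - k) h3
    have h4 : 0 < (Lk t r a b k).card := by
      have := Lk_card t hab h2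
      have e1 : 0 < ((lev (pr t a b) k).card : ℝ) := by
        exact_mod_cast card_pos.2 ⟨y, hy⟩
      have e2 : 0 < ((lev (rst t a b) (r - k)).card : ℝ) := by
        exact_mod_cast card_pos.2 ⟨z, hz⟩
      have e3 : 0 < ((Lk t r a b k).card : ℝ) := by rw [this]; positivity
      exact_mod_cast e3
    exact card_pos.1 h4

theorem consec (t : ι → ℕ) (r : ℕ) {a b : ι} (hab : a ≠ b) (f : (ι → ℕ) → ℝ)
    (hf : LipOn (lev t r) 1 f) {k : ℕ} (h1 : k + 1 ≤ t a + t b) (h2 : k + 1 ≤ r)
    (h3 : r - k ≤ ∑ c, rst t a b c) :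
    |av (Lk t r a b (k + 1)) f - av (Lk t r a b k) f| ≤ 1 := by
  have hfl1 : HasFlow (pr t a b) k := hasFlow _ (by rw [sum_pr t hab]; exact h1)
  have hfl2 : HasFlow (rst t a b) (r - (k + 1)) := hasFlow _ (by omega)
  have hrk : r - (k + 1) + 1 = r - k := by omega
  have hmain := flow2 hfl1 hfl2 (fun y z => f (y + z)) (by
    intro y hy z hz c hc d hd
    -- `x = y + up z d`, `x' = up y c + z = up (dn x d) c`
    rw [mem_lev] at hy hz
    have hcab : c = a ∨ c = b := by
      by_contra hcon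
      unfold pr at hc; rw [if_neg hcon] at hc; omega
    have hdab : ¬ (d = a ∨ d = b) := by
      intro hcon
      unfold rst at hd; rw [if_pos hcon] at hd; omega
    have hcd : c ≠ d := by rintro rfl; exact hdab hcab
    have hle : ∀ e, y e + z e ≤ t e := by
      intro e
      have g1 := hy.1 e
      have g2 := hz.1 e
      have g3 := congrFun (pr_add_rst t a b) e
      simp only [Pi.add_apply] at g3
      omega
    have hx : y + up z d ∈ lev t r := by
      rw [mem_lev]
      refine ⟨fun e => ?_, ?_⟩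
      · by_cases he : e = d
        · subst he
          simp only [Pi.add_apply, up_same]
          have g1 := hy.1 e
          have g3 := congrFun (pr_add_rst t a b) e
          simp only [Pi.add_apply] at g3
          omega
        · simp only [Pi.add_apply, up_ne z he]; exact hle e
      · simp only [Pi.add_apply]
        rw [sum_add_distrib, sum_up]
        omega
    have hx' : up (dn (y + up z d) d) c = up y c + z := by
      funext e
      by_cases he : e = c
      · subst he
        rw [up_same, dn_ne _ hcd]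
        simp only [Pi.add_apply, up_same, up_ne z hcd]
        omega
      · rw [up_ne _ he]
        by_cases he2 : e = d
        · subst he2
          rw [dn_same]
          simp only [Pi.add_apply, up_same, up_ne y he]
          omega
        · rw [dn_ne _ he2]
          simp only [Pi.add_apply, up_ne z he2, up_ne y he]
    have hx'm : up (dn (y + up z d) d) c ∈ lev t r := by
      rw [hx', mem_lev]
      refine ⟨fun e => ?_, ?_⟩
      · by_cases he : e = c
        · subst he
          simp only [Pi.add_apply, up_same]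
          have g1 := hz.1 e
          have g3 := congrFun (pr_add_rst t a b) e
          simp only [Pi.add_apply] at g3
          omega
        · simp only [Pi.add_apply, up_ne y he]; exact hle e
      · simp only [Pi.add_apply]
        rw [sum_add_distrib, sum_up]
        omega
    have := hf (y + up z d) hx d c (by simp only [Pi.add_apply, up_same]; omega) hx'm
    rw [hx'] at this
    exact this)
  rw [hrk] at hmain
  have c1 := Lk_card t hab (show k ≤ r by omega)
  have c2 := Lk_card t hab h2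
  have s1 := Lk_sum t hab (show k ≤ r by omega) f
  have s2 := Lk_sum t hab h2 f
  rw [sum_comm] at s2
  rw [← s1, ← s2] at hmain
  have p1 : 0 < ((lev (pr t a b) k).card : ℝ) := by
    exact_mod_cast card_pos.2 (L2.lev_nonempty (pr t a b) k (by rw [sum_pr t hab]; omega))
  have p1' : 0 < ((lev (pr t a b) (k + 1)).card : ℝ) := by
    exact_mod_cast card_pos.2 (L2.lev_nonempty (pr t a b) (k + 1) (by rw [sum_pr t hab]; omega))
  have p2 : 0 < ((lev (rst t a b) (r - k)).card : ℝ) := by
    exact_mod_cast card_pos.2 (L2.lev_nonempty (rst t a b) (r - k) (by omega))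
  have p2' : 0 < ((lev (rst t a b) (r - (k + 1))).card : ℝ) := by
    exact_mod_cast card_pos.2 (L2.lev_nonempty (rst t a b) (r - (k + 1)) (by omega))
  have key : ((lev (rst t a b) (r - (k + 1))).card : ℝ) / ((lev (rst t a b) (r - k)).card : ℝ) *
        (∑ x ∈ Lk t r a b k, f x)
      - ((lev (pr t a b) k).card : ℝ) / ((lev (pr t a b) (k + 1)).card : ℝ) *
        (∑ x ∈ Lk t r a b (k + 1), f x)
      = (((lev (pr t a b) k).card : ℝ) * ((lev (rst t a b) (r - (k + 1))).card : ℝ)) *
        (av (Lk t r a b k) f - av (Lk t r a b (k + 1)) f) := by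
    unfold av
    rw [c1, c2]
    field_simp
  rw [key, abs_mul, abs_of_pos (mul_pos p1 p2')] at hmain
  rw [abs_sub_comm]
  have hpos := mul_pos p1 p2'
  exact le_of_mul_le_mul_left (by rw [mul_one]; exact hmain) hpos

end E3

open E3

theorem Lk_lip (t : ι → ℕ) (r : ℕ) {a b : ι} (hab : a ≠ b) (f : (ι → ℕ) → ℝ)
    (hf : LipOn (lev t r) 1 f) :
    ∃ hh : ℕ → ℝ, (∀ k, |hh (k + 1) - hh k| ≤ 1) ∧
      ∀ k, (Lk t r a b k).Nonempty → hh k = av (Lk t r a b k) f := by
  set k0 : ℕ := r - ∑ c, rst t a b c with hk0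
  set k1 : ℕ := min (t a + t b) r with hk1
  rcases Nat.lt_or_ge k1 k0 with hlt | hle
  · refine ⟨fun _ => 0, fun k => by simp, fun k hk => ?_⟩
    rw [Lk_nonempty t hab] at hk
    omega
  refine ⟨fun k => av (Lk t r a b (max k0 (min k k1))) f, fun k => ?_, fun k hk => ?_⟩
  · by_cases h : k0 ≤ k ∧ k + 1 ≤ k1
    · have e1 : max k0 (min (k + 1) k1) = k + 1 := by omega
      have e2 : max k0 (min k k1) = k := by omega
      simp only [e1, e2]
      exact consec t r hab f hf (by omega) (by omega) (by omega)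
    · have e1 : max k0 (min (k + 1) k1) = max k0 (min k k1) := by omega
      simp only [e1]
      simp
  · rw [Lk_nonempty t hab] at hk
    have e2 : max k0 (min k k1) = k := by omega
    simp only [e2]

end TwoRow

end Vale.Agent.H27.CT
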