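import Vale.Agent.H27.CT.Defs2

/-!
# Row E4a : the crude one-dimensional inequality
-/

open Finset

namespace Vale.Agent.H27.CT

/-- log-concavity, general form -/
theorem E4a_slc {N : ℕ} {w : ℕ → ℝ}
    (hslc : ∀ i j, i ≤ j → j + 1 ≤ N → w i * w (j + 1) ≤ w (i + 1) * w j)
    {l k : ℕ} (hkN : k ≤ N) (d : ℕ) (hd : l + 2 * d ≤ k) : w l * w k ≤ w (l + d) * w (k - d) := by
  induction d with
  | zero => simp
  | succ d ih =>
    refine (ih (by omega)).trans ?_
    have h := hslc (l + d) (k - d - 1) (by omega) (by omega)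
    have e1 : k - d - 1 + 1 = k - d := by omega
    have e2 : k - (d + 1) = k - d - 1 := by omega
    rw [e1] at h
    rw [e2, ← add_assoc]
    exact h

theorem E4a_slc' {N : ℕ} {w : ℕ → ℝ}
    (hslc : ∀ i j, i ≤ j → j + 1 ≤ N → w i * w (j + 1) ≤ w (i + 1) * w j)
    {l k j j' : ℕ} (hkN : k ≤ N) (hlj : l ≤ j) (hlj' : l ≤ j') (hs : j + j' = l + k) :
    w l * w k ≤ w j * w j' := by
  rcases le_total j j' with h | h
  · have := E4a_slc hslc (l := l) hkN (j - l) (by omega)
    have e1 : l + (j - l) = j := by omega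
    have e2 : k - (j - l) = j' := by omega
    rwa [e1, e2] at this
  · have := E4a_slc hslc (l := l) hkN (j' - l) (by omega)
    have e1 : l + (j' - l) = j' := by omega
    have e2 : k - (j' - l) = j := by omega
    rw [e1, e2, mul_comm (w j')] at this
    exact this

/-- sum of `l + 1` over an initial segment, with a side condition -/
theorem E4a_tri (n : ℕ) : 2 * ∑ l ∈ range n, (l + 1) = n * (n + 1) := by
  induction n with
  | zero => simp
  | succ n ih => rw [Finset.sum_range_succ, mul_add, ih]; ring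

theorem E4a_coef (A B α : ℕ) (hα : 1 ≤ α) :
    min A (min (B - 1) α) * (min A (min (B - 1) α) + 1) +
      min (A - 1) (min B α) * (min (A - 1) (min B α) + 1) ≤
      2 * (min A (α + 1) * min B α) := by
  rcases lt_trichotomy A B with h | h | h
  · by_cases h1 : A ≤ α
    · have e1 : min A (min (B - 1) α) = A := by omega
      have e2 : min (A - 1) (min B α) = A - 1 := by omega
      have e3 : min A (α + 1) = A := by omega
      have e4 : A ≤ min B α := by omega
      rw [e1, e2, e3]
      rcases Nat.eq_zero_or_pos A with h0 | h0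
      · subst h0; simp
      · obtain ⟨a, rfl⟩ : ∃ a, A = a + 1 := ⟨A - 1, by omega⟩
        simp only [Nat.add_sub_cancel]
        nlinarith
    · have e1 : min A (min (B - 1) α) = α := by omega
      have e2 : min (A - 1) (min B α) = α := by omega
      have e3 : min A (α + 1) = α + 1 := by omega
      have e4 : min B α = α := by omega
      rw [e1, e2, e3, e4]
      nlinarith
  · subst h
    by_cases h1 : A ≤ α + 1
    · have e1 : min A (min (A - 1) α) = A - 1 := by omega
      have e2 : min (A - 1) (min A α) = A - 1 := by omega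
      have e3 : min A (α + 1) = A := by omega
      have e4 : A - 1 ≤ min A α := by omega
      rw [e1, e2, e3]
      rcases Nat.eq_zero_or_pos A with h0 | h0
      · subst h0; simp
      · obtain ⟨a, rfl⟩ : ∃ a, A = a + 1 := ⟨A - 1, by omega⟩
        simp only [Nat.add_sub_cancel] at e4 ⊢
        nlinarith
    · have e1 : min A (min (A - 1) α) = α := by omega
      have e2 : min (A - 1) (min A α) = α := by omega
      have e3 : min A (α + 1) = α + 1 := by omega
      have e4 : min A α = α := by omega
      rw [e1, e2, e3, e4]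
      nlinarith
  · by_cases h1 : B ≤ α
    · have e1 : min A (min (B - 1) α) = B - 1 := by omega
      have e2 : min (A - 1) (min B α) = B := by omega
      have e3 : B ≤ min A (α + 1) := by omega
      have e4 : min B α = B := by omega
      rw [e1, e2, e4]
      rcases Nat.eq_zero_or_pos B with h0 | h0
      · subst h0; simp
      · obtain ⟨b, rfl⟩ : ∃ b, B = b + 1 := ⟨B - 1, by omega⟩
        simp only [Nat.add_sub_cancel]
        nlinarith
    · have e1 : min A (min (B - 1) α) = α := by omega
      have e2 : min (A - 1) (min B α) = α := by omega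
      have e3 : min A (α + 1) = α + 1 := by omega
      have e4 : min B α = α := by omega
      rw [e1, e2, e3, e4]
      nlinarith

/-- the coefficient of `w j * w j'` -/
theorem E4a_count (α β N j j' : ℕ) (hα : 1 ≤ α) (hαβ : α ≤ β) (hN : N = α + β)
    (hj : j ≤ N) (hj' : j' ≤ N) :
    ∑ l ∈ range α, ∑ k ∈ Icc α β, (l + 1) *
        ((if j + j' = l + k ∧ l ≤ j ∧ l + 1 ≤ j' then 1 else 0) +
          (if j + j' = l + k ∧ l + 1 ≤ j ∧ l ≤ j' then 1 else 0)) ≤
      if j + j' < N then tz α β j * tz (α - 1) (β + 1) j' else 0 := by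
  by_cases hbig : j + j' < N ∧ j ≤ β ∧ j' ≤ β
  · obtain ⟨h1, h2, h3⟩ := hbig
    rw [if_pos h1]
    have t1 : tz α β j = min (j + 1) (α + 1) := by unfold tz; omega
    have t2 : tz (α - 1) (β + 1) j' = min (j' + 1) α := by unfold tz; omega
    rw [t1, t2]
    have inner : ∀ l ∈ range α, ∑ k ∈ Icc α β, (l + 1) *
        ((if j + j' = l + k ∧ l ≤ j ∧ l + 1 ≤ j' then 1 else 0) +
          (if j + j' = l + k ∧ l + 1 ≤ j ∧ l ≤ j' then 1 else 0)) ≤
        (if l < min (j + 1) (min (j' + 1 - 1) α) then (l + 1) else 0) +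
        (if l < min (j + 1 - 1) (min (j' + 1) α) then (l + 1) else 0) := by
      intro l hl
      rw [mem_range] at hl
      have : ∀ k ∈ Icc α β, (l + 1) *
        ((if j + j' = l + k ∧ l ≤ j ∧ l + 1 ≤ j' then 1 else 0) +
          (if j + j' = l + k ∧ l + 1 ≤ j ∧ l ≤ j' then 1 else 0)) ≤
          if k = j + j' - l then
            ((if l < min (j + 1) (min (j' + 1 - 1) α) then (l + 1) else 0) +
        (if l < min (j + 1 - 1) (min (j' + 1) α) then (l + 1) else 0)) else 0 := by
        intro k _
        by_cases hk : k = j + j' - l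
        · rw [if_pos hk]
          rw [mul_add]
          refine Nat.add_le_add ?_ ?_
          · split_ifs <;> first | omega | simp
          · split_ifs <;> first | omega | simp
        · rw [if_neg hk]
          rw [if_neg (by omega), if_neg (by omega)]
          simp
      refine (Finset.sum_le_sum this).trans ?_
      rw [Finset.sum_ite_eq']
      split_ifs <;> omega
    refine (Finset.sum_le_sum inner).trans ?_
    rw [Finset.sum_add_distrib]
    have ind : ∀ n : ℕ, n ≤ α → ∑ l ∈ range α, (if l < n then (l + 1) else 0) =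
        ∑ l ∈ range n, (l + 1) := by
      intro n hn
      rw [← Finset.sum_filter]
      congr 1
      ext x
      simp only [mem_filter, mem_range]
      omega
    rw [ind _ (by omega), ind _ (by omega)]
    have c := E4a_coef (j + 1) (j' + 1) α hα
    have s1 := E4a_tri (min (j + 1) (min (j' + 1 - 1) α))
    have s2 := E4a_tri (min (j + 1 - 1) (min (j' + 1) α))
    omega
  · have hz : ∑ l ∈ range α, ∑ k ∈ Icc α β, (l + 1) *
        ((if j + j' = l + k ∧ l ≤ j ∧ l + 1 ≤ j' then 1 else 0) +
          (if j + j' = l + k ∧ l + 1 ≤ j ∧ l ≤ j' then 1 else 0)) = 0 := by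
      refine Finset.sum_eq_zero (fun l hl => Finset.sum_eq_zero (fun k hk => ?_))
      rw [mem_range] at hl
      rw [Finset.mem_Icc] at hk
      rw [if_neg (by omega), if_neg (by omega)]
      simp
    rw [hz]
    exact Nat.zero_le _

/-- the first half -/
theorem E4a_half (α β N : ℕ) (hα : 1 ≤ α) (hαβ : α ≤ β) (hN : N = α + β) (w : ℕ → ℝ)
    (hw : ∀ k, 0 ≤ w k)
    (hslc : ∀ i j, i ≤ j → j + 1 ≤ N → w i * w (j + 1) ≤ w (i + 1) * w j) :
    2 * (∑ l ∈ range α, ∑ k ∈ Icc α β, ((l : ℝ) + 1) * ((k : ℝ) - l) * (w l * w k)) ≤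
      ∑ j ∈ range (N + 1), ∑ j' ∈ range (N + 1),
        (if j + j' < N then ((tz α β j : ℝ) * w j) * ((tz (α - 1) (β + 1) j' : ℝ) * w j')
          else 0) := by
  -- each term
  have term : ∀ l ∈ range α, ∀ k ∈ Icc α β,
      2 * (((l : ℝ) + 1) * ((k : ℝ) - l) * (w l * w k)) ≤
      ∑ j ∈ range (N + 1), ∑ j' ∈ range (N + 1),
        (((l + 1) *
        ((if j + j' = l + k ∧ l ≤ j ∧ l + 1 ≤ j' then 1 else 0) +
          (if j + j' = l + k ∧ l + 1 ≤ j ∧ l ≤ j' then 1 else 0)) : ℕ) : ℝ) * (w j * w j') := by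
    intro l hl k hk
    rw [mem_range] at hl
    rw [Finset.mem_Icc] at hk
    have one : ∀ (P : ℕ → ℕ → Prop) [∀ j j', Decidable (P j j')] (a : ℕ),
        (∀ i ∈ range (k - l), P (a + i) (l + k - (a + i)) ∧ a + i ≤ N ∧
          l ≤ a + i ∧ l ≤ l + k - (a + i)) → a + (k - l) ≤ k + 1 →
        ((k : ℝ) - l) * (w l * w k) ≤
        ∑ j ∈ range (N + 1), ∑ j' ∈ range (N + 1),
          (if j + j' = l + k ∧ P j j' then (1:ℝ) else 0) * (w j * w j') := by
      intro P _ a ha hak
      have hlow : ((k : ℝ) - l) * (w l * w k) ≤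
          ∑ i ∈ range (k - l), w (a + i) * w (l + k - (a + i)) := by
        have hc : ((k : ℝ) - l) = ((k - l : ℕ) : ℝ) := by
          rw [Nat.cast_sub (by omega)]
        rw [hc]
        have : ∑ _i ∈ range (k - l), (w l * w k) = ((k - l : ℕ) : ℝ) * (w l * w k) := by
          rw [Finset.sum_const, card_range, nsmul_eq_mul]
        rw [← this]
        refine Finset.sum_le_sum (fun i hi => ?_)
        obtain ⟨-, h2, h3, h4⟩ := ha i hi
        rw [mem_range] at hi
        exact E4a_slc' hslc (by omega) h3 h4 (by omega)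
      refine hlow.trans ?_
      -- inject
      have hin : ∑ i ∈ range (k - l), w (a + i) * w (l + k - (a + i)) ≤
          ∑ j ∈ range (N + 1), (if (a ≤ j ∧ j < a + (k - l)) then w j * w (l + k - j) else 0) := by
        rw [← Finset.sum_filter]
        have himg : (range (N + 1)).filter (fun j => a ≤ j ∧ j < a + (k - l)) =
            (range (k - l)).image (fun i => a + i) := by
          ext j
          simp only [mem_filter, mem_range, mem_image]
          constructor
          · rintro ⟨h1, h2, h3⟩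
            exact ⟨j - a, by omega, by omega⟩
          · rintro ⟨i, h1, rfl⟩
            refine ⟨?_, by omega, by omega⟩
            have := (ha i (mem_range.mpr h1)).2.1
            omega
        rw [himg, Finset.sum_image (fun x _ y _ h => by simpa using h)]
      refine hin.trans (Finset.sum_le_sum (fun j hj => ?_))
      rw [mem_range] at hj
      split_ifs with hcond
      · have hj1 := ha (j - a) (mem_range.mpr (by omega))
        have e : a + (j - a) = j := by omega
        rw [e] at hj1
        have hmem : l + k - j ∈ range (N + 1) := by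
          rw [mem_range]; omega
        refine le_trans ?_ (Finset.single_le_sum (f := fun j' =>
          (if j + j' = l + k ∧ P j j' then (1:ℝ) else 0) * (w j * w j')) (fun j' _ => ?_) hmem)
        · have hP : j + (l + k - j) = l + k ∧ P j (l + k - j) := ⟨by omega, hj1.1⟩
          simp only [hP, and_self, if_true, one_mul, le_refl]
        · have := mul_nonneg (hw j) (hw j')
          split_ifs <;> simp [this]
      · refine Finset.sum_nonneg (fun j' _ => ?_)
        have := mul_nonneg (hw j) (hw j')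
        split_ifs <;> simp [this]
    have h1 := one (fun j j' => l ≤ j ∧ l + 1 ≤ j') l (by
      intro i hi
      rw [mem_range] at hi
      refine ⟨⟨?_, ?_⟩, ?_, ?_, ?_⟩ <;> omega) (by omega)
    have h2 := one (fun j j' => l + 1 ≤ j ∧ l ≤ j') (l + 1) (by
      intro i hi
      rw [mem_range] at hi
      refine ⟨⟨?_, ?_⟩, ?_, ?_, ?_⟩ <;> omega) (by omega)
    have hl0 : (0:ℝ) ≤ (l : ℝ) + 1 := by positivity
    calc 2 * (((l : ℝ) + 1) * ((k : ℝ) - l) * (w l * w k))
        = ((l : ℝ) + 1) * (((k : ℝ) - l) * (w l * w k) + ((k : ℝ) - l) * (w l * w k)) := by ring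
      _ ≤ ((l : ℝ) + 1) * (_ + _) := mul_le_mul_of_nonneg_left (add_le_add h1 h2) hl0
      _ = _ := by
        rw [← Finset.sum_add_distrib, Finset.mul_sum]
        refine Finset.sum_congr rfl (fun j _ => ?_)
        rw [← Finset.sum_add_distrib, Finset.mul_sum]
        refine Finset.sum_congr rfl (fun j' _ => ?_)
        push_cast
        ring
  calc 2 * (∑ l ∈ range α, ∑ k ∈ Icc α β, ((l : ℝ) + 1) * ((k : ℝ) - l) * (w l * w k))
      = ∑ l ∈ range α, ∑ k ∈ Icc α β, 2 * (((l : ℝ) + 1) * ((k : ℝ) - l) * (w l * w k)) := by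
        rw [Finset.mul_sum]
        refine Finset.sum_congr rfl (fun l _ => ?_)
        rw [Finset.mul_sum]
    _ ≤ ∑ l ∈ range α, ∑ k ∈ Icc α β, ∑ j ∈ range (N + 1), ∑ j' ∈ range (N + 1),
        (((l + 1) *
        ((if j + j' = l + k ∧ l ≤ j ∧ l + 1 ≤ j' then 1 else 0) +
          (if j + j' = l + k ∧ l + 1 ≤ j ∧ l ≤ j' then 1 else 0)) : ℕ) : ℝ) * (w j * w j') :=
        Finset.sum_le_sum (fun l hl => Finset.sum_le_sum (fun k hk => term l hl k hk))
    _ = ∑ j ∈ range (N + 1), ∑ j' ∈ range (N + 1),
        ((∑ l ∈ range α, ∑ k ∈ Icc α β, (l + 1) *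
        ((if j + j' = l + k ∧ l ≤ j ∧ l + 1 ≤ j' then 1 else 0) +
          (if j + j' = l + k ∧ l + 1 ≤ j ∧ l ≤ j' then 1 else 0)) : ℕ) : ℝ) * (w j * w j') := by
        have s1 : ∀ l ∈ range α, ∑ k ∈ Icc α β, ∑ j ∈ range (N + 1), ∑ j' ∈ range (N + 1),
            (((l + 1) *
            ((if j + j' = l + k ∧ l ≤ j ∧ l + 1 ≤ j' then 1 else 0) +
            (if j + j' = l + k ∧ l + 1 ≤ j ∧ l ≤ j' then 1 else 0)) : ℕ) : ℝ) * (w j * w j') =
            ∑ j ∈ range (N + 1), ∑ j' ∈ range (N + 1), ∑ k ∈ Icc α β,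
            (((l + 1) *
            ((if j + j' = l + k ∧ l ≤ j ∧ l + 1 ≤ j' then 1 else 0) +
            (if j + j' = l + k ∧ l + 1 ≤ j ∧ l ≤ j' then 1 else 0)) : ℕ) : ℝ) * (w j * w j') := by
          intro l _
          rw [Finset.sum_comm]
          refine Finset.sum_congr rfl (fun j _ => ?_)
          rw [Finset.sum_comm]
        rw [Finset.sum_congr rfl s1, Finset.sum_comm]
        refine Finset.sum_congr rfl (fun j _ => ?_)
        rw [Finset.sum_comm]
        refine Finset.sum_congr rfl (fun j' _ => ?_)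
        rw [Nat.cast_sum, Finset.sum_mul]
        refine Finset.sum_congr rfl (fun l _ => ?_)
        rw [Nat.cast_sum, Finset.sum_mul]
    _ ≤ _ := by
        refine Finset.sum_le_sum (fun j hj => Finset.sum_le_sum (fun j' hj' => ?_))
        rw [mem_range] at hj hj'
        have hc := E4a_count α β N j j' hα hαβ hN (by omega) (by omega)
        have hww := mul_nonneg (hw j) (hw j')
        have hc' : ((∑ l ∈ range α, ∑ k ∈ Icc α β, (l + 1) *
            ((if j + j' = l + k ∧ l ≤ j ∧ l + 1 ≤ j' then 1 else 0) +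
            (if j + j' = l + k ∧ l + 1 ≤ j ∧ l ≤ j' then 1 else 0)) : ℕ) : ℝ) ≤
            ((if j + j' < N then tz α β j * tz (α - 1) (β + 1) j' else 0 : ℕ) : ℝ) := by
          exact_mod_cast hc
        refine (mul_le_mul_of_nonneg_right hc' hww).trans (le_of_eq ?_)
        split_ifs
        · push_cast
          ring
        · simp

/-- (CR) -/
theorem crude_le (α β : ℕ) (hα : 1 ≤ α) (hβ : α ≤ β + 1) (w : ℕ → ℝ) (hw : ∀ k, 0 ≤ w k)
    (hslc : ∀ i j, i ≤ j → w i * w (j + 1) ≤ w (i + 1) * w j) :
    2 * (∑ l ∈ range α, ∑ k ∈ Icc α β, ((l : ℝ) + 1) * ((k : ℝ) - l) * (w l * w k)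
        + ∑ l ∈ Icc (β + 1) (α + β), ∑ k ∈ Icc α β,
            ((α : ℝ) + β + 1 - l) * ((l : ℝ) - k) * (w l * w k))
      ≤ (∑ k ∈ range (α + β + 1), (tz α β k : ℝ) * w k)
        * ∑ k ∈ range (α + β + 1), (tz (α - 1) (β + 1) k : ℝ) * w k := by
  rcases Nat.lt_or_ge β α with hlt | hαβ
  · have he : Icc α β = ∅ := Finset.Icc_eq_empty (by omega)
    rw [he]
    simp only [Finset.sum_empty, Finset.sum_const_zero, add_zero, mul_zero]
    refine mul_nonneg (Finset.sum_nonneg fun k _ => ?_) (Finset.sum_nonneg fun k _ => ?_)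
    · exact mul_nonneg (Nat.cast_nonneg _) (hw k)
    · exact mul_nonneg (Nat.cast_nonneg _) (hw k)
  obtain ⟨N, hN⟩ : ∃ N, N = α + β := ⟨_, rfl⟩
  rw [← hN]
  have h1 := E4a_half α β N hα hαβ hN w hw (fun i j hij _ => hslc i j hij)
  have h2 := E4a_half α β N hα hαβ hN (fun i => w (N - i)) (fun k => hw _) (by
    intro i j hij hjN
    have h := hslc (N - (j + 1)) (N - (i + 1)) (by omega)
    have e1 : N - (i + 1) + 1 = N - i := by omega
    have e2 : N - (j + 1) + 1 = N - j := by omega
    rw [e1, e2] at h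
    show w (N - i) * w (N - (j + 1)) ≤ w (N - (i + 1)) * w (N - j)
    linarith [mul_comm (w (N - i)) (w (N - (j + 1))), mul_comm (w (N - (i + 1))) (w (N - j))])
  -- left side of h2
  have e2 : ∑ l ∈ range α, ∑ k ∈ Icc α β,
      ((l : ℝ) + 1) * ((k : ℝ) - l) * (w (N - l) * w (N - k)) =
      ∑ l ∈ Icc (β + 1) N, ∑ k ∈ Icc α β,
            ((α : ℝ) + β + 1 - l) * ((l : ℝ) - k) * (w l * w k) := by
    refine Finset.sum_bij' (fun l _ => N - l) (fun l _ => N - l) ?_ ?_ ?_ ?_ ?_
    · intro l hl
      rw [mem_range] at hl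
      rw [Finset.mem_Icc]
      omega
    · intro l hl
      rw [Finset.mem_Icc] at hl
      rw [mem_range]
      omega
    · intro l hl
      rw [mem_range] at hl
      show N - (N - l) = l
      omega
    · intro l hl
      rw [Finset.mem_Icc] at hl
      show N - (N - l) = l
      omega
    · intro l hl
      rw [mem_range] at hl
      refine Finset.sum_bij' (fun k _ => N - k) (fun k _ => N - k) ?_ ?_ ?_ ?_ ?_
      · intro k hk
        rw [Finset.mem_Icc] at hk ⊢
        omega
      · intro k hk
        rw [Finset.mem_Icc] at hk ⊢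
        omega
      · intro k hk
        rw [Finset.mem_Icc] at hk
        show N - (N - k) = k
        omega
      · intro k hk
        rw [Finset.mem_Icc] at hk
        show N - (N - k) = k
        omega
      · intro k hk
        rw [Finset.mem_Icc] at hk
        have c1 : ((N - l : ℕ) : ℝ) = (α : ℝ) + β - l := by
          rw [Nat.cast_sub (by omega), hN]
          push_cast
          ring
        have c2 : ((N - k : ℕ) : ℝ) = (α : ℝ) + β - k := by
          rw [Nat.cast_sub (by omega), hN]
          push_cast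
          ring
        show _ = ((α : ℝ) + β + 1 - ((N - l : ℕ) : ℝ)) * (((N - l : ℕ) : ℝ) - ((N - k : ℕ) : ℝ)) *
          (w (N - l) * w (N - k))
        rw [c1, c2]
        ring
  have r2 : ∑ j ∈ range (N + 1), ∑ j' ∈ range (N + 1),
        (if j + j' < N then ((tz α β j : ℝ) * w (N - j)) *
          ((tz (α - 1) (β + 1) j' : ℝ) * w (N - j')) else 0) =
      ∑ j ∈ range (N + 1), ∑ j' ∈ range (N + 1),
        (if N < j + j' then ((tz α β j : ℝ) * w j) * ((tz (α - 1) (β + 1) j' : ℝ) * w j')
          else 0) := by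
    rw [← Finset.sum_range_reflect]
    refine Finset.sum_congr rfl (fun j hj => ?_)
    rw [← Finset.sum_range_reflect]
    refine Finset.sum_congr rfl (fun j' hj' => ?_)
    rw [mem_range] at hj hj'
    have a1 : N + 1 - 1 - j = N - j := by omega
    have a2 : N + 1 - 1 - j' = N - j' := by omega
    rw [a1, a2]
    have t1 : tz α β (N - j) = tz α β j := by unfold tz; omega
    have t2 : tz (α - 1) (β + 1) (N - j') = tz (α - 1) (β + 1) j' := by unfold tz; omega
    have n1 : N - (N - j) = j := by omega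
    have n2 : N - (N - j') = j' := by omega
    rw [t1, t2, n1, n2]
    by_cases h : N < j + j'
    · rw [if_pos (by omega), if_pos h]
    · rw [if_neg (by omega), if_neg h]
  rw [e2, r2] at h2
  rw [Finset.sum_mul_sum, mul_add]
  refine (add_le_add h1 h2).trans ?_
  rw [← Finset.sum_add_distrib]
  refine Finset.sum_le_sum (fun j _ => ?_)
  rw [← Finset.sum_add_distrib]
  refine Finset.sum_le_sum (fun j' _ => ?_)
  have hnn : 0 ≤ ((tz α β j : ℝ) * w j) * ((tz (α - 1) (β + 1) j' : ℝ) * w j') :=
    mul_nonneg (mul_nonneg (Nat.cast_nonneg _) (hw j)) (mul_nonneg (Nat.cast_nonneg _) (hw j'))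
  split_ifs
  · omega
  · linarith
  · linarith
  · linarith

end Vale.Agent.H27.CT
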