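import Vale.Agent.H27.CT.E4a

/-!
# Row E4b : one-dimensional inequalities
-/

open Finset

namespace Vale.Agent.H27.CT

/-! ### values of `tz` -/

lemma tzA_lt {α β l : ℕ} (hβ : α ≤ β + 1) (hl : l < α) : tz α β l = l + 1 := by
  unfold tz; omega

lemma tzA_mid {α β l : ℕ} (h1 : α ≤ l) (h2 : l ≤ β) : tz α β l = α + 1 := by
  unfold tz; omega

lemma tzA_gt {α β l : ℕ} (hβ : α ≤ β + 1) (h1 : β + 1 ≤ l) : tz α β l = α + β + 1 - l := by
  unfold tz; omega

lemma tzB_lt {α β l : ℕ} (hβ : α ≤ β + 1) (hl : l < α) : tz (α - 1) (β + 1) l = l + 1 := by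
  unfold tz; omega

lemma tzB_mid {α β l : ℕ} (hα : 1 ≤ α) (h1 : α ≤ l) (h2 : l ≤ β) : tz (α - 1) (β + 1) l = α := by
  unfold tz; omega

lemma tzB_gt {α β l : ℕ} (hα : 1 ≤ α) (hβ : α ≤ β + 1) (h1 : β + 1 ≤ l) :
    tz (α - 1) (β + 1) l = α + β + 1 - l := by
  unfold tz; omega

/-- splitting of the range -/
lemma sum_three (α β : ℕ) (hβ : α ≤ β + 1) (F : ℕ → ℝ) :
    ∑ k ∈ range (α + β + 1), F k
      = ∑ k ∈ range α, F k + ∑ k ∈ Icc α β, F k + ∑ k ∈ Icc (β + 1) (α + β), F k := by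
  have e : range (α + β + 1) = (range α ∪ Icc α β) ∪ Icc (β + 1) (α + β) := by
    ext x
    simp only [mem_union, mem_range, mem_Icc]
    omega
  rw [e, sum_union, sum_union]
  · rw [Finset.disjoint_left]
    intro x hx hx'
    simp only [mem_range, mem_Icc] at hx hx'
    omega
  · rw [Finset.disjoint_left]
    intro x hx hx'
    simp only [mem_union, mem_range, mem_Icc] at hx hx'
    omega

/-- the upper sum re-indexed -/
lemma sum_upper (α β : ℕ) (F : ℕ → ℝ) :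
    ∑ l ∈ Icc (β + 1) (α + β), F l = ∑ i ∈ range α, F (β + 1 + i) := by
  have e : Icc (β + 1) (α + β) = (range α).image (fun i => β + 1 + i) := by
    ext x
    simp only [mem_Icc, mem_image, mem_range]
    constructor
    · intro h
      exact ⟨x - (β + 1), by omega, by omega⟩
    · rintro ⟨i, hi, rfl⟩
      omega
  rw [e, sum_image]
  intro a _ b _ h
  simp only at h
  omega

/-- `R ≤ L` -/
lemma RleL (α β : ℕ) (hβ : α ≤ β + 1) (w : ℕ → ℝ)
    (hdom : ∀ k k', k ≤ k' → α + β ≤ k + k' + 1 → w k' ≤ w k) :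
    ∑ l ∈ Icc (β + 1) (α + β), ((α : ℝ) + β + 1 - l) * w l
      ≤ ∑ l ∈ range α, ((l : ℝ) + 1) * w l := by
  rw [sum_upper]
  rw [← Finset.sum_range_reflect (fun l => ((l : ℝ) + 1) * w l)]
  apply Finset.sum_le_sum
  intro i hi
  rw [mem_range] at hi
  have h1 : ((α - 1 - i : ℕ) : ℝ) = (α : ℝ) - 1 - i := by
    rw [Nat.cast_sub (by omega), Nat.cast_sub (by omega)]
    simp
  rw [h1]
  push_cast
  have h2 : (α : ℝ) + β + 1 - (β + 1 + i) = (α : ℝ) - 1 - i + 1 := by ring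
  rw [h2]
  apply mul_le_mul_of_nonneg_left
  · exact hdom _ _ (by omega) (by omega)
  · have : (i : ℝ) + 1 ≤ α := by exact_mod_cast hi
    linarith

/-- internal cost -/
theorem internal_half (α β : ℕ) (hβ : α ≤ β + 1) (w : ℕ → ℝ)
    (hdom : ∀ k k', k ≤ k' → α + β ≤ k + k' + 1 → w k' ≤ w k) :
    ∑ k ∈ Icc α β, (1 / 2 : ℝ) * ((tz α β k : ℝ) * w k)
        + ∑ k ∈ Icc (β + 1) (α + β), (tz α β k : ℝ) * w k
      ≤ 1 / 2 * ∑ k ∈ range (α + β + 1), (tz α β k : ℝ) * w k := by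
  rw [sum_three α β hβ, ← Finset.mul_sum]
  have hRL := RleL α β hβ w hdom
  have e1 : ∑ l ∈ Icc (β + 1) (α + β), (tz α β l : ℝ) * w l
      = ∑ l ∈ Icc (β + 1) (α + β), ((α : ℝ) + β + 1 - l) * w l := by
    apply Finset.sum_congr rfl
    intro l hl
    rw [mem_Icc] at hl
    rw [tzA_gt hβ hl.1, Nat.cast_sub (by omega)]
    push_cast
    ring
  have e2 : ∑ l ∈ range α, (tz α β l : ℝ) * w l = ∑ l ∈ range α, ((l : ℝ) + 1) * w l := by
    apply Finset.sum_congr rfl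
    intro l hl
    rw [mem_range] at hl
    rw [tzA_lt hβ hl]
    push_cast
    ring
  rw [e1, e2]
  linarith

/-- discrete absolute deviation -/
lemma sum_abs_dev (T : ℕ) (hT : 1 ≤ T) (c : ℝ) :
    ((T : ℝ) + 1) * (T + 2) / 3 ≤ ∑ t ∈ range (T + 1), |2 * (t : ℝ) - c| := by
  have h1 : ∑ t ∈ range (T + 1), |2 * (t : ℝ) - T| ≤ ∑ t ∈ range (T + 1), |2 * (t : ℝ) - c| := by
    have h2 : ∑ t ∈ range (T + 1), |2 * (t : ℝ) - c|
        = ∑ t ∈ range (T + 1), |2 * ((T : ℝ) - t) - c| := by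
      rw [← Finset.sum_range_reflect]
      apply Finset.sum_congr rfl
      intro t ht
      rw [mem_range] at ht
      rw [show T + 1 - 1 - t = T - t by omega, Nat.cast_sub (by omega)]
    have h3 : ∑ t ∈ range (T + 1), (2 * |2 * (t : ℝ) - T|)
        ≤ ∑ t ∈ range (T + 1), (|2 * (t : ℝ) - c| + |2 * ((T : ℝ) - t) - c|) := by
      apply Finset.sum_le_sum
      intro t _
      have h4 : 2 * (2 * (t : ℝ) - T) = (2 * (t : ℝ) - c) - (2 * ((T : ℝ) - t) - c) := by ring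
      have h5 : 2 * |2 * (t : ℝ) - T| = |2 * (2 * (t : ℝ) - T)| := by
        rw [abs_mul, abs_of_pos (by norm_num : (0 : ℝ) < 2)]
      rw [h5, h4]
      exact abs_sub _ _
    rw [Finset.sum_add_distrib, ← h2, ← Finset.mul_sum] at h3
    linarith
  refine le_trans ?_ h1
  have hsq : ∀ T : ℕ, ∑ t ∈ range (T + 1), (2 * (t : ℝ) - T) ^ 2 = (T : ℝ) * (T + 1) * (T + 2) / 3 := by
    intro T
    have s1 : ∀ n : ℕ, ∑ t ∈ range (n + 1), (t : ℝ) = n * (n + 1) / 2 := by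
      intro n
      induction n with
      | zero => simp
      | succ n ih => rw [Finset.sum_range_succ, ih]; push_cast; ring
    have s2 : ∀ n : ℕ, ∑ t ∈ range (n + 1), (t : ℝ) ^ 2 = n * (n + 1) * (2 * n + 1) / 6 := by
      intro n
      induction n with
      | zero => simp
      | succ n ih => rw [Finset.sum_range_succ, ih]; push_cast; ring
    have e : ∀ t : ℕ, (2 * (t : ℝ) - T) ^ 2 = 4 * (t : ℝ) ^ 2 - 4 * T * t + T ^ 2 := by
      intro t; ring
    simp_rw [e]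
    rw [Finset.sum_add_distrib, Finset.sum_sub_distrib, ← Finset.mul_sum, ← Finset.mul_sum, s1, s2]
    simp
    ring
  have hT' : (0 : ℝ) < T := by exact_mod_cast hT
  have h6 : ∑ t ∈ range (T + 1), (2 * (t : ℝ) - T) ^ 2 / T
      ≤ ∑ t ∈ range (T + 1), |2 * (t : ℝ) - T| := by
    apply Finset.sum_le_sum
    intro t ht
    rw [mem_range] at ht
    have ht' : (t : ℝ) ≤ T := by exact_mod_cast (by omega : t ≤ T)
    have ht0 : (0 : ℝ) ≤ t := Nat.cast_nonneg t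
    rw [div_le_iff₀ hT', ← sq_abs, sq]
    apply mul_le_mul_of_nonneg_left _ (abs_nonneg _)
    rw [abs_le]
    constructor <;> linarith
  rw [← Finset.sum_div, hsq] at h6
  refine le_trans (le_of_eq ?_) h6
  field_simp

/-- sum over `[α, β]` re-indexed -/
lemma sum_mid (α β : ℕ) (h : α ≤ β) (F : ℕ → ℝ) :
    ∑ l ∈ Icc α β, F l = ∑ t ∈ range (β - α + 1), F (α + t) := by
  have e : Icc α β = (range (β - α + 1)).image (fun i => α + i) := by
    ext x
    simp only [mem_Icc, mem_image, mem_range]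
    constructor
    · intro h
      exact ⟨x - α, by omega, by omega⟩
    · rintro ⟨i, hi, rfl⟩
      omega
  rw [e, sum_image]
  intro a _ b _ h
  simp only at h
  omega

lemma lip_abs (hh : ℕ → ℝ) (hlip : ∀ k, |hh (k + 1) - hh k| ≤ 1) (a d : ℕ) :
    |hh (a + d) - hh a| ≤ d := by
  induction d with
  | zero => simp
  | succ d ih =>
    have h1 := hlip (a + d)
    have e : hh (a + (d + 1)) - hh a = (hh (a + d + 1) - hh (a + d)) + (hh (a + d) - hh a) := by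
      rw [show a + (d + 1) = a + d + 1 by ring]; ring
    rw [e]
    push_cast
    calc |(hh (a + d + 1) - hh (a + d)) + (hh (a + d) - hh a)|
        ≤ |hh (a + d + 1) - hh (a + d)| + |hh (a + d) - hh a| := abs_add_le _ _
      _ ≤ 1 + d := add_le_add h1 ih
      _ = d + 1 := by ring

lemma lip_abs' (hh : ℕ → ℝ) (hlip : ∀ k, |hh (k + 1) - hh k| ≤ 1) {a b : ℕ} (h : a ≤ b) :
    |hh b - hh a| ≤ (b : ℝ) - a := by
  obtain ⟨d, rfl⟩ := Nat.exists_eq_add_of_le h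
  have := lip_abs hh hlip a d
  push_cast
  linarith

/-- the sums of `tz α β` -/
lemma sumA (α β : ℕ) (hβ : α ≤ β + 1) (g : ℕ → ℝ) :
    ∑ k ∈ range (α + β + 1), (tz α β k : ℝ) * g k
      = ∑ l ∈ range α, ((l : ℝ) + 1) * g l + ((α : ℝ) + 1) * ∑ k ∈ Icc α β, g k
        + ∑ l ∈ Icc (β + 1) (α + β), ((α : ℝ) + β + 1 - l) * g l := by
  rw [sum_three α β hβ, Finset.mul_sum]
  congr 1
  · congr 1
    · apply Finset.sum_congr rfl
      intro l hl
      rw [mem_range] at hl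
      rw [tzA_lt hβ hl]
      push_cast
      ring
    · apply Finset.sum_congr rfl
      intro l hl
      rw [mem_Icc] at hl
      rw [tzA_mid hl.1 hl.2]
      push_cast
      ring
  · apply Finset.sum_congr rfl
    intro l hl
    rw [mem_Icc] at hl
    rw [tzA_gt hβ hl.1, Nat.cast_sub (by omega)]
    push_cast
    ring

lemma sumB (α β : ℕ) (hα : 1 ≤ α) (hβ : α ≤ β + 1) (g : ℕ → ℝ) :
    ∑ k ∈ range (α + β + 1), (tz (α - 1) (β + 1) k : ℝ) * g k
      = ∑ l ∈ range α, ((l : ℝ) + 1) * g l + (α : ℝ) * ∑ k ∈ Icc α β, g k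
        + ∑ l ∈ Icc (β + 1) (α + β), ((α : ℝ) + β + 1 - l) * g l := by
  rw [sum_three α β hβ, Finset.mul_sum]
  congr 1
  · congr 1
    · apply Finset.sum_congr rfl
      intro l hl
      rw [mem_range] at hl
      rw [tzB_lt hβ hl]
      push_cast
      ring
    · apply Finset.sum_congr rfl
      intro l hl
      rw [mem_Icc] at hl
      rw [tzB_mid hα hl.1 hl.2]
  · apply Finset.sum_congr rfl
    intro l hl
    rw [mem_Icc] at hl
    rw [tzB_gt hα hβ hl.1, Nat.cast_sub (by omega)]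
    push_cast
    ring

/-- `Δ ≤ p`-weighted bound: if `M h_k - H ≤ B_k` then `P M - H p ≤ Σ w_k B_k` -/
lemma delta_le (α β : ℕ) (w : ℕ → ℝ) (hw : ∀ k, 0 ≤ w k) (hh : ℕ → ℝ) (M H : ℝ) (B : ℕ → ℝ)
    (h : ∀ k ∈ Icc α β, M * hh k - H ≤ B k) :
    (∑ k ∈ Icc α β, w k * hh k) * M - H * ∑ k ∈ Icc α β, w k ≤ ∑ k ∈ Icc α β, w k * B k := by
  have e : (∑ k ∈ Icc α β, w k * hh k) * M - H * ∑ k ∈ Icc α β, w k
      = ∑ k ∈ Icc α β, w k * (M * hh k - H) := by
    rw [Finset.sum_mul, Finset.mul_sum, ← Finset.sum_sub_distrib]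
    apply Finset.sum_congr rfl
    intro k _
    ring
  rw [e]
  exact Finset.sum_le_sum fun k hk => mul_le_mul_of_nonneg_left (h k hk) (hw k)

/-- Chebyshev: `R ≥ ((α+1)/2) e'` -/
lemma R_ge (α β : ℕ) (hβ : α ≤ β + 1) (w : ℕ → ℝ)
    (hdom : ∀ k k', k ≤ k' → α + β ≤ k + k' + 1 → w k' ≤ w k) :
    ((α : ℝ) + 1) / 2 * ∑ i ∈ range α, w (β + 1 + i)
      ≤ ∑ l ∈ Icc (β + 1) (α + β), ((α : ℝ) + β + 1 - l) * w l := by
  rw [sum_upper]
  rcases Nat.eq_zero_or_pos α with h0 | h0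
  · subst h0; simp
  have hmono : MonovaryOn (fun i : ℕ => (α : ℝ) - i) (fun i : ℕ => w (β + 1 + i))
      (range α : Set ℕ) := by
    intro i hi j hj hij
    simp only at hij ⊢
    rw [Finset.mem_coe, mem_range] at hi hj
    by_contra hcon
    push Not at hcon
    have hlt : (i : ℝ) < j := by linarith
    have hlt' : i < j := by exact_mod_cast hlt
    have := hdom (β + 1 + i) (β + 1 + j) (by omega) (by omega)
    linarith
  have h := hmono.sum_mul_sum_le_card_mul_sum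
  rw [card_range] at h
  have hs : ∑ i ∈ range α, ((α : ℝ) - i) = α * (α + 1) / 2 := by
    rw [Finset.sum_sub_distrib]
    have s1 : ∀ n : ℕ, ∑ t ∈ range n, (t : ℝ) = n * (n - 1) / 2 := by
      intro n
      induction n with
      | zero => simp
      | succ n ih => rw [Finset.sum_range_succ, ih]; push_cast; ring
    rw [s1]
    simp
    ring
  rw [hs] at h
  have hα : (0 : ℝ) < α := by exact_mod_cast h0
  have e : ∑ i ∈ range α, ((α : ℝ) + β + 1 - ((β + 1 + i : ℕ) : ℝ)) * w (β + 1 + i)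
      = ∑ i ∈ range α, ((α : ℝ) - i) * w (β + 1 + i) := by
    apply Finset.sum_congr rfl
    intro i _
    push_cast
    ring
  rw [e]
  have h' : (α : ℝ) * (((α : ℝ) + 1) / 2 * ∑ i ∈ range α, w (β + 1 + i))
      ≤ α * ∑ i ∈ range α, ((α : ℝ) - i) * w (β + 1 + i) := by
    refine le_trans (le_of_eq ?_) h
    ring
  exact le_of_mul_le_mul_left h' hα

/-- left part -/
lemma left_part (α k : ℕ) (w : ℕ → ℝ) (hw : ∀ k, 0 ≤ w k) (hh : ℕ → ℝ)
    (hlip : ∀ k, |hh (k + 1) - hh k| ≤ 1) :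
    (∑ l ∈ range α, ((l : ℝ) + 1) * w l) * hh k - ∑ l ∈ range α, ((l : ℝ) + 1) * (w l * hh l)
      ≤ (∑ l ∈ range α, ((l : ℝ) + 1) * w l) * (hh k - hh α)
        + ∑ l ∈ range α, ((l : ℝ) + 1) * w l * ((α : ℝ) - l) := by
  have e1 : ∑ l ∈ range α, ((l : ℝ) + 1) * w l * (hh α - hh l)
      = (∑ l ∈ range α, ((l : ℝ) + 1) * w l) * hh α
        - ∑ l ∈ range α, ((l : ℝ) + 1) * (w l * hh l) := by
    rw [Finset.sum_mul, ← Finset.sum_sub_distrib]
    exact Finset.sum_congr rfl fun l _ => by ring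
  have h2 : ∑ l ∈ range α, ((l : ℝ) + 1) * w l * (hh α - hh l)
      ≤ ∑ l ∈ range α, ((l : ℝ) + 1) * w l * ((α : ℝ) - l) := by
    apply Finset.sum_le_sum
    intro l hl
    apply mul_le_mul_of_nonneg_left _ (mul_nonneg (by positivity) (hw l))
    rw [mem_range] at hl
    have := lip_abs' hh hlip hl.le
    rw [abs_le] at this
    exact this.2
  linarith

/-- right part -/
lemma right_part (α β k : ℕ) (w : ℕ → ℝ) (hw : ∀ k, 0 ≤ w k) (hh : ℕ → ℝ)
    (hlip : ∀ k, |hh (k + 1) - hh k| ≤ 1) :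
    (∑ l ∈ Icc (β + 1) (α + β), ((α : ℝ) + β + 1 - l) * w l) * hh k
        - ∑ l ∈ Icc (β + 1) (α + β), ((α : ℝ) + β + 1 - l) * (w l * hh l)
      ≤ (∑ l ∈ Icc (β + 1) (α + β), ((α : ℝ) + β + 1 - l) * w l) * (hh k - hh β)
        + ∑ l ∈ Icc (β + 1) (α + β), ((α : ℝ) + β + 1 - l) * w l * ((l : ℝ) - β) := by
  have e1 : ∑ l ∈ Icc (β + 1) (α + β), ((α : ℝ) + β + 1 - l) * w l * (hh β - hh l)
      = (∑ l ∈ Icc (β + 1) (α + β), ((α : ℝ) + β + 1 - l) * w l) * hh β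
        - ∑ l ∈ Icc (β + 1) (α + β), ((α : ℝ) + β + 1 - l) * (w l * hh l) := by
    rw [Finset.sum_mul, ← Finset.sum_sub_distrib]
    exact Finset.sum_congr rfl fun l _ => by ring
  have h2 : ∑ l ∈ Icc (β + 1) (α + β), ((α : ℝ) + β + 1 - l) * w l * (hh β - hh l)
      ≤ ∑ l ∈ Icc (β + 1) (α + β), ((α : ℝ) + β + 1 - l) * w l * ((l : ℝ) - β) := by
    apply Finset.sum_le_sum
    intro l hl
    rw [mem_Icc] at hl
    have hl' : (l : ℝ) ≤ α + β := by exact_mod_cast hl.2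
    apply mul_le_mul_of_nonneg_left _ (mul_nonneg (by linarith) (hw l))
    have := lip_abs' hh hlip (show β ≤ l by omega)
    rw [abs_le] at this
    linarith [this.1]
  linarith

/-- middle part -/
lemma mid_part {α β k : ℕ} (hk1 : α ≤ k) (hk2 : k ≤ β) (hh : ℕ → ℝ)
    (hlip : ∀ k, |hh (k + 1) - hh k| ≤ 1) {L R : ℝ} (hR0 : 0 ≤ R) (hRL : R ≤ L) :
    L * (hh k - hh α) + R * (hh k - hh β)
      ≤ L * ((k : ℝ) - α) + R * ((β : ℝ) - k)
        - R * |2 * ((k : ℝ) - α) - (((β : ℝ) - α) + (hh β - hh α))| := by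
  have hka := lip_abs' hh hlip hk1
  have hkb := lip_abs' hh hlip hk2
  rw [abs_le] at hka hkb
  have hL0 : 0 ≤ L := le_trans hR0 hRL
  rcases le_total 0 (2 * ((k : ℝ) - α) - (((β : ℝ) - α) + (hh β - hh α))) with hx | hx
  · rw [abs_of_nonneg hx]
    set x := 2 * ((k : ℝ) - α) - (((β : ℝ) - α) + (hh β - hh α)) with hxd
    have h4 : hh k - hh α ≤ ((k : ℝ) - α) - x := by
      rw [hxd]; linarith [hkb.1]
    have h5 : hh k - hh β ≤ (β : ℝ) - k := by linarith [hkb.1]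
    have h6 := mul_le_mul_of_nonneg_left h4 hL0
    have h7 := mul_le_mul_of_nonneg_left h5 hR0
    have h8 := mul_le_mul_of_nonneg_right hRL hx
    rw [mul_sub] at h6
    linarith [h6, h7, h8]
  · rw [abs_of_nonpos hx]
    set x := 2 * ((k : ℝ) - α) - (((β : ℝ) - α) + (hh β - hh α)) with hxd
    have h4 : hh k - hh α ≤ (k : ℝ) - α := hka.2
    have h5 : hh k - hh β ≤ ((β : ℝ) - k) + x := by
      rw [hxd]; linarith [hka.2]
    have h6 := mul_le_mul_of_nonneg_left h4 hL0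
    have h7 := mul_le_mul_of_nonneg_left h5 hR0
    rw [mul_add] at h7
    linarith [h6, h7]

/-- the pointwise bound in the narrow case -/
lemma narrow_key {α β k : ℕ} (hk1 : α ≤ k) (hk2 : k ≤ β) (w : ℕ → ℝ) (hw : ∀ k, 0 ≤ w k)
    (hh : ℕ → ℝ) (hlip : ∀ k, |hh (k + 1) - hh k| ≤ 1)
    (hR0 : 0 ≤ ∑ l ∈ Icc (β + 1) (α + β), ((α : ℝ) + β + 1 - l) * w l)
    (hRL : ∑ l ∈ Icc (β + 1) (α + β), ((α : ℝ) + β + 1 - l) * w l
      ≤ ∑ l ∈ range α, ((l : ℝ) + 1) * w l) :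
    (∑ l ∈ range α, ((l : ℝ) + 1) * w l
        + ∑ l ∈ Icc (β + 1) (α + β), ((α : ℝ) + β + 1 - l) * w l) * hh k
      - (∑ l ∈ range α, ((l : ℝ) + 1) * (w l * hh l)
        + ∑ l ∈ Icc (β + 1) (α + β), ((α : ℝ) + β + 1 - l) * (w l * hh l))
    ≤ (∑ l ∈ range α, ((l : ℝ) + 1) * ((k : ℝ) - l) * w l
        + ∑ l ∈ Icc (β + 1) (α + β), ((α : ℝ) + β + 1 - l) * ((l : ℝ) - k) * w l)
      - (∑ l ∈ Icc (β + 1) (α + β), ((α : ℝ) + β + 1 - l) * w l)
        * |2 * ((k : ℝ) - α) - (((β : ℝ) - α) + (hh β - hh α))| := by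
  have h1 := left_part α k w hw hh hlip
  have h2 := right_part α β k w hw hh hlip
  have h3 := mid_part hk1 hk2 hh hlip hR0 hRL
  have e3 : ∑ l ∈ range α, ((l : ℝ) + 1) * ((k : ℝ) - l) * w l
      = (∑ l ∈ range α, ((l : ℝ) + 1) * w l) * ((k : ℝ) - α)
        + ∑ l ∈ range α, ((l : ℝ) + 1) * w l * ((α : ℝ) - l) := by
    rw [Finset.sum_mul, ← Finset.sum_add_distrib]
    exact Finset.sum_congr rfl fun l _ => by ring
  have e4 : ∑ l ∈ Icc (β + 1) (α + β), ((α : ℝ) + β + 1 - l) * ((l : ℝ) - k) * w l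
      = (∑ l ∈ Icc (β + 1) (α + β), ((α : ℝ) + β + 1 - l) * w l) * ((β : ℝ) - k)
        + ∑ l ∈ Icc (β + 1) (α + β), ((α : ℝ) + β + 1 - l) * w l * ((l : ℝ) - β) := by
    rw [Finset.sum_mul, ← Finset.sum_add_distrib]
    exact Finset.sum_congr rfl fun l _ => by ring
  rw [e3, e4, add_mul]
  linarith [h1, h2, h3]

/-- the pointwise bound in the wide case -/
lemma wide_key {α β k : ℕ} (hk1 : α ≤ k) (hk2 : k ≤ β) (w : ℕ → ℝ) (hw : ∀ k, 0 ≤ w k)
    (hh : ℕ → ℝ) (hlip : ∀ k, |hh (k + 1) - hh k| ≤ 1) :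
    (∑ l ∈ range α, ((l : ℝ) + 1) * w l
        + ∑ l ∈ Icc (β + 1) (α + β), ((α : ℝ) + β + 1 - l) * w l) * hh k
      - (∑ l ∈ range α, ((l : ℝ) + 1) * (w l * hh l)
        + ∑ l ∈ Icc (β + 1) (α + β), ((α : ℝ) + β + 1 - l) * (w l * hh l))
    ≤ (∑ l ∈ range α, ((l : ℝ) + 1) * w l
        + ∑ l ∈ Icc (β + 1) (α + β), ((α : ℝ) + β + 1 - l) * w l) * β := by
  have hkβ : (k : ℝ) ≤ β := by exact_mod_cast hk2
  have hkα : (α : ℝ) ≤ k := by exact_mod_cast hk1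
  have h1 : (∑ l ∈ range α, ((l : ℝ) + 1) * w l) * hh k
      - ∑ l ∈ range α, ((l : ℝ) + 1) * (w l * hh l)
      ≤ (∑ l ∈ range α, ((l : ℝ) + 1) * w l) * β := by
    rw [Finset.sum_mul, Finset.sum_mul, ← Finset.sum_sub_distrib]
    apply Finset.sum_le_sum
    intro l hl
    have e : ((l : ℝ) + 1) * w l * hh k - ((l : ℝ) + 1) * (w l * hh l)
        = ((l : ℝ) + 1) * w l * (hh k - hh l) := by ring
    rw [e]
    apply mul_le_mul_of_nonneg_left _ (mul_nonneg (by positivity) (hw l))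
    rw [mem_range] at hl
    have := lip_abs' hh hlip (show l ≤ k by omega)
    rw [abs_le] at this
    have hl0 : (0 : ℝ) ≤ l := Nat.cast_nonneg l
    linarith [this.2]
  have h2 : (∑ l ∈ Icc (β + 1) (α + β), ((α : ℝ) + β + 1 - l) * w l) * hh k
      - ∑ l ∈ Icc (β + 1) (α + β), ((α : ℝ) + β + 1 - l) * (w l * hh l)
      ≤ (∑ l ∈ Icc (β + 1) (α + β), ((α : ℝ) + β + 1 - l) * w l) * β := by
    rw [Finset.sum_mul, Finset.sum_mul, ← Finset.sum_sub_distrib]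
    apply Finset.sum_le_sum
    intro l hl
    rw [mem_Icc] at hl
    have hl' : (l : ℝ) ≤ α + β := by exact_mod_cast hl.2
    have e : ((α : ℝ) + β + 1 - l) * w l * hh k - ((α : ℝ) + β + 1 - l) * (w l * hh l)
        = ((α : ℝ) + β + 1 - l) * w l * (hh k - hh l) := by ring
    rw [e]
    apply mul_le_mul_of_nonneg_left _ (mul_nonneg (by linarith) (hw l))
    have := lip_abs' hh hlip (show k ≤ l by omega)
    rw [abs_le] at this
    linarith [this.1]
  rw [add_mul, add_mul]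
  linarith [h1, h2]

/-- final arithmetic in the narrow case -/
lemma narrow_arith {ZA ZB e' b1 T : ℝ} (hZA : 0 ≤ ZA) (hZB : 0 ≤ ZB) (hb1 : 0 ≤ b1)
    (hT : 0 ≤ T) (h19 : b1 ≤ 3 * T) (h22 : ZA ≤ 2 * ZB) (hbig : ZB ≤ 4 * b1 * e') :
    ZA * ZB / 1728 ≤ (e' ^ 2 / 2) * ((T + 1) * (T + 2) / 3) := by
  have h20 : b1 ^ 2 / 9 ≤ (T + 1) * (T + 2) := by
    have : b1 ^ 2 ≤ (3 * T) ^ 2 := pow_le_pow_left₀ hb1 h19 2
    nlinarith
  have h21 : (e' ^ 2 / 2) * (b1 ^ 2 / 27) ≤ (e' ^ 2 / 2) * ((T + 1) * (T + 2) / 3) := by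
    apply mul_le_mul_of_nonneg_left _ (by positivity)
    linarith
  have h23 : ZA * ZB ≤ 2 * ZB ^ 2 := by
    have := mul_le_mul_of_nonneg_right h22 hZB
    nlinarith
  have h24 : ZB ^ 2 ≤ (4 * b1 * e') ^ 2 := pow_le_pow_left₀ hZB hbig 2
  have h25 : (4 * b1 * e') ^ 2 = 16 * (b1 ^ 2 * e' ^ 2) := by ring
  have h26 : (e' ^ 2 / 2) * (b1 ^ 2 / 27) = b1 ^ 2 * e' ^ 2 / 54 := by ring
  rw [h25] at h24
  rw [h26] at h21
  linarith

/-- final arithmetic in the wide case -/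
lemma wide_arith {L R p a b : ℝ} (hM0 : 0 ≤ L + R) (hp0 : 0 ≤ p) (ha : 1 ≤ a)
    (h10 : 2 * b ≤ 3 * a) :
    p * ((L + R) * b) ≤ (1 / 2 - 1 / 2000) * ((L + (a + 1) * p + R) * (L + a * p + R)) := by
  have hpM : 0 ≤ p * (L + R) := mul_nonneg hp0 hM0
  have h11 : p * ((L + R) * b) ≤ 3 / 2 * (a * p * (L + R)) := by
    have := mul_le_mul_of_nonneg_left h10 hpM
    nlinarith
  have hZB : 0 ≤ L + a * p + R := by
    have : 0 ≤ a * p := mul_nonneg (by linarith) hp0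
    linarith
  have h12 : a * p * (L + R) ≤ (L + a * p + R) ^ 2 / 4 := by
    nlinarith [sq_nonneg (L + R - a * p)]
  have h13 : (L + a * p + R) ^ 2 ≤ (L + (a + 1) * p + R) * (L + a * p + R) := by
    rw [sq]
    apply mul_le_mul_of_nonneg_right _ hZB
    nlinarith
  have h14 : 0 ≤ (L + a * p + R) ^ 2 := sq_nonneg _
  nlinarith [h11, h12, h13, h14]

theorem one_dim_of_crude (α β : ℕ) (hα : 1 ≤ α) (hβ : α ≤ β + 1) (w : ℕ → ℝ) (hw : ∀ k, 0 ≤ w k)
    (hcrude : 2 * (∑ l ∈ range α, ∑ k ∈ Icc α β, ((l : ℝ) + 1) * ((k : ℝ) - l) * (w l * w k)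
        + ∑ l ∈ Icc (β + 1) (α + β), ∑ k ∈ Icc α β,
            ((α : ℝ) + β + 1 - l) * ((l : ℝ) - k) * (w l * w k))
      ≤ (∑ k ∈ range (α + β + 1), (tz α β k : ℝ) * w k)
        * ∑ k ∈ range (α + β + 1), (tz (α - 1) (β + 1) k : ℝ) * w k)
    (hdom : ∀ k k', k ≤ k' → α + β ≤ k + k' + 1 → w k' ≤ w k)
    (hh : ℕ → ℝ) (hlip : ∀ k, |hh (k + 1) - hh k| ≤ 1)
    (hbig : ∑ k ∈ range (α + β + 1), (tz (α - 1) (β + 1) k : ℝ) * w k
      ≤ 4 * ((β : ℝ) + 1) * ∑ i ∈ range α, w (β + 1 + i)) :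
    (∑ k ∈ range (α + β + 1), (tz α β k : ℝ) * w k * hh k)
        * (∑ k ∈ range (α + β + 1), (tz (α - 1) (β + 1) k : ℝ) * w k)
      - (∑ k ∈ range (α + β + 1), (tz (α - 1) (β + 1) k : ℝ) * w k * hh k)
        * (∑ k ∈ range (α + β + 1), (tz α β k : ℝ) * w k)
      ≤ (1 / 2 - 1 / 2000) * ((∑ k ∈ range (α + β + 1), (tz α β k : ℝ) * w k)
        * ∑ k ∈ range (α + β + 1), (tz (α - 1) (β + 1) k : ℝ) * w k) := by
  have eSA : ∑ k ∈ range (α + β + 1), (tz α β k : ℝ) * w k * hh k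
      = ∑ k ∈ range (α + β + 1), (tz α β k : ℝ) * (w k * hh k) :=
    Finset.sum_congr rfl fun k _ => by ring
  have eSB : ∑ k ∈ range (α + β + 1), (tz (α - 1) (β + 1) k : ℝ) * w k * hh k
      = ∑ k ∈ range (α + β + 1), (tz (α - 1) (β + 1) k : ℝ) * (w k * hh k) :=
    Finset.sum_congr rfl fun k _ => by ring
  rw [eSA, eSB]
  rw [sumB α β hα hβ w] at hbig
  rw [sumA α β hβ w, sumB α β hα hβ w] at hcrude ⊢
  rw [sumA α β hβ (fun k => w k * hh k), sumB α β hα hβ (fun k => w k * hh k)]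
  have hRL := RleL α β hβ w hdom
  have hRe := R_ge α β hβ w hdom
  have hmM : ∀ l ∈ range α, 0 ≤ ((l : ℝ) + 1) * w l := fun l _ =>
    mul_nonneg (by positivity) (hw l)
  have hmR : ∀ l ∈ Icc (β + 1) (α + β), 0 ≤ ((α : ℝ) + β + 1 - l) * w l := by
    intro l hl
    rw [mem_Icc] at hl
    apply mul_nonneg _ (hw l)
    have : (l : ℝ) ≤ α + β := by exact_mod_cast hl.2
    linarith
  set L := ∑ l ∈ range α, ((l : ℝ) + 1) * w l with hL
  set R := ∑ l ∈ Icc (β + 1) (α + β), ((α : ℝ) + β + 1 - l) * w l with hR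
  set p := ∑ k ∈ Icc α β, w k with hp
  set HL := ∑ l ∈ range α, ((l : ℝ) + 1) * (w l * hh l) with hHL
  set HR := ∑ l ∈ Icc (β + 1) (α + β), ((α : ℝ) + β + 1 - l) * (w l * hh l) with hHR
  set P := ∑ k ∈ Icc α β, w k * hh k with hP
  set e' := ∑ i ∈ range α, w (β + 1 + i) with he'
  have hL0 : 0 ≤ L := Finset.sum_nonneg hmM
  have hR0 : 0 ≤ R := Finset.sum_nonneg hmR
  have hp0 : 0 ≤ p := Finset.sum_nonneg fun k _ => hw k
  have he0 : 0 ≤ e' := Finset.sum_nonneg fun k _ => hw _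
  have hα0 : (1 : ℝ) ≤ α := by exact_mod_cast hα
  have hβ0 : (0 : ℝ) ≤ β := Nat.cast_nonneg β
  have hΔ : (HL + ((α : ℝ) + 1) * P + HR) * (L + α * p + R)
      - (HL + α * P + HR) * (L + ((α : ℝ) + 1) * p + R) = P * (L + R) - (HL + HR) * p := by ring
  rw [hΔ]
  have hZA : 0 ≤ L + ((α : ℝ) + 1) * p + R := by positivity
  have hZB : 0 ≤ L + (α : ℝ) * p + R := by positivity
  have hZAB : L + (α : ℝ) * p + R ≤ L + ((α : ℝ) + 1) * p + R := by nlinarith
  rcases Nat.lt_or_ge (3 * α) (2 * β) with hcase | hcase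
  · -- narrow case
    have hαβ : α ≤ β := by omega
    have hT1 : 1 ≤ β - α := by omega
    have hTc : ((β - α : ℕ) : ℝ) = (β : ℝ) - α := Nat.cast_sub hαβ
    have key := fun (k : ℕ) (hk : k ∈ Icc α β) =>
      narrow_key (mem_Icc.1 hk).1 (mem_Icc.1 hk).2 w hw hh hlip hR0 hRL
    have h9 := delta_le α β w hw hh (L + R) (HL + HR) _ key
    rw [← hR] at h9
    set c := ((β : ℝ) - α) + (hh β - hh α) with hc
    have e5 : ∑ k ∈ Icc α β, w k *
        ((∑ l ∈ range α, ((l : ℝ) + 1) * ((k : ℝ) - l) * w l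
          + ∑ l ∈ Icc (β + 1) (α + β), ((α : ℝ) + β + 1 - l) * ((l : ℝ) - k) * w l)
          - R * |2 * ((k : ℝ) - α) - c|)
        = (∑ l ∈ range α, ∑ k ∈ Icc α β, ((l : ℝ) + 1) * ((k : ℝ) - l) * (w l * w k)
          + ∑ l ∈ Icc (β + 1) (α + β), ∑ k ∈ Icc α β,
            ((α : ℝ) + β + 1 - l) * ((l : ℝ) - k) * (w l * w k))
          - R * ∑ k ∈ Icc α β, w k * |2 * ((k : ℝ) - α) - c| := by
      rw [Finset.sum_comm, Finset.sum_comm (s := Icc (β + 1) (α + β)),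
        Finset.mul_sum, ← Finset.sum_add_distrib, ← Finset.sum_sub_distrib]
      apply Finset.sum_congr rfl
      intro k _
      rw [mul_sub, mul_add, Finset.mul_sum, Finset.mul_sum]
      congr 1
      · congr 1
        · exact Finset.sum_congr rfl fun l _ => by ring
        · exact Finset.sum_congr rfl fun l _ => by ring
      · ring
    rw [e5] at h9
    -- the loss
    set ω := w (β + 1) with hω
    have hω0 : 0 ≤ ω := hw _
    set T : ℝ := ((β - α : ℕ) : ℝ) with hT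
    have h10 : ω * ((T + 1) * (T + 2) / 3)
        ≤ ∑ k ∈ Icc α β, w k * |2 * ((k : ℝ) - α) - c| := by
      have h11 := sum_abs_dev (β - α) hT1 c
      calc ω * ((T + 1) * (T + 2) / 3)
          ≤ ω * ∑ t ∈ range (β - α + 1), |2 * (t : ℝ) - c| := mul_le_mul_of_nonneg_left h11 hω0
        _ = ∑ k ∈ Icc α β, ω * |2 * ((k : ℝ) - α) - c| := by
            rw [sum_mid α β hαβ, Finset.mul_sum]
            apply Finset.sum_congr rfl
            intro t _
            push_cast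
            rw [show (α : ℝ) + t - α = t by ring]
        _ ≤ _ := by
            apply Finset.sum_le_sum
            intro k hk
            rw [mem_Icc] at hk
            apply mul_le_mul_of_nonneg_right _ (abs_nonneg _)
            exact hdom _ _ (by omega) (by omega)
    have h12 : e' ≤ α * ω := by
      rw [he']
      calc ∑ i ∈ range α, w (β + 1 + i) ≤ ∑ _i ∈ range α, ω := by
            apply Finset.sum_le_sum
            intro i _
            exact hdom _ _ (by omega) (by omega)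
        _ = α * ω := by simp
    have h13 : e' ^ 2 / 2 ≤ R * ω := by
      have h14 : ((α : ℝ) + 1) / 2 * e' * ω ≤ R * ω := mul_le_mul_of_nonneg_right hRe hω0
      have h15 : e' * e' ≤ e' * (α * ω) := mul_le_mul_of_nonneg_left h12 he0
      have h16 : 0 ≤ e' * ω := mul_nonneg he0 hω0
      have e6 : ((α : ℝ) + 1) / 2 * e' * ω = e' * (α * ω) / 2 + e' * ω / 2 := by ring
      rw [e6] at h14
      rw [sq]
      linarith
    have hT0 : (0 : ℝ) ≤ T := Nat.cast_nonneg _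
    have h17 : R * (ω * ((T + 1) * (T + 2) / 3))
        ≤ R * ∑ k ∈ Icc α β, w k * |2 * ((k : ℝ) - α) - c| :=
      mul_le_mul_of_nonneg_left h10 hR0
    have h18 : (e' ^ 2 / 2) * ((T + 1) * (T + 2) / 3) ≤ R * ω * ((T + 1) * (T + 2) / 3) :=
      mul_le_mul_of_nonneg_right h13 (by positivity)
    have h19 : (β : ℝ) + 1 ≤ 3 * T := by
      have : β + 1 ≤ 3 * (β - α) := by omega
      rw [hT]
      exact_mod_cast this
    have h22 : L + ((α : ℝ) + 1) * p + R ≤ 2 * (L + (α : ℝ) * p + R) := by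
      have : p ≤ α * p := by nlinarith
      linarith
    have h26 := narrow_arith hZA hZB (by positivity) hT0 h19 h22 hbig
    have h27 : 0 ≤ (L + ((α : ℝ) + 1) * p + R) * (L + (α : ℝ) * p + R) := mul_nonneg hZA hZB
    set Z := (L + ((α : ℝ) + 1) * p + R) * (L + (α : ℝ) * p + R) with hZ
    have h29 : R * (ω * ((T + 1) * (T + 2) / 3)) = R * ω * ((T + 1) * (T + 2) / 3) := by
      ring
    linarith [h9, hcrude, h17, h18, h26, h29, h27]
  · -- wide case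
    have key := fun (k : ℕ) (hk : k ∈ Icc α β) =>
      wide_key (mem_Icc.1 hk).1 (mem_Icc.1 hk).2 w hw hh hlip
    have h9 := delta_le α β w hw hh (L + R) (HL + HR) _ key
    rw [← Finset.sum_mul] at h9
    change P * (L + R) - (HL + HR) * p ≤ p * ((L + R) * β) at h9
    have h10 : (2 : ℝ) * β ≤ 3 * α := by exact_mod_cast hcase
    exact le_trans h9 (wide_arith (by linarith) hp0 hα0 h10)

theorem one_dim (α β : ℕ) (hα : 1 ≤ α) (hβ : α ≤ β + 1) (w : ℕ → ℝ) (hw : ∀ k, 0 ≤ w k)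
    (hslc : ∀ i j, i ≤ j → w i * w (j + 1) ≤ w (i + 1) * w j)
    (hdom : ∀ k k', k ≤ k' → α + β ≤ k + k' + 1 → w k' ≤ w k)
    (hh : ℕ → ℝ) (hlip : ∀ k, |hh (k + 1) - hh k| ≤ 1)
    (hbig : ∑ k ∈ range (α + β + 1), (tz (α - 1) (β + 1) k : ℝ) * w k
      ≤ 4 * ((β : ℝ) + 1) * ∑ i ∈ range α, w (β + 1 + i)) :
    (∑ k ∈ range (α + β + 1), (tz α β k : ℝ) * w k * hh k)
        * (∑ k ∈ range (α + β + 1), (tz (α - 1) (β + 1) k : ℝ) * w k)
      - (∑ k ∈ range (α + β + 1), (tz (α - 1) (β + 1) k : ℝ) * w k * hh k)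
        * (∑ k ∈ range (α + β + 1), (tz α β k : ℝ) * w k)
      ≤ (1 / 2 - 1 / 2000) * ((∑ k ∈ range (α + β + 1), (tz α β k : ℝ) * w k)
        * ∑ k ∈ range (α + β + 1), (tz (α - 1) (β + 1) k : ℝ) * w k) :=
  one_dim_of_crude α β hα hβ w hw (crude_le α β hα hβ w hw hslc) hdom hh hlip hbig

end Vale.Agent.H27.CT
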