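import Vale.Agent.H27.CT.E4b
import Vale.Agent.H27.CT.E1
import Vale.Agent.H27.CT.E2
import Vale.Agent.H27.CT.E3

/-!
# Row E5: strict contraction of the two-row resampling
-/

open Finset

namespace Vale.Agent.H27.CT

variable {ι : Type*} [Fintype ι] [DecidableEq ι]

theorem LipOn.mono {D D' : Finset (ι → ℕ)} {L : ℝ} {f : (ι → ℕ) → ℝ} (h : LipOn D L f)
    (hD : D' ⊆ D) : LipOn D' L f :=
  fun x hx a b ha hb => h x (hD hx) a b ha (hD hb)

theorem LipOn.neg {D : Finset (ι → ℕ)} {L : ℝ} {f : (ι → ℕ) → ℝ} (h : LipOn D L f) :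
    LipOn D L (fun x => - f x) := by
  intro x hx a b ha hb
  have := h x hx a b ha hb
  rw [show -f x - -f (up (dn x a) b) = -(f x - f (up (dn x a) b)) by ring, abs_neg]
  exact this

theorem lev_mono_box {s t : ι → ℕ} (h : ∀ a, s a ≤ t a) (r : ℕ) : lev s r ⊆ lev t r := by
  intro x hx
  rw [mem_lev] at hx ⊢
  exact ⟨fun a => (hx.1 a).trans (h a), hx.2⟩

theorem lev_nonempty {s : ι → ℕ} {r : ℕ} (h : r ≤ ∑ a, s a) : (lev s r).Nonempty := by
  induction r with
  | zero => exact ⟨fun _ => 0, mem_lev.2 ⟨fun _ => Nat.zero_le _, by simp⟩⟩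
  | succ r ih =>
    obtain ⟨x, hx⟩ := ih (by omega)
    have : ∃ a, x a < s a := by
      by_contra hcon
      push Not at hcon
      have h1 := sum_le_sum (s := univ) fun a _ => hcon a
      rw [(mem_lev.1 hx).2] at h1
      omega
    obtain ⟨a, ha⟩ := this
    exact ⟨up x a, up_mem hx ha⟩

theorem av_neg (S : Finset (ι → ℕ)) (f : (ι → ℕ) → ℝ) :
    av S (fun x => - f x) = - av S f := by
  unfold av; rw [sum_neg_distrib, neg_div]

theorem card_mul_av (S : Finset (ι → ℕ)) (f : (ι → ℕ) → ℝ) :
    (S.card : ℝ) * av S f = ∑ x ∈ S, f x := by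
  unfold av
  rcases S.eq_empty_or_nonempty with rfl | h
  · simp
  · have : (S.card : ℝ) ≠ 0 := by
      have := card_pos.2 h; positivity
    field_simp

/-- the smaller box `dn s a` and the shifted box `up (dn s a) b` -/
theorem card_lev_eq (s : ι → ℕ) (r : ℕ) {a b : ι} (hab : a ≠ b) :
    ((lev s r).card : ℝ) = ∑ k ∈ range (s a + s b + 1), (tz (s a) (s b) k : ℝ) * wk s r a b k := by
  have h := sum_Lk s r a b (fun _ => (1 : ℝ))
  simp only [sum_const, nsmul_eq_mul, mul_one] at h
  rw [h]
  refine sum_congr rfl fun k _ => ?_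
  rw [card_Lk s r hab k]
  push_cast
  rfl

theorem bath_shift (s : ι → ℕ) {a b : ι} (hab : a ≠ b) :
    bath (up (dn s a) b) a b = bath s a b := by
  funext q
  unfold bath
  by_cases h1 : q = b
  · subst h1; simp
  · rw [Function.update_of_ne h1, Function.update_of_ne h1]
    by_cases h2 : q = a
    · subst h2; simp
    · rw [Function.update_of_ne h2, Function.update_of_ne h2, up_ne _ h1, dn_ne _ h2]

theorem bath_dn (s : ι → ℕ) (a b : ι) : bath (dn s a) a b = bath s a b := by
  funext q
  unfold bath
  by_cases h1 : q = b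
  · subst h1; simp
  · rw [Function.update_of_ne h1, Function.update_of_ne h1]
    by_cases h2 : q = a
    · subst h2; simp
    · rw [Function.update_of_ne h2, Function.update_of_ne h2, dn_ne _ h2]

theorem sum_shift (s : ι → ℕ) {a b : ι} (ha : 1 ≤ s a) : ∑ q, up (dn s a) b q = ∑ q, s q := by
  rw [sum_up]; exact sum_dn ha

theorem wk_slc (s : ι → ℕ) (r : ℕ) (a b : ι) (i j : ℕ) (hij : i ≤ j) :
    (wk s r a b i : ℝ) * wk s r a b (j + 1) ≤ wk s r a b (i + 1) * wk s r a b j := by
  unfold wk
  by_cases h : j + 1 ≤ r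
  · rw [if_pos (by omega), if_pos h, if_pos (by omega), if_pos (by omega)]
    have h1 := lev_slc (bath s a b) (i := r - (j + 1)) (j := r - (i + 1)) (by omega)
    have e1 : r - (i + 1) + 1 = r - i := by omega
    have e2 : r - (j + 1) + 1 = r - j := by omega
    rw [e1, e2] at h1
    have h2 : ((lev (bath s a b) (r - (j + 1))).card * (lev (bath s a b) (r - i)).card : ℝ) ≤
      ((lev (bath s a b) (r - j)).card * (lev (bath s a b) (r - (i + 1))).card : ℝ) := by
      exact_mod_cast h1
    linarith
  · rw [if_neg h]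
    simp only [Nat.cast_zero, mul_zero]
    positivity

theorem sum_bath (s : ι → ℕ) {a b : ι} (hab : a ≠ b) :
    ∑ q, bath s a b q + s a + s b = ∑ q, s q := by
  unfold bath
  have h1 : ∑ q, Function.update (Function.update s a 0) b 0 q + s b =
      ∑ q, Function.update s a 0 q := by
    rw [sum_update_of_mem (mem_univ b), ← erase_eq,
      ← add_sum_erase univ (Function.update s a 0) (mem_univ b), Function.update_of_ne hab.symm]
    ring
  have h2 : ∑ q, Function.update s a 0 q + s a = ∑ q, s q := by
    rw [sum_update_of_mem (mem_univ a), ← erase_eq, ← add_sum_erase univ s (mem_univ a)]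
    ring
  omega

theorem wk_dom (s : ι → ℕ) (r : ℕ) {a b : ι} (hab : a ≠ b) (hr : 2 * r + 1 ≤ ∑ q, s q)
    (k k' : ℕ) (hk : k ≤ k') (hkk : s a + s b ≤ k + k' + 1) :
    (wk s r a b k' : ℝ) ≤ wk s r a b k := by
  unfold wk
  by_cases h : k' ≤ r
  · rw [if_pos h, if_pos (by omega)]
    have hb := sum_bath s hab
    exact_mod_cast lev_mono (bath s a b) (i := r - k') (j := r - k) (by omega) (by omega)
  · rw [if_neg h]
    simp only [Nat.cast_zero]
    positivity

theorem tz_eq_zero {α β k : ℕ} (h : α + β + 1 ≤ k) : tz α β k = 0 := by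
  unfold tz; omega

theorem tz_pos {α β k : ℕ} (h : k ≤ α + β) : 1 ≤ tz α β k := by
  unfold tz; omega

theorem av_eq_sum (s : ι → ℕ) (r : ℕ) {a b : ι} (hab : a ≠ b) (f : (ι → ℕ) → ℝ) :
    ∑ x ∈ lev s r, f x =
      ∑ k ∈ range (s a + s b + 1), (tz (s a) (s b) k : ℝ) * wk s r a b k * av (Lk s r a b k) f := by
  rw [sum_Lk s r a b f]
  refine sum_congr rfl fun k _ => ?_
  rw [← card_mul_av, card_Lk s r hab k]
  push_cast
  rfl

theorem w1_aux (s : ι → ℕ) (r : ℕ) {a b : ι} (hab : a ≠ b) (ha : 1 ≤ s a) (hs : s a ≤ s b + 1)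
    (hr : 2 * r + 1 ≤ ∑ q, s q) (f : (ι → ℕ) → ℝ) (hf : LipOn (lev (up s b) r) 1 f) :
    |av (lev s r) f - av (lev (up (dn s a) b) r) f| ≤ 1999 / 2000 := by
  set s' := up (dn s a) b with hs'
  have hs'a : s' a = s a - 1 := by rw [hs', up_ne _ hab, dn_same]
  have hs'b : s' b = s b + 1 := by rw [hs', up_same, dn_ne _ hab.symm]
  have hdn : dn s' b = dn s a := by rw [hs', dn_up]
  have hsum' : ∑ q, s' q = ∑ q, s q := sum_shift s ha
  have hwk : ∀ k, wk s' r a b k = wk s r a b k := by
    intro k; unfold wk; rw [hs', bath_shift s hab]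
  have hle1 : ∀ q, s q ≤ up s b q := fun q => by
    by_cases h : q = b
    · subst h; rw [up_same]; omega
    · rw [up_ne _ h]
  have hle2 : ∀ q, s' q ≤ up s b q := fun q => by
    by_cases h : q = b
    · subst h; rw [up_same, hs'b]
    · rw [up_ne _ h, hs', up_ne _ h]
      by_cases h2 : q = a
      · subst h2; rw [dn_same]; omega
      · rw [dn_ne _ h2]
  have hfA : LipOn (lev s r) 1 f := hf.mono (lev_mono_box hle1 r)
  have hfB : LipOn (lev s' r) 1 f := hf.mono (lev_mono_box hle2 r)
  by_cases hD : Dq s' r b ≤ 1 / 4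
  · have h1 := (cap_diff s r a ha (by omega) f hfA).trans
      (Dq_le_half s r a (by omega))
    have h2 := (cap_diff s' r b (by omega) (by omega) f hfB).trans hD
    rw [hdn] at h2
    rw [abs_le] at h1 h2 ⊢
    constructor <;> linarith [h1.1, h1.2, h2.1, h2.2]
  · push Not at hD
    -- sizes
    set α := s a with hα
    set β := s b with hβ
    set w : ℕ → ℝ := fun k => (wk s r a b k : ℝ) with hw
    have hw0 : ∀ k, 0 ≤ w k := fun k => by simp only [hw]; positivity
    set ZA := ∑ k ∈ range (α + β + 1), (tz α β k : ℝ) * w k with hZA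
    set ZB := ∑ k ∈ range (α + β + 1), (tz (α - 1) (β + 1) k : ℝ) * w k with hZB
    have hcardA : ((lev s r).card : ℝ) = ZA := card_lev_eq s r hab
    have hrange : α - 1 + (β + 1) + 1 = α + β + 1 := by omega
    have hcardB : ((lev s' r).card : ℝ) = ZB := by
      rw [card_lev_eq s' r hab, hs'a, hs'b, hrange]
      exact sum_congr rfl fun k _ => by rw [hwk]
    have hZApos : 0 < ZA := by
      rw [← hcardA]
      have := card_pos.2 (lev_nonempty (s := s) (r := r) (by omega))
      positivity
    have hZBpos : 0 < ZB := by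
      rw [← hcardB]
      have := card_pos.2 (lev_nonempty (s := s') (r := r) (by omega))
      positivity
    -- hbig
    have hKcard : ((Kc s' r b (s' b)).card : ℝ) + ((lev (dn s' b) r).card : ℝ) =
        ((lev s' r).card : ℝ) := by
      have h1 : lev (dn s' b) r = (lev s' r).filter (fun x => ¬ x b = s' b) := by
        ext x
        rw [mem_filter, mem_lev, mem_lev]
        constructor
        · rintro ⟨h1, h2⟩
          have hb := h1 b
          rw [dn_same] at hb
          refine ⟨⟨fun q => ?_, h2⟩, by omega⟩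
          by_cases hq : q = b
          · subst hq; omega
          · have := h1 q; rwa [dn_ne _ hq] at this
        · rintro ⟨⟨h1, h2⟩, h3⟩
          refine ⟨fun q => ?_, h2⟩
          by_cases hq : q = b
          · subst hq; rw [dn_same]; have := h1 q; omega
          · rw [dn_ne _ hq]; exact h1 q
      rw [h1]
      unfold Kc
      exact_mod_cast card_filter_add_card_filter_not (s := lev s' r) (fun x => x b = s' b)
    have hcardC : ((lev (dn s' b) r).card : ℝ) =
        ∑ k ∈ range (α + β + 1), (tz (α - 1) β k : ℝ) * w k := by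
      rw [hdn, card_lev_eq (dn s a) r hab, dn_same, dn_ne _ hab.symm, ← hα, ← hβ]
      have hww : ∀ k, wk (dn s a) r a b k = wk s r a b k := by
        intro k; unfold wk; rw [bath_dn]
      have e1 : α + β + 1 = (α - 1 + β + 1) + 1 := by omega
      have e2 : ∑ k ∈ range (α + β + 1), (tz (α - 1) β k : ℝ) * w k =
          ∑ k ∈ range (α - 1 + β + 1), (tz (α - 1) β k : ℝ) * w k := by
        rw [e1, sum_range_succ, tz_eq_zero (k := α - 1 + β + 1) le_rfl]
        simp only [Nat.cast_zero, zero_mul, add_zero]
      rw [e2]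
      exact sum_congr rfl fun k _ => by rw [hww]
    have hE : ((Kc s' r b (s' b)).card : ℝ) = ∑ i ∈ range α, w (β + 1 + i) := by
      have h1 : ((Kc s' r b (s' b)).card : ℝ) =
          ∑ k ∈ range (α + β + 1), ((tz (α - 1) (β + 1) k : ℝ) - tz (α - 1) β k) * w k := by
        simp only [sub_mul, sum_sub_distrib]
        rw [← hZB, ← hcardB, ← hcardC]
        linarith
      rw [h1]
      have e1 : α + β + 1 = (β + 1) + α := by ring
      rw [e1, sum_range_add]
      have e2 : ∑ k ∈ range (β + 1), ((tz (α - 1) (β + 1) k : ℝ) - tz (α - 1) β k) * w k = 0 := by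
        refine sum_eq_zero fun k hk => ?_
        rw [mem_range] at hk
        have : tz (α - 1) (β + 1) k = tz (α - 1) β k := by unfold tz; omega
        rw [this]; ring
      rw [e2, zero_add]
      refine sum_congr rfl fun i hi => ?_
      rw [mem_range] at hi
      have : tz (α - 1) (β + 1) (β + 1 + i) = tz (α - 1) β (β + 1 + i) + 1 := by
        unfold tz; omega
      rw [this]; push_cast; ring
    have hbig : ZB ≤ 4 * ((β : ℝ) + 1) * ∑ i ∈ range α, w (β + 1 + i) := by
      rw [← hE]
      unfold Dq at hD
      have hC0 : 0 < ((lev (dn s' b) r).card : ℝ) := by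
        have h1 : r ≤ ∑ q, dn s' b q := by
          have := sum_dn (x := s') (a := b) (by omega)
          omega
        have := card_pos.2 (lev_nonempty h1)
        positivity
      have hsumK : ∑ j ∈ range (s' b), ((Kc s' r b j).card : ℝ) ≤
          ((lev (dn s' b) r).card : ℝ) := by
        have : ∑ j ∈ range (s' b), (Kc s' r b j).card ≤ (lev (dn s' b) r).card := by
          rw [← card_biUnion]
          · apply card_le_card
            intro x hx
            rw [mem_biUnion] at hx
            obtain ⟨j, hj, hx⟩ := hx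
            unfold Kc at hx
            rw [mem_filter, mem_lev] at hx
            rw [mem_range] at hj
            rw [mem_lev]
            refine ⟨fun q => ?_, hx.1.2⟩
            by_cases hq : q = b
            · subst hq; rw [dn_same]; omega
            · rw [dn_ne _ hq]; exact hx.1.1 q
          · intro i _ j _ hij
            rw [Function.onFun, disjoint_left]
            intro x hx hx'
            unfold Kc at hx hx'
            rw [mem_filter] at hx hx'
            exact hij (hx.2.symm.trans hx'.2)
        exact_mod_cast this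
      have hm : ∑ j ∈ range (s' b), ((s' b : ℝ) - j) * ((Kc s' r b j).card : ℝ) ≤
          (s' b : ℝ) * ((lev (dn s' b) r).card : ℝ) := by
        calc _ ≤ ∑ j ∈ range (s' b), (s' b : ℝ) * ((Kc s' r b j).card : ℝ) := by
              refine sum_le_sum fun j _ => ?_
              have : (0 : ℝ) ≤ j := by positivity
              have h2 : (0 : ℝ) ≤ (Kc s' r b j).card := by positivity
              nlinarith
          _ = (s' b : ℝ) * ∑ j ∈ range (s' b), ((Kc s' r b j).card : ℝ) := by rw [mul_sum]
          _ ≤ _ := mul_le_mul_of_nonneg_left hsumK (by positivity)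
      have hm2 : (∑ j ∈ range (s' b), ((s' b : ℝ) - j) * ((Kc s' r b j).card : ℝ)) /
          ((lev (dn s' b) r).card : ℝ) ≤ s' b := by
        rw [div_le_iff₀ hC0]; exact hm
      have hk0 : 0 ≤ ((Kc s' r b (s' b)).card : ℝ) / ((lev s' r).card : ℝ) := by positivity
      have h3 : (1 : ℝ) / 4 < ((Kc s' r b (s' b)).card : ℝ) / ((lev s' r).card : ℝ) * (s' b) :=
        lt_of_lt_of_le hD (mul_le_mul_of_nonneg_left hm2 hk0)
      rw [hcardB] at h3
      have h4 : (s' b : ℝ) = (β : ℝ) + 1 := by rw [hs'b]; push_cast; rfl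
      rw [h4, div_mul_eq_mul_div, lt_div_iff₀ hZBpos] at h3
      linarith
    -- the two averages
    have hAf : ∀ g : (ι → ℕ) → ℝ, av (lev s r) g = (∑ k ∈ range (α + β + 1),
        (tz α β k : ℝ) * w k * av (Lk s r a b k) g) / ZA := by
      intro g; unfold av; rw [hcardA]; congr 1
      exact av_eq_sum s r hab g
    have hBf : ∀ g : (ι → ℕ) → ℝ, av (lev s' r) g = (∑ k ∈ range (α + β + 1),
        (tz (α - 1) (β + 1) k : ℝ) * w k * av (Lk s' r a b k) g) / ZB := by
      intro g; unfold av; rw [hcardB]; congr 1
      have := av_eq_sum s' r hab g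
      rw [hs'a, hs'b, hrange] at this
      rw [this]
      exact sum_congr rfl fun k _ => by rw [hwk]; rfl
    -- one-sided bound for every Lipschitz function
    have main : ∀ g : (ι → ℕ) → ℝ, LipOn (lev (up s b) r) 1 g →
        av (lev s r) g - av (lev s' r) g ≤ 1999 / 2000 := by
      intro g hg
      obtain ⟨hh, hlip, heq⟩ := Lk_lip s' r hab g (hg.mono (lev_mono_box hle2 r))
      have hne : ∀ k, k ≤ α + β → w k ≠ 0 → hh k = av (Lk s' r a b k) g := by
        intro k hk hwne
        apply heq
        rw [← card_pos, card_Lk s' r hab k, hwk, hs'a, hs'b]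
        have h1 : 1 ≤ tz (α - 1) (β + 1) k := tz_pos (by omega)
        have h2 : wk s r a b k ≠ 0 := by
          intro h0; apply hwne; simp only [hw, h0, Nat.cast_zero]
        have := Nat.pos_of_ne_zero h2
        positivity
      have hB' : av (lev s' r) g = (∑ k ∈ range (α + β + 1),
        (tz (α - 1) (β + 1) k : ℝ) * w k * hh k) / ZB := by
        rw [hBf]
        congr 1
        refine sum_congr rfl fun k hk => ?_
        rw [mem_range] at hk
        by_cases h0 : w k = 0
        · rw [h0]; ring
        · rw [hne k (by omega) h0]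
      have hone := one_dim α β ha hs w hw0 (fun i j hij => wk_slc s r a b i j hij)
        (fun k k' h1 h2 => wk_dom s r hab hr k k' h1 h2) hh hlip hbig
      rw [← hZA, ← hZB] at hone
      -- internal part
      have hint : (∑ k ∈ range (α + β + 1), (tz α β k : ℝ) * w k * av (Lk s r a b k) g)
          - (∑ k ∈ range (α + β + 1), (tz α β k : ℝ) * w k * hh k) ≤ 1 / 2 * ZA := by
        refine le_trans ?_ (internal_half α β hs w
          (fun k k' h1 h2 => wk_dom s r hab hr k k' h1 h2))
        rw [← sum_sub_distrib]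
        have hsplit : range (α + β + 1) = range α ∪ (Icc α β ∪ Icc (β + 1) (α + β)) := by
          ext k; simp only [mem_range, mem_union, mem_Icc]; omega
        have hd1 : Disjoint (range α) (Icc α β ∪ Icc (β + 1) (α + β)) := by
          rw [disjoint_left]; intro k; simp only [mem_range, mem_union, mem_Icc]; omega
        have hd2 : Disjoint (Icc α β) (Icc (β + 1) (α + β)) := by
          rw [disjoint_left]; intro k; simp only [mem_Icc]; omega
        rw [hsplit, sum_union hd1, sum_union hd2]
        have e1 : ∑ k ∈ range α, ((tz α β k : ℝ) * w k * av (Lk s r a b k) g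
            - (tz α β k : ℝ) * w k * hh k) = 0 := by
          refine sum_eq_zero fun k hk => ?_
          rw [mem_range] at hk
          by_cases h0 : w k = 0
          · rw [h0]; ring
          · rw [hne k (by omega) h0, internal_lt s r hab ha hs g hk]
            ring
        rw [e1, zero_add]
        refine add_le_add (sum_le_sum fun k hk => ?_) (sum_le_sum fun k hk => ?_)
        · rw [mem_Icc] at hk
          have hn : 0 ≤ (tz α β k : ℝ) * w k := mul_nonneg (by positivity) (hw0 k)
          by_cases h0 : w k = 0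
          · rw [h0]; simp
          · rw [hne k (by omega) h0]
            have := (abs_le.1 (internal_mid s r hab ha g hg hk.1 hk.2)).2
            rw [← mul_sub]
            calc _ ≤ (tz α β k : ℝ) * w k * (1 / 2) := mul_le_mul_of_nonneg_left this hn
              _ = _ := by ring
        · rw [mem_Icc] at hk
          have hn : 0 ≤ (tz α β k : ℝ) * w k := mul_nonneg (by positivity) (hw0 k)
          by_cases h0 : w k = 0
          · rw [h0]; simp
          · rw [hne k (by omega) h0]
            have := (abs_le.1 (internal_top s r hab ha hs g hg hk.1)).2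
            rw [← mul_sub]
            calc _ ≤ (tz α β k : ℝ) * w k * 1 := mul_le_mul_of_nonneg_left this hn
              _ = _ := by ring
      rw [hAf, hB']
      set P := ∑ k ∈ range (α + β + 1), (tz α β k : ℝ) * w k * av (Lk s r a b k) g
      set Q := ∑ k ∈ range (α + β + 1), (tz α β k : ℝ) * w k * hh k
      set R := ∑ k ∈ range (α + β + 1), (tz (α - 1) (β + 1) k : ℝ) * w k * hh k
      have h5 : P / ZA - R / ZB = (P - Q) / ZA + (Q * ZB - R * ZA) / (ZA * ZB) := by
        field_simp
        ring
      rw [h5]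
      have h6 : (P - Q) / ZA ≤ 1 / 2 := by rw [div_le_iff₀ hZApos]; exact hint
      have h7 : (Q * ZB - R * ZA) / (ZA * ZB) ≤ 1 / 2 - 1 / 2000 := by
        rw [div_le_iff₀ (mul_pos hZApos hZBpos)]; exact hone
      linarith
    rw [abs_le]
    constructor
    · have := main (fun x => - f x) hf.neg
      rw [av_neg, av_neg] at this
      linarith
    · exact main f hf

theorem w1_contract (s : ι → ℕ) (r : ℕ) {a b : ι} (hab : a ≠ b) (ha : 1 ≤ s a)
    (hr : 2 * r + 1 ≤ ∑ q, s q) (f : (ι → ℕ) → ℝ) (hf : LipOn (lev (up s b) r) 1 f) :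
    |av (lev s r) f - av (lev (up (dn s a) b) r) f| ≤ 1999 / 2000 := by
  by_cases hs : s a ≤ s b + 1
  · exact w1_aux s r hab ha hs hr f hf
  · set s' := up (dn s a) b with hs'
    have hs'a : s' a = s a - 1 := by rw [hs', up_ne _ hab, dn_same]
    have hs'b : s' b = s b + 1 := by rw [hs', up_same, dn_ne _ hab.symm]
    have hback : up (dn s' b) a = s := by
      rw [hs', dn_up, up_dn ha]
    have hup : up s' a = up s b := by
      rw [hs', up_comm, up_dn ha]
    have := w1_aux s' r hab.symm (by omega) (by omega) (by rw [hs', sum_shift s ha]; exact hr) f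
      (by rw [hup]; exact hf)
    rw [hback, abs_sub_comm] at this
    exact this

end Vale.Agent.H27.CT
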