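import Vale.Agent.H27.CT.E5

/-!
# Row E6a: Lipschitz contraction on tables
-/

open Finset

namespace Vale.Agent.H27.CT

open Vale.Agent.KTV

section Multi
variable {κ ι : Type*} [Fintype κ] [DecidableEq κ] [Fintype ι] [DecidableEq ι]

/-- residual column sums after removing all rows except `l` and `k` -/
def cres (c : ι → ℕ) (T : κ → ι → ℕ) (l k : κ) (a : ι) : ℕ :=
  c a - ∑ j ∈ univ.filter (fun j => j ≠ l ∧ j ≠ k), T j a

theorem filter_compl_pair {l k : κ} :
    univ.filter (fun j : κ => ¬(j ≠ l ∧ j ≠ k)) = {l, k} := by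
  ext j; simp only [mem_filter, mem_univ, true_and, mem_insert, mem_singleton]; tauto

theorem sum_split_pair {l k : κ} (hlk : l ≠ k) (g : κ → ℕ) :
    ∑ j, g j = g l + g k + ∑ j ∈ univ.filter (fun j => j ≠ l ∧ j ≠ k), g j := by
  rw [← sum_filter_add_sum_filter_not univ (fun j => j ≠ l ∧ j ≠ k) g, filter_compl_pair,
    sum_pair hlk]
  ring

theorem others_le {c : ι → ℕ} {rr : κ → ℕ} (T : {T // T ∈ Om c rr}) (l k : κ) (a : ι) :
    ∑ j ∈ univ.filter (fun j => j ≠ l ∧ j ≠ k), T.1 j a ≤ c a :=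
  (sum_le_sum_of_subset_of_nonneg (filter_subset _ _) fun _ _ _ => Nat.zero_le _).trans
    ((mem_Om.1 T.2).2 a)

theorem cls_le {c : ι → ℕ} {rr : κ → ℕ} {l k : κ} (hlk : l ≠ k) {T U : {T // T ∈ Om c rr}}
    (hU : Ag c rr l k T U) (a : ι) : U.1 l a + U.1 k a ≤ cres c T.1 l k a := by
  have h1 := (mem_Om.1 U.2).2 a
  rw [sum_split_pair hlk (fun j => U.1 j a)] at h1
  have h3 : ∑ j ∈ univ.filter (fun j => j ≠ l ∧ j ≠ k), U.1 j a =
      ∑ j ∈ univ.filter (fun j => j ≠ l ∧ j ≠ k), T.1 j a := by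
    refine sum_congr rfl fun j hj => ?_
    rw [mem_filter] at hj
    rw [hU j hj.2.1 hj.2.2]
  unfold cres
  omega

theorem sum_cres {c : ι → ℕ} {rr : κ → ℕ} {l k : κ} (hlk : l ≠ k) (T : {T // T ∈ Om c rr}) :
    ∑ a, cres c T.1 l k a + ∑ j, rr j = ∑ a, c a + rr l + rr k := by
  have h1 : ∑ j ∈ univ.filter (fun j => j ≠ l ∧ j ≠ k), rr j =
      ∑ a, ∑ j ∈ univ.filter (fun j => j ≠ l ∧ j ≠ k), T.1 j a := by
    rw [sum_comm]
    exact sum_congr rfl fun j _ => ((mem_Om.1 T.2).1 j).symm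
  have h2 : ∑ a, cres c T.1 l k a + ∑ j ∈ univ.filter (fun j => j ≠ l ∧ j ≠ k), rr j =
      ∑ a, c a := by
    rw [h1, ← sum_add_distrib]
    refine sum_congr rfl fun a _ => ?_
    have h2 := others_le T l k a
    unfold cres
    omega
  rw [sum_split_pair hlk rr]
  omega

theorem cls_complete {c : ι → ℕ} {rr : κ → ℕ} {l k : κ} (hlk : l ≠ k)
    (hR : ∀ l, ∑ k, rr k + rr l + 1 ≤ ∑ a, c a) (T : {T // T ∈ Om c rr}) {x : ι → ℕ}
    (hx : x ∈ lev (cres c T.1 l k) (rr k)) :
    ∃ U : {T // T ∈ Om c rr}, Ag c rr l k T U ∧ U.1 k = x := by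
  have hx1 := (mem_lev.1 hx).1
  have hx2 := (mem_lev.1 hx).2
  have hsc := sum_cres hlk T
  have hRl := hR l
  obtain ⟨y, hy⟩ : (lev (fun a => cres c T.1 l k a - x a) (rr l)).Nonempty := by
    have hsum : ∑ a, (cres c T.1 l k a - x a) + ∑ a, x a = ∑ a, cres c T.1 l k a := by
      rw [← sum_add_distrib]
      exact sum_congr rfl fun a _ => by have := hx1 a; omega
    exact lev_nonempty (by omega)
  have hy1 := (mem_lev.1 hy).1
  have hy2 := (mem_lev.1 hy).2
  set U : κ → ι → ℕ := Function.update (Function.update T.1 l y) k x with hU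
  have hUk : U k = x := by rw [hU, Function.update_self]
  have hUl : U l = y := by rw [hU, Function.update_of_ne hlk, Function.update_self]
  have hUj : ∀ j, j ≠ l → j ≠ k → U j = T.1 j := by
    intro j h1 h2; rw [hU, Function.update_of_ne h2, Function.update_of_ne h1]
  have hmem : U ∈ Om c rr := by
    rw [mem_Om]
    constructor
    · intro j
      by_cases h1 : j = k
      · subst h1; rw [hUk]; exact hx2
      · by_cases h2 : j = l
        · subst h2; rw [hUl]; exact hy2
        · rw [hUj j h2 h1]; exact (mem_Om.1 T.2).1 j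
    · intro a
      rw [sum_split_pair hlk (fun j => U j a)]
      have h3 : ∑ j ∈ univ.filter (fun j => j ≠ l ∧ j ≠ k), U j a =
          ∑ j ∈ univ.filter (fun j => j ≠ l ∧ j ≠ k), T.1 j a := by
        refine sum_congr rfl fun j hj => ?_
        rw [mem_filter] at hj
        rw [hUj j hj.2.1 hj.2.2]
      have h4 : y a ≤ cres c T.1 l k a - x a := hy1 a
      have h5 := hx1 a
      have h8 := others_le T l k a
      rw [h3, hUk, hUl]
      unfold cres at h4 h5
      omega
  exact ⟨⟨U, hmem⟩, fun j h1 h2 => (hUj j h1 h2).symm, hUk⟩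

theorem sec_eq_cres {c : ι → ℕ} {rr : κ → ℕ} {l k : κ} (hlk : l ≠ k)
    (T : {T // T ∈ Om c rr}) (a : ι) : sec c T.1 k a = cres c T.1 l k a - T.1 l a := by
  have h1 : ∑ j ∈ univ.erase k, T.1 j a =
      T.1 l a + ∑ j ∈ univ.filter (fun j => j ≠ l ∧ j ≠ k), T.1 j a := by
    have h2 := sum_split_pair hlk (fun j => T.1 j a)
    have h3 := add_sum_erase univ (fun j => T.1 j a) (mem_univ k)
    omega
  unfold sec cres
  rw [h1]
  omega

/-- the average over row `k` as an average over a level -/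
theorem avg_eq_av {c : ι → ℕ} {rr : κ → ℕ} (k : κ) (f : {T // T ∈ Om c rr} → ℝ)
    (T : {T // T ∈ Om c rr}) (ψ : (ι → ℕ) → ℝ)
    (hψ : ∀ U : {T // T ∈ Om c rr}, Ag c rr k k T U → ψ (U.1 k) = f U) :
    avg (Ag c rr k k) f T = av (lev (sec c T.1 k) (rr k)) ψ := by
  have hmem : ∀ U : {T // T ∈ Om c rr}, Ag c rr k k T U → U.1 k ∈ lev (sec c T.1 k) (rr k) := by
    intro U hU
    have h1 : Function.update T.1 k (U.1 k) = U.1 := by
      funext j
      by_cases h : j = k
      · subst h; rw [Function.update_self]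
      · rw [Function.update_of_ne h]; exact hU j h h
    rw [← upd_mem T.2 k, h1]
    exact U.2
  have hinj : ∀ U V : {T // T ∈ Om c rr}, Ag c rr k k T U → Ag c rr k k T V →
      U.1 k = V.1 k → U = V := by
    intro U V hU hV h
    apply Subtype.ext
    funext j
    by_cases hj : j = k
    · subst hj; exact h
    · rw [← hU j hj hj, ← hV j hj hj]
  have hsurj : ∀ x ∈ lev (sec c T.1 k) (rr k), ∃ U : {T // T ∈ Om c rr}, Ag c rr k k T U ∧
      U.1 k = x := by
    intro x hx
    refine ⟨⟨Function.update T.1 k x, (upd_mem T.2 k x).2 hx⟩, fun j hj _ => ?_, ?_⟩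
    · simp only [Function.update_of_ne hj]
    · simp only [Function.update_self]
  have himg : lev (sec c T.1 k) (rr k) = (cls (Ag c rr k k) T).image (fun U => U.1 k) := by
    ext x
    rw [mem_image]
    constructor
    · intro hx
      obtain ⟨U, h1, h2⟩ := hsurj x hx
      exact ⟨U, mem_cls.2 h1, h2⟩
    · rintro ⟨U, h1, rfl⟩
      exact hmem U (mem_cls.1 h1)
  unfold avg av
  rw [himg, sum_image, card_image_of_injOn]
  · congr 1
    exact sum_congr rfl fun U hU => (hψ U (mem_cls.1 hU)).symm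
  · intro U hU V hV h
    exact hinj U V (mem_cls.1 hU) (mem_cls.1 hV) h
  · intro U hU V hV h
    exact hinj U V (mem_cls.1 hU) (mem_cls.1 hV) h

theorem av_smul (S : Finset (ι → ℕ)) (t : ℝ) (f : (ι → ℕ) → ℝ) :
    av S (fun x => t * f x) = t * av S f := by
  unfold av; rw [← mul_sum, mul_div_assoc]

theorem w1_contract_scaled (s : ι → ℕ) (r : ℕ) {a b : ι} (hab : a ≠ b) (ha : 1 ≤ s a)
    (hr : 2 * r + 1 ≤ ∑ q, s q) (f : (ι → ℕ) → ℝ) {L : ℝ} (hL : 0 ≤ L)
    (hf : LipOn (lev (up s b) r) L f) :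
    |av (lev s r) f - av (lev (up (dn s a) b) r) f| ≤ 1999 / 2000 * L := by
  -- for every `L' > L` scale by `L'`
  have key : ∀ L' : ℝ, L < L' →
      |av (lev s r) f - av (lev (up (dn s a) b) r) f| ≤ 1999 / 2000 * L' := by
    intro L' hL'
    have hpos : 0 < L' := by linarith
    have h1 := w1_contract s r hab ha hr (fun x => L'⁻¹ * f x) (by
      intro x hx p q hp hq
      have := hf x hx p q hp hq
      rw [← mul_sub, abs_mul, abs_of_pos (inv_pos.2 hpos), inv_mul_le_iff₀ hpos]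
      linarith)
    rw [av_smul, av_smul, ← mul_sub, abs_mul, abs_of_pos (inv_pos.2 hpos),
      inv_mul_le_iff₀ hpos] at h1
    linarith
  by_contra hcon
  push Not at hcon
  set X := |av (lev s r) f - av (lev (up (dn s a) b) r) f|
  have := key ((X * (2000 / 1999) + L) / 2) (by linarith)
  linarith

theorem lip_step (c : ι → ℕ) (rr : κ → ℕ) {l k : κ} (hlk : l ≠ k)
    (hR : ∀ l, ∑ k, rr k + rr l + 1 ≤ ∑ a, c a) (f : {T // T ∈ Om c rr} → ℝ)
    (hinv : ∀ x y, Ag c rr l l x y → f x = f y) {L : ℝ} (hL0 : 0 ≤ L) (hL : LipR c rr l k L f) :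
    LipR c rr k l (1999 / 2000 * L) (avg (Ag c rr k k) f) := by
  classical
  intro T T' hTT a b ha hT'
  by_cases hab : a = b
  · -- the move is trivial
    have h1 : T'.1 l = T.1 l := by rw [hT', ← hab, up_dn ha]
    have h2 : Ag c rr k k T T' := by
      intro j hj _
      by_cases h : j = l
      · subst h; exact h1.symm
      · exact hTT j hj h
    rw [avg_congr (Ag_equiv c rr k k) f h2, sub_self, abs_zero]
    positivity
  have hTT' : Ag c rr l k T T' := fun j h1 h2 => hTT j h2 h1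
  set c' := cres c T.1 l k with hc'
  have hcres : cres c T'.1 l k = c' := by
    funext q
    unfold c' cres
    congr 1
    refine sum_congr rfl fun j hj => ?_
    rw [mem_filter] at hj
    rw [hTT' j hj.2.1 hj.2.2]
  -- the common function
  have hex : ∀ x : ι → ℕ, ∃ v : ℝ, x ∈ lev c' (rr k) →
      ∃ U : {T // T ∈ Om c rr}, Ag c rr l k T U ∧ U.1 k = x ∧ f U = v := by
    intro x
    by_cases hx : x ∈ lev c' (rr k)
    · obtain ⟨U, h1, h2⟩ := cls_complete hlk hR T hx
      exact ⟨f U, fun _ => ⟨U, h1, h2, rfl⟩⟩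
    · exact ⟨0, fun h => absurd h hx⟩
  choose ψ hψ using hex
  have hdep : ∀ U U' : {T // T ∈ Om c rr}, Ag c rr l k T U → Ag c rr l k T U' →
      U.1 k = U'.1 k → f U = f U' := by
    intro U U' h1 h2 h3
    apply hinv
    intro j hj _
    by_cases hjk : j = k
    · rw [hjk]; exact h3
    · rw [← h1 j hj hjk, ← h2 j hj hjk]
  have hψval : ∀ U : {T // T ∈ Om c rr}, Ag c rr l k T U → ψ (U.1 k) = f U := by
    intro U hU
    have hmem : U.1 k ∈ lev c' (rr k) := mem_lev.2
      ⟨fun q => (Nat.le_add_left _ _).trans (cls_le hlk hU q), (mem_Om.1 U.2).1 k⟩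
    obtain ⟨V, h1, h2, h3⟩ := hψ _ hmem
    rw [← h3]
    exact hdep V U h1 hU h2
  have hlip : LipOn (lev c' (rr k)) L ψ := by
    intro x hx p q hp hq
    obtain ⟨U, h1, h2, h3⟩ := hψ _ hx
    obtain ⟨V, g1, g2, g3⟩ := hψ _ hq
    rw [← h3, ← g3]
    refine hL U V (fun j j1 j2 => by rw [← h1 j j1 j2, ← g1 j j1 j2]) p q (by rw [h2]; exact hp) ?_
    rw [h2, g2]
  -- sections
  set s := sec c T.1 k with hs
  have hsa : ∀ q, s q = c' q - T.1 l q := fun q => sec_eq_cres hlk T q
  have hs'a : ∀ q, sec c T'.1 k q = c' q - T'.1 l q := fun q => by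
    rw [sec_eq_cres hlk T' q, hcres]
  have hle : ∀ q, T.1 l q ≤ c' q := fun q =>
    (Nat.le_add_right _ _).trans (cls_le hlk (T := T) (U := T) (fun _ _ _ => rfl) q)
  have hle' : ∀ q, T'.1 l q ≤ c' q := fun q =>
    (Nat.le_add_right _ _).trans (cls_le hlk hTT' q)
  have hb1 : T'.1 l b = T.1 l b + 1 := by
    rw [hT', up_same, dn_ne _ (Ne.symm hab)]
  have ha1 : T'.1 l a + 1 = T.1 l a := by
    rw [hT', up_ne _ hab, dn_same]; omega
  have hsec' : sec c T'.1 k = up (dn s b) a := by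
    funext q
    rw [hs'a]
    by_cases h1 : q = a
    · subst h1
      rw [up_same, dn_ne _ hab, hsa]
      have := hle q; omega
    · rw [up_ne _ h1]
      by_cases h2 : q = b
      · subst h2; rw [dn_same, hsa]; omega
      · rw [dn_ne _ h2, hsa, hT', up_ne _ h2, dn_ne _ h1]
  have hsb : 1 ≤ s b := by
    rw [hsa]; have := hle' b; omega
  have hsum : 2 * rr k + 1 ≤ ∑ q, s q := by
    have h1 := sum_sec T.2 k
    have h2 := hR k
    rw [← hs] at h1
    omega
  have hsub : lev (up s a) (rr k) ⊆ lev c' (rr k) := by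
    apply lev_mono_box
    intro q
    by_cases h1 : q = a
    · subst h1; rw [up_same, hsa]; have := hle q; omega
    · rw [up_ne _ h1, hsa]; omega
  have hfin := w1_contract_scaled s (rr k) (Ne.symm hab) hsb hsum ψ hL0 (hlip.mono hsub)
  have e1 : avg (Ag c rr k k) f T = av (lev s (rr k)) ψ :=
    avg_eq_av k f T ψ (fun U hU => hψval U (fun j h1 h2 => hU j h2 h2))
  have e2 : avg (Ag c rr k k) f T' = av (lev (up (dn s b) a) (rr k)) ψ := by
    rw [avg_eq_av k f T' ψ (fun U hU => hψval U (fun j h1 h2 => by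
      rw [hTT' j h1 h2]; exact hU j h2 h2)), hsec']
  rw [e1, e2]
  exact hfin

end Multi

end Vale.Agent.H27.CT
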