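import Vale.Agent.H27.CT.C1

/-!
# Row E6b: two projections, averages of projections
-/

open Finset

namespace Vale.Agent.H27.CT

open Vale.Agent.KTV

section
variable {Ω : Type*} [Fintype Ω]

theorem quad_le_of_eigen (A : (Ω → ℝ) →ₗ[ℝ] (Ω → ℝ)) (hA : ∀ f g, ip (A f) g = ip f (A g))
    {c : ℝ} (h : ∀ (v : Ω → ℝ) (μ : ℝ), v ≠ 0 → A v = μ • v → μ ≤ c) (f : Ω → ℝ) :
    ip f (A f) ≤ c * ip f f := by
  obtain ⟨e, μ, h1, h2, h3⟩ := spectral A hA
  obtain ⟨k1, k2, -⟩ := spectral_forms A h1 h2 h3 f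
  rw [k1, k2, mul_sum]
  refine sum_le_sum (fun i _ => ?_)
  apply mul_le_mul_of_nonneg_right _ (sq_nonneg _)
  apply h (e i) (μ i) _ (h1 i)
  intro h0
  have := h2 i i
  rw [h0] at this
  simp [ip] at this

theorem ip_self_eq (f : Ω → ℝ) : ip f f = ∑ x, f x ^ 2 := by
  unfold ip; exact sum_congr rfl fun x _ => by ring

theorem sub_avg_sq {r : Ω → Ω → Prop} (hr : Equivalence r) (F : Ω → ℝ) :
    ∑ x, (F x - avg r F x) ^ 2 = ∑ x, F x ^ 2 - ∑ x, avg r F x ^ 2 := by
  have := pyth hr F (θ := fun _ => 0) (fun _ _ _ => rfl)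
  simp only [sub_zero] at this
  linarith

theorem ip_avg_self {r : Ω → Ω → Prop} (hr : Equivalence r) (F : Ω → ℝ) :
    ip F (avg r F) = ∑ x, avg r F x ^ 2 := by
  rw [← ip_self_eq, ip_avg hr, avg_idem hr]

theorem sq_add_le_aux {a b u v : Ω → ℝ} (h : ∀ x, u x = a x + b x) :
    ∑ x, u x ^ 2 ≤ 2 * (∑ x, a x ^ 2 + ∑ x, b x ^ 2) := by
  rw [mul_add, mul_sum, mul_sum, ← sum_add_distrib]
  refine sum_le_sum fun x _ => ?_
  rw [h]
  nlinarith [sq_nonneg (a x - b x)]

end

theorem two_proj {Ω : Type*} [Fintype Ω] {r1 r2 r12 : Ω → Ω → Prop} (h1 : Equivalence r1)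
    (h2 : Equivalence r2) (h12 : Equivalence r12) (hr1 : ∀ x y, r1 x y → r12 x y)
    (hr2 : ∀ x y, r2 x y → r12 x y) {θ : ℝ} (hθ0 : 0 ≤ θ) (hθ : θ < 1)
    (heig : ∀ (f : Ω → ℝ) (μ : ℝ), f ≠ 0 → (∀ x y, r1 x y → f x = f y) → avg r12 f = 0 →
      avg r1 (avg r2 f) = μ • f → μ ≤ θ) (F : Ω → ℝ) :
    ∑ x, (F x - avg r12 F x) ^ 2 ≤
      (3 / (1 - θ)) * (∑ x, (F x - avg r1 F x) ^ 2 + ∑ x, (F x - avg r2 F x) ^ 2) := by
  -- the self-adjoint operator
  set A : (Ω → ℝ) →ₗ[ℝ] (Ω → ℝ) := (avgL r1 ∘ₗ avgL r2 ∘ₗ avgL r1) - avgL r12 with hAdef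
  have hAapp : ∀ f, A f = avg r1 (avg r2 (avg r1 f)) - avg r12 f := fun f => rfl
  have hA : ∀ f g, ip (A f) g = ip f (A g) := by
    intro f g
    rw [hAapp, hAapp, ip_sub_left, ip_sub_right, ip_avg h1, ip_avg h2, ip_avg h1, ip_avg h12]
  have e12_1 : ∀ f, avg r12 (avg r1 f) = avg r12 f := fun f => avg_avg_of_le' h12 h1 hr1 f
  have e12_2 : ∀ f, avg r12 (avg r2 f) = avg r12 f := fun f => avg_avg_of_le' h12 h2 hr2 f
  have hquad : ∀ f, ip f (A f) ≤ θ * ip f f := by
    apply quad_le_of_eigen A hA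
    intro v μ hv hμ
    by_cases h0 : μ = 0
    · rw [h0]; exact hθ0
    · have k1 : avg r12 (A v) = 0 := by
        rw [hAapp, avg_sub, e12_1, e12_2, e12_1, avg_idem h12, sub_self]
      rw [hμ, avg_smul] at k1
      have k2 : avg r12 v = 0 := by
        rcases smul_eq_zero.1 k1 with h | h
        · exact absurd h h0
        · exact h
      have k3 : avg r1 (avg r2 (avg r1 v)) = μ • v := by
        have := hμ
        rw [hAapp, k2, sub_zero] at this
        exact this
      have k4 : ∀ x y, r1 x y → v x = v y := by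
        intro x y hxy
        have e1 : v = μ⁻¹ • avg r1 (avg r2 (avg r1 v)) := by
          rw [k3, smul_smul, inv_mul_cancel₀ h0, one_smul]
        rw [e1]
        simp only [Pi.smul_apply]
        rw [avg_congr h1 _ hxy]
      rw [avg_of_inv h1 k4] at k3
      exact heig v μ hv k4 k2 k3
  -- reduce to `avg r12 F = 0`
  have key : ∀ G : Ω → ℝ, avg r12 G = 0 → ∑ x, G x ^ 2 ≤
      (3 / (1 - θ)) * (∑ x, (G x - avg r1 G x) ^ 2 + ∑ x, (G x - avg r2 G x) ^ 2) := by
    intro G hG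
    set P := avg r1 G with hP
    have hP12 : avg r12 P = 0 := by rw [hP, e12_1, hG]
    have hPinv : ∀ x y, r1 x y → P x = P y := fun x y h => avg_congr h1 G h
    have q1 : ip P (A P) = ∑ x, avg r2 P x ^ 2 := by
      rw [hAapp, hP12, sub_zero, ← ip_avg h1, avg_of_inv h1 hPinv, ip_avg_self h2]
    have q2 := hquad P
    rw [q1, ip_self_eq] at q2
    have q3 := sub_avg_sq h2 P
    -- `P - E2 P = (G - E2 G) - ((G - P) - E2 (G - P))`
    have q4 : ∑ x, (P x - avg r2 P x) ^ 2 ≤ 2 * (∑ x, (G x - avg r2 G x) ^ 2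
        + ∑ x, ((fun x => G x - P x) x - avg r2 (fun x => G x - P x) x) ^ 2) := by
      have e1 : avg r2 (fun x => G x - P x) = avg r2 G - avg r2 P := avg_sub G P
      have := sq_add_le_aux (a := fun x => G x - avg r2 G x)
        (b := fun x => -((G x - P x) - (avg r2 G x - avg r2 P x)))
        (u := fun x => P x - avg r2 P x) (v := G) (fun x => by ring)
      rw [e1]
      simpa only [neg_sq, Pi.sub_apply] using this
    have q5 : ∑ x, ((fun x => G x - P x) x - avg r2 (fun x => G x - P x) x) ^ 2 ≤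
        ∑ x, (G x - P x) ^ 2 := by
      rw [sub_avg_sq h2 (fun x => G x - P x)]
      have : 0 ≤ ∑ x, avg r2 (fun x => G x - P x) x ^ 2 := sum_nonneg fun x _ => sq_nonneg _
      linarith
    have q6 : ∑ x, G x ^ 2 = ∑ x, (G x - P x) ^ 2 + ∑ x, P x ^ 2 := by
      have := sub_avg_sq h1 G
      linarith
    have hp : 0 < 1 - θ := by linarith
    have hPn : 0 ≤ ∑ x, P x ^ 2 := sum_nonneg fun x _ => sq_nonneg _
    have ha : 0 ≤ ∑ x, (G x - P x) ^ 2 := sum_nonneg fun x _ => sq_nonneg _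
    have hb : 0 ≤ ∑ x, (G x - avg r2 G x) ^ 2 := sum_nonneg fun x _ => sq_nonneg _
    rw [div_mul_eq_mul_div, le_div_iff₀ hp]
    nlinarith
  have hG := key (fun x => F x - avg r12 F x) (by
    have : (fun x => F x - avg r12 F x) = F - avg r12 F := rfl
    rw [this, avg_sub, avg_idem h12, sub_self])
  have e1 : avg r1 (fun x => F x - avg r12 F x) = avg r1 F - avg r12 F := by
    have : (fun x => F x - avg r12 F x) = F - avg r12 F := rfl
    rw [this, avg_sub, avg_avg_of_le h12 h1 hr1]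
  have e2 : avg r2 (fun x => F x - avg r12 F x) = avg r2 F - avg r12 F := by
    have : (fun x => F x - avg r12 F x) = F - avg r12 F := rfl
    rw [this, avg_sub, avg_avg_of_le h12 h2 hr2]
  rw [e1, e2] at hG
  simp only [Pi.sub_apply, sub_sub_sub_cancel_right] at hG
  exact hG

theorem avg_gap {Ω I : Type*} [Fintype Ω] [Fintype I] [Nonempty I] {R : I → Ω → Ω → Prop}
    {R0 : Ω → Ω → Prop} (hR : ∀ i, Equivalence (R i)) (h0 : Equivalence R0)
    (hle : ∀ i x y, R i x y → R0 x y) {δ : ℝ} (hδ : δ ≤ 1)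
    (heig : ∀ (f : Ω → ℝ) (μ : ℝ), f ≠ 0 → avg R0 f = 0 →
      (fun x => (1 / (Fintype.card I : ℝ)) * ∑ i, avg (R i) f x) = μ • f → μ ≤ 1 - δ)
    (F : Ω → ℝ) :
    (Fintype.card I : ℝ) * δ * ∑ x, (F x - avg R0 F x) ^ 2 ≤
      ∑ i, ∑ x, (F x - avg (R i) F x) ^ 2 := by
  have hc : 0 < (Fintype.card I : ℝ) := by
    have := Fintype.card_pos (α := I); positivity
  set Q : (Ω → ℝ) →ₗ[ℝ] (Ω → ℝ) := (1 / (Fintype.card I : ℝ)) • ∑ i, avgL (R i) with hQ
  have hQapp : ∀ f, Q f = fun x => (1 / (Fintype.card I : ℝ)) * ∑ i, avg (R i) f x := by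
    intro f; funext x
    simp only [hQ, LinearMap.smul_apply, LinearMap.sum_apply, Pi.smul_apply, Finset.sum_apply,
      avgL_apply, smul_eq_mul]
  have hQapp' : ∀ f, Q f = (1 / (Fintype.card I : ℝ)) • ∑ i, avg (R i) f := by
    intro f
    simp only [hQ, LinearMap.smul_apply, LinearMap.sum_apply, avgL_apply]
  have hQsa : ∀ f g, ip (Q f) g = ip f (Q g) := by
    intro f g
    rw [hQapp', hQapp', ip_smul_left, ip_smul_right, ip_sum_left, ip_sum_right]
    congr 1
    exact sum_congr rfl fun i _ => ip_avg (hR i) f g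
  set A : (Ω → ℝ) →ₗ[ℝ] (Ω → ℝ) := Q - avgL R0 with hAdef
  have hAapp : ∀ f, A f = Q f - avg R0 f := fun f => rfl
  have hA : ∀ f g, ip (A f) g = ip f (A g) := by
    intro f g
    rw [hAapp, hAapp, ip_sub_left, ip_sub_right, hQsa, ip_avg h0]
  have e0 : ∀ f, avg R0 (Q f) = avg R0 f := by
    intro f
    rw [hQapp', avg_smul]
    have : avg R0 (∑ i, avg (R i) f) = ∑ i, avg R0 (avg (R i) f) := by
      have := map_sum (avgL R0) (fun i => avg (R i) f) univ
      simpa only [avgL_apply] using this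
    rw [this, sum_congr rfl fun i _ => avg_avg_of_le' h0 (hR i) (hle i) f, sum_const, card_univ,
      ← Nat.cast_smul_eq_nsmul ℝ, smul_smul, one_div, inv_mul_cancel₀ hc.ne', one_smul]
  have hquad : ∀ f, ip f (A f) ≤ (1 - δ) * ip f f := by
    apply quad_le_of_eigen A hA
    intro v μ hv hμ
    by_cases h : μ = 0
    · rw [h]; linarith
    · have k1 : avg R0 (A v) = 0 := by
        rw [hAapp, avg_sub, e0, avg_idem h0, sub_self]
      rw [hμ, avg_smul] at k1
      have k2 : avg R0 v = 0 := by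
        rcases smul_eq_zero.1 k1 with h' | h'
        · exact absurd h' h
        · exact h'
      have k3 : Q v = μ • v := by
        have := hμ
        rw [hAapp, k2, sub_zero] at this
        exact this
      rw [hQapp] at k3
      exact heig v μ hv k2 k3
  have key : ∀ G : Ω → ℝ, avg R0 G = 0 → (Fintype.card I : ℝ) * δ * ∑ x, G x ^ 2 ≤
      ∑ i, ∑ x, (G x - avg (R i) G x) ^ 2 := by
    intro G hG
    have q1 := hquad G
    rw [hAapp, hG, sub_zero, hQapp', ip_smul_right, ip_sum_right, ip_self_eq] at q1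
    rw [sum_congr rfl fun i _ => ip_avg_self (hR i) G] at q1
    rw [sum_congr rfl fun i _ => sub_avg_sq (hR i) G, sum_sub_distrib, sum_const, card_univ,
      nsmul_eq_mul]
    rw [one_div, inv_mul_le_iff₀ hc] at q1
    linarith
  have hG := key (fun x => F x - avg R0 F x) (by
    have : (fun x => F x - avg R0 F x) = F - avg R0 F := rfl
    rw [this, avg_sub, avg_idem h0, sub_self])
  have e1 : ∀ i, avg (R i) (fun x => F x - avg R0 F x) = avg (R i) F - avg R0 F := by
    intro i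
    have : (fun x => F x - avg R0 F x) = F - avg R0 F := rfl
    rw [this, avg_sub, avg_avg_of_le h0 (hR i) (hle i)]
  simp only [e1, Pi.sub_apply, sub_sub_sub_cancel_right] at hG
  exact hG

end Vale.Agent.H27.CT
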