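import Vale.Agent.H27.CT.E6a
import Vale.Agent.H27.CT.E6b
import Vale.Agent.H27.CT.E5

/-!
# Row E6c: three rows
-/

open Finset

namespace Vale.Agent.H27.CT

open Vale.Agent.KTV

section TwoRow
variable {ι : Type*} [Fintype ι] [DecidableEq ι]

/-- any two points of a level are connected by unit moves -/
theorem lev_connected (s : ι → ℕ) (r : ℕ) (P : (ι → ℕ) → Prop)
    (hP : ∀ x ∈ lev s r, P x → ∀ a b, 1 ≤ x a → up (dn x a) b ∈ lev s r → P (up (dn x a) b)) :
    ∀ (n : ℕ) (x y : ι → ℕ), x ∈ lev s r → y ∈ lev s r → P x →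
      ∑ q, (x q - y q) ≤ n → P y := by
  intro n
  induction n with
  | zero =>
    intro x y hx hy hPx hn
    have h1 : ∀ q, x q ≤ y q := by
      intro q
      have : ∑ q, (x q - y q) = 0 := by omega
      rw [sum_eq_zero_iff] at this
      have := this q (mem_univ q)
      omega
    have h2 : ∑ q, x q = ∑ q, y q := by rw [(mem_lev.1 hx).2, (mem_lev.1 hy).2]
    have h3 : x = y := by
      funext q
      by_contra hne
      have hlt : x q < y q := lt_of_le_of_ne (h1 q) hne
      have := sum_lt_sum (s := univ) (fun q _ => h1 q) ⟨q, mem_univ q, hlt⟩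
      omega
    rw [← h3]; exact hPx
  | succ n ih =>
    intro x y hx hy hPx hn
    have h2 : ∑ q, x q = ∑ q, y q := by rw [(mem_lev.1 hx).2, (mem_lev.1 hy).2]
    by_cases hxy : ∀ q, x q ≤ y q
    · refine ih x y hx hy hPx ?_
      have : ∑ q, (x q - y q) = 0 := sum_eq_zero fun q _ => by have := hxy q; omega
      omega
    · push Not at hxy
      obtain ⟨a, ha⟩ := hxy
      obtain ⟨b, hb⟩ : ∃ b, x b < y b := by
        by_contra hcon
        push Not at hcon
        have := sum_lt_sum (s := univ) (fun q _ => hcon q) ⟨a, mem_univ a, ha⟩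
        omega
      have hab : b ≠ a := by rintro rfl; omega
      have hmem : up (dn x a) b ∈ lev s r := by
        rw [mem_lev]
        refine ⟨fun q => ?_, ?_⟩
        · by_cases h : q = b
          · subst h; rw [up_same, dn_ne _ hab]
            have := (mem_lev.1 hy).1 q
            omega
          · rw [up_ne _ h]
            by_cases h' : q = a
            · subst h'; rw [dn_same]; have := (mem_lev.1 hx).1 q; omega
            · rw [dn_ne _ h']; exact (mem_lev.1 hx).1 q
        · rw [sum_up]
          have := sum_dn (x := x) (a := a) (by omega)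
          have := (mem_lev.1 hx).2
          omega
      refine ih (up (dn x a) b) y hmem hy (hP x hx hPx a b (by omega) hmem) ?_
      have key : ∑ q, (up (dn x a) b q - y q) + 1 ≤ ∑ q, (x q - y q) := by
        rw [← add_sum_erase univ _ (mem_univ a), ← add_sum_erase univ (fun q => x q - y q)
          (mem_univ a)]
        have e1 : up (dn x a) b a = x a - 1 := by rw [up_ne _ hab.symm, dn_same]
        have e2 : ∑ q ∈ univ.erase a, (up (dn x a) b q - y q) ≤
            ∑ q ∈ univ.erase a, (x q - y q) := by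
          refine sum_le_sum fun q hq => ?_
          have hqa : q ≠ a := ne_of_mem_erase hq
          by_cases h : q = b
          · subst h; rw [up_same, dn_ne _ hab]; omega
          · rw [up_ne _ h, dn_ne _ hqa]
        rw [e1]
        omega
      omega

end TwoRow

section Multi
variable {κ ι : Type*} [Fintype κ] [DecidableEq κ] [Fintype ι] [DecidableEq ι]

/-- the best Lipschitz constant exists -/
theorem exists_lip (c : ι → ℕ) (rr : κ → ℕ) (l k : κ) (f : {T // T ∈ Om c rr} → ℝ) :
    ∃ L : ℝ, 0 ≤ L ∧ LipR c rr l k L f ∧ (L = 0 ∨ ∀ L' : ℝ, LipR c rr l k L' f → L ≤ L') := by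
  classical
  set S : Finset ({T // T ∈ Om c rr} × {T // T ∈ Om c rr}) :=
    univ.filter (fun p => (∀ j, j ≠ l → j ≠ k → p.1.1 j = p.2.1 j) ∧
      ∃ a b, 1 ≤ p.1.1 k a ∧ p.2.1 k = up (dn (p.1.1 k) a) b) with hS
  rcases S.eq_empty_or_nonempty with h0 | hne
  · refine ⟨0, le_rfl, ?_, Or.inl rfl⟩
    intro T T' h1 a b h2 h3
    have : (T, T') ∈ S := by
      rw [hS, mem_filter]; exact ⟨mem_univ _, h1, a, b, h2, h3⟩
    rw [h0] at this
    exact absurd this (notMem_empty _)
  · obtain ⟨p, hp, hmax⟩ := exists_max_image S (fun p => |f p.1 - f p.2|) hne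
    refine ⟨|f p.1 - f p.2|, abs_nonneg _, ?_, Or.inr ?_⟩
    · intro T T' h1 a b h2 h3
      exact hmax (T, T') (by rw [hS, mem_filter]; exact ⟨mem_univ _, h1, a, b, h2, h3⟩)
    · intro L' hL'
      rw [hS, mem_filter] at hp
      obtain ⟨-, h1, a, b, h2, h3⟩ := hp
      exact hL' p.1 p.2 h1 a b h2 h3

/-- if `f` is invariant under row `l` and has Lipschitz constant zero in row `k`, it is constant
on the classes of `Ag l k` -/
theorem const_of_lip_zero (c : ι → ℕ) (rr : κ → ℕ) {l k : κ} (hlk : l ≠ k)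
    (hR : ∀ l, ∑ k, rr k + rr l + 1 ≤ ∑ a, c a) (f : {T // T ∈ Om c rr} → ℝ)
    (hinv : ∀ x y, Ag c rr l l x y → f x = f y) (hL : LipR c rr l k 0 f) :
    ∀ T T', Ag c rr l k T T' → f T = f T' := by
  intro T T' hTT
  -- residual column sums
  set c' : ι → ℕ := fun a => c a - ∑ j ∈ univ.filter (fun j => j ≠ l ∧ j ≠ k), T.1 j a with hc'
  have hres : ∀ U : {T // T ∈ Om c rr}, Ag c rr l k T U → ∀ a, U.1 l a + U.1 k a ≤ c' a := by
    intro U hU a
    have h1 := (mem_Om.1 U.2).2 a
    have h2 : ∑ j, U.1 j a = U.1 l a + U.1 k a +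
        ∑ j ∈ univ.filter (fun j => j ≠ l ∧ j ≠ k), U.1 j a := by
      rw [← sum_filter_add_sum_filter_not univ (fun j => j ≠ l ∧ j ≠ k) (fun j => U.1 j a)]
      have : univ.filter (fun j : κ => ¬(j ≠ l ∧ j ≠ k)) = {l, k} := by
        ext j; simp only [mem_filter, mem_univ, true_and, mem_insert, mem_singleton]; tauto
      rw [this, sum_pair hlk]
      ring
    have h3 : ∑ j ∈ univ.filter (fun j => j ≠ l ∧ j ≠ k), U.1 j a =
        ∑ j ∈ univ.filter (fun j => j ≠ l ∧ j ≠ k), T.1 j a := by
      refine sum_congr rfl fun j hj => ?_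
      rw [mem_filter] at hj
      rw [hU j hj.2.1 hj.2.2]
    simp only [hc']
    omega
  have hcsum : ∑ a, c' a + ∑ j ∈ univ.filter (fun j => j ≠ l ∧ j ≠ k), rr j = ∑ a, c a := by
    have h1 : ∑ j ∈ univ.filter (fun j => j ≠ l ∧ j ≠ k), rr j =
        ∑ a, ∑ j ∈ univ.filter (fun j => j ≠ l ∧ j ≠ k), T.1 j a := by
      rw [sum_comm]
      exact sum_congr rfl fun j _ => ((mem_Om.1 T.2).1 j).symm
    rw [h1, ← sum_add_distrib]
    refine sum_congr rfl fun a _ => ?_
    have h2 : ∑ j ∈ univ.filter (fun j => j ≠ l ∧ j ≠ k), T.1 j a ≤ c a :=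
      (sum_le_sum_of_subset_of_nonneg (filter_subset _ _) fun _ _ _ => Nat.zero_le _).trans
        ((mem_Om.1 T.2).2 a)
    simp only [hc']
    omega
  have hrrsum : ∑ k, rr k = rr l + rr k +
      ∑ j ∈ univ.filter (fun j => j ≠ l ∧ j ≠ k), rr j := by
    rw [← sum_filter_add_sum_filter_not univ (fun j => j ≠ l ∧ j ≠ k) rr]
    have : univ.filter (fun j : κ => ¬(j ≠ l ∧ j ≠ k)) = {l, k} := by
      ext j; simp only [mem_filter, mem_univ, true_and, mem_insert, mem_singleton]; tauto
    rw [this, sum_pair hlk]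
    ring
  have hRl := hR l
  have hRk := hR k
  -- completion: every `x ∈ lev c' (rr k)` is row `k` of a table in the class
  have hcompl : ∀ x ∈ lev c' (rr k), ∃ U : {T // T ∈ Om c rr}, Ag c rr l k T U ∧ U.1 k = x := by
    intro x hx
    have hx1 := (mem_lev.1 hx).1
    have hx2 := (mem_lev.1 hx).2
    -- choose row `l`
    obtain ⟨y, hy⟩ : (lev (fun a => c' a - x a) (rr l)).Nonempty := by
      have hsum : ∑ a, (c' a - x a) + ∑ a, x a = ∑ a, c' a := by
        rw [← sum_add_distrib]
        exact sum_congr rfl fun a _ => by have := hx1 a; omega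
      have hle : rr l ≤ ∑ a, (c' a - x a) := by omega
      exact lev_nonempty hle
    have hy1 := (mem_lev.1 hy).1
    have hy2 := (mem_lev.1 hy).2
    set U : κ → ι → ℕ := Function.update (Function.update T.1 l y) k x with hU
    have hUk : U k = x := by rw [hU, Function.update_self]
    have hUl : U l = y := by rw [hU, Function.update_of_ne hlk, Function.update_self]
    have hUj : ∀ j, j ≠ l → j ≠ k → U j = T.1 j := by
      intro j h1 h2; rw [hU, Function.update_of_ne h2, Function.update_of_ne h1]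
    have hmem : U ∈ Om c rr := by
      rw [mem_Om]
      constructor
      · intro j
        by_cases h1 : j = k
        · subst h1; rw [hUk]; exact hx2
        · by_cases h2 : j = l
          · subst h2; rw [hUl]; exact hy2
          · rw [hUj j h2 h1]; exact (mem_Om.1 T.2).1 j
      · intro a
        have h2 : ∑ j, U j a = U l a + U k a +
            ∑ j ∈ univ.filter (fun j => j ≠ l ∧ j ≠ k), U j a := by
          rw [← sum_filter_add_sum_filter_not univ (fun j => j ≠ l ∧ j ≠ k) (fun j => U j a)]
          have : univ.filter (fun j : κ => ¬(j ≠ l ∧ j ≠ k)) = {l, k} := by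
            ext j; simp only [mem_filter, mem_univ, true_and, mem_insert, mem_singleton]; tauto
          rw [this, sum_pair hlk]
          ring
        have h3 : ∑ j ∈ univ.filter (fun j => j ≠ l ∧ j ≠ k), U j a =
            ∑ j ∈ univ.filter (fun j => j ≠ l ∧ j ≠ k), T.1 j a := by
          refine sum_congr rfl fun j hj => ?_
          rw [mem_filter] at hj
          rw [hUj j hj.2.1 hj.2.2]
        have h4 : y a ≤ c' a - x a := hy1 a
        have h5 := hx1 a
        have h6 := hres T (fun _ _ _ => rfl) a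
        have h7 : c' a = c a - ∑ j ∈ univ.filter (fun j => j ≠ l ∧ j ≠ k), T.1 j a := rfl
        rw [h2, h3, hUk, hUl]
        have h8 : ∑ j ∈ univ.filter (fun j => j ≠ l ∧ j ≠ k), T.1 j a ≤ c a :=
          (sum_le_sum_of_subset_of_nonneg (filter_subset _ _) fun _ _ _ => Nat.zero_le _).trans
            ((mem_Om.1 T.2).2 a)
        omega
    exact ⟨⟨U, hmem⟩, fun j h1 h2 => (hUj j h1 h2).symm, hUk⟩
  -- `f` depends only on row `k` inside the class
  have hdep : ∀ U U' : {T // T ∈ Om c rr}, Ag c rr l k T U → Ag c rr l k T U' →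
      U.1 k = U'.1 k → f U = f U' := by
    intro U U' h1 h2 h3
    apply hinv
    intro j hj _
    by_cases hjk : j = k
    · rw [hjk]; exact h3
    · rw [← h1 j hj hjk, ← h2 j hj hjk]
  have hTk : T.1 k ∈ lev c' (rr k) := mem_lev.2 ⟨fun a => by
    have := hres T (fun _ _ _ => rfl) a; omega, (mem_Om.1 T.2).1 k⟩
  have hT'k : T'.1 k ∈ lev c' (rr k) := mem_lev.2 ⟨fun a => by
    have := hres T' hTT a; omega, (mem_Om.1 T'.2).1 k⟩
  have hconn := lev_connected c' (rr k)
    (fun x => ∀ U : {T // T ∈ Om c rr}, Ag c rr l k T U → U.1 k = x → f U = f T) (by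
      intro x hx hPx a b ha hmem U hU hUx
      obtain ⟨V, hV1, hV2⟩ := hcompl x hx
      rw [← hPx V hV1 hV2]
      have := hL V U (fun j h1 h2 => by rw [← hV1 j h1 h2, ← hU j h1 h2]) a b
        (by rw [hV2]; exact ha) (by rw [hV2, hUx])
      have h0 := abs_nonpos_iff.1 this
      linarith) _ (T.1 k) (T'.1 k) hTk hT'k
      (fun U hU hUk => hdep U T hU (fun _ _ _ => rfl) hUk) le_rfl
  exact (hconn T' hTT rfl).symm

theorem three_row_gap (c : ι → ℕ) (rr : κ → ℕ) {l k : κ} (hlk : l ≠ k)
    (hR : ∀ l, ∑ k, rr k + rr l + 1 ≤ ∑ a, c a) (F : {T // T ∈ Om c rr} → ℝ) :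
    ∑ T, (F T - avg (Ag c rr l k) F T) ^ 2 ≤
      6000 * (∑ T, (F T - avg (Ag c rr l l) F T) ^ 2 + ∑ T, (F T - avg (Ag c rr k k) F T) ^ 2) := by
  have hE := Ag_equiv c rr
  have key := two_proj (hE l l) (hE k k) (hE l k)
    (fun x y h j h1 h2 => h j h1 h1) (fun x y h j h1 h2 => h j h2 h2)
    (θ := 1999 / 2000) (by norm_num) (by norm_num) (by
      intro f μ hf hinv h0 hμ
      obtain ⟨L, hL0, hL, hmin⟩ := exists_lip c rr l k f
      have step1 := lip_step c rr hlk hR f hinv hL0 hL
      have hinv2 : ∀ x y, Ag c rr k k x y → avg (Ag c rr k k) f x = avg (Ag c rr k k) f y :=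
        fun x y h => avg_congr (hE k k) f h
      have step2 := lip_step c rr hlk.symm hR (avg (Ag c rr k k) f) hinv2
        (by positivity) step1
      rw [hμ] at step2
      by_cases hLz : L = 0
      · exfalso
        apply hf
        have hconst := const_of_lip_zero c rr hlk hR f hinv (hLz ▸ hL)
        rw [← avg_of_inv (hE l k) hconst, h0]
      · have hLpos : 0 < L := lt_of_le_of_ne hL0 (Ne.symm hLz)
        have hmin' := hmin.resolve_left hLz
        by_contra hcon
        push Not at hcon
        have hμpos : 0 < μ := lt_trans (by norm_num) hcon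
        have h1 : LipR c rr l k (1999 / 2000 * (1999 / 2000 * L) / μ) f := by
          intro T T' a1 a b a2 a3
          have := step2 T T' a1 a b a2 a3
          simp only [Pi.smul_apply, smul_eq_mul] at this
          rw [← mul_sub, abs_mul, abs_of_pos hμpos] at this
          rw [le_div_iff₀ hμpos]
          linarith
        have h2 := hmin' _ h1
        rw [le_div_iff₀ hμpos] at h2
        nlinarith) F
  have h3 : (3 : ℝ) / (1 - 1999 / 2000) = 6000 := by norm_num
  rw [h3] at key
  exact key

end Multi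

end Vale.Agent.H27.CT
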