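import Vale.Agent.H27.CT.E6c

/-!
# Row E7: two rows, from 2x2 blocks (path coupling)
-/

open Finset

namespace Vale.Agent.H27.CT

open Vale.Agent.KTV

/-! ## Averages over intervals -/

theorem E7_cpl (n : ℕ) (hn : 0 < n) (g g' : ℕ → ℝ) (L : ℝ) (h0 : ∀ t < n, |g t - g' t| ≤ L)
    (h1 : ∀ t < n, |g (t + 1) - g' t| ≤ L) :
    |(∑ t ∈ range (n + 1), g t) / ((n : ℝ) + 1) - (∑ t ∈ range n, g' t) / (n : ℝ)| ≤ L := by
  have hn' : (0 : ℝ) < n := by exact_mod_cast hn
  have key : (n : ℝ) * ∑ t ∈ range (n + 1), g t - ((n : ℝ) + 1) * ∑ t ∈ range n, g' t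
      = ∑ t ∈ range n, (((n : ℝ) - t) * (g t - g' t) + ((t : ℝ) + 1) * (g (t + 1) - g' t)) := by
    have e1 : ∑ t ∈ range n, ((t : ℝ) + 1) * g (t + 1) = ∑ t ∈ range (n + 1), (t : ℝ) * g t := by
      rw [sum_range_succ']; simp
    have e2 : ∑ t ∈ range n, ((n : ℝ) - t) * g t = ∑ t ∈ range (n + 1), ((n : ℝ) - t) * g t := by
      rw [sum_range_succ]; simp
    have e3 : ∑ t ∈ range (n + 1), (t : ℝ) * g t + ∑ t ∈ range (n + 1), ((n : ℝ) - t) * g t
        = n * ∑ t ∈ range (n + 1), g t := by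
      rw [← sum_add_distrib, mul_sum]; exact sum_congr rfl fun t _ => by ring
    rw [← e3, ← e1, ← e2, mul_sum, ← sum_add_distrib, ← sum_sub_distrib]
    exact sum_congr rfl fun t _ => by ring
  have hbd : |∑ t ∈ range n, (((n : ℝ) - t) * (g t - g' t) + ((t : ℝ) + 1) * (g (t + 1) - g' t))|
      ≤ n * (((n : ℝ) + 1) * L) := by
    refine (abs_sum_le_sum_abs _ _).trans ?_
    have : ∀ t ∈ range n, |((n : ℝ) - t) * (g t - g' t) + ((t : ℝ) + 1) * (g (t + 1) - g' t)|
        ≤ ((n : ℝ) + 1) * L := by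
      intro t ht
      have ht' := mem_range.1 ht
      have htn : (0 : ℝ) ≤ (n : ℝ) - t := by
        have : (t : ℝ) ≤ n := by exact_mod_cast ht'.le
        linarith
      have ht1 : (0 : ℝ) ≤ (t : ℝ) + 1 := by positivity
      refine (abs_add_le _ _).trans ?_
      rw [abs_mul, abs_mul, abs_of_nonneg htn, abs_of_nonneg ht1]
      nlinarith [mul_le_mul_of_nonneg_left (h0 t ht') htn, mul_le_mul_of_nonneg_left (h1 t ht') ht1]
    refine (sum_le_sum this).trans ?_
    rw [sum_const, card_range, nsmul_eq_mul]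
  have e : (∑ t ∈ range (n + 1), g t) / ((n : ℝ) + 1) - (∑ t ∈ range n, g' t) / (n : ℝ)
      = ((n : ℝ) * ∑ t ∈ range (n + 1), g t - ((n : ℝ) + 1) * ∑ t ∈ range n, g' t)
        / (n * ((n : ℝ) + 1)) := by
    have h2 : (n : ℝ) + 1 ≠ 0 := by positivity
    field_simp
  rw [e, key, abs_div, abs_of_pos (by positivity : (0 : ℝ) < n * ((n : ℝ) + 1)),
    div_le_iff₀ (by positivity)]
  calc _ ≤ _ := hbd
    _ = _ := by ring

theorem E7_same (n : ℕ) (g g' : ℕ → ℝ) (L : ℝ) (hL : 0 ≤ L) (h0 : ∀ t < n, |g t - g' t| ≤ L) :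
    |(∑ t ∈ range n, g t) / (n : ℝ) - (∑ t ∈ range n, g' t) / (n : ℝ)| ≤ L := by
  rcases Nat.eq_zero_or_pos n with h | hn
  · subst h; simpa using hL
  have hn' : (0 : ℝ) < n := by exact_mod_cast hn
  rw [← sub_div, ← sum_sub_distrib, abs_div, abs_of_pos hn', div_le_iff₀ hn']
  refine (abs_sum_le_sum_abs _ _).trans ?_
  refine (sum_le_sum fun t ht => h0 t (mem_range.1 ht)).trans ?_
  rw [sum_const, card_range, nsmul_eq_mul, mul_comm]

theorem E7_Icc (A B : ℕ) (g : ℕ → ℝ) :
    ∑ i ∈ Icc A B, g i = ∑ t ∈ range (B + 1 - A), g (A + t) := by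
  rw [← Finset.sum_Ico_eq_sum_range]
  refine sum_congr ?_ fun _ _ => rfl
  ext i
  simp only [mem_Icc, mem_Ico]
  omega

theorem E7_interval {A B A' B' : ℕ} (g g' : ℕ → ℝ) (L : ℝ) (hL : 0 ≤ L) (hAB : A ≤ B)
    (hAB' : A' ≤ B') (hA : A' ≤ A) (hA2 : A ≤ A' + 1) (hB : B' ≤ B) (hB2 : B ≤ B' + 1)
    (h0 : ∀ i, A ≤ i → i ≤ B → A' ≤ i → i ≤ B' → |g i - g' i| ≤ L)
    (h1 : ∀ i, A' ≤ i → i ≤ B' → A ≤ i + 1 → i + 1 ≤ B → |g (i + 1) - g' i| ≤ L) :
    |(∑ i ∈ Icc A B, g i) / ((Icc A B).card : ℝ)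
      - (∑ i ∈ Icc A' B', g' i) / ((Icc A' B').card : ℝ)| ≤ L := by
  rw [E7_Icc, E7_Icc, Nat.card_Icc, Nat.card_Icc]
  rcases Nat.lt_or_ge A' A with hA3 | hA3
  · have hA4 : A = A' + 1 := by omega
    subst hA4
    rcases Nat.lt_or_ge B' B with hB3 | hB3
    · have hB4 : B = B' + 1 := by omega
      subst hB4
      have e : B' + 1 + 1 - (A' + 1) = B' + 1 - A' := by omega
      rw [e]
      refine E7_same _ _ _ L hL fun t ht => ?_
      have := h1 (A' + t) (by omega) (by omega) (by omega) (by omega)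
      rw [show A' + 1 + t = A' + t + 1 by ring]
      exact this
    · have hB4 : B = B' := by omega
      subst hB4
      have e : B + 1 - A' = (B + 1 - (A' + 1)) + 1 := by omega
      rw [e, abs_sub_comm]
      push_cast
      refine E7_cpl _ (by omega) (fun t => g' (A' + t)) (fun t => g (A' + 1 + t)) L
        (fun t ht => ?_) (fun t ht => ?_)
      · have := h1 (A' + t) (by omega) (by omega) (by omega) (by omega)
        rw [abs_sub_comm]
        rw [show A' + 1 + t = A' + t + 1 by ring]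
        exact this
      · have := h0 (A' + 1 + t) (by omega) (by omega) (by omega) (by omega)
        rw [abs_sub_comm]
        rw [show A' + (t + 1) = A' + 1 + t by ring]
        exact this
  · have hA4 : A = A' := by omega
    subst hA4
    rcases Nat.lt_or_ge B' B with hB3 | hB3
    · have hB4 : B = B' + 1 := by omega
      subst hB4
      have e : B' + 1 + 1 - A = (B' + 1 - A) + 1 := by omega
      rw [e]
      push_cast
      refine E7_cpl _ (by omega) (fun t => g (A + t)) (fun t => g' (A + t)) L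
        (fun t ht => ?_) (fun t ht => ?_)
      · exact h0 (A + t) (by omega) (by omega) (by omega) (by omega)
      · have := h1 (A + t) (by omega) (by omega) (by omega) (by omega)
        rw [show A + (t + 1) = A + t + 1 by ring]
        exact this
    · have hB4 : B = B' := by omega
      subst hB4
      exact E7_same _ _ _ L hL fun t ht => h0 _ (by omega) (by omega) (by omega) (by omega)

theorem E7_interval_same {A B : ℕ} (g g' : ℕ → ℝ) (L : ℝ) (hL : 0 ≤ L)
    (h0 : ∀ i, A ≤ i → i ≤ B → |g i - g' i| ≤ L) :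
    |(∑ i ∈ Icc A B, g i) / ((Icc A B).card : ℝ)
      - (∑ i ∈ Icc A B, g' i) / ((Icc A B).card : ℝ)| ≤ L := by
  rw [E7_Icc, E7_Icc, Nat.card_Icc]
  exact E7_same _ _ _ L hL fun t ht => h0 _ (by omega) (by omega)

section TwoRow
variable {ι : Type*} [DecidableEq ι]

/-- redistribute columns `a` and `b` of `x` -/
def E7pr (x : ι → ℕ) (a b : ι) (i : ℕ) : ι → ℕ :=
  Function.update (Function.update x a i) b (x a + x b - i)

theorem E7pr_a (x : ι → ℕ) {a b : ι} (hab : a ≠ b) (i : ℕ) : E7pr x a b i a = i := by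
  simp [E7pr, hab]

theorem E7pr_b (x : ι → ℕ) (a b : ι) (i : ℕ) : E7pr x a b i b = x a + x b - i := by
  simp [E7pr]

theorem E7pr_q (x : ι → ℕ) {a b q : ι} (h1 : q ≠ a) (h2 : q ≠ b) (i : ℕ) : E7pr x a b i q = x q := by
  simp [E7pr, h1, h2]

variable [Fintype ι]

theorem E7_sum_pair_split (x : ι → ℕ) {a b : ι} (hab : a ≠ b) :
    ∑ q, x q = x a + x b + ∑ q ∈ (univ.erase a).erase b, x q := by
  rw [← add_sum_erase univ x (mem_univ a),
    ← add_sum_erase (univ.erase a) x (mem_erase.2 ⟨hab.symm, mem_univ b⟩)]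
  ring

theorem E7pr_mem {s : ι → ℕ} {r : ℕ} {x : ι → ℕ} (hx : x ∈ lev s r) {a b : ι} (hab : a ≠ b) (i : ℕ) :
    E7pr x a b i ∈ lev s r ↔ i ∈ Icc (x a + x b - s b) (min (x a + x b) (s a)) := by
  rw [mem_lev] at hx
  rw [mem_lev, mem_Icc]
  have hs : ∑ q, E7pr x a b i q = i + (x a + x b - i) + ∑ q ∈ (univ.erase a).erase b, x q := by
    rw [E7_sum_pair_split _ hab, E7pr_a _ hab, E7pr_b]
    congr 1
    refine sum_congr rfl fun q hq => ?_
    exact E7pr_q x (ne_of_mem_erase (mem_of_mem_erase hq)) (ne_of_mem_erase hq) i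
  have hs0 := E7_sum_pair_split x hab
  constructor
  · rintro ⟨h1, h2⟩
    have ha := h1 a
    have hb := h1 b
    rw [E7pr_a _ hab] at ha
    rw [E7pr_b] at hb
    rw [hs] at h2
    have := hx.2
    rw [le_min_iff]
    omega
  · rintro ⟨h1, h2⟩
    rw [le_min_iff] at h2
    refine ⟨fun q => ?_, ?_⟩
    · by_cases hqa : q = a
      · subst hqa; rw [E7pr_a _ hab]; exact h2.2
      · by_cases hqb : q = b
        · subst hqb; rw [E7pr_b]; omega
        · rw [E7pr_q _ hqa hqb]; exact hx.1 q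
    · rw [hs]
      have := hx.2
      omega

end TwoRow

section Multi
variable {κ ι : Type*} [Fintype κ] [DecidableEq κ] [Fintype ι] [DecidableEq ι]

theorem E7_Ag22_equiv (c : ι → ℕ) (rr : κ → ℕ) (l : κ) (a b : ι) : Equivalence (Ag22 c rr l a b) :=
  ⟨fun _ => ⟨fun _ _ => rfl, fun _ _ _ => rfl⟩,
    fun h => ⟨fun j hj => (h.1 j hj).symm, fun q h1 h2 => (h.2 q h1 h2).symm⟩,
    fun h h' => ⟨fun j hj => (h.1 j hj).trans (h'.1 j hj),
      fun q h1 h2 => (h.2 q h1 h2).trans (h'.2 q h1 h2)⟩⟩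

theorem E7_Ag22_le (c : ι → ℕ) (rr : κ → ℕ) (l : κ) (a b : ι) (x y : {T // T ∈ Om c rr})
    (h : Ag22 c rr l a b x y) : Ag c rr l l x y := fun j hj _ => h.1 j hj

theorem E7_Ag22_symm (c : ι → ℕ) (rr : κ → ℕ) (l : κ) (a b : ι) :
    Ag22 c rr l a b = Ag22 c rr l b a := by
  funext T T'
  exact propext ⟨fun h => ⟨h.1, fun q h1 h2 => h.2 q h2 h1⟩, fun h => ⟨h.1, fun q h1 h2 => h.2 q h2 h1⟩⟩

theorem E7_row_eq {c : ι → ℕ} {rr : κ → ℕ} {l : κ} {T T' : {T // T ∈ Om c rr}}
    (h : ∀ j, j ≠ l → T.1 j = T'.1 j) : T'.1 = Function.update T.1 l (T'.1 l) := by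
  funext j
  by_cases hj : j = l
  · subst hj; rw [Function.update_self]
  · rw [Function.update_of_ne hj, h j hj]

theorem E7_diag (c : ι → ℕ) (rr : κ → ℕ) (l : κ) (a : ι) (T T' : {T // T ∈ Om c rr})
    (h : Ag22 c rr l a a T T') : T = T' := by
  apply Subtype.ext
  rw [E7_row_eq (T := T) (T' := T') h.1]
  have h1 := (mem_Om.1 T.2).1 l
  have h2 := (mem_Om.1 T'.2).1 l
  have h3 : T.1 l = T'.1 l := by
    funext q
    by_cases hq : q = a
    · subst hq
      rw [← add_sum_erase univ _ (mem_univ q)] at h1 h2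
      have : ∑ x ∈ univ.erase q, T.1 l x = ∑ x ∈ univ.erase q, T'.1 l x :=
        sum_congr rfl fun x hx => h.2 x (ne_of_mem_erase hx) (ne_of_mem_erase hx)
      omega
    · exact h.2 q hq hq
  rw [← h3, Function.update_eq_self]

theorem E7_cls_sum (c : ι → ℕ) (rr : κ → ℕ) (l : κ) {a b : ι} (hab : a ≠ b)
    (T : {T // T ∈ Om c rr}) (g : (κ → ι → ℕ) → ℝ) :
    ∑ y ∈ cls (Ag22 c rr l a b) T, g y.1 =
      ∑ i ∈ Icc (T.1 l a + T.1 l b - sec c T.1 l b) (min (T.1 l a + T.1 l b) (sec c T.1 l a)),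
        g (Function.update T.1 l (E7pr (T.1 l) a b i)) := by
  have hself : T.1 l ∈ lev (sec c T.1 l) (rr l) := by
    have := (upd_mem T.2 l (T.1 l)).1 (by rw [Function.update_eq_self]; exact T.2)
    exact this
  have hval : ∀ y ∈ cls (Ag22 c rr l a b) T, y.1 = Function.update T.1 l (E7pr (T.1 l) a b (y.1 l a)) := by
    intro y hy
    have h := mem_cls.1 hy
    have e := E7_row_eq (T := T) (T' := y) h.1
    have h1 := (mem_Om.1 T.2).1 l
    have h2 := (mem_Om.1 y.2).1 l
    have h3 : y.1 l = E7pr (T.1 l) a b (y.1 l a) := by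
      funext q
      by_cases hqa : q = a
      · subst hqa; rw [E7pr_a _ hab]
      · by_cases hqb : q = b
        · subst hqb
          rw [E7pr_b]
          rw [E7_sum_pair_split _ hab] at h1 h2
          have : ∑ x ∈ (univ.erase a).erase q, T.1 l x = ∑ x ∈ (univ.erase a).erase q, y.1 l x :=
            sum_congr rfl fun x hx => h.2 x (ne_of_mem_erase (mem_of_mem_erase hx))
              (ne_of_mem_erase hx)
          omega
        · rw [E7pr_q _ hqa hqb]; exact (h.2 q hqa hqb).symm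
    rw [← h3]; exact e
  refine sum_bij (fun y _ => y.1 l a) ?_ ?_ ?_ ?_
  · intro y hy
    have h1 := hval y hy
    have h2 : Function.update T.1 l (E7pr (T.1 l) a b (y.1 l a)) ∈ Om c rr := by
      rw [← h1]; exact y.2
    exact (E7pr_mem hself hab _).1 ((upd_mem T.2 l _).1 h2)
  · intro y hy y' hy' he
    apply Subtype.ext
    rw [hval y hy, hval y' hy', he]
  · intro i hi
    have h2 := (upd_mem T.2 l _).2 ((E7pr_mem hself hab i).2 hi)
    refine ⟨⟨_, h2⟩, ?_, ?_⟩
    · rw [mem_cls]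
      refine ⟨fun j hj => ?_, fun q h1 h3 => ?_⟩
      · simp only [Function.update_of_ne hj]
      · simp only [Function.update_self]
        exact (E7pr_q _ h1 h3 i).symm
    · simp only [Function.update_self]
      exact E7pr_a _ hab i
  · intro y hy
    rw [← hval y hy]

theorem E7_avg_eq (c : ι → ℕ) (rr : κ → ℕ) (l : κ) {a b : ι} (hab : a ≠ b)
    (T : {T // T ∈ Om c rr}) (f : {T // T ∈ Om c rr} → ℝ) :
    avg (Ag22 c rr l a b) f T =
      (∑ i ∈ Icc (T.1 l a + T.1 l b - sec c T.1 l b) (min (T.1 l a + T.1 l b) (sec c T.1 l a)),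
        ext0 c rr f (Function.update T.1 l (E7pr (T.1 l) a b i))) /
      ((Icc (T.1 l a + T.1 l b - sec c T.1 l b)
        (min (T.1 l a + T.1 l b) (sec c T.1 l a))).card : ℝ) := by
  have h1 := E7_cls_sum c rr l hab T (ext0 c rr f)
  have h2 := E7_cls_sum c rr l hab T (fun _ => 1)
  simp only [sum_const, nsmul_eq_mul, mul_one] at h2
  unfold avg
  rw [← h1, ← h2]
  congr 1
  exact sum_congr rfl fun y _ => (ext0_val c rr f y).symm

theorem E7_lip {c : ι → ℕ} {rr : κ → ℕ} {l : κ} {L : ℝ} {f : {T // T ∈ Om c rr} → ℝ}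
    (hL : LipR c rr l l L f) (T : κ → ι → ℕ) {x y : ι → ℕ} (hx : Function.update T l x ∈ Om c rr)
    (hy : Function.update T l y ∈ Om c rr) {p q : ι} (hp : 1 ≤ x p) (he : y = up (dn x p) q) :
    |ext0 c rr f (Function.update T l x) - ext0 c rr f (Function.update T l y)| ≤ L := by
  unfold ext0
  rw [dif_pos hx, dif_pos hy]
  refine hL ⟨_, hx⟩ ⟨_, hy⟩ (fun j h _ => ?_) p q ?_ ?_
  · simp only [Function.update_of_ne h]
  · simpa only [Function.update_self] using hp
  · simpa only [Function.update_self] using he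

/-- pairs of tables that differ by a unit move `p → q` in row `l`; blocks `{a, b}` with `a = p`
and `b ∉ {p, q}`, or `{a, b}` disjoint from `{p, q}` -/
theorem E7_pair {c : ι → ℕ} {rr : κ → ℕ} {l : κ} {L : ℝ} {f : {T // T ∈ Om c rr} → ℝ}
    (hL0 : 0 ≤ L) (hL : LipR c rr l l L f) (T T' : {T // T ∈ Om c rr})
    (hrow : ∀ j, j ≠ l → T.1 j = T'.1 j) {p q : ι} (hpq : p ≠ q) (hp : 1 ≤ T.1 l p)
    (he : T'.1 l = up (dn (T.1 l) p) q) {a b : ι} (hab : a ≠ b) (haq : a ≠ q) (hbq : b ≠ q)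
    (hbp : b ≠ p) : |avg (Ag22 c rr l a b) f T - avg (Ag22 c rr l a b) f T'| ≤ L := by
  have eT' := E7_row_eq (T := T) (T' := T') hrow
  set x := T.1 l with hx
  set x' := T'.1 l with hx'
  have hsec : sec c T'.1 l = sec c T.1 l := by rw [eT', sec_upd]
  have hxs := self_mem T.2 l
  have hxs' := self_mem T'.2 l
  rw [hsec] at hxs'
  rw [← hx] at hxs
  rw [← hx'] at hxs'
  set s := sec c T.1 l with hs
  have hupd : ∀ y, Function.update T'.1 l y = Function.update T.1 l y := by
    intro y; rw [eT', Function.update_idem]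
  rw [E7_avg_eq c rr l hab T f, E7_avg_eq c rr l hab T' f]
  rw [← hx, ← hx', hsec, ← hs]
  simp only [hupd]
  have hmem := fun i => E7pr_mem hxs hab i
  have hmem' := fun i => E7pr_mem hxs' hab i
  have hOm : ∀ i, i ∈ Icc (x a + x b - s b) (min (x a + x b) (s a)) →
      Function.update T.1 l (E7pr x a b i) ∈ Om c rr :=
    fun i hi => (upd_mem T.2 l _).2 ((hmem i).2 hi)
  have hOm' : ∀ i, i ∈ Icc (x' a + x' b - s b) (min (x' a + x' b) (s a)) →
      Function.update T.1 l (E7pr x' a b i) ∈ Om c rr :=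
    fun i hi => (upd_mem T.2 l _).2 ((hmem' i).2 hi)
  have hx'b : x' b = x b := by rw [he, up_ne _ hbq, dn_ne _ hbp]
  have hxa := (mem_lev.1 hxs).1 a
  have hxb := (mem_lev.1 hxs).1 b
  have hxa' := (mem_lev.1 hxs').1 a
  have hxb' := (mem_lev.1 hxs').1 b
  -- values of `x'`
  have hx'q : x' q = x q + 1 := by rw [he, up_same, dn_ne _ hpq.symm]
  have hx'p : x' p = x p - 1 := by rw [he, up_ne _ hpq, dn_same]
  have hx'o : ∀ z, z ≠ p → z ≠ q → x' z = x z := fun z h1 h2 => by rw [he, up_ne _ h2, dn_ne _ h1]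
  by_cases hap : a = p
  · -- `a = p`
    subst hap
    have hx'a : x' a + 1 = x a := by omega
    refine E7_interval _ _ L hL0 ?_ ?_ (by omega) (by omega) (by omega) (by omega) ?_ ?_
    · rw [le_min_iff]; omega
    · rw [le_min_iff]; omega
    · intro i h1 h2 h3 h4
      have m1 := hOm i (mem_Icc.2 ⟨h1, h2⟩)
      have m2 := hOm' i (mem_Icc.2 ⟨h3, h4⟩)
      rw [le_min_iff] at h2 h4
      refine E7_lip hL T.1 m1 m2 (p := b) (q := q) ?_ ?_
      · rw [E7pr_b]; omega
      · funext z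
        by_cases hzq : z = q
        · subst hzq
          rw [up_same, dn_ne _ hbq.symm, E7pr_q _ haq.symm hbq.symm, E7pr_q _ haq.symm hbq.symm]
          exact hx'q
        · rw [up_ne _ hzq]
          by_cases hzb : z = b
          · subst hzb; rw [dn_same, E7pr_b, E7pr_b]; omega
          · rw [dn_ne _ hzb]
            by_cases hza : z = a
            · subst hza; rw [E7pr_a _ hab, E7pr_a _ hab]
            · rw [E7pr_q _ hza hzb, E7pr_q _ hza hzb]; exact hx'o z hza hzq
    · intro i h1 h2 h3 h4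
      have m1 := hOm (i + 1) (mem_Icc.2 ⟨h3, h4⟩)
      have m2 := hOm' i (mem_Icc.2 ⟨h1, h2⟩)
      rw [le_min_iff] at h2 h4
      refine E7_lip hL T.1 m1 m2 (p := a) (q := q) ?_ ?_
      · rw [E7pr_a _ hab]; omega
      · funext z
        by_cases hzq : z = q
        · subst hzq
          rw [up_same, dn_ne _ haq.symm, E7pr_q _ haq.symm hbq.symm, E7pr_q _ haq.symm hbq.symm]
          exact hx'q
        · rw [up_ne _ hzq]
          by_cases hza : z = a
          · subst hza; rw [dn_same, E7pr_a _ hab, E7pr_a _ hab]; omega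
          · rw [dn_ne _ hza]
            by_cases hzb : z = b
            · subst hzb; rw [E7pr_b, E7pr_b]; omega
            · rw [E7pr_q _ hza hzb, E7pr_q _ hza hzb]; exact hx'o z hza hzq
  · -- disjoint
    have hx'a : x' a = x a := hx'o a hap haq
    rw [hx'a, hx'b]
    rw [hx'a, hx'b] at hOm'
    refine E7_interval_same _ _ L hL0 ?_
    · intro i h1 h2
      have m1 := hOm i (mem_Icc.2 ⟨h1, h2⟩)
      have m2 := hOm' i (mem_Icc.2 ⟨h1, h2⟩)
      refine E7_lip hL T.1 m1 m2 (p := p) (q := q) ?_ ?_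
      · rw [E7pr_q _ (Ne.symm hap) hbp.symm]; exact hp
      · funext z
        by_cases hzq : z = q
        · subst hzq
          rw [up_same, dn_ne _ hpq.symm, E7pr_q _ haq.symm hbq.symm, E7pr_q _ haq.symm hbq.symm]
          exact hx'q
        · rw [up_ne _ hzq]
          by_cases hzp : z = p
          · subst hzp
            rw [dn_same, E7pr_q _ (Ne.symm hap) hbp.symm, E7pr_q _ (Ne.symm hap) hbp.symm]
            exact hx'p
          · rw [dn_ne _ hzp]
            by_cases hza : z = a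
            · subst hza; rw [E7pr_a _ hab, E7pr_a _ hab]
            · by_cases hzb : z = b
              · subst hzb; rw [E7pr_b, E7pr_b, hx'a, hx'b]
              · rw [E7pr_q _ hza hzb, E7pr_q _ hza hzb]; exact hx'o z hzp hzq

theorem E7_comm (c : ι → ℕ) (rr : κ → ℕ) (l : κ) (a b : ι) (f : {T // T ∈ Om c rr} → ℝ) :
    avg (Ag22 c rr l a b) f = avg (Ag22 c rr l b a) f := by
  rw [E7_Ag22_symm]

theorem E7_diag_avg (c : ι → ℕ) (rr : κ → ℕ) (l : κ) (a : ι) (f : {T // T ∈ Om c rr} → ℝ) :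
    avg (Ag22 c rr l a a) f = f :=
  avg_of_inv (E7_Ag22_equiv c rr l a a) fun x y h => by rw [E7_diag c rr l a x y h]

/-- all blocks -/
theorem E7_all {c : ι → ℕ} {rr : κ → ℕ} {l : κ} {L : ℝ} {f : {T // T ∈ Om c rr} → ℝ}
    (hL0 : 0 ≤ L) (hL : LipR c rr l l L f) (T T' : {T // T ∈ Om c rr})
    (hrow : ∀ j, j ≠ l → T.1 j = T'.1 j) {p q : ι} (hpq : p ≠ q) (hp : 1 ≤ T.1 l p)
    (he : T'.1 l = up (dn (T.1 l) p) q) (a b : ι) :
    |avg (Ag22 c rr l a b) f T - avg (Ag22 c rr l a b) f T'| ≤ L ∧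
      ((a = p ∧ b = q) ∨ (a = q ∧ b = p) →
        avg (Ag22 c rr l a b) f T = avg (Ag22 c rr l a b) f T') := by
  -- the reversed move
  have hrow' : ∀ j, j ≠ l → T'.1 j = T.1 j := fun j hj => (hrow j hj).symm
  have hq' : 1 ≤ T'.1 l q := by rw [he, up_same]; omega
  have he' : T.1 l = up (dn (T'.1 l) q) p := by
    rw [he]
    rw [dn_up, up_dn hp]
  have hblock : Ag22 c rr l p q T T' := by
    refine ⟨hrow, fun z h1 h2 => ?_⟩
    rw [he, up_ne _ h2, dn_ne _ h1]
  have hsame : (a = p ∧ b = q) ∨ (a = q ∧ b = p) →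
      avg (Ag22 c rr l a b) f T = avg (Ag22 c rr l a b) f T' := by
    rintro (⟨rfl, rfl⟩ | ⟨rfl, rfl⟩)
    · exact avg_congr (E7_Ag22_equiv c rr l _ _) f hblock
    · rw [E7_comm]
      exact avg_congr (E7_Ag22_equiv c rr l _ _) f hblock
  refine ⟨?_, hsame⟩
  by_cases hab : a = b
  · subst hab
    rw [E7_diag_avg]
    exact hL T T' (fun j h _ => hrow j h) p q hp he
  by_cases h1 : (a = p ∧ b = q) ∨ (a = q ∧ b = p)
  · rw [hsame h1, sub_self, abs_zero]; exact hL0
  push Not at h1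
  by_cases haq : a = q
  · -- `a = q`, use the reversed move
    subst haq
    have hbp : b ≠ p := h1.2 rfl
    rw [abs_sub_comm]
    exact E7_pair hL0 hL T' T hrow' hpq.symm hq' he' hab (Ne.symm hpq) hbp (Ne.symm hab)
  by_cases hbq : b = q
  · subst hbq
    have hap : a ≠ p := fun h => h1.1 h rfl
    rw [E7_comm, abs_sub_comm]
    exact E7_pair hL0 hL T' T hrow' hpq.symm hq' he' (Ne.symm hab) (Ne.symm hpq) hap hab
  by_cases hbp : b = p
  · subst hbp
    rw [E7_comm]
    exact E7_pair hL0 hL T T' hrow hpq hp he (Ne.symm hab) hbq haq hab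
  · exact E7_pair hL0 hL T T' hrow hpq hp he hab haq hbq hbp

/-- contraction of the average over all blocks -/
theorem E7_contract {c : ι → ℕ} {rr : κ → ℕ} {l : κ} {L : ℝ} {f : {T // T ∈ Om c rr} → ℝ}
    (hn2 : 2 ≤ Fintype.card ι) (hL0 : 0 ≤ L) (hL : LipR c rr l l L f) :
    LipR c rr l l ((1 - 2 / (Fintype.card ι : ℝ) ^ 2) * L)
      (fun x => (1 / (Fintype.card (ι × ι) : ℝ)) * ∑ i : ι × ι, avg (Ag22 c rr l i.1 i.2) f x) := by
  intro T T' hrow p q hp he
  have hrow1 : ∀ j, j ≠ l → T.1 j = T'.1 j := fun j hj => hrow j hj hj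
  have : Nonempty ι := ⟨p⟩
  have hn : 0 < (Fintype.card ι : ℝ) := by
    have := Fintype.card_pos (α := ι); positivity
  by_cases hpq : p = q
  · subst hpq
    have hTT : T = T' := by
      apply Subtype.ext
      rw [E7_row_eq (T := T) (T' := T') hrow1, he, up_dn hp, Function.update_eq_self]
    subst hTT
    simp only [sub_self, abs_zero]
    refine mul_nonneg ?_ hL0
    rw [sub_nonneg, div_le_one (by positivity)]
    have : (2 : ℝ) ≤ Fintype.card ι := by exact_mod_cast hn2
    nlinarith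
  have hall := E7_all hL0 hL T T' hrow1 hpq hp he
  rw [← mul_sub, ← sum_sub_distrib, abs_mul, abs_of_pos (by
    have := Fintype.card_pos (α := ι × ι); positivity)]
  have hcard : (Fintype.card (ι × ι) : ℝ) = (Fintype.card ι : ℝ) ^ 2 := by
    rw [Fintype.card_prod]; push_cast; ring
  have hne : (p, q) ≠ ((q, p) : ι × ι) := by
    intro h
    exact hpq (Prod.ext_iff.1 h).1
  have hsum : |∑ i : ι × ι, (avg (Ag22 c rr l i.1 i.2) f T - avg (Ag22 c rr l i.1 i.2) f T')|
      ≤ ((Fintype.card ι : ℝ) ^ 2 - 2) * L := by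
    have h1 : ∑ i : ι × ι, (avg (Ag22 c rr l i.1 i.2) f T - avg (Ag22 c rr l i.1 i.2) f T')
        = ∑ i ∈ univ \ {(p, q), (q, p)}, (avg (Ag22 c rr l i.1 i.2) f T
          - avg (Ag22 c rr l i.1 i.2) f T') := by
      rw [← sum_sdiff (subset_univ ({(p, q), (q, p)} : Finset (ι × ι)))]
      rw [sum_pair hne]
      rw [(hall p q).2 (Or.inl ⟨rfl, rfl⟩), (hall q p).2 (Or.inr ⟨rfl, rfl⟩)]
      ring
    rw [h1]
    refine (abs_sum_le_sum_abs _ _).trans ?_
    refine (sum_le_sum fun i _ => (hall i.1 i.2).1).trans ?_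
    rw [sum_const, nsmul_eq_mul]
    have h2 : ((univ \ {(p, q), (q, p)} : Finset (ι × ι)).card : ℝ) = (Fintype.card ι : ℝ) ^ 2 - 2 := by
      rw [card_sdiff_of_subset (subset_univ _), card_pair hne, card_univ, Nat.cast_sub, hcard]
      · norm_num
      · have := card_le_univ ({(p, q), (q, p)} : Finset (ι × ι))
        rwa [card_pair hne] at this
    rw [h2]
  rw [hcard]
  calc 1 / (Fintype.card ι : ℝ) ^ 2 * _ ≤ 1 / (Fintype.card ι : ℝ) ^ 2 *
        (((Fintype.card ι : ℝ) ^ 2 - 2) * L) := mul_le_mul_of_nonneg_left hsum (by positivity)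
    _ = (1 - 2 / (Fintype.card ι : ℝ) ^ 2) * L := by field_simp

/-- with at most one column the classes are singletons -/
theorem E7_small (c : ι → ℕ) (rr : κ → ℕ) (l : κ) (hn : Fintype.card ι < 2)
    (T T' : {T // T ∈ Om c rr}) (h : Ag c rr l l T T') : T = T' := by
  have hrow : ∀ j, j ≠ l → T.1 j = T'.1 j := fun j hj => h j hj hj
  have hsub : Subsingleton ι := Fintype.card_le_one_iff_subsingleton.1 (by omega)
  by_cases hι : Nonempty ι
  · obtain ⟨a⟩ := hι
    exact E7_diag c rr l a T T' ⟨hrow, fun q hq _ => absurd (Subsingleton.elim q a) hq⟩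
  · apply Subtype.ext
    funext j q
    exact absurd ⟨q⟩ hι

theorem two_row_gap (c : ι → ℕ) (rr : κ → ℕ) (l : κ) (F : {T // T ∈ Om c rr} → ℝ) :
    ∑ T, (F T - avg (Ag c rr l l) F T) ^ 2 ≤
      1 / 2 * ∑ a, ∑ b, ∑ T, (F T - avg (Ag22 c rr l a b) F T) ^ 2 := by
  by_cases hn : Fintype.card ι < 2
  · have h0 : avg (Ag c rr l l) F = F :=
      avg_of_inv (Ag_equiv c rr l l) fun x y h => by rw [E7_small c rr l hn x y h]
    rw [h0]
    simp only [sub_self, ne_eq, OfNat.ofNat_ne_zero, not_false_eq_true, zero_pow, sum_const_zero]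
    exact mul_nonneg (by norm_num)
      (sum_nonneg fun a _ => sum_nonneg fun b _ => sum_nonneg fun T _ => sq_nonneg _)
  push Not at hn
  have hι : Nonempty ι := Fintype.card_pos_iff.1 (by omega)
  have hnR : (2 : ℝ) ≤ Fintype.card ι := by exact_mod_cast hn
  have hcard : (Fintype.card (ι × ι) : ℝ) = (Fintype.card ι : ℝ) ^ 2 := by
    rw [Fintype.card_prod]; push_cast; ring
  have key := avg_gap (I := ι × ι) (R := fun i => Ag22 c rr l i.1 i.2) (R0 := Ag c rr l l)
    (fun i => E7_Ag22_equiv c rr l i.1 i.2) (Ag_equiv c rr l l)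
    (fun i x y h => E7_Ag22_le c rr l i.1 i.2 x y h) (δ := 2 / (Fintype.card ι : ℝ) ^ 2)
    (by rw [div_le_one (by positivity)]; nlinarith) ?_ F
  · rw [hcard, Fintype.sum_prod_type] at key
    have e : (Fintype.card ι : ℝ) ^ 2 * (2 / (Fintype.card ι : ℝ) ^ 2) = 2 := by
      have : (Fintype.card ι : ℝ) ≠ 0 := by linarith
      field_simp
    rw [e] at key
    linarith
  · intro f μ hf h0 hμ
    obtain ⟨L, hL0, hL, hmin⟩ := exists_lip c rr l l f
    have hctr := E7_contract hn hL0 hL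
    rw [hμ] at hctr
    -- `L > 0`
    have hLpos : 0 < L := by
      rcases hL0.lt_or_eq with h | h
      · exact h
      · exfalso
        rw [← h] at hL
        apply hf
        have hconst : ∀ T T' : {T // T ∈ Om c rr}, Ag c rr l l T T' → f T = f T' := by
          intro T T' hTT
          have hrow : ∀ j, j ≠ l → T.1 j = T'.1 j := fun j hj => hTT j hj hj
          have e := E7_row_eq (T := T) (T' := T') hrow
          have hy : T'.1 l ∈ lev (sec c T.1 l) (rr l) := by
            rw [← upd_mem T.2 l, ← e]; exact T'.2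
          have := lev_connected (sec c T.1 l) (rr l)
            (fun x => ∀ h : Function.update T.1 l x ∈ Om c rr, f ⟨_, h⟩ = f T) ?_
            (∑ q, (T.1 l q - T'.1 l q)) (T.1 l) (T'.1 l) (self_mem T.2 l) hy ?_ le_rfl
          · have h2 := this (by rw [← e]; exact T'.2)
            rw [← h2]
            congr 1
            exact Subtype.ext e.symm
          · intro x hx hPx a b ha hmem h3
            have h4 : Function.update T.1 l x ∈ Om c rr := (upd_mem T.2 l x).2 hx
            have h5 := hL ⟨_, h4⟩ ⟨_, h3⟩ (fun j hj _ => by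
              simp only [Function.update_of_ne hj]) a b
              (by simpa only [Function.update_self] using ha)
              (by simp only [Function.update_self])
            have h6 : |f ⟨_, h4⟩ - f ⟨_, h3⟩| = 0 := le_antisymm h5 (abs_nonneg _)
            rw [abs_eq_zero, sub_eq_zero] at h6
            rw [← h6]
            exact hPx h4
          · intro h3
            congr 1
            exact Subtype.ext (Function.update_eq_self l T.1)
        rw [avg_of_inv (Ag_equiv c rr l l) hconst] at h0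
        exact h0
    rcases hmin with h | h
    · exact absurd h hLpos.ne'
    by_contra hcon
    push Not at hcon
    have hδ : 0 ≤ 1 - 2 / (Fintype.card ι : ℝ) ^ 2 := by
      rw [sub_nonneg, div_le_one (by positivity)]; nlinarith
    have hμpos : 0 < μ := lt_of_le_of_lt hδ hcon
    have h3 : LipR c rr l l ((1 - 2 / (Fintype.card ι : ℝ) ^ 2) * L / μ) f := by
      intro T T' hrow a b ha he
      have := hctr T T' hrow a b ha he
      simp only [Pi.smul_apply, smul_eq_mul] at this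
      rw [← mul_sub, abs_mul, abs_of_pos hμpos] at this
      rw [le_div_iff₀ hμpos, mul_comm]
      exact this
    have h4 := h _ h3
    rw [le_div_iff₀ hμpos] at h4
    nlinarith

end Multi

end Vale.Agent.H27.CT
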