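import Mathlib

/-!
# Contingency tables and the three-row heat-bath chain
-/

open Finset

namespace Vale.Agent.H27.CT

/-- contingency tables with row sums `r` and column sums `c` -/
abbrev Tab {m n : ℕ} (r : Fin m → ℕ) (c : Fin n → ℕ) : Type :=
  {X : Fin m → Fin n → ℕ // (∀ i, ∑ j, X i j = r i) ∧ ∀ j, ∑ i, X i j = c j}

theorem tab_finite {m n : ℕ} (r : Fin m → ℕ) (c : Fin n → ℕ) : Finite (Tab r c) := by
  apply Set.Finite.to_subtype
  apply Set.Finite.subset (Fintype.piFinset (fun i : Fin m =>
    Fintype.piFinset (fun _ : Fin n => Finset.range (r i + 1)))).finite_toSet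
  intro X hX
  simp only [Finset.mem_coe, Fintype.mem_piFinset, Finset.mem_range, Nat.lt_succ_iff]
  intro i j
  rw [← hX.1 i]
  exact single_le_sum (f := fun j => X i j) (fun _ _ => Nat.zero_le _) (mem_univ j)

noncomputable instance {m n : ℕ} (r : Fin m → ℕ) (c : Fin n → ℕ) : Fintype (Tab r c) :=
  @Fintype.ofFinite _ (tab_finite r c)

/-- `X` and `Y` agree in every row other than `i`, `j`, `k` -/
def Agree {m n : ℕ} {r : Fin m → ℕ} {c : Fin n → ℕ} (i j k : Fin m) (X Y : Tab r c) : Prop :=
  ∀ l, l ≠ i → l ≠ j → l ≠ k → X.1 l = Y.1 l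

open scoped Classical in
/-- One step of the three-row heat-bath chain: choose `(i,j,k)` uniformly among the `m ^ 3`
triples of row indices and replace rows `i`, `j`, `k` of the current table by a uniformly random
choice among all tables (with the same margins) agreeing with it in all the other rows. -/
noncomputable def heatBath {m n : ℕ} (r : Fin m → ℕ) (c : Fin n → ℕ) :
    Matrix (Tab r c) (Tab r c) ℝ := fun X Y =>
  (1 / (m : ℝ) ^ 3) * ∑ i, ∑ j, ∑ k,
    if Agree i j k X Y then 1 / ((univ.filter (fun Z => Agree i j k X Z)).card : ℝ) else 0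

/-- row margins with one more unit in row `i₀` -/
def rowPlus {m : ℕ} (r : Fin m → ℕ) (i₀ : Fin m) : Fin m → ℕ := Function.update r i₀ (r i₀ + 1)

/-- column margins with one more column, of sum `1` -/
def colPlus {n : ℕ} (c : Fin n → ℕ) : Fin (n + 1) → ℕ := Fin.snoc c 1

/-- put the extra unit in row `i₀` of the extra column -/
def extend {m n : ℕ} {r : Fin m → ℕ} {c : Fin n → ℕ} (i₀ : Fin m) (X : Tab r c) :
    Tab (rowPlus r i₀) (colPlus c) :=
  ⟨fun i => Fin.snoc (X.1 i) (if i = i₀ then 1 else 0), by
    constructor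
    · intro i
      rw [Fin.sum_univ_castSucc]
      simp only [Fin.snoc_castSucc, Fin.snoc_last, X.2.1 i, rowPlus]
      by_cases h : i = i₀
      · subst h; simp
      · simp [h]
    · intro j
      refine Fin.lastCases ?_ (fun j => ?_) j
      · simp [colPlus]
      · simp [colPlus, X.2.2 j]⟩

/-- the law, started from `x₀`, of the table of `Tab r c` read off from the chain for the extended
margins after `t` steps, conditionally on the extra unit being in row `i₀` -/
noncomputable def outLaw {m n : ℕ} {r : Fin m → ℕ} {c : Fin n → ℕ} (i₀ : Fin m)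
    (x₀ : Tab (rowPlus r i₀) (colPlus c)) (t : ℕ) (X : Tab r c) : ℝ :=
  (heatBath (rowPlus r i₀) (colPlus c) ^ t) x₀ (extend i₀ X) /
    ∑ Z : Tab r c, (heatBath (rowPlus r i₀) (colPlus c) ^ t) x₀ (extend i₀ Z)

end Vale.Agent.H27.CT
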