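import Vale.Agent.H27.CT.G1
import Vale.Agent.H27.CT.FinDefs

/-!
# Row F3: the gap for full tables with a dominating row
-/

open Finset

namespace Vale.Agent.H27.CT

open Vale.Agent.KTV

variable {m n : ℕ}

section
variable (r : Fin m → ℕ) (c : Fin n → ℕ) (i₀ : Fin m)

/-- rows other than the hub -/
abbrev Rest (i₀ : Fin m) : Type := {l : Fin m // l ≠ i₀}

theorem sum_rest (i₀ : Fin m) (f : Fin m → ℕ) : ∑ l : Rest i₀, f l.1 + f i₀ = ∑ l, f l := by
  rw [← sum_erase_add univ f (mem_univ i₀)]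
  congr 1
  refine (sum_subtype (univ.erase i₀) (fun x => ?_) f).symm
  simp

/-- forget the hub row -/
def toOm (X : Tab r c) : {T : Rest i₀ → Fin n → ℕ // T ∈ Om c (fun l : Rest i₀ => r l.1)} :=
  ⟨fun l => X.1 l.1, mem_Om.2 ⟨fun l => X.2.1 l.1, fun a => by
    rw [← X.2.2 a, ← sum_rest i₀ (fun l => X.1 l a)]; omega⟩⟩

/-- restore the hub row -/
def ofOm (hN : ∑ i, r i = ∑ j, c j)
    (T : {T : Rest i₀ → Fin n → ℕ // T ∈ Om c (fun l : Rest i₀ => r l.1)}) : Tab r c :=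
  ⟨fun i a => if h : i ≠ i₀ then T.1 ⟨i, h⟩ a else c a - ∑ l, T.1 l a, by
    have hT := mem_Om.1 T.2
    have hcol : ∀ a, ∑ i, (if h : i ≠ i₀ then T.1 ⟨i, h⟩ a else c a - ∑ l, T.1 l a) = c a := by
      intro a
      rw [← sum_rest i₀ (fun i => if h : i ≠ i₀ then T.1 ⟨i, h⟩ a else c a - ∑ l, T.1 l a)]
      have e : ∑ l : Rest i₀, (if h : l.1 ≠ i₀ then T.1 ⟨l.1, h⟩ a else c a - ∑ l, T.1 l a) =
          ∑ l, T.1 l a := sum_congr rfl fun l _ => by rw [dif_pos l.2]
      rw [e, dif_neg (by simp)]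
      have := hT.2 a
      omega
    refine ⟨fun i => ?_, hcol⟩
    change ∑ a, (if h : i ≠ i₀ then T.1 ⟨i, h⟩ a else c a - ∑ l, T.1 l a) = r i
    by_cases h : i = i₀
    · subst h
      have h1 : ∑ j, ∑ i', (if h : i' ≠ i then T.1 ⟨i', h⟩ j else c j - ∑ l, T.1 l j) =
          ∑ j, c j := sum_congr rfl fun j _ => hcol j
      rw [sum_comm, ← hN, ← sum_rest i (fun i' => ∑ j, (if h : i' ≠ i then T.1 ⟨i', h⟩ j
        else c j - ∑ l, T.1 l j)), ← sum_rest i r] at h1
      have h2 : ∑ l : Rest i, ∑ j, (if h : l.1 ≠ i then T.1 ⟨l.1, h⟩ j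
        else c j - ∑ l, T.1 l j) = ∑ l : Rest i, r l.1 := by
        refine sum_congr rfl fun l _ => ?_
        rw [← hT.1 l]
        exact sum_congr rfl fun j _ => by rw [dif_pos l.2]
      omega
    · rw [← hT.1 ⟨i, h⟩]
      exact sum_congr rfl fun j _ => by rw [dif_pos h]⟩

/-- tables are the same as tables without the hub row -/
def omEquiv (hN : ∑ i, r i = ∑ j, c j) :
    Tab r c ≃ {T : Rest i₀ → Fin n → ℕ // T ∈ Om c (fun l : Rest i₀ => r l.1)} where
  toFun := toOm r c i₀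
  invFun := ofOm r c i₀ hN
  left_inv := by
    intro X
    apply Subtype.ext
    funext i a
    simp only [ofOm, toOm]
    by_cases h : i = i₀
    · subst h
      simp only [ne_eq, not_true_eq_false, dite_false]
      have := sum_rest i (fun l => X.1 l a)
      rw [X.2.2 a] at this
      omega
    · simp only [ne_eq, h, not_false_eq_true, dite_true]
  right_inv := by
    intro T
    apply Subtype.ext
    funext l a
    simp only [ofOm, toOm]
    rw [dif_pos l.2]

end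

theorem gap_tab (hm : 3 ≤ m) (r : Fin m → ℕ) (c : Fin n → ℕ) (N : ℕ) (hr : ∑ i, r i = N)
    (hc : ∑ j, c j = N) (i₀ : Fin m) (hi : ∀ l, l ≠ i₀ → r l + 1 ≤ r i₀)
    (F : Tab r c → ℝ) (hF : ∑ X, F X = 0) :
    ∑ X, F X ^ 2 ≤ (6 * (1 + (m : ℝ) * (2 * (n : ℝ) ^ 2))
        + 8 * (n : ℝ) * (12 * (n : ℝ) ^ 5 * (1 + (n : ℝ) * (harmonic N : ℝ)))) *
      ∑ i, ∑ j, ∑ k, ∑ X, (F X - avg (Agree i j k) F X) ^ 2 := by
  classical
  have hN : ∑ i, r i = ∑ j, c j := by rw [hr, hc]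
  set e := omEquiv r c i₀ hN with he
  have hcard : Fintype.card (Rest i₀) = m - 1 := by
    rw [Fintype.card_subtype_compl, Fintype.card_fin, Fintype.card_subtype_eq]
  have hcardR : (Fintype.card (Rest i₀) : ℝ) + 1 = m := by
    rw [hcard]
    have : ((m - 1 : ℕ) : ℝ) = m - 1 := by
      rw [Nat.cast_sub (by omega)]; simp
    rw [this]; ring
  have hcle : ∀ a, c a ≤ N := fun a => by
    rw [← hc]; exact single_le_sum (f := c) (fun _ _ => Nat.zero_le _) (mem_univ a)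
  set G := fun T => F (e.symm T) with hG
  have hGsum : ∑ T, G T = 0 := by
    rw [← hF]; exact Equiv.sum_comp e.symm F
  have key := gap_Om c (fun l : Rest i₀ => r l.1) (by rw [hcard]; omega)
    (fun l => by
      have h1 := sum_rest i₀ r
      have h2 := hi l.1 l.2
      rw [hr] at h1
      rw [hc]
      omega) N hcle G hGsum
  rw [hcardR, Fintype.card_fin] at key
  have hsq : ∑ T, G T ^ 2 = ∑ X, F X ^ 2 := Equiv.sum_comp e.symm (fun X => F X ^ 2)
  rw [hsq] at key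
  refine key.trans (mul_le_mul_of_nonneg_left ?_ ?_)
  swap
  · have := harmonic_nonneg N
    positivity
  -- transfer of the averages
  have hav : ∀ l k : Rest i₀, ∑ T, (G T - avg (fun T T' :
      {T : Rest i₀ → Fin n → ℕ // T ∈ Om c (fun l : Rest i₀ => r l.1)} =>
          ∀ j, j ≠ l → j ≠ k → T.1 j = T'.1 j) G T) ^ 2 =
      ∑ X, (F X - avg (Agree i₀ l.1 k.1) F X) ^ 2 := by
    intro l k
    rw [← Equiv.sum_comp e]
    refine sum_congr rfl fun X _ => ?_
    have h1 : G (e X) = F X := by simp [hG]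
    have h2 := avg_transfer (r := fun T T' :
      {T : Rest i₀ → Fin n → ℕ // T ∈ Om c (fun l : Rest i₀ => r l.1)} =>
          ∀ j, j ≠ l → j ≠ k → T.1 j = T'.1 j) (fun X => e X) e.injective
          (Agree i₀ l.1 k.1) G X (by
        intro A
        constructor
        · intro h
          refine ⟨e.symm A, ?_, by simp⟩
          intro j h1 h2 h3
          have h4 := h ⟨j, h1⟩ (fun h => h2 (congrArg Subtype.val h))
            (fun h => h3 (congrArg Subtype.val h))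
          have h5 : (e X).1 ⟨j, h1⟩ = X.1 j := rfl
          have h6 : A.1 ⟨j, h1⟩ = (e.symm A).1 j := by
            have : (e (e.symm A)).1 ⟨j, h1⟩ = (e.symm A).1 j := rfl
            rw [← this, Equiv.apply_symm_apply]
          rw [← h5, ← h6]; exact h4
        · rintro ⟨Y, hY, rfl⟩
          intro j h1 h2
          exact hY j.1 j.2 (fun h => h1 (Subtype.ext h)) (fun h => h2 (Subtype.ext h)))
    rw [h1, ← h2]
    simp only [hG, Equiv.symm_apply_apply]
  rw [sum_congr rfl fun l _ => sum_congr rfl fun k _ => hav l k]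
  have hnn : ∀ i j k, 0 ≤ ∑ X, (F X - avg (Agree i j k) F X) ^ 2 :=
    fun i j k => sum_nonneg fun _ _ => sq_nonneg _
  have hrest : ∀ f : Fin m → ℝ, (∀ i, 0 ≤ f i) → ∑ l : Rest i₀, f l.1 ≤ ∑ l, f l := by
    intro f hf
    rw [← sum_subtype (univ.erase i₀) (fun x => by simp) f]
    exact sum_le_sum_of_subset_of_nonneg (erase_subset _ _) fun i _ _ => hf i
  calc ∑ l : Rest i₀, ∑ k ∈ univ.erase l, ∑ X, (F X - avg (Agree i₀ l.1 k.1) F X) ^ 2
      ≤ ∑ l : Rest i₀, ∑ k : Rest i₀, ∑ X, (F X - avg (Agree i₀ l.1 k.1) F X) ^ 2 :=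
        sum_le_sum fun l _ => sum_le_sum_of_subset_of_nonneg (erase_subset _ _)
          fun k _ _ => hnn _ _ _
    _ ≤ ∑ l : Rest i₀, ∑ k, ∑ X, (F X - avg (Agree i₀ l.1 k) F X) ^ 2 :=
        sum_le_sum fun l _ => hrest (fun k => ∑ X, (F X - avg (Agree i₀ l.1 k) F X) ^ 2)
          (fun k => hnn _ _ _)
    _ ≤ ∑ j, ∑ k, ∑ X, (F X - avg (Agree i₀ j k) F X) ^ 2 :=
        hrest (fun j => ∑ k, ∑ X, (F X - avg (Agree i₀ j k) F X) ^ 2)
          (fun j => sum_nonneg fun k _ => hnn _ _ _)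
    _ ≤ ∑ i, ∑ j, ∑ k, ∑ X, (F X - avg (Agree i j k) F X) ^ 2 :=
        single_le_sum (f := fun i => ∑ j, ∑ k, ∑ X, (F X - avg (Agree i j k) F X) ^ 2)
          (fun i _ => sum_nonneg fun j _ => sum_nonneg fun k _ => hnn _ _ _) (mem_univ i₀)

end Vale.Agent.H27.CT
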