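import Vale.Agent.H27.CT.FinDefs

/-!
# The 2x2 heat-bath chain
-/

open Finset

namespace Vale.Agent.H27.CT

/-- `X` and `Y` agree outside the (at most four) entries in rows `i`, `j` and columns `a`, `b` -/
def Agree22 {m n : ℕ} {r : Fin m → ℕ} {c : Fin n → ℕ} (i j : Fin m) (a b : Fin n)
    (X Y : Tab r c) : Prop :=
  ∀ p q, ¬((p = i ∨ p = j) ∧ (q = a ∨ q = b)) → X.1 p q = Y.1 p q

open scoped Classical in
/-- One step of the 2x2 heat-bath chain: choose two row indices `i`, `j` and two column indices
`a`, `b` uniformly and independently, and replace the current table by a uniformly random choice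
among all tables (with the same margins) agreeing with it outside the entries in rows `i`, `j`
and columns `a`, `b`. -/
noncomputable def heatBath22 {m n : ℕ} (r : Fin m → ℕ) (c : Fin n → ℕ) :
    Matrix (Tab r c) (Tab r c) ℝ := fun X Y =>
  (1 / ((m : ℝ) ^ 2 * (n : ℝ) ^ 2)) * ∑ i, ∑ j, ∑ a, ∑ b,
    if Agree22 i j a b X Y then 1 / ((univ.filter (fun Z => Agree22 i j a b X Z)).card : ℝ) else 0

/-- the law, started from `x₀`, of the table of `Tab r c` read off from the 2x2 heat-bath chain
for the extended margins after `t` steps, conditionally on the extra unit being in row `i₀` -/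
noncomputable def outLaw22 {m n : ℕ} {r : Fin m → ℕ} {c : Fin n → ℕ} (i₀ : Fin m)
    (x₀ : Tab (rowPlus r i₀) (colPlus c)) (t : ℕ) (X : Tab r c) : ℝ :=
  (heatBath22 (rowPlus r i₀) (colPlus c) ^ t) x₀ (extend i₀ X) /
    ∑ Z : Tab r c, (heatBath22 (rowPlus r i₀) (colPlus c) ^ t) x₀ (extend i₀ Z)

end Vale.Agent.H27.CT
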