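import Vale.Agent.H27.CT.E7
import Vale.Agent.H27.CT.FinDefs2
import Vale.Agent.H27.CT.F3
import Vale.Agent.H27.CT.E6c

/-!
# Row E8: gap of the 2x2 heat-bath chain for full tables with a dominating row
-/

open Finset

namespace Vale.Agent.H27.CT

open Vale.Agent.KTV

section Multi
variable {κ ι : Type*} [Fintype κ] [DecidableEq κ] [Fintype ι] [DecidableEq ι]

theorem gap22_Om (c : ι → ℕ) (rr : κ → ℕ) (hκ : 1 ≤ Fintype.card κ)
    (hR : ∀ l, ∑ k, rr k + rr l + 1 ≤ ∑ a, c a) (N : ℕ) (hN : ∀ a, c a ≤ N)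
    (F : {T // T ∈ Om c rr} → ℝ) (hF : ∑ T, F T = 0) :
    ∑ T, F T ^ 2 ≤ (6 * (1 + (Fintype.card κ + 1) * (2 * (Fintype.card ι : ℝ) ^ 2))
        + 8 * (Fintype.card ι : ℝ) * (12 * (Fintype.card ι : ℝ) ^ 5
          * (1 + (Fintype.card ι : ℝ) * (harmonic N : ℝ)))) * (6000 * Fintype.card κ) *
      ∑ l, ∑ a, ∑ b, ∑ T, (F T - avg (Ag22 c rr l a b) F T) ^ 2 := by
  set C : ℝ := (6 * (1 + (Fintype.card κ + 1) * (2 * (Fintype.card ι : ℝ) ^ 2))
        + 8 * (Fintype.card ι : ℝ) * (12 * (Fintype.card ι : ℝ) ^ 5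
          * (1 + (Fintype.card ι : ℝ) * (harmonic N : ℝ)))) with hC
  have hH := harmonic_nonneg N
  have hC6 : 6 ≤ C := by
    have h1 : 0 ≤ 6 * (((Fintype.card κ : ℝ) + 1) * (2 * (Fintype.card ι : ℝ) ^ 2)) := by
      positivity
    have h2 : 0 ≤ 8 * (Fintype.card ι : ℝ) * (12 * (Fintype.card ι : ℝ) ^ 5
          * (1 + (Fintype.card ι : ℝ) * (harmonic N : ℝ))) := by positivity
    rw [hC]; linarith
  set M : ℝ := (Fintype.card κ : ℝ) with hM
  have hM1 : 1 ≤ M := by rw [hM]; exact_mod_cast hκ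
  set S : κ → ℝ := fun l => ∑ a, ∑ b, ∑ T, (F T - avg (Ag22 c rr l a b) F T) ^ 2 with hS
  set D : κ → ℝ := fun l => ∑ T, (F T - avg (Ag c rr l l) F T) ^ 2 with hD
  have hS0 : ∀ l, 0 ≤ S l := fun l => sum_nonneg fun a _ => sum_nonneg fun b _ =>
    sum_nonneg fun T _ => sq_nonneg _
  have hDS : ∀ l, D l ≤ 1 / 2 * S l := fun l => two_row_gap c rr l F
  have hSs : 0 ≤ ∑ l, S l := sum_nonneg fun l _ => hS0 l
  rcases (show Fintype.card κ = 1 ∨ 2 ≤ Fintype.card κ by omega) with h1 | h2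
  · -- one row besides the hub
    obtain ⟨l₀, hl₀⟩ := Fintype.card_eq_one_iff.1 h1
    have hav : ∀ T, avg (Ag c rr l₀ l₀) F T = 0 := by
      intro T
      unfold avg
      have : cls (Ag c rr l₀ l₀) T = univ := by
        ext T'
        simp only [mem_cls, mem_univ, iff_true]
        intro j hj _
        exact absurd (hl₀ j) hj
      rw [this, hF, zero_div]
    have e1 : ∑ T, F T ^ 2 = D l₀ := by
      rw [hD]
      exact sum_congr rfl fun T _ => by rw [hav, sub_zero]
    rw [e1]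
    have h3 : S l₀ ≤ ∑ l, S l := single_le_sum (f := S) (fun l _ => hS0 l) (mem_univ l₀)
    have h4 : (1 : ℝ) / 2 ≤ C * (6000 * M) := by nlinarith
    calc D l₀ ≤ 1 / 2 * S l₀ := hDS l₀
      _ ≤ 1 / 2 * ∑ l, S l := by linarith
      _ ≤ C * (6000 * M) * ∑ l, S l := mul_le_mul_of_nonneg_right h4 hSs
  · have key := gap_Om c rr h2 hR N hN F hF
    rw [← hC] at key
    have h3 : ∑ l, ∑ k ∈ univ.erase l, ∑ T, (F T - avg (fun T T' : {T // T ∈ Om c rr} =>
          ∀ j, j ≠ l → j ≠ k → T.1 j = T'.1 j) F T) ^ 2 ≤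
        ∑ l, ∑ k ∈ univ.erase l, 6000 * (D l + D k) := by
      refine sum_le_sum fun l _ => sum_le_sum fun k hk => ?_
      exact three_row_gap c rr (ne_of_mem_erase hk).symm hR F
    have h4 : ∑ l, ∑ k ∈ univ.erase l, 6000 * (D l + D k) = 6000 * (2 * (M - 1)) * ∑ l, D l := by
      have e1 : ∀ l, ∑ k ∈ univ.erase l, 6000 * (D l + D k) =
          6000 * ((M - 1) * D l + (∑ k, D k - D l)) := by
        intro l
        rw [← mul_sum, sum_add_distrib, sum_const, card_erase_of_mem (mem_univ l), card_univ,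
          nsmul_eq_mul, Nat.cast_sub hκ, ← hM, Nat.cast_one]
        have := add_sum_erase univ D (mem_univ l)
        congr 2
        linarith
      rw [sum_congr rfl fun l _ => e1 l, ← mul_sum, sum_add_distrib, ← mul_sum,
        sum_sub_distrib, sum_const, card_univ, nsmul_eq_mul, ← hM]
      ring
    have h5 : ∑ l, D l ≤ 1 / 2 * ∑ l, S l := by
      rw [mul_sum]; exact sum_le_sum fun l _ => hDS l
    rw [h4] at h3
    calc ∑ T, F T ^ 2 ≤ _ := key
      _ ≤ C * (6000 * (2 * (M - 1)) * ∑ l, D l) := mul_le_mul_of_nonneg_left h3 (by linarith)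
      _ ≤ C * (6000 * (2 * (M - 1)) * (1 / 2 * ∑ l, S l)) := by
          apply mul_le_mul_of_nonneg_left _ (by linarith)
          apply mul_le_mul_of_nonneg_left h5
          nlinarith
      _ ≤ C * (6000 * M) * ∑ l, S l := by
          have : C * (6000 * M) * ∑ l, S l - C * (6000 * (2 * (M - 1)) * (1 / 2 * ∑ l, S l))
            = C * 6000 * ∑ l, S l := by ring
          have h6 : 0 ≤ C * 6000 * ∑ l, S l := by
            apply mul_nonneg _ hSs; linarith
          linarith

end Multi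

theorem gap22_tab {m n : ℕ} (hm : 2 ≤ m) (r : Fin m → ℕ) (c : Fin n → ℕ) (N : ℕ)
    (hr : ∑ i, r i = N) (hc : ∑ j, c j = N) (i₀ : Fin m) (hi : ∀ l, l ≠ i₀ → r l + 1 ≤ r i₀)
    (F : Tab r c → ℝ) (hF : ∑ X, F X = 0) :
    ∑ X, F X ^ 2 ≤ (6 * (1 + (m : ℝ) * (2 * (n : ℝ) ^ 2))
        + 8 * (n : ℝ) * (12 * (n : ℝ) ^ 5 * (1 + (n : ℝ) * (harmonic N : ℝ)))) * (6000 * m) *
      ∑ i, ∑ j, ∑ a, ∑ b, ∑ X, (F X - avg (Agree22 i j a b) F X) ^ 2 := by
  classical
  have hN : ∑ i, r i = ∑ j, c j := by rw [hr, hc]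
  set e := omEquiv r c i₀ hN with he
  have hcard : Fintype.card (Rest i₀) = m - 1 := by
    rw [Fintype.card_subtype_compl, Fintype.card_fin, Fintype.card_subtype_eq]
  have hcardR : (Fintype.card (Rest i₀) : ℝ) + 1 = m := by
    rw [hcard]
    have : ((m - 1 : ℕ) : ℝ) = m - 1 := by
      rw [Nat.cast_sub (by omega)]; simp
    rw [this]; ring
  have hcle : ∀ a, c a ≤ N := fun a => by
    rw [← hc]; exact single_le_sum (f := c) (fun _ _ => Nat.zero_le _) (mem_univ a)
  set G := fun T => F (e.symm T) with hG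
  have hGsum : ∑ T, G T = 0 := by
    rw [← hF]; exact Equiv.sum_comp e.symm F
  have key := gap22_Om c (fun l : Rest i₀ => r l.1) (by rw [hcard]; omega)
    (fun l => by
      have h1 := sum_rest i₀ r
      have h2 := hi l.1 l.2
      rw [hr] at h1
      rw [hc]
      omega) N hcle G hGsum
  rw [hcardR, Fintype.card_fin] at key
  have hsq : ∑ T, G T ^ 2 = ∑ X, F X ^ 2 := Equiv.sum_comp e.symm (fun X => F X ^ 2)
  rw [hsq] at key
  have hH := harmonic_nonneg N
  have hC0 : 0 ≤ (6 * (1 + (m : ℝ) * (2 * (n : ℝ) ^ 2))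
        + 8 * (n : ℝ) * (12 * (n : ℝ) ^ 5 * (1 + (n : ℝ) * (harmonic N : ℝ)))) := by positivity
  have hcm : (6000 * (Fintype.card (Rest i₀) : ℝ)) ≤ 6000 * m := by linarith
  -- transfer of the averages
  have hav : ∀ (l : Rest i₀) (a b : Fin n), ∑ T, (G T - avg (Ag22 c
      (fun l : Rest i₀ => r l.1) l a b) G T) ^ 2 =
      ∑ X, (F X - avg (Agree22 i₀ l.1 a b) F X) ^ 2 := by
    intro l a b
    rw [← Equiv.sum_comp e]
    refine sum_congr rfl fun X _ => ?_
    have h1 : G (e X) = F X := by simp [hG]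
    have hval : ∀ (Y : Tab r c) (j : Rest i₀), (e Y).1 j = Y.1 j.1 := fun _ _ => rfl
    have hiff : ∀ Y Z : Tab r c, Agree22 i₀ l.1 a b Y Z ↔
        Ag22 c (fun l : Rest i₀ => r l.1) l a b (e Y) (e Z) := by
      intro Y Z
      constructor
      · intro h
        refine ⟨fun j hj => ?_, fun q h1 h2 => ?_⟩
        · rw [hval, hval]
          funext q
          refine h j.1 q ?_
          rintro ⟨h1 | h1, -⟩
          · exact j.2 h1
          · exact hj (Subtype.ext h1)
        · rw [hval, hval]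
          refine h l.1 q ?_
          rintro ⟨-, h3 | h3⟩
          · exact h1 h3
          · exact h2 h3
      · rintro ⟨h1, h2⟩
        -- entries outside the hub row
        have hout : ∀ p q, p ≠ i₀ → ¬(p = l.1 ∧ (q = a ∨ q = b)) → Y.1 p q = Z.1 p q := by
          intro p q hp hpq
          by_cases hpl : p = l.1
          · subst hpl
            have hq : q ≠ a ∧ q ≠ b := by
              constructor
              · rintro rfl; exact hpq ⟨rfl, Or.inl rfl⟩
              · rintro rfl; exact hpq ⟨rfl, Or.inr rfl⟩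
            have := h2 q hq.1 hq.2
            rw [hval, hval] at this
            exact this
          · have := h1 ⟨p, hp⟩ (fun h => hpl (congrArg Subtype.val h))
            rw [hval, hval] at this
            exact congrFun this q
        intro p q hpq
        by_cases hp : p = i₀
        · subst hp
          have hq : q ≠ a ∧ q ≠ b := by
            constructor
            · rintro rfl; exact hpq ⟨Or.inl rfl, Or.inl rfl⟩
            · rintro rfl; exact hpq ⟨Or.inl rfl, Or.inr rfl⟩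
          have hY := Y.2.2 q
          have hZ := Z.2.2 q
          rw [← sum_rest p (fun i => Y.1 i q)] at hY
          rw [← sum_rest p (fun i => Z.1 i q)] at hZ
          have hs : ∑ l : Rest p, Y.1 l.1 q = ∑ l : Rest p, Z.1 l.1 q :=
            sum_congr rfl fun j _ => hout j.1 q j.2 (by
              rintro ⟨-, h3 | h3⟩
              · exact hq.1 h3
              · exact hq.2 h3)
          omega
        · exact hout p q hp (fun h => hpq ⟨Or.inr h.1, h.2⟩)
    have h2 := avg_transfer (r := Ag22 c (fun l : Rest i₀ => r l.1) l a b) (fun X => e X)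
      e.injective (Agree22 i₀ l.1 a b) G X (by
        intro A
        constructor
        · intro h
          refine ⟨e.symm A, ?_, by simp⟩
          rw [hiff, Equiv.apply_symm_apply]
          exact h
        · rintro ⟨Y, hY, rfl⟩
          exact (hiff X Y).1 hY)
    rw [h1, ← h2]
    simp only [hG, Equiv.symm_apply_apply]
  rw [sum_congr rfl fun l _ => sum_congr rfl fun a _ => sum_congr rfl fun b _ => hav l a b] at key
  have hnn : ∀ i j a b, 0 ≤ ∑ X, (F X - avg (Agree22 i j a b) F X) ^ 2 :=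
    fun i j a b => sum_nonneg fun _ _ => sq_nonneg _
  have hrest : ∀ f : Fin m → ℝ, (∀ i, 0 ≤ f i) → ∑ l : Rest i₀, f l.1 ≤ ∑ l, f l := by
    intro f hf
    rw [← sum_subtype (univ.erase i₀) (fun x => by simp) f]
    exact sum_le_sum_of_subset_of_nonneg (erase_subset _ _) fun i _ _ => hf i
  have hbig : ∑ l : Rest i₀, ∑ a, ∑ b, ∑ X, (F X - avg (Agree22 i₀ l.1 a b) F X) ^ 2 ≤
      ∑ i, ∑ j, ∑ a, ∑ b, ∑ X, (F X - avg (Agree22 i j a b) F X) ^ 2 :=
    calc _ ≤ ∑ j, ∑ a, ∑ b, ∑ X, (F X - avg (Agree22 i₀ j a b) F X) ^ 2 :=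
          hrest (fun j => ∑ a, ∑ b, ∑ X, (F X - avg (Agree22 i₀ j a b) F X) ^ 2)
            (fun j => sum_nonneg fun a _ => sum_nonneg fun b _ => hnn _ _ _ _)
      _ ≤ _ := single_le_sum
          (f := fun i => ∑ j, ∑ a, ∑ b, ∑ X, (F X - avg (Agree22 i j a b) F X) ^ 2)
          (fun i _ => sum_nonneg fun j _ => sum_nonneg fun a _ => sum_nonneg fun b _ =>
            hnn _ _ _ _) (mem_univ i₀)
  refine key.trans (mul_le_mul (mul_le_mul_of_nonneg_left hcm hC0) hbig
    (sum_nonneg fun l _ => sum_nonneg fun a _ => sum_nonneg fun b _ => hnn _ _ _ _)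
    (by positivity))

end Vale.Agent.H27.CT
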