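import Vale.Agent.H27.CT.FinDefs

/-!
# Row F1
-/

open Finset

namespace Vale.Agent.H27.CT

variable {m n : ℕ}

theorem card_Tab_le (r : Fin m → ℕ) (c : Fin n → ℕ) (N : ℕ) (hN : ∑ i, r i = N) :
    Fintype.card (Tab r c) ≤ (N + 1) ^ (m * n) := by
  have hle : ∀ (X : Tab r c) (i : Fin m) (j : Fin n), X.1 i j < N + 1 := by
    intro X i j
    have h1 : X.1 i j ≤ r i := by
      rw [← X.2.1 i]
      exact single_le_sum (f := fun j => X.1 i j) (fun _ _ => Nat.zero_le _) (mem_univ j)
    have h2 : r i ≤ N := by
      rw [← hN]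
      exact single_le_sum (f := fun i => r i) (fun _ _ => Nat.zero_le _) (mem_univ i)
    omega
  have hinj : Function.Injective
      (fun (X : Tab r c) => (fun i j => (⟨X.1 i j, hle X i j⟩ : Fin (N + 1)))) := by
    intro X Y h
    apply Subtype.ext
    funext i j
    have := congrFun (congrFun h i) j
    simpa using congrArg Fin.val this
  have := Fintype.card_le_of_injective _ hinj
  rw [Fintype.card_fun, Fintype.card_fun, Fintype.card_fin, Fintype.card_fin, Fintype.card_fin,
    ← pow_mul, mul_comm n m] at this
  exact this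

end Vale.Agent.H27.CT
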