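import Vale.Agent.H27.CT.FinDefs

/-!
# Row F2
-/

open Finset

namespace Vale.Agent.H27.CT

variable {m n : ℕ}

theorem extend_injective (r : Fin m → ℕ) (c : Fin n → ℕ) (i₀ : Fin m) :
    Function.Injective (extend (r := r) (c := c) i₀) := by
  intro X Y h
  apply Subtype.ext
  funext i j
  have h1 := congrFun (congrFun (congrArg Subtype.val h) i) (Fin.castSucc j)
  simpa [extend] using h1

namespace F2

/-- the surjection onto (a superset of) the extended tables -/
def Phi2 {r : Fin m → ℕ} {c : Fin n → ℕ} (i₀ : Fin m) (p : Option (Fin m × Fin n) × Tab r c) :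
    Fin m → Fin (n + 1) → ℕ :=
  match p.1 with
  | none => fun i => Fin.snoc (p.2.1 i) (if i = i₀ then 1 else 0)
  | some (a, b) => fun i => Fin.snoc (fun j => p.2.1 i j + (if i = i₀ ∧ j = b then 1 else 0)
      - (if i = a ∧ j = b then 1 else 0)) (if i = a then 1 else 0)

theorem last_col {r : Fin m → ℕ} {c : Fin n → ℕ} {i₀ : Fin m}
    (X : Tab (rowPlus r i₀) (colPlus c)) :
    ∃ a, ∀ i, X.1 i (Fin.last n) = if i = a then 1 else 0 := by
  have h := X.2.2 (Fin.last n)
  simp only [colPlus, Fin.snoc_last] at h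
  have hne : ∃ a, X.1 a (Fin.last n) ≠ 0 := by
    by_contra hcon
    push Not at hcon
    rw [sum_eq_zero (fun i _ => hcon i)] at h
    exact absurd h (by norm_num)
  obtain ⟨a, ha⟩ := hne
  refine ⟨a, fun i => ?_⟩
  rw [← add_sum_erase univ _ (mem_univ a)] at h
  have h1 : X.1 a (Fin.last n) = 1 := by omega
  have h2 : ∑ i ∈ univ.erase a, X.1 i (Fin.last n) = 0 := by omega
  split_ifs with hi
  · rw [hi, h1]
  · rw [sum_eq_zero_iff] at h2
    exact h2 i (mem_erase.2 ⟨hi, mem_univ _⟩)

theorem row_sum {r : Fin m → ℕ} {c : Fin n → ℕ} {i₀ : Fin m}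
    (X : Tab (rowPlus r i₀) (colPlus c)) (i : Fin m) :
    ∑ j : Fin n, X.1 i (Fin.castSucc j) + X.1 i (Fin.last n) = rowPlus r i₀ i := by
  have h := X.2.1 i
  rw [Fin.sum_univ_castSucc] at h
  exact h

theorem col_sum {r : Fin m → ℕ} {c : Fin n → ℕ} {i₀ : Fin m}
    (X : Tab (rowPlus r i₀) (colPlus c)) (j : Fin n) :
    ∑ i : Fin m, X.1 i (Fin.castSucc j) = c j := by
  have h := X.2.2 (Fin.castSucc j)
  simpa [colPlus] using h

theorem mem_range {r : Fin m → ℕ} {c : Fin n → ℕ} {i₀ : Fin m}
    (X : Tab (rowPlus r i₀) (colPlus c)) :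
    ∃ p : Option (Fin m × Fin n) × Tab r c, Phi2 i₀ p = X.1 := by
  obtain ⟨a, ha⟩ := last_col X
  by_cases haa : a = i₀
  · subst haa
    have hrow : ∀ i, ∑ j : Fin n, X.1 i (Fin.castSucc j) = r i := by
      intro i
      have h := row_sum X i
      rw [ha i] at h
      unfold rowPlus at h
      by_cases hi : i = a
      · subst hi; rw [Function.update_self, if_pos rfl] at h; omega
      · rw [Function.update_of_ne hi, if_neg hi] at h; omega
    refine ⟨(none, ⟨fun i j => X.1 i (Fin.castSucc j), hrow, col_sum X⟩), ?_⟩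
    funext i j
    show (Fin.snoc (fun j => X.1 i (Fin.castSucc j)) (if i = a then 1 else 0) :
      Fin (n + 1) → ℕ) j = X.1 i j
    refine Fin.lastCases ?_ (fun j => ?_) j
    · rw [Fin.snoc_last, ha i]
    · rw [Fin.snoc_castSucc]
  · have hi₀ : X.1 i₀ (Fin.last n) = 0 := by rw [ha i₀, if_neg (fun h => haa h.symm)]
    have hrow₀ := row_sum X i₀
    rw [hi₀] at hrow₀
    unfold rowPlus at hrow₀
    rw [Function.update_self] at hrow₀
    have hb : ∃ b : Fin n, X.1 i₀ (Fin.castSucc b) ≠ 0 := by
      by_contra hcon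
      push Not at hcon
      rw [sum_eq_zero (fun i _ => hcon i)] at hrow₀
      omega
    obtain ⟨b, hb⟩ := hb
    set Y : Fin m → Fin n → ℕ := fun i j => X.1 i (Fin.castSucc j)
      + (if i = a ∧ j = b then 1 else 0) - (if i = i₀ ∧ j = b then 1 else 0) with hY
    have hYe : ∀ i j, Y i j + (if i = i₀ ∧ j = b then 1 else 0)
        = X.1 i (Fin.castSucc j) + (if i = a ∧ j = b then 1 else 0) := by
      intro i j
      simp only [hY]
      by_cases h1 : i = i₀ ∧ j = b
      · obtain ⟨rfl, rfl⟩ := h1
        simp only [and_true, if_true]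
        split_ifs <;> omega
      · rw [if_neg h1]; omega
    have hsum1 : ∀ (a' i : Fin m), ∑ j : Fin n, (if i = a' ∧ j = b then 1 else 0)
        = if i = a' then 1 else 0 := by
      intro a' i
      by_cases h : i = a'
      · simp [h]
      · simp [h]
    have hsum2 : ∀ (a' : Fin m) (j : Fin n), ∑ i : Fin m, (if i = a' ∧ j = b then 1 else 0)
        = if j = b then 1 else 0 := by
      intro a' j
      by_cases h : j = b
      · simp [h]
      · simp [h]
    have hrow : ∀ i, ∑ j, Y i j = r i := by
      intro i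
      have h := sum_congr rfl (fun j (_ : j ∈ (univ : Finset (Fin n))) => hYe i j)
      rw [sum_add_distrib, sum_add_distrib, hsum1, hsum1] at h
      have h2 := row_sum X i
      rw [ha i] at h2
      unfold rowPlus at h2
      by_cases h3 : i = i₀
      · subst h3
        rw [Function.update_self] at h2
        rw [if_pos rfl] at h
        rw [if_neg (fun h => haa h.symm)] at h h2
        omega
      · rw [Function.update_of_ne h3] at h2
        rw [if_neg h3] at h
        omega
    have hcol : ∀ j, ∑ i, Y i j = c j := by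
      intro j
      have h := sum_congr rfl (fun i (_ : i ∈ (univ : Finset (Fin m))) => hYe i j)
      rw [sum_add_distrib, sum_add_distrib, hsum2, hsum2, col_sum X j] at h
      omega
    refine ⟨(some (a, b), ⟨Y, hrow, hcol⟩), ?_⟩
    funext i j
    show (Fin.snoc (fun j => Y i j + (if i = i₀ ∧ j = b then 1 else 0)
      - (if i = a ∧ j = b then 1 else 0)) (if i = a then 1 else 0) : Fin (n + 1) → ℕ) j = X.1 i j
    refine Fin.lastCases ?_ (fun j => ?_) j
    · rw [Fin.snoc_last, ha i]
    · rw [Fin.snoc_castSucc, hYe]; omega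

end F2

open F2

theorem card_ext_le (r : Fin m → ℕ) (c : Fin n → ℕ) (i₀ : Fin m) (hN : ∑ i, r i = ∑ j, c j) :
    Fintype.card (Tab (rowPlus r i₀) (colPlus c)) ≤ (m * n + 1) * Fintype.card (Tab r c) := by
  classical
  have hsub : (univ : Finset (Tab (rowPlus r i₀) (colPlus c))).image Subtype.val
      ⊆ (univ : Finset (Option (Fin m × Fin n) × Tab r c)).image (Phi2 i₀) := by
    intro Z hZ
    rw [mem_image] at hZ
    obtain ⟨X, -, rfl⟩ := hZ
    obtain ⟨p, hp⟩ := F2.mem_range X
    exact mem_image.2 ⟨p, mem_univ _, hp⟩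
  calc Fintype.card (Tab (rowPlus r i₀) (colPlus c))
      = ((univ : Finset (Tab (rowPlus r i₀) (colPlus c))).image Subtype.val).card := by
        rw [card_image_of_injective _ Subtype.val_injective, card_univ]
    _ ≤ ((univ : Finset (Option (Fin m × Fin n) × Tab r c)).image (Phi2 i₀)).card :=
        card_le_card hsub
    _ ≤ (univ : Finset (Option (Fin m × Fin n) × Tab r c)).card := card_image_le
    _ = (m * n + 1) * Fintype.card (Tab r c) := by
        rw [card_univ, Fintype.card_prod, Fintype.card_option, Fintype.card_prod,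
          Fintype.card_fin, Fintype.card_fin]

end Vale.Agent.H27.CT
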