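import Vale.Agent.H27.CT.C2
import Vale.Agent.H27.CT.F3
import Vale.Agent.H27.CT.F1
import Vale.Agent.H27.CT.F2

/-!
# Row F4: the sampler
-/

open Finset

namespace Vale.Agent.H27.CT

open Vale.Agent.KTV

namespace F4

variable {m n : ℕ}

theorem agree_equiv {r : Fin m → ℕ} {c : Fin n → ℕ} (i j k : Fin m) :
    Equivalence (Agree (r := r) (c := c) i j k) where
  refl _ := fun _ _ _ _ => rfl
  symm h := fun l h1 h2 h3 => (h l h1 h2 h3).symm
  trans h h' := fun l h1 h2 h3 => (h l h1 h2 h3).trans (h' l h1 h2 h3)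

/-- relation indexed by a triple -/
def RR (r : Fin m → ℕ) (c : Fin n → ℕ) (q : Fin m × Fin m × Fin m) (X Y : Tab r c) : Prop :=
  Agree q.1 q.2.1 q.2.2 X Y

open scoped Classical in
theorem heatBath_eq (r : Fin m → ℕ) (c : Fin n → ℕ) (X Y : Tab r c) :
    heatBath r c X Y = (1 / (Fintype.card (Fin m × Fin m × Fin m) : ℝ)) *
      ∑ q, (if RR r c q X Y then 1 / ((cls (RR r c q) X).card : ℝ) else 0) := by
  unfold heatBath
  have h1 : (Fintype.card (Fin m × Fin m × Fin m) : ℝ) = (m : ℝ) ^ 3 := by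
    simp [Fintype.card_prod]; ring
  rw [h1]
  congr 1
  rw [Fintype.sum_prod_type]
  apply Finset.sum_congr rfl
  intro i _
  rw [Fintype.sum_prod_type]
  rfl

theorem heatBath_nonneg (r : Fin m → ℕ) (c : Fin n → ℕ) (X Y : Tab r c) :
    0 ≤ heatBath r c X Y := by
  classical
  rw [heatBath_eq]
  apply mul_nonneg (by positivity)
  apply Finset.sum_nonneg
  intro q _
  split_ifs <;> positivity

theorem pow_nonneg' {Ω : Type*} [Fintype Ω] [DecidableEq Ω] (P : Matrix Ω Ω ℝ)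
    (hP : ∀ x y, 0 ≤ P x y) (t : ℕ) (x y : Ω) : 0 ≤ (P ^ t) x y := by
  induction t generalizing y with
  | zero =>
    rw [pow_zero, Matrix.one_apply]
    split_ifs <;> norm_num
  | succ t ih =>
    rw [pow_succ, Matrix.mul_apply]
    exact Finset.sum_nonneg fun z _ => mul_nonneg (ih z) (hP z y)

theorem sum_rowPlus (r : Fin m → ℕ) (i₀ : Fin m) : ∑ i, rowPlus r i₀ i = ∑ i, r i + 1 := by
  unfold rowPlus
  rw [← Finset.add_sum_erase univ _ (mem_univ i₀), ← Finset.add_sum_erase univ r (mem_univ i₀)]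
  rw [Function.update_self]
  have : ∑ x ∈ univ.erase i₀, Function.update r i₀ (r i₀ + 1) x = ∑ x ∈ univ.erase i₀, r x :=
    Finset.sum_congr rfl fun x hx => Function.update_of_ne (Finset.ne_of_mem_erase hx) _ _
  rw [this]; ring

theorem sum_colPlus (c : Fin n → ℕ) : ∑ j, colPlus c j = ∑ j, c j + 1 := by
  unfold colPlus
  rw [Fin.sum_univ_castSucc]
  simp

/-- the spectral gap constant -/
noncomputable def gam (m n N : ℕ) : ℝ :=
  1 / (210 * (m : ℝ) ^ 4 * ((n : ℝ) + 1) ^ 7 * (1 + Real.log (N + 1)))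

theorem lam_ge (N : ℕ) : 1 ≤ 1 + Real.log ((N : ℝ) + 1) := by
  have : 0 ≤ Real.log ((N : ℝ) + 1) := Real.log_nonneg (by
    have : (0 : ℝ) ≤ N := Nat.cast_nonneg N
    linarith)
  linarith

theorem den_ge (hm : 1 ≤ m) (N : ℕ) :
    1 ≤ 210 * (m : ℝ) ^ 4 * ((n : ℝ) + 1) ^ 7 * (1 + Real.log (N + 1)) := by
  have h1 : (1 : ℝ) ≤ (m : ℝ) ^ 4 := one_le_pow₀ (by exact_mod_cast hm)
  have h2 : (1 : ℝ) ≤ ((n : ℝ) + 1) ^ 7 := one_le_pow₀ (by
    have : (0 : ℝ) ≤ n := Nat.cast_nonneg n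
    linarith)
  have h3 := lam_ge N
  have h4 : (1 : ℝ) ≤ 210 * (m : ℝ) ^ 4 := by linarith
  have h5 : (1 : ℝ) ≤ 210 * (m : ℝ) ^ 4 * ((n : ℝ) + 1) ^ 7 := one_le_mul_of_one_le_of_one_le h4 h2
  exact one_le_mul_of_one_le_of_one_le h5 h3

theorem gam_pos (hm : 1 ≤ m) (N : ℕ) : 0 < gam m n N := by
  unfold gam
  have := den_ge (n := n) hm N
  positivity

theorem gam_le (hm : 1 ≤ m) (N : ℕ) : gam m n N ≤ 1 := by
  unfold gam
  have := den_ge (n := n) hm N
  rw [div_le_one (by linarith)]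
  exact this

/-- the constant of `gap_tab` for the extended margins -/
theorem const_le (hm : 1 ≤ m) (N : ℕ) :
    (6 * (1 + (m : ℝ) * (2 * ((n + 1 : ℕ) : ℝ) ^ 2))
        + 8 * ((n + 1 : ℕ) : ℝ) * (12 * ((n + 1 : ℕ) : ℝ) ^ 5 *
          (1 + ((n + 1 : ℕ) : ℝ) * (harmonic (N + 1) : ℝ))))
      ≤ 210 * (m : ℝ) * ((n : ℝ) + 1) ^ 7 * (1 + Real.log (N + 1)) := by
  have hh : (harmonic (N + 1) : ℝ) ≤ 1 + Real.log ((N : ℝ) + 1) := by
    have := harmonic_le_one_add_log (N + 1)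
    push_cast at this ⊢
    exact this
  have hl := lam_ge N
  set L := 1 + Real.log ((N : ℝ) + 1) with hL
  have hm' : (1 : ℝ) ≤ m := by exact_mod_cast hm
  set a : ℝ := (n : ℝ) + 1 with ha
  have ha1 : 1 ≤ a := by
    have : (0 : ℝ) ≤ n := Nat.cast_nonneg n
    rw [ha]; linarith
  have hcast : ((n + 1 : ℕ) : ℝ) = a := by push_cast; rfl
  rw [hcast]
  have ha0 : 0 ≤ a := by linarith
  have hm0 : (0 : ℝ) ≤ m := by linarith
  have hL0 : 0 ≤ L := by linarith
  have h1 : 8 * a * (12 * a ^ 5 * (1 + a * (harmonic (N + 1) : ℝ)))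
      ≤ 8 * a * (12 * a ^ 5 * (1 + a * L)) := by
    gcongr
  have p7 : (1 : ℝ) ≤ a ^ 7 := one_le_pow₀ ha1
  have p27 : a ^ 2 ≤ a ^ 7 := pow_le_pow_right₀ ha1 (by norm_num)
  have p67 : a ^ 6 ≤ a ^ 7 := pow_le_pow_right₀ ha1 (by norm_num)
  have key : ∀ x : ℝ, 0 ≤ x → x ≤ a ^ 7 → x ≤ (m : ℝ) * a ^ 7 * L := by
    intro x hx hxa
    have h2 : (1 : ℝ) ≤ m * L := one_le_mul_of_one_le_of_one_le hm' hl
    nlinarith
  have k1 := key 1 (by norm_num) p7
  have k2 : (m : ℝ) * a ^ 2 ≤ (m : ℝ) * a ^ 7 * L := by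
    have h3 : (m : ℝ) * a ^ 2 ≤ m * a ^ 7 := by gcongr
    have h4 : (m : ℝ) * a ^ 7 * 1 ≤ m * a ^ 7 * L := by gcongr
    linarith
  have k3 := key (a ^ 6) (by positivity) p67
  have k4 : a ^ 7 * L ≤ (m : ℝ) * a ^ 7 * L := by
    have : 1 * (a ^ 7 * L) ≤ (m : ℝ) * (a ^ 7 * L) := by gcongr
    linarith
  have e1 : 8 * a * (12 * a ^ 5 * (1 + a * L)) = 96 * a ^ 6 + 96 * (a ^ 7 * L) := by ring
  have e2 : 6 * (1 + (m : ℝ) * (2 * a ^ 2)) = 6 * 1 + 12 * ((m : ℝ) * a ^ 2) := by ring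
  linarith

/-- the gap for the extended margins -/
theorem gap_all (hm : 1 ≤ m) (r : Fin m → ℕ) (c : Fin n → ℕ) (N : ℕ) (hr : ∑ i, r i = N)
    (hc : ∑ j, c j = N) (i₀ : Fin m) (hi₀ : ∀ i, r i ≤ r i₀)
    (F : Tab (rowPlus r i₀) (colPlus c) → ℝ) (hF : ∑ X, F X = 0) :
    (Fintype.card (Fin m × Fin m × Fin m) : ℝ) * gam m n N * ∑ X, F X ^ 2
      ≤ ∑ q, ∑ X, (F X - avg (RR (rowPlus r i₀) (colPlus c) q) F X) ^ 2 := by
  have hcard : (Fintype.card (Fin m × Fin m × Fin m) : ℝ) = (m : ℝ) ^ 3 := by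
    simp [Fintype.card_prod]; ring
  rw [hcard]
  have hF2 : 0 ≤ ∑ X, F X ^ 2 := Finset.sum_nonneg fun _ _ => sq_nonneg _
  have hm' : (1 : ℝ) ≤ m := by exact_mod_cast hm
  have hden := den_ge (n := n) hm N
  by_cases h3 : 3 ≤ m
  · have h1 := gap_tab h3 (rowPlus r i₀) (colPlus c) (N + 1)
      (by rw [sum_rowPlus, hr]) (by rw [sum_colPlus, hc]) i₀ (by
        intro l hl
        unfold rowPlus
        rw [Function.update_self, Function.update_of_ne hl]
        have := hi₀ l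
        omega) F hF
    have h2 : ∑ q, ∑ X, (F X - avg (RR (rowPlus r i₀) (colPlus c) q) F X) ^ 2
        = ∑ i, ∑ j, ∑ k, ∑ X, (F X - avg (Agree i j k) F X) ^ 2 := by
      rw [Fintype.sum_prod_type]
      apply Finset.sum_congr rfl
      intro i _
      rw [Fintype.sum_prod_type]
      rfl
    rw [← h2] at h1
    have h4 := const_le (n := n) hm N
    set S := ∑ q, ∑ X, (F X - avg (RR (rowPlus r i₀) (colPlus c) q) F X) ^ 2 with hS
    have hS0 : 0 ≤ S := Finset.sum_nonneg fun _ _ => Finset.sum_nonneg fun _ _ => sq_nonneg _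
    have h5 := h1.trans (mul_le_mul_of_nonneg_right h4 hS0)
    unfold gam
    rw [mul_one_div, div_mul_eq_mul_div, div_le_iff₀ (by linarith)]
    have h6 : (m : ℝ) ^ 3 * ∑ X, F X ^ 2
        ≤ (m : ℝ) ^ 3 * (210 * (m : ℝ) * ((n : ℝ) + 1) ^ 7 * (1 + Real.log (N + 1)) * S) :=
      mul_le_mul_of_nonneg_left h5 (by positivity)
    refine h6.trans (le_of_eq ?_)
    ring
  · -- at most two rows: some triple covers everything
    have hq : ∃ q : Fin m × Fin m × Fin m, ∀ l : Fin m, l = q.1 ∨ l = q.2.1 := by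
      interval_cases m
      · exact ⟨(0, 0, 0), fun l => Or.inl (Subsingleton.elim _ _)⟩
      · refine ⟨(0, 1, 0), fun l => ?_⟩
        fin_cases l
        · left; rfl
        · right; rfl
    obtain ⟨q, hq⟩ := hq
    have havg : ∀ X, avg (RR (rowPlus r i₀) (colPlus c) q) F X = 0 := by
      intro X
      have hcls : cls (RR (rowPlus r i₀) (colPlus c) q) X = univ := by
        ext Y
        rw [mem_cls]
        simp only [mem_univ, iff_true]
        intro l h1 h2 _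
        rcases hq l with h | h
        · exact absurd h h1
        · exact absurd h h2
      unfold avg
      rw [hcls, hF]
      simp
    have h1 : ∑ X, (F X - avg (RR (rowPlus r i₀) (colPlus c) q) F X) ^ 2 = ∑ X, F X ^ 2 := by
      apply Finset.sum_congr rfl
      intro X _
      rw [havg X, sub_zero]
    have h2 : ∑ X, F X ^ 2 ≤ ∑ q, ∑ X, (F X - avg (RR (rowPlus r i₀) (colPlus c) q) F X) ^ 2 := by
      rw [← h1]
      exact Finset.single_le_sum
        (f := fun q => ∑ X, (F X - avg (RR (rowPlus r i₀) (colPlus c) q) F X) ^ 2)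
        (fun _ _ => Finset.sum_nonneg fun _ _ => sq_nonneg _) (mem_univ q)
    refine le_trans ?_ h2
    have h3 : (m : ℝ) ^ 3 * gam m n N ≤ 1 := by
      unfold gam
      rw [mul_one_div, div_le_one (by linarith)]
      have h5 : (1 : ℝ) ≤ ((n : ℝ) + 1) ^ 7 * (1 + Real.log (N + 1)) := by
        apply one_le_mul_of_one_le_of_one_le _ (lam_ge N)
        apply one_le_pow₀
        have : (0 : ℝ) ≤ n := Nat.cast_nonneg n
        linarith
      have h6 : (m : ℝ) ^ 3 ≤ 210 * (m : ℝ) ^ 4 := by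
        have : (m : ℝ) ^ 3 ≤ (m : ℝ) ^ 4 := pow_le_pow_right₀ hm' (by norm_num)
        have : (0 : ℝ) ≤ (m : ℝ) ^ 4 := by positivity
        linarith
      calc (m : ℝ) ^ 3 ≤ 210 * (m : ℝ) ^ 4 * 1 := by linarith
        _ ≤ 210 * (m : ℝ) ^ 4 * (((n : ℝ) + 1) ^ 7 * (1 + Real.log (N + 1))) := by gcongr
        _ = _ := by ring
    calc _ ≤ 1 * ∑ X, F X ^ 2 := mul_le_mul_of_nonneg_right h3 hF2
      _ = _ := one_mul _

/-- conditioning: from a total variation bound on `Ω⁺` to the conditional law. -/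
theorem condition {Ω Ω' : Type*} [Fintype Ω] [Fintype Ω'] (φ : Ω' → Ω)
    (hφ : Function.Injective φ) (a : Ω → ℝ) (ha : ∀ x, 0 ≤ a x) (M ε : ℝ) (hM : 0 < M)
    (hε : 0 < ε) (hε1 : ε < 1) (hΩ : 0 < Fintype.card Ω)
    (hcard : (Fintype.card Ω : ℝ) ≤ M * Fintype.card Ω')
    (hδ : ∑ x, |a x - 1 / (Fintype.card Ω : ℝ)| ≤ ε / (2 * M)) :
    1 / (2 * M) ≤ ∑ z, a (φ z) ∧
      1 / 2 * ∑ z, |a (φ z) / (∑ z, a (φ z)) - 1 / (Fintype.card Ω' : ℝ)| ≤ ε := by
  set b : ℝ := 1 / (Fintype.card Ω : ℝ) with hb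
  have hΩ' : (0 : ℝ) < Fintype.card Ω := by exact_mod_cast hΩ
  have hT0 : (0 : ℝ) < Fintype.card Ω' := by
    by_contra h
    have h0 : (0 : ℝ) ≤ Fintype.card Ω' := Nat.cast_nonneg _
    have : (Fintype.card Ω' : ℝ) = 0 := le_antisymm (not_lt.1 h) h0
    rw [this, mul_zero] at hcard
    linarith
  set T : ℝ := (Fintype.card Ω' : ℝ) with hT
  set μ := ∑ z, a (φ z) with hμ
  set π := T * b with hπ
  have hπ0 : 0 < π := by positivity
  have hπM : 1 / M ≤ π := by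
    rw [hπ, hb, mul_one_div, div_le_div_iff₀ hM hΩ']
    linarith
  have hsub : ∑ z, |a (φ z) - b| ≤ ε / (2 * M) := by
    refine le_trans ?_ hδ
    classical
    have h1 : ∑ z, |a (φ z) - b| = ∑ x ∈ univ.image φ, |a x - b| := by
      rw [Finset.sum_image (fun x _ y _ h => hφ h)]
    rw [h1]
    exact Finset.sum_le_sum_of_subset_of_nonneg (Finset.subset_univ _)
      (fun _ _ _ => abs_nonneg _)
  have hπs : π = ∑ _z : Ω', b := by
    rw [hπ, Finset.sum_const, nsmul_eq_mul, hT]; rfl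
  have hμπ : |μ - π| ≤ ε / (2 * M) := by
    rw [hμ, hπs, ← Finset.sum_sub_distrib]
    exact (Finset.abs_sum_le_sum_abs _ _).trans hsub
  have hμ1 : 1 / (2 * M) ≤ μ := by
    have h1 := (abs_le.1 hμπ).1
    have h2 : ε / (2 * M) ≤ 1 / (2 * M) := by gcongr
    have h3 : 1 / M = 1 / (2 * M) + 1 / (2 * M) := by field_simp; norm_num
    linarith
  have hμ0 : 0 < μ := lt_of_lt_of_le (by positivity) hμ1
  refine ⟨hμ1, ?_⟩
  have hpt : ∀ z, |a (φ z) / μ - 1 / T| ≤ a (φ z) * (|π - μ| / (μ * π)) + |a (φ z) - b| / π := by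
    intro z
    have hb0 : b ≠ 0 := by rw [hb]; positivity
    have hb' : 1 / T = b / π := by
      rw [hπ]; field_simp
    rw [hb']
    have h1 : a (φ z) / μ - b / π = a (φ z) * ((π - μ) / (μ * π)) + (a (φ z) - b) / π := by
      field_simp
      ring
    rw [h1]
    refine (abs_add_le _ _).trans ?_
    rw [abs_mul, abs_div, abs_div, abs_of_nonneg (ha _), abs_of_pos (mul_pos hμ0 hπ0),
      abs_of_pos hπ0]
  have hsum : ∑ z, |a (φ z) / μ - 1 / T| ≤ 2 * (ε / (2 * M)) / π := by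
    refine (Finset.sum_le_sum fun z _ => hpt z).trans ?_
    rw [Finset.sum_add_distrib, ← Finset.sum_mul, ← Finset.sum_div, ← hμ]
    have h1 : μ * (|π - μ| / (μ * π)) = |π - μ| / π := by field_simp
    rw [h1, abs_sub_comm, ← add_div]
    gcongr
    linarith
  have h2 : 2 * (ε / (2 * M)) / π ≤ ε := by
    rw [div_le_iff₀ hπ0]
    have h3 : 2 * (ε / (2 * M)) = ε * (1 / M) := by field_simp
    rw [h3]
    gcongr
  have h4 : 0 ≤ ∑ z, |a (φ z) / μ - 1 / T| := Finset.sum_nonneg fun _ _ => abs_nonneg _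
  linarith

end F4

open F4 in
/-- Row F4 (uses F1, F2, F3, C2) -/
theorem sampler {m n : ℕ} (hm : 1 ≤ m) (r : Fin m → ℕ) (c : Fin n → ℕ) (N : ℕ)
    (hr : ∑ i, r i = N)
    (hc : ∑ j, c j = N) (i₀ : Fin m) (hi₀ : ∀ i, r i ≤ r i₀)
    (x₀ : Tab (rowPlus r i₀) (colPlus c)) (ε : ℝ) (hε : 0 < ε) (hε1 : ε < 1) (t : ℕ)
    (ht : 210 * (m : ℝ) ^ 4 * ((n : ℝ) + 1) ^ 7 * (1 + Real.log (N + 1)) *
      (m * (n + 1) * Real.log (N + 2) + 2 * Real.log (2 * (m * n + 1) / ε)) ≤ t) :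
    1 / (2 * ((m : ℝ) * n + 1))
        ≤ ∑ Z : Tab r c, (heatBath (rowPlus r i₀) (colPlus c) ^ t) x₀ (extend i₀ Z) ∧
      1 / 2 * ∑ X : Tab r c, |outLaw i₀ x₀ t X - 1 / (Fintype.card (Tab r c) : ℝ)| ≤ ε := by
  classical
  have : Nonempty (Tab (rowPlus r i₀) (colPlus c)) := ⟨x₀⟩
  have : Nonempty (Fin m) := ⟨⟨0, hm⟩⟩
  set M : ℝ := (m : ℝ) * n + 1 with hM
  have hM0 : 0 < M := by positivity
  have hM1 : 1 ≤ M := by
    have : (0 : ℝ) ≤ (m : ℝ) * n := by positivity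
    rw [hM]; linarith
  have hΩ : 0 < Fintype.card (Tab (rowPlus r i₀) (colPlus c)) := Fintype.card_pos
  have hΩ' : (0 : ℝ) < Fintype.card (Tab (rowPlus r i₀) (colPlus c)) := by exact_mod_cast hΩ
  have hg0 := gam_pos (n := n) hm N
  have hg1 := gam_le (n := n) hm N
  have hden := den_ge (n := n) hm N
  have hmix := mix_proj (fun q => RR (rowPlus r i₀) (colPlus c) q)
    (fun q => agree_equiv q.1 q.2.1 q.2.2) (heatBath (rowPlus r i₀) (colPlus c))
    (fun x y => heatBath_eq (rowPlus r i₀) (colPlus c) x y) hg0.le hg1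
    (fun f hf => gap_all hm r c N hr hc i₀ hi₀ f hf) x₀ t
  -- size of the extended state space
  have hcardΩ : (Fintype.card (Tab (rowPlus r i₀) (colPlus c)) : ℝ)
      ≤ Real.exp (m * (n + 1) * Real.log (N + 2)) := by
    have h1 := card_Tab_le (rowPlus r i₀) (colPlus c) (N + 1) (by rw [sum_rowPlus, hr])
    have h2 : (Fintype.card (Tab (rowPlus r i₀) (colPlus c)) : ℝ)
        ≤ ((N : ℝ) + 2) ^ (m * (n + 1)) := by
      have : (Fintype.card (Tab (rowPlus r i₀) (colPlus c)) : ℝ)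
        ≤ (((N + 1 + 1) ^ (m * (n + 1)) : ℕ) : ℝ) := by exact_mod_cast h1
      refine this.trans (le_of_eq ?_)
      push_cast
      ring
    refine h2.trans (le_of_eq ?_)
    have h3 : (0 : ℝ) < (N : ℝ) + 2 := by positivity
    rw [mul_comm _ (Real.log _), Real.exp_mul, Real.exp_log h3, ← Real.rpow_natCast]
    push_cast
    rfl
  have hexp : (1 - gam m n N) ^ t ≤ Real.exp (-(gam m n N * t)) := by
    have h1 : 1 - gam m n N ≤ Real.exp (-gam m n N) := by
      have := Real.add_one_le_exp (-gam m n N)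
      linarith
    calc (1 - gam m n N) ^ t ≤ (Real.exp (-gam m n N)) ^ t :=
          pow_le_pow_left₀ (by linarith) h1 t
      _ = Real.exp (-(gam m n N * t)) := by
          rw [← Real.exp_nat_mul]
          congr 1
          ring
  have hgt : m * (n + 1) * Real.log (N + 2) + 2 * Real.log (2 * M / ε) ≤ gam m n N * t := by
    unfold gam
    rw [one_div, inv_mul_eq_div, le_div_iff₀ (by linarith)]
    calc _ = 210 * (m : ℝ) ^ 4 * ((n : ℝ) + 1) ^ 7 * (1 + Real.log (N + 1)) *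
      (m * (n + 1) * Real.log (N + 2) + 2 * Real.log (2 * M / ε)) := by ring
      _ ≤ t := ht
  have hpos : 0 < 2 * M / ε := by positivity
  have hδ2 : (∑ y, |(heatBath (rowPlus r i₀) (colPlus c) ^ t) x₀ y
      - 1 / (Fintype.card (Tab (rowPlus r i₀) (colPlus c)) : ℝ)|) ^ 2 ≤ (ε / (2 * M)) ^ 2 := by
    refine hmix.trans ?_
    calc (Fintype.card (Tab (rowPlus r i₀) (colPlus c)) : ℝ) * (1 - gam m n N) ^ t
        ≤ Real.exp (m * (n + 1) * Real.log (N + 2)) * Real.exp (-(gam m n N * t)) :=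
          mul_le_mul hcardΩ hexp (pow_nonneg (by linarith) _) (Real.exp_pos _).le
      _ = Real.exp (m * (n + 1) * Real.log (N + 2) + -(gam m n N * t)) := by
          rw [← Real.exp_add]
      _ ≤ Real.exp (-(2 * Real.log (2 * M / ε))) := by
          apply Real.exp_le_exp.2
          linarith
      _ = (ε / (2 * M)) ^ 2 := by
          have h1 : -(2 * Real.log (2 * M / ε)) = Real.log ((ε / (2 * M)) ^ 2) := by
            rw [Real.log_pow, ← inv_div (2 * M) ε, Real.log_inv]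
            push_cast
            ring
          rw [h1, Real.exp_log (by positivity)]
  have hδ : ∑ y, |(heatBath (rowPlus r i₀) (colPlus c) ^ t) x₀ y
      - 1 / (Fintype.card (Tab (rowPlus r i₀) (colPlus c)) : ℝ)| ≤ ε / (2 * M) :=
    (abs_le_of_sq_le_sq' hδ2 (by positivity)).2
  have hcard : (Fintype.card (Tab (rowPlus r i₀) (colPlus c)) : ℝ)
      ≤ M * Fintype.card (Tab r c) := by
    have := card_ext_le r c i₀ (hr.trans hc.symm)
    rw [hM]
    exact_mod_cast this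
  exact condition (extend i₀) (extend_injective r c i₀)
    (fun y => (heatBath (rowPlus r i₀) (colPlus c) ^ t) x₀ y)
    (fun y => pow_nonneg' _ (heatBath_nonneg _ _) t x₀ y) M ε hM0 hε hε1 hΩ hcard hδ

end Vale.Agent.H27.CT
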