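import Vale.Agent.H27.CT.E8
import Vale.Agent.H27.CT.F4

/-!
# Row E9: the sampler for the 2x2 heat-bath chain
-/

open Finset

namespace Vale.Agent.H27.CT

open Vale.Agent.KTV

namespace E9

variable {m n : ℕ}

theorem agree22_equiv {r : Fin m → ℕ} {c : Fin n → ℕ} (i j : Fin m) (a b : Fin n) :
    Equivalence (Agree22 (r := r) (c := c) i j a b) where
  refl _ := fun _ _ _ => rfl
  symm h := fun p q h1 => (h p q h1).symm
  trans h h' := fun p q h1 => (h p q h1).trans (h' p q h1)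

/-- relation indexed by a quadruple -/
def R22 (r : Fin m → ℕ) (c : Fin n → ℕ) (q : Fin m × Fin m × Fin n × Fin n)
    (X Y : Tab r c) : Prop :=
  Agree22 q.1 q.2.1 q.2.2.1 q.2.2.2 X Y

theorem card_quad : (Fintype.card (Fin m × Fin m × Fin n × Fin n) : ℝ)
    = (m : ℝ) ^ 2 * (n : ℝ) ^ 2 := by
  simp [Fintype.card_prod]; ring

theorem sum_quad (f : Fin m × Fin m × Fin n × Fin n → ℝ) :
    ∑ q, f q = ∑ i, ∑ j, ∑ a, ∑ b, f (i, j, a, b) := by
  rw [Fintype.sum_prod_type]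
  apply Finset.sum_congr rfl
  intro i _
  rw [Fintype.sum_prod_type]
  apply Finset.sum_congr rfl
  intro j _
  rw [Fintype.sum_prod_type]

open scoped Classical in
theorem heatBath22_eq (r : Fin m → ℕ) (c : Fin n → ℕ) (X Y : Tab r c) :
    heatBath22 r c X Y = (1 / (Fintype.card (Fin m × Fin m × Fin n × Fin n) : ℝ)) *
      ∑ q, (if R22 r c q X Y then 1 / ((cls (R22 r c q) X).card : ℝ) else 0) := by
  unfold heatBath22
  rw [card_quad, sum_quad]
  rfl

theorem heatBath22_nonneg (r : Fin m → ℕ) (c : Fin n → ℕ) (X Y : Tab r c) :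
    0 ≤ heatBath22 r c X Y := by
  classical
  rw [heatBath22_eq]
  apply mul_nonneg (by positivity)
  apply Finset.sum_nonneg
  intro q _
  split_ifs <;> positivity

/-- the spectral gap constant -/
noncomputable def gam (m n N : ℕ) : ℝ :=
  1 / (1260000 * (m : ℝ) ^ 4 * ((n : ℝ) + 1) ^ 9 * (1 + Real.log (N + 1)))

theorem den_ge (hm : 1 ≤ m) (N : ℕ) :
    1 ≤ 1260000 * (m : ℝ) ^ 4 * ((n : ℝ) + 1) ^ 9 * (1 + Real.log (N + 1)) := by
  have h1 : (1 : ℝ) ≤ (m : ℝ) ^ 4 := one_le_pow₀ (by exact_mod_cast hm)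
  have h2 : (1 : ℝ) ≤ ((n : ℝ) + 1) ^ 9 := one_le_pow₀ (by
    have : (0 : ℝ) ≤ n := Nat.cast_nonneg n
    linarith)
  have h3 := F4.lam_ge N
  have h4 : (1 : ℝ) ≤ 1260000 * (m : ℝ) ^ 4 := by linarith
  have h5 : (1 : ℝ) ≤ 1260000 * (m : ℝ) ^ 4 * ((n : ℝ) + 1) ^ 9 :=
    one_le_mul_of_one_le_of_one_le h4 h2
  exact one_le_mul_of_one_le_of_one_le h5 h3

theorem gam_pos (hm : 1 ≤ m) (N : ℕ) : 0 < gam m n N := by
  unfold gam
  have := den_ge (n := n) hm N
  positivity

theorem gam_le (hm : 1 ≤ m) (N : ℕ) : gam m n N ≤ 1 := by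
  unfold gam
  have := den_ge (n := n) hm N
  rw [div_le_one (by linarith)]
  exact this

/-- the gap for the extended margins -/
theorem gap_all (hm : 1 ≤ m) (r : Fin m → ℕ) (c : Fin n → ℕ) (N : ℕ) (hr : ∑ i, r i = N)
    (hc : ∑ j, c j = N) (i₀ : Fin m) (hi₀ : ∀ i, r i ≤ r i₀)
    (F : Tab (rowPlus r i₀) (colPlus c) → ℝ) (hF : ∑ X, F X = 0) :
    (Fintype.card (Fin m × Fin m × Fin (n + 1) × Fin (n + 1)) : ℝ) * gam m n N * ∑ X, F X ^ 2
      ≤ ∑ q, ∑ X, (F X - avg (R22 (rowPlus r i₀) (colPlus c) q) F X) ^ 2 := by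
  rw [card_quad]
  have hm' : (1 : ℝ) ≤ m := by exact_mod_cast hm
  have hden := den_ge (n := n) hm N
  set S := ∑ q, ∑ X, (F X - avg (R22 (rowPlus r i₀) (colPlus c) q) F X) ^ 2 with hS
  have hS0 : 0 ≤ S := Finset.sum_nonneg fun _ _ => Finset.sum_nonneg fun _ _ => sq_nonneg _
  by_cases h2 : 2 ≤ m
  · have h1 := gap22_tab h2 (rowPlus r i₀) (colPlus c) (N + 1)
      (by rw [F4.sum_rowPlus, hr]) (by rw [F4.sum_colPlus, hc]) i₀ (by
        intro l hl
        unfold rowPlus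
        rw [Function.update_self, Function.update_of_ne hl]
        have := hi₀ l
        omega) F hF
    have h2' : S = ∑ i, ∑ j, ∑ a, ∑ b, ∑ X, (F X - avg (Agree22 i j a b) F X) ^ 2 := by
      rw [hS, sum_quad]
      rfl
    rw [← h2'] at h1
    have h4 := F4.const_le (n := n) hm N
    have h5 : ∑ X, F X ^ 2 ≤ 210 * (m : ℝ) * ((n : ℝ) + 1) ^ 7 * (1 + Real.log (N + 1))
        * (6000 * m) * S := by
      refine h1.trans ?_
      apply mul_le_mul_of_nonneg_right _ hS0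
      exact mul_le_mul_of_nonneg_right h4 (by positivity)
    unfold gam
    rw [mul_one_div, div_mul_eq_mul_div, div_le_iff₀ (by linarith)]
    have h6 : (m : ℝ) ^ 2 * ((n + 1 : ℕ) : ℝ) ^ 2 * ∑ X, F X ^ 2
        ≤ (m : ℝ) ^ 2 * ((n + 1 : ℕ) : ℝ) ^ 2 * (210 * (m : ℝ) * ((n : ℝ) + 1) ^ 7 *
          (1 + Real.log (N + 1)) * (6000 * m) * S) :=
      mul_le_mul_of_nonneg_left h5 (by positivity)
    refine h6.trans (le_of_eq ?_)
    push_cast
    ring
  · -- one row: the table is determined by the column sums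
    have hm1 : m = 1 := by omega
    subst hm1
    have hsub : ∀ X Y : Tab (rowPlus r i₀) (colPlus c), X = Y := by
      intro X Y
      apply Subtype.ext
      funext i j
      have hX := X.2.2 j
      have hY := Y.2.2 j
      rw [Fin.sum_univ_one] at hX hY
      have hi : i = 0 := Subsingleton.elim _ _
      rw [hi, hX, hY]
    have hz : ∑ X, F X ^ 2 = 0 := by
      apply Finset.sum_eq_zero
      intro X _
      have hu : (univ : Finset (Tab (rowPlus r i₀) (colPlus c))) = {X} := by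
        ext Y
        simp [hsub Y X]
      rw [hu, Finset.sum_singleton] at hF
      rw [hF]
      norm_num
    rw [hz, mul_zero]
    exact hS0

end E9

open E9 in
/-- Row E9 (uses E8, C2, F1, F2) -/
theorem sampler22 {m n : ℕ} (hm : 1 ≤ m) (r : Fin m → ℕ) (c : Fin n → ℕ) (N : ℕ)
    (hr : ∑ i, r i = N) (hc : ∑ j, c j = N) (i₀ : Fin m) (hi₀ : ∀ i, r i ≤ r i₀)
    (x₀ : Tab (rowPlus r i₀) (colPlus c)) (ε : ℝ) (hε : 0 < ε) (hε1 : ε < 1) (t : ℕ)
    (ht : 1260000 * (m : ℝ) ^ 4 * ((n : ℝ) + 1) ^ 9 * (1 + Real.log (N + 1)) *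
      (m * (n + 1) * Real.log (N + 2) + 2 * Real.log (2 * (m * n + 1) / ε)) ≤ t) :
    1 / (2 * ((m : ℝ) * n + 1))
        ≤ ∑ Z : Tab r c, (heatBath22 (rowPlus r i₀) (colPlus c) ^ t) x₀ (extend i₀ Z) ∧
      1 / 2 * ∑ X : Tab r c, |outLaw22 i₀ x₀ t X - 1 / (Fintype.card (Tab r c) : ℝ)| ≤ ε := by
  classical
  have : Nonempty (Tab (rowPlus r i₀) (colPlus c)) := ⟨x₀⟩
  have : Nonempty (Fin m) := ⟨⟨0, hm⟩⟩
  set M : ℝ := (m : ℝ) * n + 1 with hM
  have hM0 : 0 < M := by positivity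
  have hM1 : 1 ≤ M := by
    have : (0 : ℝ) ≤ (m : ℝ) * n := by positivity
    rw [hM]; linarith
  have hΩ : 0 < Fintype.card (Tab (rowPlus r i₀) (colPlus c)) := Fintype.card_pos
  have hΩ' : (0 : ℝ) < Fintype.card (Tab (rowPlus r i₀) (colPlus c)) := by exact_mod_cast hΩ
  have hg0 := gam_pos (n := n) hm N
  have hg1 := gam_le (n := n) hm N
  have hden := den_ge (n := n) hm N
  have hmix := mix_proj (fun q => R22 (rowPlus r i₀) (colPlus c) q)
    (fun q => agree22_equiv q.1 q.2.1 q.2.2.1 q.2.2.2) (heatBath22 (rowPlus r i₀) (colPlus c))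
    (fun x y => heatBath22_eq (rowPlus r i₀) (colPlus c) x y) hg0.le hg1
    (fun f hf => gap_all hm r c N hr hc i₀ hi₀ f hf) x₀ t
  -- size of the extended state space
  have hcardΩ : (Fintype.card (Tab (rowPlus r i₀) (colPlus c)) : ℝ)
      ≤ Real.exp (m * (n + 1) * Real.log (N + 2)) := by
    have h1 := card_Tab_le (rowPlus r i₀) (colPlus c) (N + 1) (by rw [F4.sum_rowPlus, hr])
    have h2 : (Fintype.card (Tab (rowPlus r i₀) (colPlus c)) : ℝ)
        ≤ ((N : ℝ) + 2) ^ (m * (n + 1)) := by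
      have : (Fintype.card (Tab (rowPlus r i₀) (colPlus c)) : ℝ)
        ≤ (((N + 1 + 1) ^ (m * (n + 1)) : ℕ) : ℝ) := by exact_mod_cast h1
      refine this.trans (le_of_eq ?_)
      push_cast
      ring
    refine h2.trans (le_of_eq ?_)
    have h3 : (0 : ℝ) < (N : ℝ) + 2 := by positivity
    rw [mul_comm _ (Real.log _), Real.exp_mul, Real.exp_log h3, ← Real.rpow_natCast]
    push_cast
    rfl
  have hexp : (1 - gam m n N) ^ t ≤ Real.exp (-(gam m n N * t)) := by
    have h1 : 1 - gam m n N ≤ Real.exp (-gam m n N) := by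
      have := Real.add_one_le_exp (-gam m n N)
      linarith
    calc (1 - gam m n N) ^ t ≤ (Real.exp (-gam m n N)) ^ t :=
          pow_le_pow_left₀ (by linarith) h1 t
      _ = Real.exp (-(gam m n N * t)) := by
          rw [← Real.exp_nat_mul]
          congr 1
          ring
  have hgt : m * (n + 1) * Real.log (N + 2) + 2 * Real.log (2 * M / ε) ≤ gam m n N * t := by
    unfold gam
    rw [one_div, inv_mul_eq_div, le_div_iff₀ (by linarith)]
    calc _ = 1260000 * (m : ℝ) ^ 4 * ((n : ℝ) + 1) ^ 9 * (1 + Real.log (N + 1)) *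
      (m * (n + 1) * Real.log (N + 2) + 2 * Real.log (2 * M / ε)) := by ring
      _ ≤ t := ht
  have hpos : 0 < 2 * M / ε := by positivity
  have hδ2 : (∑ y, |(heatBath22 (rowPlus r i₀) (colPlus c) ^ t) x₀ y
      - 1 / (Fintype.card (Tab (rowPlus r i₀) (colPlus c)) : ℝ)|) ^ 2 ≤ (ε / (2 * M)) ^ 2 := by
    refine hmix.trans ?_
    calc (Fintype.card (Tab (rowPlus r i₀) (colPlus c)) : ℝ) * (1 - gam m n N) ^ t
        ≤ Real.exp (m * (n + 1) * Real.log (N + 2)) * Real.exp (-(gam m n N * t)) :=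
          mul_le_mul hcardΩ hexp (pow_nonneg (by linarith) _) (Real.exp_pos _).le
      _ = Real.exp (m * (n + 1) * Real.log (N + 2) + -(gam m n N * t)) := by
          rw [← Real.exp_add]
      _ ≤ Real.exp (-(2 * Real.log (2 * M / ε))) := by
          apply Real.exp_le_exp.2
          linarith
      _ = (ε / (2 * M)) ^ 2 := by
          have h1 : -(2 * Real.log (2 * M / ε)) = Real.log ((ε / (2 * M)) ^ 2) := by
            rw [Real.log_pow, ← inv_div (2 * M) ε, Real.log_inv]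
            push_cast
            ring
          rw [h1, Real.exp_log (by positivity)]
  have hδ : ∑ y, |(heatBath22 (rowPlus r i₀) (colPlus c) ^ t) x₀ y
      - 1 / (Fintype.card (Tab (rowPlus r i₀) (colPlus c)) : ℝ)| ≤ ε / (2 * M) :=
    (abs_le_of_sq_le_sq' hδ2 (by positivity)).2
  have hcard : (Fintype.card (Tab (rowPlus r i₀) (colPlus c)) : ℝ)
      ≤ M * Fintype.card (Tab r c) := by
    have := card_ext_le r c i₀ (hr.trans hc.symm)
    rw [hM]
    exact_mod_cast this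
  exact F4.condition (extend i₀) (extend_injective r c i₀)
    (fun y => (heatBath22 (rowPlus r i₀) (colPlus c) ^ t) x₀ y)
    (fun y => F4.pow_nonneg' _ (heatBath22_nonneg _ _) t x₀ y) M ε hM0 hε hε1 hΩ hcard hδ

end Vale.Agent.H27.CT
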