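import Vale.Agent.H27.CT.Defs

/-!
# Row M2 (Bochner)
-/

open Finset

namespace Vale.Agent.H27.CT

section Multi
variable {κ ι : Type*} [Fintype κ] [DecidableEq κ] [Fintype ι] [DecidableEq ι]

namespace M2

/-- the star move: row `l` loses a token in column `b` and gains one in column `a` -/
def mv (l : κ) (a b : ι) (T : κ → ι → ℕ) : κ → ι → ℕ :=
  Function.update T l (dn (up (T l) a) b)

theorem mv_row_ne {l k : κ} (h : k ≠ l) (a b : ι) (T : κ → ι → ℕ) : mv l a b T k = T k := by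
  simp [mv, h]

theorem mv_row (l : κ) (a b : ι) (T : κ → ι → ℕ) : mv l a b T l = dn (up (T l) a) b := by
  simp [mv]

theorem mv_add (l : κ) {a b : ι} (hab : a ≠ b) {T : κ → ι → ℕ} (hb : 1 ≤ T l b) (d : ι) :
    mv l a b T l d + (if d = b then 1 else 0) = T l d + (if d = a then 1 else 0) := by
  rw [mv_row]
  by_cases h1 : d = b
  · subst h1
    rw [dn_same, up_ne _ (Ne.symm hab)]
    simp [Ne.symm hab]; omega
  · rw [dn_ne _ h1]
    by_cases h2 : d = a
    · subst h2; simp [h1]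
    · rw [up_ne _ h2]; simp [h1, h2]

theorem sum_mv_col (l : κ) {a b : ι} (hab : a ≠ b) {T : κ → ι → ℕ} (hb : 1 ≤ T l b) (d : ι) :
    ∑ k, mv l a b T k d + (if d = b then 1 else 0) = ∑ k, T k d + (if d = a then 1 else 0) := by
  rw [← add_sum_erase univ (fun k => mv l a b T k d) (mem_univ l),
    ← add_sum_erase univ (fun k => T k d) (mem_univ l)]
  have h1 : ∑ k ∈ univ.erase l, mv l a b T k d = ∑ k ∈ univ.erase l, T k d :=
    sum_congr rfl (fun k hk => by rw [mv_row_ne (ne_of_mem_erase hk)])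
  have h2 := mv_add l hab hb d
  rw [h1]
  omega

theorem mv_mv (l : κ) {a b : ι} (hab : a ≠ b) {T : κ → ι → ℕ} (hb : 1 ≤ T l b) :
    mv l b a (mv l a b T) = T := by
  have h : dn (up (dn (up (T l) a) b) b) a = T l := by
    rw [up_dn, dn_up]
    rw [up_ne _ (Ne.symm hab)]; exact hb
  unfold mv
  rw [Function.update_self, Function.update_idem, h, Function.update_eq_self]

theorem mv_comm {l k : κ} (h : l ≠ k) (a b a' b' : ι) (T : κ → ι → ℕ) :
    mv l a b (mv k a' b' T) = mv k a' b' (mv l a b T) := by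
  unfold mv
  rw [Function.update_of_ne h, Function.update_of_ne h.symm, Function.update_comm h]

theorem mv_mem {c : ι → ℕ} {rr : κ → ℕ} {T : κ → ι → ℕ} (hT : T ∈ Om c rr) (l : κ) {a b : ι}
    (hab : a ≠ b) (ha : 1 ≤ hub c T a) (hb : 1 ≤ T l b) : mv l a b T ∈ Om c rr := by
  rw [mem_Om] at hT ⊢
  refine ⟨fun k => ?_, fun d => ?_⟩
  · by_cases hk : k = l
    · subst hk
      rw [mv_row]
      have h1 : 1 ≤ up (T k) a b := by rw [up_ne _ (Ne.symm hab)]; exact hb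
      have h2 := sum_dn h1
      have h3 := sum_up (T k) a
      have h4 := hT.1 k
      omega
    · rw [mv_row_ne hk]; exact hT.1 k
  · have h1 := sum_mv_col l hab hb d
    have h2 := hT.2 d
    by_cases hda : d = a
    · subst hda
      unfold hub at ha
      rw [if_neg hab, if_pos rfl] at h1
      omega
    · rw [if_neg hda] at h1
      split_ifs at h1 <;> omega

theorem hub_mv {c : ι → ℕ} {rr : κ → ℕ} {T : κ → ι → ℕ} (hT : T ∈ Om c rr) (l : κ) {a b : ι}
    (hab : a ≠ b) (ha : 1 ≤ hub c T a) (hb : 1 ≤ T l b) (d : ι) :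
    hub c (mv l a b T) d + (if d = a then 1 else 0) = hub c T d + (if d = b then 1 else 0) := by
  have h1 := sum_mv_col l hab hb d
  have h2 := (mem_Om.1 hT).2 d
  have h3 := (mem_Om.1 (mv_mem hT l hab ha hb)).2 d
  unfold hub at ha ⊢
  split_ifs at h1 ⊢ <;> omega

/-- weight of a star move -/
def wt (l : κ) (a b : ι) (T : κ → ι → ℕ) : ℝ := (T l b : ℝ) * ((T l a : ℝ) + 1)

theorem hl_eq (l : κ) (u : (κ → ι → ℕ) → ℝ) (a : ι) (T : κ → ι → ℕ) :
    hl l u a T = ∑ b ∈ univ.erase a, wt l a b T * (u T - u (mv l a b T)) := by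
  unfold hl hst res wt mv
  simp only [Function.update_eq_self]

theorem wt_nonneg (l : κ) (a b : ι) (T : κ → ι → ℕ) : 0 ≤ wt l a b T := by
  unfold wt; positivity

theorem wt_mv (l : κ) {a b : ι} (hab : a ≠ b) {T : κ → ι → ℕ} (hb : 1 ≤ T l b) :
    wt l b a (mv l a b T) = wt l a b T := by
  have h1 := mv_add l hab hb a
  have h2 := mv_add l hab hb b
  rw [if_neg hab, if_pos rfl] at h1
  rw [if_pos rfl, if_neg hab.symm] at h2
  have h1' : (mv l a b T l a : ℝ) = (T l a : ℝ) + 1 := by exact_mod_cast h1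
  have h2' : (mv l a b T l b : ℝ) + 1 = (T l b : ℝ) := by exact_mod_cast h2
  unfold wt
  rw [h1', h2']; ring

theorem wt_congr {k : κ} (a b : ι) {T T' : κ → ι → ℕ} (h : T k = T' k) :
    wt k a b T = wt k a b T' := by
  unfold wt; rw [h]

/-- the index set of the commuting squares -/
def Q (c : ι → ℕ) (rr : κ → ℕ) (l k : κ) : Finset ((κ → ι → ℕ) × (ι × ι) × (ι × ι)) :=
  (Om c rr ×ˢ univ).filter (fun p => p.2.1.1 ≠ p.2.1.2 ∧ p.2.2.1 ≠ p.2.2.2 ∧
    1 ≤ hub c p.1 p.2.1.1 ∧ 1 ≤ hub c p.1 p.2.2.1 ∧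
    (p.2.1.1 = p.2.2.1 → 2 ≤ hub c p.1 p.2.1.1) ∧ 1 ≤ p.1 l p.2.1.2 ∧ 1 ≤ p.1 k p.2.2.2)

theorem mem_Q {c : ι → ℕ} {rr : κ → ℕ} {l k : κ} {T : κ → ι → ℕ} {a b a' b' : ι} :
    (T, (a, b), (a', b')) ∈ Q c rr l k ↔ T ∈ Om c rr ∧ a ≠ b ∧ a' ≠ b' ∧
      1 ≤ hub c T a ∧ 1 ≤ hub c T a' ∧ (a = a' → 2 ≤ hub c T a) ∧ 1 ≤ T l b ∧ 1 ≤ T k b' := by
  simp [Q]

/-- the term of a square -/
def ff (l k : κ) (u : (κ → ι → ℕ) → ℝ) (p : (κ → ι → ℕ) × (ι × ι) × (ι × ι)) : ℝ :=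
  wt l p.2.1.1 p.2.1.2 p.1 * wt k p.2.2.1 p.2.2.2 p.1 *
    ((u p.1 - u (mv l p.2.1.1 p.2.1.2 p.1)) * (u p.1 - u (mv k p.2.2.1 p.2.2.2 p.1)))

/-- first reversal -/
def s1 (l : κ) (p : (κ → ι → ℕ) × (ι × ι) × (ι × ι)) : (κ → ι → ℕ) × (ι × ι) × (ι × ι) :=
  (mv l p.2.1.1 p.2.1.2 p.1, (p.2.1.2, p.2.1.1), p.2.2)

/-- second reversal -/
def s2 (k : κ) (p : (κ → ι → ℕ) × (ι × ι) × (ι × ι)) : (κ → ι → ℕ) × (ι × ι) × (ι × ι) :=
  (mv k p.2.2.1 p.2.2.2 p.1, p.2.1, (p.2.2.2, p.2.2.1))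

theorem s1_mem {c : ι → ℕ} {rr : κ → ℕ} {l k : κ} (hlk : l ≠ k)
    {p : (κ → ι → ℕ) × (ι × ι) × (ι × ι)} (hp : p ∈ Q c rr l k) : s1 l p ∈ Q c rr l k := by
  obtain ⟨T, ⟨a, b⟩, ⟨a', b'⟩⟩ := p
  rw [mem_Q] at hp
  obtain ⟨hT, hab, hab', ha, ha', haa, hb, hb'⟩ := hp
  have e1 := fun d => hub_mv hT l hab ha hb d
  have e2 := fun d => mv_add l hab hb d
  show (mv l a b T, (b, a), (a', b')) ∈ Q c rr l k
  rw [mem_Q]
  refine ⟨mv_mem hT l hab ha hb, hab.symm, hab', ?_, ?_, ?_, ?_, ?_⟩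
  · have := e1 b; rw [if_neg hab.symm, if_pos rfl] at this; omega
  · have := e1 a'
    by_cases h1 : a' = a
    · have h2 := haa h1.symm
      subst h1
      rw [if_pos rfl, if_neg hab] at this; omega
    · rw [if_neg h1] at this
      split_ifs at this <;> omega
  · intro h; subst h
    have := e1 b; rw [if_neg hab.symm, if_pos rfl] at this; omega
  · have := e2 a; rw [if_neg hab, if_pos rfl] at this; omega
  · rw [mv_row_ne hlk.symm]; exact hb'

theorem s2_mem {c : ι → ℕ} {rr : κ → ℕ} {l k : κ} (hlk : l ≠ k)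
    {p : (κ → ι → ℕ) × (ι × ι) × (ι × ι)} (hp : p ∈ Q c rr l k) : s2 k p ∈ Q c rr l k := by
  obtain ⟨T, ⟨a, b⟩, ⟨a', b'⟩⟩ := p
  rw [mem_Q] at hp
  obtain ⟨hT, hab, hab', ha, ha', haa, hb, hb'⟩ := hp
  have e1 := fun d => hub_mv hT k hab' ha' hb' d
  have e2 := fun d => mv_add k hab' hb' d
  show (mv k a' b' T, (a, b), (b', a')) ∈ Q c rr l k
  rw [mem_Q]
  refine ⟨mv_mem hT k hab' ha' hb', hab, hab'.symm, ?_, ?_, ?_, ?_, ?_⟩
  · have := e1 a
    by_cases h1 : a = a'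
    · have h2 := haa h1
      subst h1
      rw [if_pos rfl, if_neg hab'] at this; omega
    · rw [if_neg h1] at this
      split_ifs at this <;> omega
  · have := e1 b'; rw [if_neg hab'.symm, if_pos rfl] at this; omega
  · intro h; subst h
    have := e1 a; rw [if_neg hab'.symm, if_pos rfl] at this; omega
  · rw [mv_row_ne hlk]; exact hb
  · have := e2 a'; rw [if_neg hab', if_pos rfl] at this; omega

theorem s1_s1 {c : ι → ℕ} {rr : κ → ℕ} {l k : κ}
    {p : (κ → ι → ℕ) × (ι × ι) × (ι × ι)} (hp : p ∈ Q c rr l k) : s1 l (s1 l p) = p := by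
  obtain ⟨T, ⟨a, b⟩, ⟨a', b'⟩⟩ := p
  rw [mem_Q] at hp
  show (mv l b a (mv l a b T), (a, b), (a', b')) = _
  rw [mv_mv l hp.2.1 hp.2.2.2.2.2.2.1]

theorem s2_s2 {c : ι → ℕ} {rr : κ → ℕ} {l k : κ}
    {p : (κ → ι → ℕ) × (ι × ι) × (ι × ι)} (hp : p ∈ Q c rr l k) : s2 k (s2 k p) = p := by
  obtain ⟨T, ⟨a, b⟩, ⟨a', b'⟩⟩ := p
  rw [mem_Q] at hp
  show (mv k b' a' (mv k a' b' T), (a, b), (a', b')) = _
  rw [mv_mv k hp.2.2.1 hp.2.2.2.2.2.2.2]

theorem sum_s1 {c : ι → ℕ} {rr : κ → ℕ} {l k : κ} (hlk : l ≠ k)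
    (F : (κ → ι → ℕ) × (ι × ι) × (ι × ι) → ℝ) :
    ∑ p ∈ Q c rr l k, F (s1 l p) = ∑ p ∈ Q c rr l k, F p :=
  sum_nbij' (s1 l) (s1 l) (fun _ h => s1_mem hlk h) (fun _ h => s1_mem hlk h)
    (fun _ h => s1_s1 h) (fun _ h => s1_s1 h) (fun _ _ => rfl)

theorem sum_s2 {c : ι → ℕ} {rr : κ → ℕ} {l k : κ} (hlk : l ≠ k)
    (F : (κ → ι → ℕ) × (ι × ι) × (ι × ι) → ℝ) :
    ∑ p ∈ Q c rr l k, F (s2 k p) = ∑ p ∈ Q c rr l k, F p :=
  sum_nbij' (s2 k) (s2 k) (fun _ h => s2_mem hlk h) (fun _ h => s2_mem hlk h)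
    (fun _ h => s2_s2 h) (fun _ h => s2_s2 h) (fun _ _ => rfl)

theorem four_nonneg {c : ι → ℕ} {rr : κ → ℕ} {l k : κ} (hlk : l ≠ k)
    (u : (κ → ι → ℕ) → ℝ) {p : (κ → ι → ℕ) × (ι × ι) × (ι × ι)} (hp : p ∈ Q c rr l k) :
    0 ≤ ff l k u p + ff l k u (s1 l p) + ff l k u (s2 k p) + ff l k u (s1 l (s2 k p)) := by
  obtain ⟨T, ⟨a, b⟩, ⟨a', b'⟩⟩ := p
  rw [mem_Q] at hp
  obtain ⟨hT, hab, hab', ha, ha', haa, hb, hb'⟩ := hp
  have w1 : wt l b a (mv l a b T) = wt l a b T := wt_mv l hab hb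
  have w2 : wt k a' b' (mv l a b T) = wt k a' b' T := wt_congr _ _ (mv_row_ne hlk.symm _ _ _)
  have w3 : wt k b' a' (mv k a' b' T) = wt k a' b' T := wt_mv k hab' hb'
  have w4 : wt l a b (mv k a' b' T) = wt l a b T := wt_congr _ _ (mv_row_ne hlk _ _ _)
  have hb2 : 1 ≤ mv k a' b' T l b := by rw [mv_row_ne hlk]; exact hb
  have w5 : wt l b a (mv l a b (mv k a' b' T)) = wt l a b T := by rw [wt_mv l hab hb2, w4]
  have w6 : wt k b' a' (mv l a b (mv k a' b' T)) = wt k a' b' T := by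
    rw [wt_congr b' a' (mv_row_ne hlk.symm a b (mv k a' b' T)), w3]
  have m1 : mv l b a (mv l a b T) = T := mv_mv l hab hb
  have m2 : mv k b' a' (mv k a' b' T) = T := mv_mv k hab' hb'
  have m3 : mv k a' b' (mv l a b T) = mv l a b (mv k a' b' T) := (mv_comm hlk _ _ _ _ _).symm
  have m4 : mv l b a (mv l a b (mv k a' b' T)) = mv k a' b' T := mv_mv l hab hb2
  have m5 : mv k b' a' (mv l a b (mv k a' b' T)) = mv l a b T := by
    rw [← mv_comm hlk, m2]
  simp only [ff, s1, s2]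
  rw [w1, w2, w3, w4, w5, w6, m1, m2, m3, m4, m5]
  have hW : 0 ≤ wt l a b T * wt k a' b' T := mul_nonneg (wt_nonneg _ _ _ _) (wt_nonneg _ _ _ _)
  have := mul_nonneg hW (sq_nonneg (u T - u (mv l a b T) - u (mv k a' b' T)
    + u (mv l a b (mv k a' b' T))))
  nlinarith [this]

theorem sum_ff_nonneg {c : ι → ℕ} {rr : κ → ℕ} {l k : κ} (hlk : l ≠ k)
    (u : (κ → ι → ℕ) → ℝ) : 0 ≤ ∑ p ∈ Q c rr l k, ff l k u p := by
  have h := sum_nonneg (fun p (hp : p ∈ Q c rr l k) => four_nonneg hlk u hp)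
  rw [sum_add_distrib, sum_add_distrib, sum_add_distrib] at h
  rw [sum_s1 hlk, sum_s2 hlk, sum_s2 hlk (fun p => ff l k u (s1 l p)), sum_s1 hlk] at h
  linarith

/-- the part of `G_l G_k` coming from commuting squares -/
noncomputable def PP (c : ι → ℕ) (u : (κ → ι → ℕ) → ℝ) (l k : κ) (T : κ → ι → ℕ) : ℝ :=
  ∑ a ∈ univ.filter (fun a => 1 ≤ hub c T a), ∑ a' ∈ univ.filter (fun a' => 1 ≤ hub c T a'),
    if a = a' ∧ hub c T a = 1 then 0 else hl l u a T * hl k u a' T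

theorem sum_PP {c : ι → ℕ} {rr : κ → ℕ} {l k : κ} (u : (κ → ι → ℕ) → ℝ) :
    ∑ T ∈ Om c rr, PP c u l k T = ∑ p ∈ Q c rr l k, ff l k u p := by
  have h1 : ∀ T ∈ Om c rr, PP c u l k T = ∑ q : (ι × ι) × (ι × ι),
      if (T, q) ∈ Q c rr l k then ff l k u (T, q) else 0 := by
    intro T hT
    rw [Fintype.sum_prod_type]
    have e : ∀ x : ι × ι, (∑ y : ι × ι, if (T, (x, y)) ∈ Q c rr l k then ff l k u (T, (x, y)) else 0)
      = ∑ a', ∑ b', if (T, (x, (a', b'))) ∈ Q c rr l k then ff l k u (T, (x, (a', b'))) else 0 := by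
      intro x; rw [Fintype.sum_prod_type]
    simp only [e]
    rw [Fintype.sum_prod_type]
    unfold PP
    rw [sum_filter]
    refine sum_congr rfl (fun a _ => ?_)
    rw [sum_comm]
    rw [sum_filter]
    split_ifs with ha
    swap
    · symm
      refine sum_eq_zero (fun a' _ => sum_eq_zero (fun b _ => sum_eq_zero (fun b' _ => ?_)))
      rw [if_neg]
      rw [mem_Q]; tauto
    refine sum_congr rfl (fun a' _ => ?_)
    split_ifs with ha' h2
    · symm
      refine sum_eq_zero (fun b _ => sum_eq_zero (fun b' _ => ?_))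
      rw [if_neg]
      rw [mem_Q]
      rintro ⟨-, -, -, -, -, h, -, -⟩
      have := h h2.1
      omega
    · rw [hl_eq, hl_eq, sum_mul_sum]
      rw [← sum_erase (s := univ) (a := a)]
      · refine sum_congr rfl (fun b hb => ?_)
        rw [← sum_erase (s := univ) (a := a')]
        · refine sum_congr rfl (fun b' hb' => ?_)
          have hab : a ≠ b := (ne_of_mem_erase hb).symm
          have hab' : a' ≠ b' := (ne_of_mem_erase hb').symm
          split_ifs with hq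
          · simp only [ff]; ring
          · have h3 : T l b = 0 ∨ T k b' = 0 := by
              by_contra hcon
              push Not at hcon
              apply hq
              rw [mem_Q]
              refine ⟨hT, hab, hab', ha, ha', fun h => ?_, Nat.one_le_iff_ne_zero.2 hcon.1,
                Nat.one_le_iff_ne_zero.2 hcon.2⟩
              by_contra h4
              exact h2 ⟨h, by omega⟩
            rcases h3 with h3 | h3
            · simp [wt, h3]
            · simp [wt, h3]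
        · rw [if_neg]; rw [mem_Q]; tauto
      · refine sum_eq_zero (fun b' _ => ?_)
        rw [if_neg]; rw [mem_Q]; tauto
    · symm
      refine sum_eq_zero (fun b _ => sum_eq_zero (fun b' _ => ?_))
      rw [if_neg]
      rw [mem_Q]; tauto
  rw [sum_congr rfl h1, ← sum_product', ← sum_filter]
  refine sum_congr ?_ (fun _ _ => rfl)
  ext p
  simp only [mem_filter, mem_product, mem_univ, and_true]
  constructor
  · exact fun h => h.2
  · intro h
    refine ⟨?_, h⟩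
    have := h
    simp only [Q, mem_filter, mem_product] at this
    exact this.1.1

theorem Gl_eq {c : ι → ℕ} {rr : κ → ℕ} {T : κ → ι → ℕ} (hT : T ∈ Om c rr) (l : κ)
    (u : (κ → ι → ℕ) → ℝ) :
    Gl c l u T = ∑ a ∈ univ.filter (fun a => 1 ≤ hub c T a), hl l u a T := by
  unfold Gl GG hl
  refine sum_congr ?_ (fun _ _ => rfl)
  ext a
  simp only [mem_filter, mem_univ, true_and]
  have h1 := (mem_Om.1 hT).2 a
  unfold sec hub
  rw [← add_sum_erase univ (fun k => T k a) (mem_univ l)] at h1 ⊢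
  omega

theorem Gl_mul {c : ι → ℕ} {rr : κ → ℕ} {T : κ → ι → ℕ} (hT : T ∈ Om c rr) (l k : κ)
    (u : (κ → ι → ℕ) → ℝ) :
    Gl c l u T * Gl c k u T = PP c u l k T
      + ∑ a ∈ univ.filter (fun a => hub c T a = 1), hl l u a T * hl k u a T := by
  rw [Gl_eq hT, Gl_eq hT, sum_mul_sum]
  unfold PP
  have h : ∑ a ∈ univ.filter (fun a => hub c T a = 1), hl l u a T * hl k u a T
      = ∑ a ∈ univ.filter (fun a => 1 ≤ hub c T a),
        ∑ a' ∈ univ.filter (fun a' => 1 ≤ hub c T a'),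
          if a = a' ∧ hub c T a = 1 then hl l u a T * hl k u a' T else 0 := by
    rw [sum_filter, sum_filter]
    refine sum_congr rfl (fun a _ => ?_)
    rw [sum_filter]
    by_cases h1 : hub c T a = 1
    · rw [if_pos h1, if_pos (by omega)]
      rw [sum_eq_single a]
      · rw [if_pos (by omega), if_pos ⟨rfl, h1⟩]
      · intro b _ hb
        rw [if_neg (c := a = b ∧ hub c T a = 1) (fun h => hb h.1.symm)]
        simp
      · intro h; exact absurd (mem_univ _) h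
    · rw [if_neg h1]
      split_ifs
      · symm
        refine sum_eq_zero (fun a' _ => ?_)
        rw [if_neg (c := a = a' ∧ hub c T a = 1) (fun h => h1 h.2)]
        simp
      · rfl
  rw [h, ← sum_add_distrib]
  refine sum_congr rfl (fun a _ => ?_)
  rw [← sum_add_distrib]
  refine sum_congr rfl (fun a' _ => ?_)
  split_ifs <;> simp

end M2

open M2 in
theorem bochner (c : ι → ℕ) (rr : κ → ℕ) (u : (κ → ι → ℕ) → ℝ) :
    ∑ l, ∑ T ∈ Om c rr, (Gl c l u T ^ 2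
        - ∑ a ∈ univ.filter (fun a => hub c T a = 1), hl l u a T ^ 2)
      ≤ ∑ T ∈ Om c rr, (∑ l, Gl c l u T) ^ 2 := by
  have key : ∀ T ∈ Om c rr, (∑ l, Gl c l u T) ^ 2
      = (∑ l, (Gl c l u T ^ 2 - ∑ a ∈ univ.filter (fun a => hub c T a = 1), hl l u a T ^ 2))
        + (∑ a ∈ univ.filter (fun a => hub c T a = 1), (∑ l, hl l u a T) ^ 2)
        + ∑ l, ∑ k ∈ univ.erase l, PP c u l k T := by
    intro T hT
    have e1 : (∑ l, Gl c l u T) ^ 2 = ∑ l, Gl c l u T ^ 2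
        + ∑ l, ∑ k ∈ univ.erase l, Gl c l u T * Gl c k u T := by
      rw [sq, sum_mul_sum, ← sum_add_distrib]
      refine sum_congr rfl (fun l _ => ?_)
      rw [← add_sum_erase univ _ (mem_univ l), sq]
    have e2 : ∑ l, ∑ k ∈ univ.erase l, Gl c l u T * Gl c k u T
        = ∑ l, ∑ k ∈ univ.erase l, PP c u l k T
          + ∑ l, ∑ k ∈ univ.erase l,
            ∑ a ∈ univ.filter (fun a => hub c T a = 1), hl l u a T * hl k u a T := by
      rw [← sum_add_distrib]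
      refine sum_congr rfl (fun l _ => ?_)
      rw [← sum_add_distrib]
      exact sum_congr rfl (fun k _ => Gl_mul hT l k u)
    have e3 : ∑ a ∈ univ.filter (fun a => hub c T a = 1), (∑ l, hl l u a T) ^ 2
        = ∑ l, ∑ a ∈ univ.filter (fun a => hub c T a = 1), hl l u a T ^ 2
          + ∑ l, ∑ k ∈ univ.erase l,
            ∑ a ∈ univ.filter (fun a => hub c T a = 1), hl l u a T * hl k u a T := by
      have e4 : ∀ a, (∑ l, hl l u a T) ^ 2 = ∑ l, hl l u a T ^ 2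
          + ∑ l, ∑ k ∈ univ.erase l, hl l u a T * hl k u a T := by
        intro a
        rw [sq, sum_mul_sum, ← sum_add_distrib]
        refine sum_congr rfl (fun l _ => ?_)
        rw [← add_sum_erase univ _ (mem_univ l), sq]
      rw [sum_congr rfl (fun a _ => e4 a), sum_add_distrib, sum_comm]
      congr 1
      rw [sum_comm]
      refine sum_congr rfl (fun l _ => ?_)
      rw [sum_comm]
    rw [e1, e2, e3, sum_sub_distrib]
    ring
  rw [sum_congr rfl key, sum_add_distrib, sum_add_distrib]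
  rw [sum_comm (s := Om c rr) (t := univ)
    (f := fun T l => Gl c l u T ^ 2 - ∑ a ∈ univ.filter (fun a => hub c T a = 1), hl l u a T ^ 2)]
  have h1 : 0 ≤ ∑ T ∈ Om c rr,
      ∑ a ∈ univ.filter (fun a => hub c T a = 1), (∑ l, hl l u a T) ^ 2 :=
    sum_nonneg (fun _ _ => sum_nonneg (fun _ _ => sq_nonneg _))
  have h2 : 0 ≤ ∑ T ∈ Om c rr, ∑ l, ∑ k ∈ univ.erase l, PP c u l k T := by
    rw [sum_comm]
    refine sum_nonneg (fun l _ => ?_)
    rw [sum_comm]
    refine sum_nonneg (fun k hk => ?_)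
    rw [sum_PP]
    exact sum_ff_nonneg (ne_of_mem_erase hk).symm u
  linarith

end Multi

end Vale.Agent.H27.CT
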