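import Vale.Agent.H27.CT.M1

/-!
# Row M3 (solvability of the weighted star operator)
-/

open Finset

set_option linter.unusedSectionVars false

namespace Vale.Agent.H27.CT

section Multi
variable {κ ι : Type*} [Fintype κ] [DecidableEq κ] [Fintype ι] [DecidableEq ι]

namespace M3

/-- star move: row `l` moves a token from column `b` to column `a` (the hub the opposite) -/
def mv (T : κ → ι → ℕ) (l : κ) (b a : ι) : κ → ι → ℕ :=
  Function.update T l (dn (up (T l) a) b)

/-- integer valued table including the hub row `none` -/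
def ext (c : ι → ℕ) (T : κ → ι → ℕ) : Option κ → ι → ℤ
  | some l => fun y => (T l y : ℤ)
  | none => fun y => (c y : ℤ) - ∑ l, (T l y : ℤ)

/-- unit table -/
def E (r : Option κ) (a : ι) (r' : Option κ) (y : ι) : ℤ := if r' = r ∧ y = a then 1 else 0

theorem mem_ext {c : ι → ℕ} {rr : κ → ℕ} {T : κ → ι → ℕ} :
    T ∈ Om c rr ↔ (∀ l, ∑ y, ext c T (some l) y = rr l) ∧ ∀ y, 0 ≤ ext c T none y := by
  classical
  rw [mem_Om]
  refine and_congr (forall_congr' fun l => ?_) (forall_congr' fun y => ?_)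
  · simp only [ext]
    exact_mod_cast Iff.rfl
  · simp only [ext]
    rw [sub_nonneg]
    exact_mod_cast Iff.rfl

theorem dnup_cast (x : ι → ℕ) (a b y : ι) (hb : 1 ≤ x b) :
    ((dn (up x a) b y : ℕ) : ℤ) = x y + (if y = a then 1 else 0) - (if y = b then 1 else 0) := by
  by_cases h1 : y = b
  · subst h1
    rw [dn_same, if_pos rfl]
    by_cases h2 : y = a
    · subst h2
      rw [up_same, if_pos rfl]
      push_cast
      omega
    · rw [up_ne _ h2, if_neg h2]
      push_cast [Nat.cast_sub hb]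
      ring
  · rw [dn_ne _ h1, if_neg h1]
    by_cases h2 : y = a
    · subst h2
      rw [up_same, if_pos rfl]
      push_cast
      ring
    · rw [up_ne _ h2, if_neg h2]
      ring

theorem mv_cast (T : κ → ι → ℕ) (l : κ) (b a : ι) (hb : 1 ≤ T l b) (k : κ) (y : ι) :
    ((mv T l b a k y : ℕ) : ℤ) = T k y + (if k = l then (if y = a then 1 else 0)
      - (if y = b then 1 else 0) else 0) := by
  unfold mv
  by_cases h : k = l
  · subst h
    rw [Function.update_self, dnup_cast _ _ _ _ hb, if_pos rfl]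
    ring
  · rw [Function.update_of_ne h, if_neg h]
    ring

theorem ext_mv (c : ι → ℕ) (T : κ → ι → ℕ) (l : κ) (b a : ι) (hb : 1 ≤ ext c T (some l) b)
    (r : Option κ) (y : ι) :
    ext c (mv T l b a) r y = ext c T r y + E (some l) a r y - E (some l) b r y
      - E none a r y + E none b r y := by
  have hb' : 1 ≤ T l b := by
    simp only [ext] at hb
    exact_mod_cast hb
  cases r with
  | some k =>
    simp only [ext, E]
    rw [mv_cast T l b a hb' k y]
    by_cases h : k = l
    · subst h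
      simp
      ring
    · simp [h]
  | none =>
    simp only [ext, E]
    have : ∑ k, ((mv T l b a k y : ℕ) : ℤ) = ∑ k, (T k y : ℤ) + ((if y = a then 1 else 0)
      - (if y = b then 1 else 0)) := by
      rw [sum_congr rfl (fun k _ => mv_cast T l b a hb' k y), sum_add_distrib]
      simp
    rw [this]
    simp
    ring

theorem sum_E (r r' : Option κ) (a : ι) : ∑ y, E r a r' y = if r' = r then 1 else 0 := by
  unfold E
  by_cases h : r' = r
  · simp [h]
  · simp [h]

theorem mv_mem {c : ι → ℕ} {rr : κ → ℕ} {T : κ → ι → ℕ} (hT : T ∈ Om c rr) {l : κ} {b a : ι}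
    (hb : 1 ≤ ext c T (some l) b) (ha : 1 ≤ ext c T none a) : mv T l b a ∈ Om c rr := by
  rw [mem_ext] at hT ⊢
  refine ⟨fun k => ?_, fun y => ?_⟩
  · simp only [ext_mv c T l b a hb, sum_add_distrib, sum_sub_distrib, sum_E, hT.1 k]
    simp
  · rw [ext_mv c T l b a hb]
    have h0 := hT.2 y
    simp only [E]
    by_cases h1 : y = a
    · subst h1
      simp
      split_ifs <;> omega
    · simp [h1]
      split_ifs <;> omega

/-- closure hypothesis -/
def Closed (c : ι → ℕ) (rr : κ → ℕ) (P : (κ → ι → ℕ) → Prop) : Prop :=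
  ∀ T ∈ Om c rr, P T → ∀ l a b, 1 ≤ ext c T (some l) b → 1 ≤ ext c T none a → P (mv T l b a)

theorem three {c : ι → ℕ} {rr : κ → ℕ} {P : (κ → ι → ℕ) → Prop} (hP : Closed c rr P)
    {T : κ → ι → ℕ} (hT : T ∈ Om c rr) (hPT : P T) {p q : κ} (hpq : p ≠ q) {a b d : ι}
    (ha : 1 ≤ ext c T (some p) a) (hb : 1 ≤ ext c T (some q) b) (hd : 1 ≤ ext c T none d) :
    ∃ T' ∈ Om c rr, P T' ∧ ∀ r y, ext c T' r y = ext c T r y + E (some p) b r y
      - E (some p) a r y + E (some q) a r y - E (some q) b r y := by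
  have e1 := ext_mv c T p a d ha
  have m1 := mv_mem hT ha hd
  have P1 := hP T hT hPT p d a ha hd
  set T1 := mv T p a d
  have hb1 : 1 ≤ ext c T1 (some q) b := by
    rw [e1]
    have hqp : q ≠ p := fun h => hpq h.symm
    simp only [E]
    simp [hqp, hb]
  have ha1 : 1 ≤ ext c T1 none a := by
    rw [e1]
    have h0 := (mem_ext.mp hT).2 a
    simp only [E]
    by_cases h : a = d
    · subst h; simp; omega
    · simp [h]; omega
  have e2 := ext_mv c T1 q b a hb1
  have m2 := mv_mem m1 hb1 ha1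
  have P2 := hP T1 m1 P1 q a b hb1 ha1
  set T2 := mv T1 q b a
  have hd2 : 1 ≤ ext c T2 (some p) d := by
    rw [e2, e1]
    have h0 : 0 ≤ ext c T (some p) d := by simp only [ext]; positivity
    simp only [E]
    by_cases h : d = a
    · subst h; simp [hpq]; exact ha
    · simp [h, hpq, h0]
  have hb2 : 1 ≤ ext c T2 none b := by
    rw [e2, e1]
    have h0 := (mem_ext.mp hT).2 b
    simp only [E]
    by_cases h : b = d
    · subst h; simp; omega
    · simp [h]; omega
  have e3 := ext_mv c T2 p d b hd2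
  have m3 := mv_mem m2 hd2 hb2
  have P3 := hP T2 m2 P2 p b d hd2 hb2
  refine ⟨_, m3, P3, fun r y => ?_⟩
  rw [e3, e2, e1]
  ring

theorem exists_lt_of_sum {α : Type*} [Fintype α] {f g : α → ℤ} (h : ∑ i, f i = ∑ i, g i) {i : α}
    (hi : g i < f i) : ∃ j, f j < g j := by
  by_contra hno
  push Not at hno
  have := sum_lt_sum (s := univ) (f := g) (g := f) (fun j _ => hno j) ⟨i, mem_univ _, hi⟩
  omega

theorem abs_aux (x y : ℤ) (A B C D : Prop) [Decidable A] [Decidable B] [Decidable C] [Decidable D]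
    (fB : B → y < x) (fC : C → x < y) (fD : D → y < x) (gAB : A → ¬ B) (gAC : A → ¬ C)
    (gAD : A → ¬ D) (gBC : B → ¬ C) (gBD : B → ¬ D) (gCD : C → ¬ D) :
    |x + (if A then (1 : ℤ) else 0) - (if B then 1 else 0) + (if C then 1 else 0)
      - (if D then 1 else 0) - y| ≤ |x - y| + ((if A then (1 : ℤ) else 0) - (if B then 1 else 0)
      - (if C then 1 else 0) - (if D then 1 else 0)) := by
  by_cases hA : A
  · rw [if_pos hA, if_neg (gAB hA), if_neg (gAC hA), if_neg (gAD hA)]
    rcases abs_cases (x - y) with ⟨u1, v1⟩ | ⟨u1, v1⟩ <;> rw [u1, abs_le] <;>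
      constructor <;> omega
  rw [if_neg hA]
  by_cases hB : B
  · rw [if_pos hB, if_neg (gBC hB), if_neg (gBD hB)]
    have := fB hB
    rcases abs_cases (x - y) with ⟨u1, v1⟩ | ⟨u1, v1⟩ <;> rw [u1, abs_le] <;>
      constructor <;> omega
  rw [if_neg hB]
  by_cases hC : C
  · rw [if_pos hC, if_neg (gCD hC)]
    have := fC hC
    rcases abs_cases (x - y) with ⟨u1, v1⟩ | ⟨u1, v1⟩ <;> rw [u1, abs_le] <;>
      constructor <;> omega
  rw [if_neg hC]
  by_cases hD : D
  · rw [if_pos hD]
    have := fD hD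
    rcases abs_cases (x - y) with ⟨u1, v1⟩ | ⟨u1, v1⟩ <;> rw [u1, abs_le] <;>
      constructor <;> omega
  rw [if_neg hD]
  simp

/-- ℓ1 distance -/
def dist (X Y : Option κ → ι → ℤ) : ℤ := ∑ r, ∑ y, |X r y - Y r y|

theorem dist_lt {X Y X' : Option κ → ι → ℤ} {p q : Option κ} {a b : ι} 
    (hpa : Y p a < X p a) (hqa : X q a < Y q a) (hqb : Y q b < X q b)
    (hX' : ∀ r y, X' r y = X r y + E p b r y - E p a r y + E q a r y - E q b r y) :
    dist X' Y < dist X Y := by
  have hpq : p ≠ q := by rintro rfl; omega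
  have hab : a ≠ b := by rintro rfl; omega
  have hle : ∀ r y, |X' r y - Y r y| ≤ |X r y - Y r y| + (E p b r y - E p a r y - E q a r y
      - E q b r y) := by
    intro r y
    rw [hX']
    have f2 : (r = p ∧ y = a) → Y r y < X r y := by rintro ⟨rfl, rfl⟩; exact hpa
    have f3 : (r = q ∧ y = a) → X r y < Y r y := by rintro ⟨rfl, rfl⟩; exact hqa
    have f4 : (r = q ∧ y = b) → Y r y < X r y := by rintro ⟨rfl, rfl⟩; exact hqb
    have g12 : (r = p ∧ y = b) → ¬ (r = p ∧ y = a) := by rintro ⟨_, h⟩ ⟨_, h'⟩; exact hab (h'.symm.trans h)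
    have g13 : (r = p ∧ y = b) → ¬ (r = q ∧ y = a) := by rintro ⟨_, h⟩ ⟨_, h'⟩; exact hab (h'.symm.trans h)
    have g14 : (r = p ∧ y = b) → ¬ (r = q ∧ y = b) := by rintro ⟨h, _⟩ ⟨h', _⟩; exact hpq (h.symm.trans h')
    have g23 : (r = p ∧ y = a) → ¬ (r = q ∧ y = a) := by rintro ⟨h, _⟩ ⟨h', _⟩; exact hpq (h.symm.trans h')
    have g24 : (r = p ∧ y = a) → ¬ (r = q ∧ y = b) := by rintro ⟨_, h⟩ ⟨_, h'⟩; exact hab (h.symm.trans h')
    have g34 : (r = q ∧ y = a) → ¬ (r = q ∧ y = b) := by rintro ⟨_, h⟩ ⟨_, h'⟩; exact hab (h.symm.trans h')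
    exact abs_aux _ _ _ _ _ _ f2 f3 f4 g12 g13 g14 g23 g24 g34
  have h1 : dist X' Y ≤ ∑ r, ∑ y, (|X r y - Y r y| + (E p b r y - E p a r y - E q a r y
      - E q b r y)) := sum_le_sum fun r _ => sum_le_sum fun y _ => hle r y
  have h2 : ∑ r, ∑ y, (|X r y - Y r y| + (E p b r y - E p a r y - E q a r y
      - E q b r y)) = dist X Y - 2 := by
    unfold dist
    simp only [sum_add_distrib, sum_sub_distrib, sum_E]
    simp
    ring
  omega

theorem connected {c : ι → ℕ} {rr : κ → ℕ} (hR : ∑ k, rr k < ∑ a, c a)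
    {P : (κ → ι → ℕ) → Prop} (hP : Closed c rr P) {Y : κ → ι → ℕ} (hY : Y ∈ Om c rr) :
    ∀ n : ℕ, ∀ T ∈ Om c rr, P T → dist (ext c T) (ext c Y) < n → P Y := by
  intro n
  induction n with
  | zero =>
    intro T _ _ h
    have : 0 ≤ dist (ext c T) (ext c Y) := sum_nonneg fun r _ => sum_nonneg fun y _ => abs_nonneg _
    simp at h
    omega
  | succ n ih =>
    intro T hT hPT hD
    by_cases hTY : T = Y
    · rwa [hTY] at hPT
    -- a row and a column with an excess
    have h1 : ∃ p : κ, ∃ a, ext c Y (some p) a < ext c T (some p) a := by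
      by_contra hno
      push Not at hno
      apply hTY
      funext p a
      by_contra hne
      have hlt : ext c T (some p) a < ext c Y (some p) a := by
        refine lt_of_le_of_ne (hno p a) ?_
        simp only [ext]
        exact_mod_cast hne
      have hs : ∑ y, ext c Y (some p) y = ∑ y, ext c T (some p) y := by
        rw [(mem_ext.mp hT).1, (mem_ext.mp hY).1]
      obtain ⟨j, hj⟩ := exists_lt_of_sum hs hlt
      have := hno p j
      omega
    obtain ⟨p, a, hpa⟩ := h1
    have hcol : ∑ r, ext c T r a = ∑ r, ext c Y r a := by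
      rw [Fintype.sum_option, Fintype.sum_option]
      simp only [ext]
      ring
    obtain ⟨q, hqa⟩ := exists_lt_of_sum hcol hpa
    have hnone : ∀ T ∈ Om c rr, ∑ y, ext c T none y = ∑ a, (c a : ℤ) - ∑ k, (rr k : ℤ) := by
      intro T hT
      simp only [ext, sum_sub_distrib]
      rw [sum_comm]
      congr 1
      exact sum_congr rfl fun l _ => (mem_ext.mp hT).1 l
    have hrow : ∀ r : Option κ, ∑ y, ext c T r y = ∑ y, ext c Y r y := by
      intro r
      cases r with
      | none => rw [hnone T hT, hnone Y hY]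
      | some k => rw [(mem_ext.mp hT).1, (mem_ext.mp hY).1]
    obtain ⟨b, hqb⟩ := exists_lt_of_sum (hrow q).symm hqa
    have h0 : ∀ r y, 0 ≤ ext c Y r y := by
      intro r y
      cases r with
      | none => exact (mem_ext.mp hY).2 y
      | some k => simp only [ext]; positivity
    have hp1 : 1 ≤ ext c T (some p) a := by have := h0 (some p) a; omega
    have hq1 : 1 ≤ ext c T q b := by have := h0 q b; omega
    have h2 : ∃ T' ∈ Om c rr, P T' ∧ ∀ r y, ext c T' r y = ext c T r y + E (some p) b r y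
      - E (some p) a r y + E q a r y - E q b r y := by
      cases q with
      | none =>
        refine ⟨mv T p a b, mv_mem hT hp1 hq1, hP T hT hPT p b a hp1 hq1, fun r y => ?_⟩
        rw [ext_mv c T p a b hp1]
        ring
      | some q =>
        have hd : ∃ d, 1 ≤ ext c T none d := by
          by_contra hno
          push Not at hno
          have h3 : ∑ y, ext c T none y ≤ 0 := sum_nonpos fun y _ => by have := hno y; omega
          rw [hnone T hT] at h3
          have h4 : (∑ k, (rr k : ℤ)) < ∑ a, (c a : ℤ) := by exact_mod_cast hR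
          omega
        obtain ⟨d, hd⟩ := hd
        have hpq : p ≠ q := by rintro rfl; omega
        exact three hP hT hPT hpq hp1 hq1 hd
    obtain ⟨T', hT', hPT', hX'⟩ := h2
    have h3 := dist_lt hpa hqa hqb hX'
    refine ih T' hT' hPT' ?_
    push_cast at hD
    omega

theorem mv_self (T : κ → ι → ℕ) (l : κ) (a : ι) : mv T l a a = T := by
  unfold mv
  rw [dn_up, Function.update_eq_self]

theorem Gl_eq (c : ι → ℕ) (l : κ) (u : (κ → ι → ℕ) → ℝ) (T : κ → ι → ℕ) :
    Gl c l u T = ∑ a ∈ univ.filter (fun a => T l a < sec c T l a), ∑ b ∈ univ.erase a,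
      (T l b : ℝ) * ((T l a : ℝ) + 1) * (u T - u (mv T l b a)) := by
  unfold Gl GG hst res mv
  rw [Function.update_eq_self]

theorem Gl_add (c : ι → ℕ) (l : κ) (u v : (κ → ι → ℕ) → ℝ) (T : κ → ι → ℕ) :
    Gl c l (u + v) T = Gl c l u T + Gl c l v T := by
  rw [Gl_eq, Gl_eq, Gl_eq, ← sum_add_distrib]
  refine sum_congr rfl fun a _ => ?_
  rw [← sum_add_distrib]
  refine sum_congr rfl fun b _ => ?_
  simp only [Pi.add_apply]
  ring

theorem Gl_smul (c : ι → ℕ) (l : κ) (t : ℝ) (u : (κ → ι → ℕ) → ℝ) (T : κ → ι → ℕ) :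
    Gl c l (t • u) T = t * Gl c l u T := by
  rw [Gl_eq, Gl_eq, mul_sum]
  refine sum_congr rfl fun a _ => ?_
  rw [mul_sum]
  refine sum_congr rfl fun b _ => ?_
  simp only [Pi.smul_apply, smul_eq_mul]
  ring

theorem lt_sec_iff {c : ι → ℕ} {rr : κ → ℕ} {T : κ → ι → ℕ} (hT : T ∈ Om c rr) (l : κ) (a : ι) :
    T l a < sec c T l a ↔ 1 ≤ ext c T none a := by
  have h1 := (mem_Om.mp hT).2 a
  have h2 := add_sum_erase univ (fun k => T k a) (mem_univ l)
  simp only [ext, sec]
  have h3 : (∑ k, (T k a : ℤ)) = ((∑ k, T k a : ℕ) : ℤ) := by push_cast; rfl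
  rw [h3, ← h2]
  rw [← h2] at h1
  generalize ∑ k ∈ univ.erase l, T k a = S at *
  omega

/-- maximum principle -/
theorem const_of_harmonic {c : ι → ℕ} {rr : κ → ℕ} (hR : ∑ k, rr k < ∑ a, c a)
    (u : (κ → ι → ℕ) → ℝ) (hu : ∀ T ∈ Om c rr, ∑ l, Gl c l u T = 0) :
    ∃ C, ∀ T ∈ Om c rr, u T = C := by
  rcases (Om c rr).eq_empty_or_nonempty with h | h
  · exact ⟨0, fun T hT => by rw [h] at hT; simp at hT⟩
  obtain ⟨T0, hT0, hmax⟩ := exists_max_image (Om c rr) u h
  refine ⟨u T0, fun Y hY => ?_⟩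
  have hP : Closed c rr (fun T => u T = u T0) := by
    intro T hT hPT l a b hb ha
    by_cases hab : a = b
    · subst hab; rw [mv_self]; exact hPT
    have hterm : ∀ l a b, a ∈ univ.filter (fun a => T l a < sec c T l a) →
        0 ≤ (T l b : ℝ) * ((T l a : ℝ) + 1) * (u T - u (mv T l b a)) := by
      intro l a b ha
      rw [mem_filter, lt_sec_iff hT] at ha
      rcases Nat.eq_zero_or_pos (T l b) with h0 | h0
      · rw [h0]; simp
      · have hb' : 1 ≤ ext c T (some l) b := by simp only [ext]; exact_mod_cast h0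
        have hm := hmax _ (mv_mem hT hb' ha.2)
        rw [hPT]
        have : 0 ≤ u T0 - u (mv T l b a) := by linarith
        positivity
    have h1 := hu T hT
    simp only [Gl_eq] at h1
    rw [sum_eq_zero_iff_of_nonneg (fun l _ => sum_nonneg fun a ha => sum_nonneg fun b _ =>
      hterm l a b ha)] at h1
    have h2 := h1 l (mem_univ l)
    rw [sum_eq_zero_iff_of_nonneg (fun a ha => sum_nonneg fun b _ => hterm l a b ha)] at h2
    have h3 := h2 a (by rw [mem_filter, lt_sec_iff hT]; exact ⟨mem_univ _, ha⟩)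
    rw [sum_eq_zero_iff_of_nonneg (fun b _ => hterm l a b (by
      rw [mem_filter, lt_sec_iff hT]; exact ⟨mem_univ _, ha⟩))] at h3
    have h4 := h3 b (mem_erase.mpr ⟨fun h => hab h.symm, mem_univ _⟩)
    have h5 : (0 : ℝ) < (T l b : ℝ) * ((T l a : ℝ) + 1) := by
      have : 1 ≤ T l b := by
        simp only [ext] at hb
        exact_mod_cast hb
      have : (0 : ℝ) < T l b := by exact_mod_cast this
      positivity
    have h6 : u T - u (mv T l b a) = 0 := by
      rcases mul_eq_zero.mp h4 with h | h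
      · exact absurd h h5.ne'
      · exact h
    show u (mv T l b a) = u T0
    rw [← hPT]
    linarith
  have := connected hR hP hY ((dist (ext c T0) (ext c Y)).toNat + 1) T0 hT0 rfl (by
    push_cast
    have := Int.self_le_toNat (dist (ext c T0) (ext c Y))
    omega)
  exact this

/-- extension by zero -/
noncomputable def exz (c : ι → ℕ) (rr : κ → ℕ) (f : {T // T ∈ Om c rr} → ℝ) :
    (κ → ι → ℕ) → ℝ := fun T => if h : T ∈ Om c rr then f ⟨T, h⟩ else 0

/-- the operator `f ↦ Σ_l G_l f + Σ f` -/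
noncomputable def BB (c : ι → ℕ) (rr : κ → ℕ) :
    ({T // T ∈ Om c rr} → ℝ) →ₗ[ℝ] ({T // T ∈ Om c rr} → ℝ) where
  toFun f := fun T => ∑ l, Gl c l (exz c rr f) T.1 + ∑ S, f S
  map_add' f g := by
    funext T
    have : exz c rr (f + g) = exz c rr f + exz c rr g := by
      funext S
      simp only [exz, Pi.add_apply]
      split_ifs
      · rfl
      · simp
    simp only [this, Gl_add, Pi.add_apply, sum_add_distrib]
    ring
  map_smul' t f := by
    funext T
    have : exz c rr (t • f) = t • exz c rr f := by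
      funext S
      simp only [exz, Pi.smul_apply]
      split_ifs
      · rfl
      · simp
    simp only [this, Gl_smul, Pi.smul_apply, smul_eq_mul, RingHom.id_apply]
    rw [← mul_sum, ← mul_sum]
    ring

end M3

open M3 in
theorem solve (c : ι → ℕ) (rr : κ → ℕ) (hR : ∑ k, rr k < ∑ a, c a) (F : (κ → ι → ℕ) → ℝ)
    (hF : ∑ T ∈ Om c rr, F T = 0) :
    ∃ u : (κ → ι → ℕ) → ℝ, ∀ T ∈ Om c rr, ∑ l, Gl c l u T = F T := by
  have hsum0 : ∀ u : (κ → ι → ℕ) → ℝ, ∑ T ∈ Om c rr, ∑ l, Gl c l u T = 0 := by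
    intro u
    rw [sum_comm]
    refine sum_eq_zero fun l _ => ?_
    have := sum_inv_mul_Gl (c := c) (rr := rr) l u (fun _ => 1) (fun _ _ _ _ => rfl)
    simpa using this
  have hsum : ∀ f : {T // T ∈ Om c rr} → ℝ,
      ∑ T, BB c rr f T = ((Om c rr).card : ℝ) * ∑ S, f S := by
    intro f
    have h1 : ∑ T : {T // T ∈ Om c rr}, ∑ l, Gl c l (exz c rr f) T.1
        = ∑ T ∈ Om c rr, ∑ l, Gl c l (exz c rr f) T :=
      sum_coe_sort (Om c rr) (fun T => ∑ l, Gl c l (exz c rr f) T)
    have h2 : ∑ T, BB c rr f T = ∑ T : {T // T ∈ Om c rr}, (∑ l, Gl c l (exz c rr f) T.1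
        + ∑ S, f S) := rfl
    rw [h2, sum_add_distrib, h1, hsum0]
    simp
  rcases (Om c rr).eq_empty_or_nonempty with hE | hE
  · exact ⟨0, fun T hT => by rw [hE] at hT; simp at hT⟩
  have hcard : (0 : ℝ) < (Om c rr).card := by exact_mod_cast hE.card_pos
  have hinj : Function.Injective (BB c rr) := by
    rw [← LinearMap.ker_eq_bot, LinearMap.ker_eq_bot']
    intro f hf
    have h1 := hsum f
    rw [hf] at h1
    have h2 : ∑ S, f S = 0 := by
      have h3 : ((Om c rr).card : ℝ) * ∑ S, f S = 0 := by rw [← h1]; simp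
      exact (mul_eq_zero.mp h3).resolve_left hcard.ne'
    have h3 : ∀ T ∈ Om c rr, ∑ l, Gl c l (exz c rr f) T = 0 := by
      intro T hT
      have h4 : BB c rr f ⟨T, hT⟩ = 0 := by rw [hf]; rfl
      have h5 : BB c rr f ⟨T, hT⟩ = ∑ l, Gl c l (exz c rr f) T + ∑ S, f S := rfl
      rw [h5, h2, add_zero] at h4
      exact h4
    obtain ⟨C, hC⟩ := const_of_harmonic hR (exz c rr f) h3
    have h6 : ∀ T, f T = C := by
      intro T
      have := hC T.1 T.2
      simpa [exz] using this
    have h7 : ∑ S, f S = ((Om c rr).card : ℝ) * C := by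
      rw [sum_congr rfl (fun S _ => h6 S)]
      simp
    rw [h2] at h7
    have h8 : C = 0 := (mul_eq_zero.mp h7.symm).resolve_left hcard.ne'
    funext T
    rw [h6, h8]
    rfl
  obtain ⟨f, hf⟩ := (LinearMap.injective_iff_surjective.mp hinj) (fun T => F T.1)
  refine ⟨exz c rr f, fun T hT => ?_⟩
  have h1 := hsum f
  rw [hf] at h1
  have h2 : ∑ T : {T // T ∈ Om c rr}, F T.1 = 0 := by
    rw [← hF]; exact sum_coe_sort (Om c rr) F
  rw [h2] at h1
  have h3 : ∑ S, f S = 0 := (mul_eq_zero.mp h1.symm).resolve_left hcard.ne'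
  have h4 : BB c rr f ⟨T, hT⟩ = F T := by rw [hf]
  have h5 : BB c rr f ⟨T, hT⟩ = ∑ l, Gl c l (exz c rr f) T + ∑ S, f S := rfl
  rw [h5, h3, add_zero] at h4
  exact h4

end Multi

end Vale.Agent.H27.CT
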