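import Vale.Agent.H27.CT.L1

/-! Row L3 (cells): `uni1`, `uni2`, `uni3` (`card_Kc` is proved in `L1`). -/

open Finset

namespace Vale.Agent.H27.CT

section TwoRow
variable {ι : Type*} [Fintype ι] [DecidableEq ι]

theorem Kc_eq_empty (s : ι → ℕ) {ρ k : ℕ} (a : ι) (h : ρ < k) : Kc s ρ a k = ∅ := by
  rw [Finset.eq_empty_iff_forall_notMem]
  intro x hx
  simp only [Kc, mem_filter, mem_lev] at hx
  have : x a ≤ ∑ b, x b := Finset.single_le_sum (fun _ _ => Nat.zero_le _) (mem_univ a)
  omega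

theorem uni1 (s : ι → ℕ) {r : ℕ} (a : ι) (hr : 2 * r ≤ ∑ b, s b) :
    (s a + 1) * (Kc s r a (s a)).card ≤ (lev s r).card := by
  rcases lt_or_ge r (s a) with h | h
  · rw [Kc_eq_empty s a h]
    simp
  · rw [card_lev_eq_sum s a r]
    have hS := sum_update_zero s a
    have hb : ∀ t ∈ range (s a + 1), (Kc s r a (s a)).card ≤ (Kc s r a t).card := by
      intro t ht
      rw [mem_range] at ht
      rw [card_Kc s a le_rfl h, card_Kc s a (by omega) (by omega)]
      exact lev_mono _ (by omega) (by omega)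
    have := Finset.card_nsmul_le_sum (range (s a + 1)) (fun t => (Kc s r a t).card) _ hb
    simpa using this

theorem uni2 (s : ι → ℕ) {r k : ℕ} (a : ι) (hr : 2 * r + 1 ≤ ∑ b, s b) (hk : 1 ≤ k)
    (hks : k ≤ s a) : (Kc s (r + 1) a (s a)).card ≤ (Kc s (r + 1) a k).card := by
  rcases lt_or_ge (r + 1) (s a) with h | h
  · rw [Kc_eq_empty s a h]
    simp
  · have hS := sum_update_zero s a
    rw [card_Kc s a le_rfl h, card_Kc s a hks (by omega)]
    exact lev_mono _ (by omega) (by omega)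

theorem uni3 (s : ι → ℕ) {r i k : ℕ} {a b : ι} (hab : b ≠ a) (hs : s a ≤ s b)
    (hr : 2 * r + 1 ≤ ∑ b, s b) (hi : 1 ≤ i) (hik : i ≤ k) (hk : k ≤ s a) :
    (Kc s (r + 1) a k).card ≤ 2 * (Kc s (r + 1) a i).card := by
  rcases lt_or_ge (r + 1) k with h | h
  · rw [Kc_eq_empty s a h]
    simp
  · have hS := sum_update_zero s a
    rw [card_Kc s a hk h, card_Kc s a (by omega) (by omega)]
    refine lev_half _ b (by omega) ?_
    rw [Function.update_of_ne hab]
    omega

end TwoRow

end Vale.Agent.H27.CT
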