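import Vale.Agent.H27.CT.T1

/-!
# Row P1 (one step)
-/

open Finset

namespace Vale.Agent.H27.CT

section TwoRow
variable {ι : Type*} [Fintype ι] [DecidableEq ι]

namespace P1

theorem harmonic_mono {m n : ℕ} (h : m ≤ n) : (harmonic m : ℝ) ≤ (harmonic n : ℝ) := by
  induction n, h using Nat.le_induction with
  | base => exact le_rfl
  | succ n _ ih =>
    rw [harmonic_succ]
    push_cast
    have : (0:ℝ) ≤ ((n:ℝ) + 1)⁻¹ := by positivity
    linarith

theorem cost_ge {s : ι → ℕ} {k : ℕ} (a : ι) {x : ι → ℕ} (hx : x ∈ lev s k) :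
    (x a : ℝ) ≤ cost s a x := by
  unfold cost
  have h : 0 ≤ (s a : ℝ) * ∑ c ∈ univ.erase a, ((harmonic (s c) : ℝ) - (harmonic (x c) : ℝ)) := by
    refine mul_nonneg (Nat.cast_nonneg _) (sum_nonneg (fun c _ => ?_))
    have := harmonic_mono ((mem_lev.1 hx).1 c)
    linarith
  linarith

theorem cost_diff (s : ι → ℕ) {a c : ι} (hac : c ≠ a) {x : ι → ℕ} (hxa : 1 ≤ x a) :
    cost s a x = cost s a (up (dn x a) c) + (1 + (s a : ℝ) / ((x c : ℝ) + 1)) := by
  unfold cost
  have hc : c ∈ univ.erase a := mem_erase.2 ⟨hac, mem_univ _⟩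
  rw [← add_sum_erase _ _ hc, ← add_sum_erase _ _ hc]
  have h1 : ∑ d ∈ (univ.erase a).erase c, ((harmonic (s d) : ℝ) - (harmonic (up (dn x a) c d) : ℝ))
      = ∑ d ∈ (univ.erase a).erase c, ((harmonic (s d) : ℝ) - (harmonic (x d) : ℝ)) := by
    refine sum_congr rfl (fun d hd => ?_)
    have hdc : d ≠ c := ne_of_mem_erase hd
    have hda : d ≠ a := ne_of_mem_erase (mem_of_mem_erase hd)
    rw [up_ne _ hdc, dn_ne _ hda]
  have h2 : up (dn x a) c c = x c + 1 := by rw [up_same, dn_ne _ hac]
  have h3 : (up (dn x a) c a : ℝ) = (x a : ℝ) - 1 := by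
    rw [up_ne _ hac.symm, dn_same, Nat.cast_sub hxa]; simp
  rw [h1, h2, h3, harmonic_succ]
  push_cast
  field_simp
  ring

theorem titu {α β P Q : ℝ} (hP : 0 < P) (hQ : 0 < Q) :
    (α + β) ^ 2 / (P + Q) ≤ α ^ 2 / P + β ^ 2 / Q := by
  rw [div_add_div _ _ hP.ne' hQ.ne', div_le_div_iff₀ (by positivity) (by positivity)]
  nlinarith [sq_nonneg (α * Q - β * P)]

theorem beta_bound {ta tc sa g Γ : ℝ} (hta : 0 ≤ ta) (htc : 0 < tc) (hsa : ta ≤ sa) :
    (ta * g + Γ) ^ 2 / (1 + sa / tc) ≤ 2 * (ta * tc * g ^ 2 + Γ ^ 2) := by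
  have hQ : 0 < 1 + sa / tc := by
    have : 0 ≤ sa / tc := div_nonneg (hta.trans hsa) htc.le
    linarith
  rw [div_le_iff₀ hQ]
  have h1 : (ta * g + Γ) ^ 2 ≤ 2 * (ta ^ 2 * g ^ 2 + Γ ^ 2) := by
    nlinarith [sq_nonneg (ta * g - Γ)]
  have h2 : ta ^ 2 * g ^ 2 ≤ (ta * tc * g ^ 2) * (1 + sa / tc) := by
    have e : (ta * tc * g ^ 2) * (1 + sa / tc) = ta * tc * g ^ 2 + ta * sa * g ^ 2 := by
      field_simp
    rw [e]
    have e1 : 0 ≤ ta * tc * g ^ 2 := by positivity
    have e2 : ta ^ 2 * g ^ 2 ≤ ta * sa * g ^ 2 := by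
      have := mul_le_mul_of_nonneg_right (mul_le_mul_of_nonneg_left hsa hta) (sq_nonneg g)
      nlinarith
    linarith
  have h3 : Γ ^ 2 ≤ Γ ^ 2 * (1 + sa / tc) := by
    have : 0 ≤ sa / tc := div_nonneg (hta.trans hsa) htc.le
    nlinarith [sq_nonneg Γ, mul_nonneg (sq_nonneg Γ) this]
  nlinarith

theorem diff_J {s : ι → ℕ} {r : ℕ} (u : (ι → ℕ) → ℝ) {a c : ι} (hac : c ≠ a)
    {x : ι → ℕ} (hx : x ∈ lev s (r + 1)) (hxa : 1 ≤ x a) :
    Jf (r + 1) u a x = Jf (r + 1) u a (up (dn x a) c)
      + ((up x c a : ℝ) * gd r u (up x c) a c + Gam r u (up x c) a) := by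
  have hsum : ∑ b, up x c b = r + 2 := by rw [sum_up, (mem_lev.1 hx).2]
  have h1 := Jf_diff u hsum hac.symm (by rw [up_ne _ hac.symm]; exact hxa)
    (by rw [up_same]; omega)
  rw [dn_up, ← up_dn_comm x hac.symm] at h1
  linarith

end P1

open P1

theorem phi_pt (s : ι → ℕ) (r : ℕ) (u : (ι → ℕ) → ℝ) {a c : ι} (hac : c ≠ a) {A : ℝ} (hA : 0 ≤ A)
    {x : ι → ℕ} (hx : x ∈ lev s (r + 1)) (hxc : x c < s c) (hxa : 1 ≤ x a)
    (h2 : 2 ≤ x a ∨ 0 < A) :
    Phi s r u a A x ≤ Phi s r u a A (up (dn x a) c) +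
      2 * ((up x c a : ℝ) * (up x c c : ℝ) * gd r u (up x c) a c ^ 2 + Gam r u (up x c) a ^ 2) := by
  unfold Phi
  have hxr : r + 1 = r + 1 := rfl
  have hx' : up (dn x a) c ∈ lev s (r + 1) := by
    have h := dn_mem hx hxa
    exact up_mem h (by rw [dn_ne _ hac]; exact hxc)
  rw [diff_J u hac hx hxa, cost_diff s hac hxa]
  have hP : 0 < cost s a (up (dn x a) c) + A := by
    have h := cost_ge a hx'
    rcases h2 with h2 | h2
    · have h3 : (1 : ℝ) ≤ (up (dn x a) c a : ℝ) := by
        rw [up_ne _ hac.symm, dn_same]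
        exact_mod_cast (by omega : 1 ≤ x a - 1)
      linarith
    · have h3 : (0 : ℝ) ≤ (up (dn x a) c a : ℝ) := Nat.cast_nonneg _
      linarith
  have hQ : 0 < 1 + (s a : ℝ) / ((x c : ℝ) + 1) := by positivity
  have e : cost s a (up (dn x a) c) + (1 + (s a : ℝ) / ((x c : ℝ) + 1)) + A
      = (cost s a (up (dn x a) c) + A) + (1 + (s a : ℝ) / ((x c : ℝ) + 1)) := by ring
  rw [e]
  refine (titu hP hQ).trans ?_
  have hxas : (up x c a : ℝ) ≤ (s a : ℝ) := by
    rw [up_ne _ hac.symm]; exact_mod_cast (mem_lev.1 hx).1 a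
  have h4 := beta_bound (ta := (up x c a : ℝ)) (tc := (up x c c : ℝ)) (sa := (s a : ℝ))
    (g := gd r u (up x c) a c) (Γ := Gam r u (up x c) a) (Nat.cast_nonneg _)
    (by rw [up_same]; exact_mod_cast Nat.succ_pos _) hxas
  have h5 : (up x c c : ℝ) = (x c : ℝ) + 1 := by rw [up_same]; push_cast; ring
  rw [h5] at h4 ⊢
  linarith

theorem phi_pt_one (s : ι → ℕ) (r : ℕ) (u : (ι → ℕ) → ℝ) {a c : ι} (hac : c ≠ a) {A : ℝ}
    (hA : 0 ≤ A) {x : ι → ℕ} (hx : x ∈ lev s (r + 1)) (hxc : x c < s c) (hxa : x a = 1) :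
    Phi s r u a A x ≤
      2 * ((up x c a : ℝ) * (up x c c : ℝ) * gd r u (up x c) a c ^ 2 + Gam r u (up x c) a ^ 2) := by
  unfold Phi
  have hxa1 : 1 ≤ x a := hxa.ge
  have hx' : up (dn x a) c ∈ lev s (r + 1) := by
    have h := dn_mem hx hxa1
    exact up_mem h (by rw [dn_ne _ hac]; exact hxc)
  rw [diff_J u hac hx hxa1, cost_diff s hac hxa1]
  have hJ : Jf (r + 1) u a (up (dn x a) c) = 0 := by
    unfold Jf
    rw [up_ne _ hac.symm, dn_same, hxa]; simp
  have hP : 0 ≤ cost s a (up (dn x a) c) + A := by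
    have h := cost_ge a hx'
    have h3 : (0 : ℝ) ≤ (up (dn x a) c a : ℝ) := Nat.cast_nonneg _
    linarith
  have hQ : 0 < 1 + (s a : ℝ) / ((x c : ℝ) + 1) := by positivity
  rw [hJ, zero_add]
  have hxas : (up x c a : ℝ) ≤ (s a : ℝ) := by
    rw [up_ne _ hac.symm]; exact_mod_cast (mem_lev.1 hx).1 a
  have h4 := beta_bound (ta := (up x c a : ℝ)) (tc := (up x c c : ℝ)) (sa := (s a : ℝ))
    (g := gd r u (up x c) a c) (Γ := Gam r u (up x c) a) (Nat.cast_nonneg _)
    (by rw [up_same]; exact_mod_cast Nat.succ_pos _) hxas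
  refine le_trans ?_ h4
  have h5 : (up x c c : ℝ) = (x c : ℝ) + 1 := by rw [up_same]; push_cast; ring
  rw [h5]
  refine div_le_div_of_nonneg_left (sq_nonneg _) hQ ?_
  linarith

namespace P1

/-- the two descriptions of a cell -/
theorem Kc_image (s : ι → ℕ) {ρ k : ℕ} (a : ι) (hk : k ≤ s a) (hρ : k ≤ ρ)
    (F : (ι → ℕ) → ℝ) : ∑ x ∈ Kc s ρ a k, F x
      = ∑ z ∈ lev (Function.update s a 0) (ρ - k), F (Function.update z a k) := by
  symm
  have hz0 : ∀ {z : ι → ℕ}, z ∈ lev (Function.update s a 0) (ρ - k) → z a = 0 := by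
    intro z hz
    have := (mem_lev.1 hz).1 a
    simpa using this
  refine sum_nbij' (fun z => Function.update z a k) (fun x => Function.update x a 0) ?_ ?_ ?_ ?_ ?_
  · intro z hz
    have h0 := hz0 hz
    rw [mem_lev] at hz
    rw [Kc, mem_filter, mem_lev]
    refine ⟨⟨fun b => ?_, ?_⟩, by simp⟩
    · by_cases hb : b = a
      · subst hb; simpa using hk
      · have := hz.1 b; simpa [Function.update_of_ne hb] using this
    · rw [← add_sum_erase _ _ (mem_univ a)]
      have h1 : ∑ b ∈ univ.erase a, Function.update z a k b = ∑ b ∈ univ.erase a, z b :=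
        sum_congr rfl (fun b hb => Function.update_of_ne (ne_of_mem_erase hb) _ _)
      have h2 := add_sum_erase univ z (mem_univ a)
      have h3 := hz.2
      rw [h1, Function.update_self]
      omega
  · intro x hx
    rw [Kc, mem_filter, mem_lev] at hx
    rw [mem_lev]
    refine ⟨fun b => ?_, ?_⟩
    · by_cases hb : b = a
      · subst hb; simp
      · have := hx.1.1 b; simpa [Function.update_of_ne hb] using this
    · rw [← add_sum_erase _ _ (mem_univ a)]
      have h1 : ∑ b ∈ univ.erase a, Function.update x a 0 b = ∑ b ∈ univ.erase a, x b :=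
        sum_congr rfl (fun b hb => Function.update_of_ne (ne_of_mem_erase hb) _ _)
      have h2 := add_sum_erase univ x (mem_univ a)
      have h3 := hx.1.2
      have h4 := hx.2
      rw [h1, Function.update_self]
      omega
  · intro z hz
    have h0 := hz0 hz
    simp only [Function.update_idem]
    rw [← h0, Function.update_eq_self]
  · intro x hx
    rw [Kc, mem_filter] at hx
    simp only [Function.update_idem]
    rw [← hx.2, Function.update_eq_self]
  · intro z _; rfl

theorem Kc_card (s : ι → ℕ) {ρ k : ℕ} (a : ι) (hk : k ≤ s a) (hρ : k ≤ ρ) :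
    ((Kc s ρ a k).card : ℝ) = ((lev (Function.update s a 0) (ρ - k)).card : ℝ) := by
  have := Kc_image s a hk hρ (fun _ => 1)
  simpa using this

end P1

theorem phi_step (s : ι → ℕ) (r : ℕ) (u : (ι → ℕ) → ℝ) (a : ι) {A : ℝ} (hA : 0 ≤ A) {i : ℕ}
    (hi : 2 ≤ i) (his : i ≤ s a) (hir : i ≤ r + 1)
    (hfl : HasFlow (Function.update s a 0) (r + 1 - i)) :
    ((Kc s (r + 1) a (i - 1)).card : ℝ) * ∑ x ∈ Kc s (r + 1) a i, Phi s r u a A x
      ≤ ((Kc s (r + 1) a i).card : ℝ) * ∑ x ∈ Kc s (r + 1) a (i - 1), Phi s r u a A x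
        + ((Kc s (r + 1) a (i - 1)).card : ℝ) * Ecell s r u a i := by
  obtain ⟨q, hq0, hqf, hq1, hqin⟩ := hfl
  set s' := Function.update s a 0 with hs'
  set j := r + 1 - i with hj
  have hj1 : r + 1 - (i - 1) = j + 1 := by omega
  have his1 : i - 1 ≤ s a := by omega
  have hir1 : i - 1 ≤ r + 1 := by omega
  rw [Kc_card s a his1 hir1, Kc_card s a his hir, ← hs', hj1, ← hj]
  have hsa : s' a = 0 := by simp [hs']
  have hsne : ∀ c, c ≠ a → s' c = s c := fun c hc => by simp [hs', hc]
  -- the error term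
  set e : (ι → ℕ) → ι → ℝ := fun x c =>
    2 * ((up x c a : ℝ) * (up x c c : ℝ) * gd r u (up x c) a c ^ 2 + Gam r u (up x c) a ^ 2)
    with he
  have he0 : ∀ x c, 0 ≤ e x c := fun x c => by simp only [he]; positivity
  have hE : Ecell s r u a i = ∑ x ∈ Kc s (r + 1) a i,
      ∑ c ∈ univ.filter (fun c => c ≠ a ∧ x c < s c), e x c := rfl
  -- the main inequality
  have main : ∑ x ∈ Kc s (r + 1) a i, Phi s r u a A x
      ≤ (((lev s' j).card : ℝ) / ((lev s' (j + 1)).card : ℝ))
          * ∑ x ∈ Kc s (r + 1) a (i - 1), Phi s r u a A x + Ecell s r u a i := by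
    rw [hE, Kc_image s a his hir, Kc_image s a his hir
      (fun x => ∑ c ∈ univ.filter (fun c => c ≠ a ∧ x c < s c), e x c),
      Kc_image s a his1 hir1, ← hs', hj1, ← hj]
    -- pointwise
    have pt : ∀ z ∈ lev s' j, Phi s r u a A (Function.update z a i)
        ≤ ∑ c ∈ univ.filter (fun c => z c < s' c),
            q z c * Phi s r u a A (Function.update (up z c) a (i - 1))
          + ∑ c ∈ univ.filter (fun c => c ≠ a ∧ Function.update z a i c < s c),
            e (Function.update z a i) c := by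
      intro z hz
      have hza : z a = 0 := by
        have := (mem_lev.1 hz).1 a; omega
      set x := Function.update z a i with hx
      have hxa : x a = i := by simp [hx]
      have hxne : ∀ c, c ≠ a → x c = z c := fun c hc => by simp [hx, hc]
      have hxm : x ∈ lev s (r + 1) := by
        rw [mem_lev] at hz ⊢
        refine ⟨fun b => ?_, ?_⟩
        · by_cases hb : b = a
          · subst hb; rw [hxa]; exact his
          · rw [hxne b hb, ← hsne b hb]; exact hz.1 b
        · rw [← add_sum_erase _ _ (mem_univ a), hxa]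
          have h1 : ∑ b ∈ univ.erase a, x b = ∑ b ∈ univ.erase a, z b :=
            sum_congr rfl (fun b hb => hxne b (ne_of_mem_erase hb))
          have h2 := add_sum_erase univ z (mem_univ a)
          have h3 := hz.2
          rw [h1]
          omega
      have hfil : univ.filter (fun c => c ≠ a ∧ x c < s c) = univ.filter (fun c => z c < s' c) := by
        ext c
        simp only [mem_filter, mem_univ, true_and]
        by_cases hc : c = a
        · subst hc; simp [hsa]
        · rw [hxne c hc, hsne c hc]; simp [hc]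
      rw [hfil]
      have hsum : ∑ c ∈ univ.filter (fun c => z c < s' c), q z c = 1 := by
        rw [← hq1 z hz, sum_filter]
        refine sum_congr rfl (fun c _ => ?_)
        split_ifs with h
        · rfl
        · exact (hqf z hz c (le_antisymm ((mem_lev.1 hz).1 c) (not_lt.1 h))).symm
      have hmove : ∀ c ∈ univ.filter (fun c => z c < s' c),
          Phi s r u a A x ≤ Phi s r u a A (Function.update (up z c) a (i - 1)) + e x c := by
        intro c hc
        simp only [mem_filter, mem_univ, true_and] at hc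
        have hca : c ≠ a := by rintro rfl; omega
        have h1 := phi_pt s r u hca hA hxm (by rw [hxne c hca, ← hsne c hca]; exact hc)
          (by omega) (Or.inl (by omega))
        have h2 : up (dn x a) c = Function.update (up z c) a (i - 1) := by
          funext b
          by_cases hb : b = a
          · subst hb; rw [up_ne _ hca.symm, dn_same, hxa, Function.update_self]
          · rw [Function.update_of_ne hb]
            by_cases hbc : b = c
            · subst hbc; rw [up_same, dn_ne _ hb, up_same, hxne b hb]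
            · rw [up_ne _ hbc, dn_ne _ hb, up_ne _ hbc, hxne b hb]
        rw [h2] at h1
        exact h1
      calc Phi s r u a A x = ∑ c ∈ univ.filter (fun c => z c < s' c), q z c * Phi s r u a A x := by
            rw [← sum_mul, hsum, one_mul]
        _ ≤ ∑ c ∈ univ.filter (fun c => z c < s' c),
            (q z c * Phi s r u a A (Function.update (up z c) a (i - 1)) + e x c) := by
            refine sum_le_sum (fun c hc => ?_)
            have hq1' : q z c ≤ 1 := by
              rw [← hsum]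
              exact single_le_sum (f := fun c => q z c) (fun c _ => hq0 z c) hc
            have h3 := mul_le_mul_of_nonneg_left (hmove c hc) (hq0 z c)
            have h4 := mul_le_mul_of_nonneg_right hq1' (he0 x c)
            linarith
        _ = _ := by rw [sum_add_distrib]
    refine (sum_le_sum pt).trans ?_
    rw [sum_add_distrib]
    refine add_le_add_left ?_ _
    -- swap sums
    have swap : ∑ z ∈ lev s' j, ∑ c ∈ univ.filter (fun c => z c < s' c),
            q z c * Phi s r u a A (Function.update (up z c) a (i - 1))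
        = ∑ z' ∈ lev s' (j + 1), ∑ c ∈ univ.filter (fun c => 1 ≤ z' c),
            q (dn z' c) c * Phi s r u a A (Function.update z' a (i - 1)) := by
      rw [sum_sigma', sum_sigma']
      refine sum_nbij' (fun p => ⟨up p.1 p.2, p.2⟩) (fun p => ⟨dn p.1 p.2, p.2⟩) ?_ ?_ ?_ ?_ ?_
      · rintro ⟨z, c⟩ hp
        simp only [mem_sigma, mem_filter, mem_univ, true_and] at hp ⊢
        exact ⟨up_mem hp.1 hp.2, by rw [up_same]; omega⟩
      · rintro ⟨z, c⟩ hp
        simp only [mem_sigma, mem_filter, mem_univ, true_and] at hp ⊢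
        refine ⟨dn_mem hp.1 hp.2, ?_⟩
        rw [dn_same]
        have := (mem_lev.1 hp.1).1 c
        omega
      · rintro ⟨z, c⟩ _
        simp [dn_up]
      · rintro ⟨z, c⟩ hp
        simp only [mem_sigma, mem_filter, mem_univ, true_and] at hp
        simp [up_dn hp.2]
      · rintro ⟨z, c⟩ _
        simp [dn_up]
    rw [swap, mul_sum]
    refine le_of_eq (sum_congr rfl (fun z' hz' => ?_))
    rw [← sum_mul, hqin z' hz']
  have hcard0 : (0 : ℝ) ≤ ((lev s' (j + 1)).card : ℝ) := Nat.cast_nonneg _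
  have h1 := mul_le_mul_of_nonneg_left main hcard0
  refine h1.trans (le_of_eq ?_)
  rcases hcard0.eq_or_lt with h0 | hpos
  · have hempty : lev s' (j + 1) = ∅ := by
      rw [← Finset.card_eq_zero]; exact_mod_cast h0.symm
    have h2 : ∑ x ∈ Kc s (r + 1) a (i - 1), Phi s r u a A x = 0 := by
      rw [Kc_image s a his1 hir1, ← hs', hj1, hempty, sum_empty]
    rw [h2, ← h0]; ring
  · field_simp

end TwoRow

end Vale.Agent.H27.CT
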