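import Vale.Agent.H27.CT.L2
import Vale.Agent.H27.CT.L3
import Vale.Agent.H27.CT.P1

/-!
# Row P2: iteration of the one-step estimate
-/

open Finset

namespace Vale.Agent.H27.CT

namespace P2

variable {ι : Type*} [Fintype ι] [DecidableEq ι]

theorem cost_nonneg (s : ι → ℕ) (a : ι) {ρ : ℕ} {x : ι → ℕ} (hx : x ∈ lev s ρ) :
    0 ≤ cost s a x := by
  unfold cost
  have h : 0 ≤ ∑ c ∈ univ.erase a, ((harmonic (s c) : ℝ) - (harmonic (x c) : ℝ)) := by
    apply sum_nonneg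
    intro c _
    rw [sub_nonneg]
    have : harmonic (x c) ≤ harmonic (s c) := by
      unfold harmonic
      apply sum_le_sum_of_subset_of_nonneg
      · exact range_subset_range.2 ((mem_lev.1 hx).1 c)
      · intro i _ _; positivity
    exact_mod_cast this
  positivity

theorem Phi_nonneg (s : ι → ℕ) (r : ℕ) (u : (ι → ℕ) → ℝ) (a : ι) {A : ℝ} (hA : 0 ≤ A)
    {ρ : ℕ} {x : ι → ℕ} (hx : x ∈ lev s ρ) : 0 ≤ Phi s r u a A x := by
  unfold Phi
  have := cost_nonneg s a hx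
  positivity

theorem Ecell_nonneg (s : ι → ℕ) (r : ℕ) (u : (ι → ℕ) → ℝ) (a : ι) (i : ℕ) :
    0 ≤ Ecell s r u a i := by
  unfold Ecell
  refine sum_nonneg (fun x _ => sum_nonneg (fun c _ => ?_))
  positivity

end P2

variable {ι : Type*} [Fintype ι] [DecidableEq ι]

theorem phi_iter (s : ι → ℕ) (r : ℕ) (u : (ι → ℕ) → ℝ) (a : ι) {A : ℝ} (hA : 0 ≤ A) {j k : ℕ}
    (hj : 1 ≤ j) (hjk : j ≤ k) (hk : k ≤ s a) (hkr : k ≤ r + 1)
    (hroom : r + 1 - j ≤ ∑ b, s b - s a) {Λ : ℝ} (hΛ : 1 ≤ Λ)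
    (hcard : ∀ i, j ≤ i → i ≤ k →
      ((Kc s (r + 1) a k).card : ℝ) ≤ Λ * ((Kc s (r + 1) a i).card : ℝ)) :
    ∑ x ∈ Kc s (r + 1) a k, Phi s r u a A x
      ≤ Λ * (∑ x ∈ Kc s (r + 1) a j, Phi s r u a A x + ∑ i ∈ Ioc j k, Ecell s r u a i) := by
  have hsum : ∑ c, Function.update s a 0 c + s a = ∑ c, s c := by
    have := L2.sum_upd s a 0; omega
  set N : ℕ → ℝ := fun i => ((Kc s (r + 1) a i).card : ℝ) with hN
  set S : ℕ → ℝ := fun i => ∑ x ∈ Kc s (r + 1) a i, Phi s r u a A x with hS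
  have hSnn : ∀ i, 0 ≤ S i := fun i => sum_nonneg (fun x hx =>
    P2.Phi_nonneg s r u a hA (mem_filter.1 hx).1)
  have hEnn : ∀ i, 0 ≤ Ecell s r u a i := fun i => P2.Ecell_nonneg s r u a i
  have hNpos : ∀ i, j ≤ i → i ≤ k → 0 < N i := by
    intro i hji hik
    simp only [hN]
    rw [card_Kc s a (by omega) (by omega)]
    exact_mod_cast card_pos.2 (L2.lev_nonempty _ _ (by omega))
  have key : ∀ i, j ≤ i → i ≤ k → S i / N i ≤ S j / N j + ∑ t ∈ Ioc j i, Ecell s r u a t / N t := by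
    intro i hji
    induction i, hji using Nat.le_induction with
    | base => intro _; simp
    | succ i hji ih =>
      intro hik
      have h1 := ih (by omega)
      have hNi := hNpos i hji (by omega)
      have hNi1 := hNpos (i + 1) (by omega) hik
      have h2 := phi_step s r u a hA (i := i + 1) (by omega) (by omega) (by omega)
        (hasFlow _ (by omega))
      rw [show i + 1 - 1 = i by omega] at h2
      have h3 : S (i + 1) / N (i + 1) ≤ S i / N i + Ecell s r u a (i + 1) / N (i + 1) := by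
        rw [div_add_div _ _ hNi.ne' hNi1.ne', div_le_div_iff₀ hNi1 (mul_pos hNi hNi1)]
        have h4 : N i * S (i + 1) ≤ N (i + 1) * S i + N i * Ecell s r u a (i + 1) := h2
        nlinarith [mul_le_mul_of_nonneg_right h4 hNi1.le]
      have h5 : ∑ t ∈ Ioc j (i + 1), Ecell s r u a t / N t
          = ∑ t ∈ Ioc j i, Ecell s r u a t / N t + Ecell s r u a (i + 1) / N (i + 1) :=
        sum_Ioc_succ_top (by omega) _
      rw [h5]
      linarith
  have h1 := key k hjk le_rfl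
  have hNk := hNpos k hjk le_rfl
  have h2 : S k ≤ N k * (S j / N j + ∑ t ∈ Ioc j k, Ecell s r u a t / N t) := by
    rw [div_le_iff₀ hNk] at h1
    linarith
  have h3 : N k * (S j / N j) ≤ Λ * S j := by
    have hNj := hNpos j le_rfl hjk
    rw [← mul_div_assoc, div_le_iff₀ hNj]
    have h4 : N k ≤ Λ * N j := hcard j le_rfl hjk
    nlinarith [mul_le_mul_of_nonneg_right h4 (hSnn j)]
  have h4 : N k * ∑ t ∈ Ioc j k, Ecell s r u a t / N t ≤ Λ * ∑ t ∈ Ioc j k, Ecell s r u a t := by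
    rw [mul_sum, mul_sum]
    apply sum_le_sum
    intro t ht
    rw [mem_Ioc] at ht
    have hNt := hNpos t (by omega) ht.2
    rw [← mul_div_assoc, div_le_iff₀ hNt]
    have h4 : N k ≤ Λ * N t := hcard t (by omega) ht.2
    nlinarith [mul_le_mul_of_nonneg_right h4 (hEnn t)]
  calc S k ≤ N k * (S j / N j + ∑ t ∈ Ioc j k, Ecell s r u a t / N t) := h2
    _ = N k * (S j / N j) + N k * ∑ t ∈ Ioc j k, Ecell s r u a t / N t := by ring
    _ ≤ Λ * S j + Λ * ∑ t ∈ Ioc j k, Ecell s r u a t := add_le_add h3 h4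
    _ = Λ * (S j + ∑ t ∈ Ioc j k, Ecell s r u a t) := by ring

theorem phi_one (s : ι → ℕ) (r : ℕ) (u : (ι → ℕ) → ℝ) (a : ι) {A : ℝ} (hA : 0 ≤ A)
    (hroom : r + s a < ∑ b, s b) :
    ∑ x ∈ Kc s (r + 1) a 1, Phi s r u a A x ≤ Ecell s r u a 1 := by
  unfold Ecell
  apply sum_le_sum
  intro x hx
  rw [Kc, mem_filter] at hx
  obtain ⟨hx, hxa⟩ := hx
  have hx' := mem_lev.1 hx
  have : ∃ c, c ≠ a ∧ x c < s c := by
    by_contra hcon
    push Not at hcon
    have h1 : ∑ c ∈ univ.erase a, s c ≤ ∑ c ∈ univ.erase a, x c :=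
      sum_le_sum (fun c hc => hcon c (ne_of_mem_erase hc))
    have h2 := add_sum_erase univ s (mem_univ a)
    have h3 := add_sum_erase univ x (mem_univ a)
    omega
  obtain ⟨c, hca, hc⟩ := this
  refine (phi_pt_one s r u hca hA hx hc hxa).trans ?_
  exact single_le_sum (f := fun c => 2 * ((up x c a : ℝ) * (up x c c : ℝ) * gd r u (up x c) a c ^ 2
    + Gam r u (up x c) a ^ 2)) (fun c _ => by positivity) (by simp [hca, hc])

theorem sum_Ecell_le (s : ι → ℕ) (r : ℕ) (u : (ι → ℕ) → ℝ) (a : ι) :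
    ∑ i ∈ Icc 1 (s a), Ecell s r u a i ≤ 2 * (Fintype.card ι : ℝ) * YY s r u := by
  set φ : (ι → ℕ) → ι → ℝ := fun t c =>
    2 * ((t a : ℝ) * (t c : ℝ) * gd r u t a c ^ 2 + Gam r u t a ^ 2) with hφ
  have hφnn : ∀ t c, 0 ≤ φ t c := fun t c => by simp only [hφ]; positivity
  -- collect the cells
  have h1 : ∑ i ∈ Icc 1 (s a), Ecell s r u a i
      = ∑ x ∈ (lev s (r + 1)).filter (fun x => 1 ≤ x a),
        ∑ c ∈ univ.filter (fun c => c ≠ a ∧ x c < s c), φ (up x c) c := by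
    rw [← sum_fiberwise_of_maps_to (s := (lev s (r + 1)).filter (fun x => 1 ≤ x a))
      (t := Icc 1 (s a)) (g := fun x => x a) (f := fun x =>
        ∑ c ∈ univ.filter (fun c => c ≠ a ∧ x c < s c), φ (up x c) c)]
    · apply sum_congr rfl
      intro i hi
      rw [mem_Icc] at hi
      unfold Ecell Kc
      apply sum_congr
      · ext x
        simp only [mem_filter]
        constructor
        · rintro ⟨h1, h2⟩; exact ⟨⟨h1, by omega⟩, h2⟩
        · rintro ⟨⟨h1, _⟩, h2⟩; exact ⟨h1, h2⟩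
      · intro x hx; rfl
    · intro x hx
      rw [mem_filter] at hx
      rw [mem_Icc]
      exact ⟨hx.2, (mem_lev.1 hx.1).1 a⟩
  -- swap
  have h2 : ∑ x ∈ (lev s (r + 1)).filter (fun x => 1 ≤ x a),
        ∑ c ∈ univ.filter (fun c => c ≠ a ∧ x c < s c), φ (up x c) c
      = ∑ c ∈ univ.erase a, ∑ x ∈ (lev s (r + 1)).filter (fun x => 1 ≤ x a ∧ x c < s c),
        φ (up x c) c := by
    apply sum_comm'
    intro x c
    simp only [mem_filter, mem_univ, true_and, mem_erase, and_true]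
    tauto
  have h3 : ∀ c ∈ univ.erase a, ∑ x ∈ (lev s (r + 1)).filter (fun x => 1 ≤ x a ∧ x c < s c),
        φ (up x c) c ≤ ∑ t ∈ (lev s (r + 2)).filter (fun t => 1 ≤ t a), φ t c := by
    intro c hc
    rw [mem_erase] at hc
    rw [← sum_image (f := fun t => φ t c) (g := fun x => up x c)
      (s := (lev s (r + 1)).filter (fun x => 1 ≤ x a ∧ x c < s c))]
    · apply sum_le_sum_of_subset_of_nonneg
      · intro t ht
        rw [mem_image] at ht
        obtain ⟨x, hx, rfl⟩ := ht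
        rw [mem_filter] at hx ⊢
        refine ⟨up_mem hx.1 hx.2.2, ?_⟩
        rw [up_ne x (Ne.symm hc.1)]
        exact hx.2.1
      · intro t _ _; exact hφnn t c
    · intro x _ y _ hxy
      have : dn (up x c) c = dn (up y c) c := by simp only at hxy; rw [hxy]
      rwa [dn_up, dn_up] at this
  rw [h1, h2]
  refine (sum_le_sum h3).trans ?_
  rw [sum_comm]
  have h4 : ∀ t ∈ (lev s (r + 2)).filter (fun t => 1 ≤ t a), ∑ c ∈ univ.erase a, φ t c
      ≤ 2 * (Fintype.card ι : ℝ) *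
        ((∑ a, ∑ c ∈ univ.erase a, (t a : ℝ) * (t c : ℝ) * gd r u t a c ^ 2)
          + ∑ a ∈ univ.filter (fun a => 1 ≤ t a), Gam r u t a ^ 2) := by
    intro t ht
    rw [mem_filter] at ht
    have hn : (1 : ℝ) ≤ (Fintype.card ι : ℝ) := by
      have : 0 < Fintype.card ι := Fintype.card_pos_iff.2 ⟨a⟩
      exact_mod_cast this
    have e1 : ∑ c ∈ univ.erase a, φ t c
        = 2 * (∑ c ∈ univ.erase a, (t a : ℝ) * (t c : ℝ) * gd r u t a c ^ 2)
          + 2 * ((Fintype.card ι : ℝ) - 1) * Gam r u t a ^ 2 := by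
      simp only [hφ]
      rw [← mul_sum, sum_add_distrib, sum_const, card_erase_of_mem (mem_univ a), card_univ,
        nsmul_eq_mul, Nat.cast_sub (Fintype.card_pos_iff.2 ⟨a⟩)]
      push_cast; ring
    have e2 : ∑ c ∈ univ.erase a, (t a : ℝ) * (t c : ℝ) * gd r u t a c ^ 2
        ≤ ∑ a, ∑ c ∈ univ.erase a, (t a : ℝ) * (t c : ℝ) * gd r u t a c ^ 2 :=
      single_le_sum (f := fun a => ∑ c ∈ univ.erase a, (t a : ℝ) * (t c : ℝ) * gd r u t a c ^ 2)
        (fun a _ => sum_nonneg (fun c _ => by positivity)) (mem_univ a)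
    have e3 : Gam r u t a ^ 2 ≤ ∑ a ∈ univ.filter (fun a => 1 ≤ t a), Gam r u t a ^ 2 :=
      single_le_sum (f := fun a => Gam r u t a ^ 2) (fun a _ => sq_nonneg _) (by simp [ht.2])
    have e4 : 0 ≤ ∑ c ∈ univ.erase a, (t a : ℝ) * (t c : ℝ) * gd r u t a c ^ 2 :=
      sum_nonneg (fun c _ => by positivity)
    have e5 : 0 ≤ Gam r u t a ^ 2 := sq_nonneg _
    rw [e1]
    set P := ∑ c ∈ univ.erase a, (t a : ℝ) * (t c : ℝ) * gd r u t a c ^ 2
    set P' := ∑ a, ∑ c ∈ univ.erase a, (t a : ℝ) * (t c : ℝ) * gd r u t a c ^ 2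
    set Q := Gam r u t a ^ 2
    set Q' := ∑ a ∈ univ.filter (fun a => 1 ≤ t a), Gam r u t a ^ 2
    have e6 : 0 ≤ P' := e4.trans e2
    nlinarith [mul_nonneg (sub_nonneg.2 hn) e6, mul_nonneg (sub_nonneg.2 hn) e5,
      mul_le_mul_of_nonneg_left e3 (by linarith : (0 : ℝ) ≤ (Fintype.card ι : ℝ))]
  refine (sum_le_sum h4).trans ?_
  unfold YY
  rw [mul_sum]
  apply sum_le_sum_of_subset_of_nonneg (filter_subset _ _)
  intro t _ _
  have e6 : 0 ≤ ∑ a, ∑ c ∈ univ.erase a, (t a : ℝ) * (t c : ℝ) * gd r u t a c ^ 2 :=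
    sum_nonneg (fun a _ => sum_nonneg (fun c _ => by positivity))
  have e7 : 0 ≤ ∑ a ∈ univ.filter (fun a => 1 ≤ t a), Gam r u t a ^ 2 :=
    sum_nonneg (fun a _ => sq_nonneg _)
  positivity

end Vale.Agent.H27.CT
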