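import Vale.Agent.H27.CT.T1
import Vale.Agent.H27.CT.P2

/-!
# Row P3: the trace bound
-/

open Finset

namespace Vale.Agent.H27.CT


section TwoRow
variable {ι : Type*} [Fintype ι] [DecidableEq ι]

theorem P3_harm_mono {a b : ℕ} (h : a ≤ b) : (harmonic a : ℝ) ≤ (harmonic b : ℝ) := by
  have : (harmonic a : ℚ) ≤ harmonic b := by
    unfold harmonic
    refine Finset.sum_le_sum_of_subset_of_nonneg (Finset.range_mono h) fun i _ _ => ?_
    positivity
  exact_mod_cast this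

theorem P3_harm_nonneg (a : ℕ) : (0 : ℝ) ≤ (harmonic a : ℝ) := by
  have := P3_harm_mono (Nat.zero_le a)
  simpa using this

theorem P3_cost_ge (s : ι → ℕ) (a : ι) {ρ : ℕ} {x : ι → ℕ} (hx : x ∈ lev s ρ) :
    (x a : ℝ) ≤ cost s a x := by
  unfold cost
  have : 0 ≤ (s a : ℝ) * ∑ c ∈ univ.erase a, ((harmonic (s c) : ℝ) - (harmonic (x c) : ℝ)) := by
    refine mul_nonneg (Nat.cast_nonneg _) (sum_nonneg fun c _ => ?_)
    exact sub_nonneg.2 (P3_harm_mono ((mem_lev.1 hx).1 c))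
  linarith

theorem P3_cost_le (s : ι → ℕ) (a : ι) {ρ N : ℕ} (hN : ∀ b, s b ≤ N) {x : ι → ℕ}
    (hx : x ∈ lev s ρ) :
    cost s a x ≤ (s a : ℝ) * (1 + (Fintype.card ι : ℝ) * (harmonic N : ℝ)) := by
  unfold cost
  have h1 : ∑ c ∈ univ.erase a, ((harmonic (s c) : ℝ) - (harmonic (x c) : ℝ))
      ≤ (Fintype.card ι : ℝ) * (harmonic N : ℝ) := by
    calc ∑ c ∈ univ.erase a, ((harmonic (s c) : ℝ) - (harmonic (x c) : ℝ))
        ≤ ∑ _c ∈ univ.erase a, (harmonic N : ℝ) := by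
          refine sum_le_sum fun c _ => ?_
          have := P3_harm_mono (hN c)
          have := P3_harm_nonneg (x c)
          linarith
      _ = ((univ.erase a).card : ℝ) * (harmonic N : ℝ) := by simp
      _ ≤ (Fintype.card ι : ℝ) * (harmonic N : ℝ) := by
          refine mul_le_mul_of_nonneg_right ?_ (P3_harm_nonneg N)
          exact_mod_cast (card_le_card (erase_subset a univ))
  have h2 : (x a : ℝ) ≤ s a := by exact_mod_cast (mem_lev.1 hx).1 a
  have h3 := mul_le_mul_of_nonneg_left h1 (Nat.cast_nonneg (α := ℝ) (s a))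
  linarith

theorem P3_YY_nonneg (s : ι → ℕ) (r : ℕ) (u : (ι → ℕ) → ℝ) : 0 ≤ YY s r u := by
  unfold YY
  refine sum_nonneg fun t _ => add_nonneg ?_ (sum_nonneg fun a _ => sq_nonneg _)
  exact sum_nonneg fun a _ => sum_nonneg fun c _ => by positivity

theorem P3_E_nonneg (s : ι → ℕ) (r : ℕ) (u : (ι → ℕ) → ℝ) (a : ι) (i : ℕ) :
    0 ≤ Ecell s r u a i := by
  unfold Ecell
  exact sum_nonneg fun t _ => sum_nonneg fun c _ => by positivity

theorem P3_J_zero (r : ℕ) (u : (ι → ℕ) → ℝ) (a : ι) {x : ι → ℕ} (h : x a = 0) :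
    Jf (r + 1) u a x = 0 := by
  simp [Jf, h]

theorem P3_Kc_empty (s : ι → ℕ) (ρ : ℕ) (a : ι) {k : ℕ} (h : ρ < k) : Kc s ρ a k = ∅ := by
  rw [Kc, filter_eq_empty_iff]
  intro x hx hk
  have h1 := (mem_lev.1 hx).2
  have h2 : x a ≤ ∑ b, x b := single_le_sum (f := x) (fun _ _ => Nat.zero_le _) (mem_univ a)
  omega

/-- sum over a level, by the value of `x a` -/
theorem P3_fiber (s : ι → ℕ) (ρ : ℕ) (a : ι) (f : (ι → ℕ) → ℝ) (h0 : ∀ x, x a = 0 → f x = 0) :
    ∑ x ∈ lev s ρ, f x = ∑ k ∈ Icc 1 (s a), ∑ x ∈ Kc s ρ a k, f x := by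
  have h1 : ∑ x ∈ lev s ρ, f x = ∑ k ∈ range (s a + 1), ∑ x ∈ Kc s ρ a k, f x := by
    rw [← sum_fiberwise_of_maps_to (g := fun x => x a) (t := range (s a + 1))]
    · rfl
    · intro x hx
      exact mem_range.2 (Nat.lt_succ_of_le ((mem_lev.1 hx).1 a))
  rw [h1]
  symm
  refine sum_subset ?_ ?_
  · intro k hk
    rw [mem_Icc] at hk
    exact mem_range.2 (by omega)
  · intro k hk hk'
    have hk0 : k = 0 := by
      rw [mem_range] at hk
      rw [mem_Icc] at hk'
      omega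
    refine sum_eq_zero fun x hx => h0 x ?_
    rw [(mem_filter.1 hx).2, hk0]

theorem P3_D_le (s : ι → ℕ) (r : ℕ) (u : (ι → ℕ) → ℝ) (a : ι) (t : Finset ℕ)
    (ht : t ⊆ Icc 1 (s a)) :
    ∑ i ∈ t, Ecell s r u a i ≤ 2 * (Fintype.card ι : ℝ) * YY s r u :=
  (sum_le_sum_of_subset_of_nonneg ht fun i _ _ => P3_E_nonneg s r u a i).trans
    (sum_Ecell_le s r u a)

/-- case of a column which is not the strict maximum, one cell -/
theorem P3_nonmax (s : ι → ℕ) (r N : ℕ) (u : (ι → ℕ) → ℝ) {a b : ι} (hab : b ≠ a)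
    (hs : s a ≤ s b) (hr : 2 * r + 1 ≤ ∑ b, s b) (hN : ∀ b, s b ≤ N) {k : ℕ} (hk1 : 1 ≤ k)
    (hk : k ≤ s a) :
    ∑ x ∈ Kc s (r + 1) a k, Jf (r + 1) u a x ^ 2
      ≤ 4 * (Fintype.card ι : ℝ) * (1 + (Fintype.card ι : ℝ) * (harmonic N : ℝ))
        * (s a : ℝ) * YY s r u := by
  have hY := P3_YY_nonneg s r u
  have hH := P3_harm_nonneg N
  rcases Nat.lt_or_ge (r + 1) k with hkr | hkr
  · rw [P3_Kc_empty s (r + 1) a hkr, sum_empty]
    positivity
  have h2s : s a + s b ≤ ∑ b, s b := by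
    have h1 : ∑ c ∈ ({a, b} : Finset ι), s c ≤ ∑ c, s c :=
      sum_le_sum_of_subset (subset_univ _)
    rwa [sum_pair hab.symm] at h1
  have hroom1 : r + s a < ∑ b, s b := by omega
  have hit := phi_iter s r u a (A := 0) le_rfl (j := 1) (k := k) le_rfl hk1 hk hkr (by omega)
    (Λ := 2) (by norm_num) (fun i hi hik => by exact_mod_cast uni3 s hab hs hr hi hik hk)
  have hone := phi_one s r u a (A := 0) le_rfl hroom1
  have hD : Ecell s r u a 1 + ∑ i ∈ Ioc 1 k, Ecell s r u a i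
      ≤ 2 * (Fintype.card ι : ℝ) * YY s r u := by
    have h1 : Ecell s r u a 1 + ∑ i ∈ Ioc 1 k, Ecell s r u a i
        = ∑ i ∈ Icc 1 k, Ecell s r u a i := by
      rw [← Finset.Ioc_insert_left hk1, sum_insert (by simp)]
    rw [h1]
    exact P3_D_le s r u a _ (Icc_subset_Icc_right hk)
  have hΦ : ∑ x ∈ Kc s (r + 1) a k, Phi s r u a 0 x ≤ 4 * (Fintype.card ι : ℝ) * YY s r u := by
    linarith
  calc ∑ x ∈ Kc s (r + 1) a k, Jf (r + 1) u a x ^ 2
      ≤ ∑ x ∈ Kc s (r + 1) a k, ((s a : ℝ) * (1 + (Fintype.card ι : ℝ) * (harmonic N : ℝ)))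
          * Phi s r u a 0 x := by
        refine sum_le_sum fun x hx => ?_
        have hxl := (mem_filter.1 hx).1
        have hxa := (mem_filter.1 hx).2
        have hc1 := P3_cost_ge s a hxl
        have hc2 := P3_cost_le s a hN hxl
        have hpos : 0 < cost s a x := by
          have : (1 : ℝ) ≤ x a := by rw [hxa]; exact_mod_cast hk1
          linarith
        have hΦ0 : 0 ≤ Phi s r u a 0 x := by
          unfold Phi; rw [add_zero]; positivity
        have he : Jf (r + 1) u a x ^ 2 = cost s a x * Phi s r u a 0 x := by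
          unfold Phi
          rw [add_zero]
          field_simp
        rw [he]
        exact mul_le_mul_of_nonneg_right hc2 hΦ0
    _ = ((s a : ℝ) * (1 + (Fintype.card ι : ℝ) * (harmonic N : ℝ)))
          * ∑ x ∈ Kc s (r + 1) a k, Phi s r u a 0 x := by rw [mul_sum]
    _ ≤ ((s a : ℝ) * (1 + (Fintype.card ι : ℝ) * (harmonic N : ℝ)))
          * (4 * (Fintype.card ι : ℝ) * YY s r u) :=
        mul_le_mul_of_nonneg_left hΦ (by positivity)
    _ = _ := by ring

/-- case of a column which is not the strict maximum, whole level -/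
theorem P3_nonmax_sum (s : ι → ℕ) (r N : ℕ) (u : (ι → ℕ) → ℝ) {a b : ι} (hab : b ≠ a)
    (hs : s a ≤ s b) (hr : 2 * r + 1 ≤ ∑ b, s b) (hN : ∀ b, s b ≤ N) :
    ∑ x ∈ lev s (r + 1), Jf (r + 1) u a x ^ 2
      ≤ 4 * (Fintype.card ι : ℝ) * (1 + (Fintype.card ι : ℝ) * (harmonic N : ℝ))
        * (s a : ℝ) ^ 2 * YY s r u := by
  rw [P3_fiber s (r + 1) a _ fun x hx => by rw [P3_J_zero r u a hx]; ring]
  calc ∑ k ∈ Icc 1 (s a), ∑ x ∈ Kc s (r + 1) a k, Jf (r + 1) u a x ^ 2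
      ≤ ∑ _k ∈ Icc 1 (s a), 4 * (Fintype.card ι : ℝ) *
        (1 + (Fintype.card ι : ℝ) * (harmonic N : ℝ)) * (s a : ℝ) * YY s r u := by
        refine sum_le_sum fun k hk => ?_
        rw [mem_Icc] at hk
        exact P3_nonmax s r N u hab hs hr hN hk.1 hk.2
    _ = _ := by
        rw [sum_const, Nat.card_Icc, nsmul_eq_mul]
        simp only [Nat.add_sub_cancel]
        ring

/-- case of the strict maximum, whole level -/
theorem P3_max_sum (s : ι → ℕ) (r N : ℕ) (u : (ι → ℕ) → ℝ) (a : ι)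
    (hmax : ∀ b, b ≠ a → s b ≤ s a) (hr : 2 * r + 1 ≤ ∑ b, s b) (hN : ∀ b, s b ≤ N) :
    ∑ x ∈ lev s (r + 1), Jf (r + 1) u a x ^ 2
      ≤ 4 * (Fintype.card ι : ℝ) ^ 3 * (1 + (Fintype.card ι : ℝ) * (harmonic N : ℝ))
        * (s a : ℝ) ^ 2 * YY s r u := by
  have hY := P3_YY_nonneg s r u
  have hH := P3_harm_nonneg N
  set n : ℝ := (Fintype.card ι : ℝ) with hn
  have hcard : ((univ.erase a).card : ℝ) ≤ n := by
    rw [hn]
    exact_mod_cast (card_le_card (erase_subset a univ))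
  have h1 : ∀ x ∈ lev s (r + 1), Jf (r + 1) u a x ^ 2
      ≤ n * ∑ c ∈ univ.erase a, Jf (r + 1) u c x ^ 2 := by
    intro x hx
    have hs := sum_Jf (Nat.succ_ne_zero r) u (mem_lev.1 hx).2
    rw [← add_sum_erase univ _ (mem_univ a)] at hs
    have hJ : Jf (r + 1) u a x = -∑ c ∈ univ.erase a, Jf (r + 1) u c x := by linarith
    rw [hJ, neg_sq]
    have hcs := sq_sum_le_card_mul_sum_sq (s := univ.erase a) (f := fun c => Jf (r + 1) u c x)
    refine hcs.trans (mul_le_mul_of_nonneg_right hcard (sum_nonneg fun _ _ => sq_nonneg _))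
  calc ∑ x ∈ lev s (r + 1), Jf (r + 1) u a x ^ 2
      ≤ ∑ x ∈ lev s (r + 1), n * ∑ c ∈ univ.erase a, Jf (r + 1) u c x ^ 2 := sum_le_sum h1
    _ = n * ∑ c ∈ univ.erase a, ∑ x ∈ lev s (r + 1), Jf (r + 1) u c x ^ 2 := by
        rw [← mul_sum, sum_comm]
    _ ≤ n * ∑ _c ∈ univ.erase a, 4 * n * (1 + n * (harmonic N : ℝ)) * (s a : ℝ) ^ 2
          * YY s r u := by
        refine mul_le_mul_of_nonneg_left (sum_le_sum fun c hc => ?_) (by positivity)
        have hca := ne_of_mem_erase hc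
        have h2 := P3_nonmax_sum s r N u (a := c) (b := a) hca.symm (hmax c hca) hr hN
        refine h2.trans ?_
        have h3 : (s c : ℝ) ≤ s a := by exact_mod_cast hmax c hca
        have h4 : (s c : ℝ) ^ 2 ≤ (s a : ℝ) ^ 2 := pow_le_pow_left₀ (Nat.cast_nonneg _) h3 2
        have h5 : 0 ≤ 4 * n * (1 + n * (harmonic N : ℝ)) := by positivity
        exact mul_le_mul_of_nonneg_right (mul_le_mul_of_nonneg_left h4 h5) hY
    _ = n * (((univ.erase a).card : ℝ) * (4 * n * (1 + n * (harmonic N : ℝ)) * (s a : ℝ) ^ 2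
          * YY s r u)) := by rw [sum_const, nsmul_eq_mul]
    _ ≤ n * (n * (4 * n * (1 + n * (harmonic N : ℝ)) * (s a : ℝ) ^ 2 * YY s r u)) := by
        refine mul_le_mul_of_nonneg_left (mul_le_mul_of_nonneg_right hcard ?_) (by positivity)
        positivity
    _ = _ := by ring

/-! ## Row P3 -/

theorem trace_bound (s : ι → ℕ) (r N : ℕ) (u : (ι → ℕ) → ℝ) (a : ι)
    (hr : 2 * r + 1 ≤ ∑ b, s b) (hN : ∀ b, s b ≤ N) :
    ∑ x ∈ Kc s (r + 1) a (s a), Jf (r + 1) u a x ^ 2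
      ≤ 12 * (Fintype.card ι : ℝ) ^ 3 * (1 + (Fintype.card ι : ℝ) * (harmonic N : ℝ))
        * (s a : ℝ) * YY s r u := by
  have hY := P3_YY_nonneg s r u
  have hH := P3_harm_nonneg N
  have hn1 : (1 : ℝ) ≤ (Fintype.card ι : ℝ) := by
    have : 0 < Fintype.card ι := Fintype.card_pos_iff.2 ⟨a⟩
    exact_mod_cast this
  rcases Nat.eq_zero_or_pos (s a) with h0 | hpos
  · have : ∑ x ∈ Kc s (r + 1) a (s a), Jf (r + 1) u a x ^ 2 = 0 := by
      refine sum_eq_zero fun x hx => ?_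
      rw [P3_J_zero r u a ((mem_filter.1 hx).2.trans h0)]
      ring
    rw [this]
    positivity
  by_cases hnm : ∃ b, b ≠ a ∧ s a ≤ s b
  · obtain ⟨b, hba, hsb⟩ := hnm
    refine (P3_nonmax s r N u hba hsb hr hN hpos le_rfl).trans ?_
    have h1 : 4 * (Fintype.card ι : ℝ) ≤ 12 * (Fintype.card ι : ℝ) ^ 3 := by
      have := le_self_pow₀ hn1 (n := 3) (by norm_num)
      linarith
    have h2 : 0 ≤ (1 + (Fintype.card ι : ℝ) * (harmonic N : ℝ)) := by positivity
    gcongr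
  push Not at hnm
  have hmax : ∀ b, b ≠ a → s b ≤ s a := fun b hb => (hnm b hb).le
  rcases Nat.lt_or_ge (r + 1) (s a) with hkr | hkr
  · rw [P3_Kc_empty s (r + 1) a hkr, sum_empty]
    positivity
  set n : ℝ := (Fintype.card ι : ℝ) with hn
  set Lc : ℝ := 1 + n * (harmonic N : ℝ) with hLc
  have hL1 : 1 ≤ Lc := by
    have : 0 ≤ n * (harmonic N : ℝ) := by positivity
    linarith
  have hsa : (1 : ℝ) ≤ s a := by exact_mod_cast hpos
  set A : ℝ := (s a : ℝ) * Lc with hA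
  have hA0 : 0 < A := by positivity
  set S := ∑ x ∈ Kc s (r + 1) a (s a), Phi s r u a A x with hS
  set D := 2 * n * YY s r u with hD
  have hmaxsum := P3_max_sum s r N u a hmax hr hN
  rw [← hn, ← hLc] at hmaxsum
  have hΦnn : ∀ x ∈ lev s (r + 1), 0 ≤ Phi s r u a A x := by
    intro x hx
    have := P3_cost_ge s a hx
    have h2 : (0 : ℝ) ≤ x a := Nat.cast_nonneg _
    unfold Phi
    have : 0 < cost s a x + A := by linarith
    positivity
  have hstep : ∀ j ∈ Icc 1 (s a), S ≤ ∑ x ∈ Kc s (r + 1) a j, Phi s r u a A x + D := by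
    intro j hj
    rw [mem_Icc] at hj
    have h := phi_iter s r u a hA0.le hj.1 hj.2 le_rfl hkr (by
        have h3 : s a ≤ ∑ b, s b :=
          single_le_sum (f := s) (fun _ _ => Nat.zero_le _) (mem_univ a)
        omega) (Λ := 1) le_rfl
      (fun i hi hik => by
        rw [one_mul]
        exact_mod_cast uni2 s a hr (hj.1.trans hi) hik)
    rw [one_mul] at h
    have h2 := P3_D_le s r u a (Ioc j (s a)) (by
      intro i hi
      rw [mem_Ioc] at hi
      rw [mem_Icc]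
      omega)
    rw [← hS] at h
    linarith
  have hsumJ : ∑ j ∈ Icc 1 (s a), ∑ x ∈ Kc s (r + 1) a j, Phi s r u a A x
      ≤ (∑ x ∈ lev s (r + 1), Jf (r + 1) u a x ^ 2) / A := by
    rw [← P3_fiber s (r + 1) a _ fun x hx => by
      unfold Phi; rw [P3_J_zero r u a hx]; simp]
    rw [sum_div]
    refine sum_le_sum fun x hx => ?_
    have := P3_cost_ge s a hx
    have h2 : (0 : ℝ) ≤ x a := Nat.cast_nonneg _
    unfold Phi
    exact div_le_div_of_nonneg_left (sq_nonneg _) hA0 (by linarith)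
  have htot : (s a : ℝ) * S ≤ (∑ x ∈ lev s (r + 1), Jf (r + 1) u a x ^ 2) / A
      + (s a : ℝ) * D := by
    have h := sum_le_sum hstep
    rw [sum_const, sum_add_distrib, sum_const, Nat.card_Icc, nsmul_eq_mul, nsmul_eq_mul] at h
    simp only [Nat.add_sub_cancel] at h
    linarith
  have hdiv : (∑ x ∈ lev s (r + 1), Jf (r + 1) u a x ^ 2) / A ≤ 4 * n ^ 3 * (s a : ℝ) * YY s r u := by
    rw [div_le_iff₀ hA0]
    refine hmaxsum.trans (le_of_eq ?_)
    rw [hA]
    ring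
  have hSle : S ≤ 4 * n ^ 3 * YY s r u + D := by
    have h1 : (s a : ℝ) * S ≤ (s a : ℝ) * (4 * n ^ 3 * YY s r u + D) := by
      calc (s a : ℝ) * S ≤ _ := htot
        _ ≤ 4 * n ^ 3 * (s a : ℝ) * YY s r u + (s a : ℝ) * D := by linarith
        _ = _ := by ring
    exact le_of_mul_le_mul_left h1 (by linarith)
  calc ∑ x ∈ Kc s (r + 1) a (s a), Jf (r + 1) u a x ^ 2
      ≤ ∑ x ∈ Kc s (r + 1) a (s a), (2 * A) * Phi s r u a A x := by
        refine sum_le_sum fun x hx => ?_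
        have hxl := (mem_filter.1 hx).1
        have hc1 := P3_cost_ge s a hxl
        have hc2 := P3_cost_le s a hN hxl
        rw [← hn, ← hLc, ← hA] at hc2
        have hx0 : (0 : ℝ) ≤ x a := Nat.cast_nonneg _
        have hpos' : 0 < cost s a x + A := by linarith
        have he : Jf (r + 1) u a x ^ 2 = (cost s a x + A) * Phi s r u a A x := by
          unfold Phi
          field_simp
        rw [he]
        exact mul_le_mul_of_nonneg_right (by linarith) (hΦnn x hxl)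
    _ = 2 * A * S := by rw [← mul_sum]
    _ ≤ 2 * A * (4 * n ^ 3 * YY s r u + D) := mul_le_mul_of_nonneg_left hSle (by positivity)
    _ = (8 * n ^ 3 + 4 * n) * Lc * (s a : ℝ) * YY s r u := by rw [hA, hD]; ring
    _ ≤ 12 * n ^ 3 * Lc * (s a : ℝ) * YY s r u := by
        have h1 : 8 * n ^ 3 + 4 * n ≤ 12 * n ^ 3 := by
          have := le_self_pow₀ hn1 (n := 3) (by norm_num)
          linarith
        gcongr

end TwoRow

end Vale.Agent.H27.CT
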