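import Vale.Agent.H27.CT.T1
import Vale.Agent.H27.CT.C1

/-!
# Row T3: the bulk estimate
-/

open Finset

namespace Vale.Agent.H27.CT

variable {ι : Type*} [Fintype ι] [DecidableEq ι]

/-- pointwise formula -/
theorem bulk_pt (s : ι → ℕ) (r : ℕ) (u : (ι → ℕ) → ℝ) (c : (ι → ℕ) → ι) {x : ι → ℕ}
    (hx : x ∈ lev s r) (hc : x (c x) < s (c x)) :
    GG s u x - Wf s r u c x = ((r : ℝ) + 1) *
      ∑ a ∈ univ.filter (fun a => x a < s a ∧ a ≠ c x),
        ((up (up x a) (c x) a : ℝ) * gd r u (up (up x a) (c x)) a (c x)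
          + Gam r u (up (up x a) (c x)) a) := by
  have hxs := (mem_lev.1 hx).2
  have hle := (mem_lev.1 hx).1
  -- split of the zero sum at `x + e_c`
  have h0 : ∑ a, Jf (r + 1) u a (up x (c x)) = 0 :=
    sum_Jf (by omega) u (by rw [sum_up, hxs])
  have hsplit : ∑ a ∈ univ.filter (fun a => x a < s a), Jf (r + 1) u a (up x (c x)) +
      ∑ a ∈ univ.filter (fun a => x a = s a), Jf (r + 1) u a (up x (c x)) = 0 := by
    rw [← h0, ← sum_filter_add_sum_filter_not univ (fun a => x a < s a)]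
    congr 1
    refine sum_congr (filter_congr fun a _ => ?_) fun _ _ => rfl
    have := hle a
    omega
  have hGG : GG s u x = ((r : ℝ) + 1) *
      ∑ a ∈ univ.filter (fun a => x a < s a), Jf (r + 1) u a (up x a) := by
    unfold GG
    rw [mul_sum]
    exact sum_congr rfl fun a _ => hst_eq_Jf u a hxs
  have hW : Wf s r u c x = ((r : ℝ) + 1) *
      ∑ a ∈ univ.filter (fun a => x a < s a), Jf (r + 1) u a (up x (c x)) := by
    unfold Wf
    have : ∑ a ∈ univ.filter (fun a => x a = s a), Jf (r + 1) u a (up x (c x)) =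
      - ∑ a ∈ univ.filter (fun a => x a < s a), Jf (r + 1) u a (up x (c x)) := by linarith
    rw [this]; ring
  rw [hGG, hW, ← mul_sub, ← sum_sub_distrib]
  congr 1
  have hcmem : c x ∈ univ.filter (fun a => x a < s a) := mem_filter.2 ⟨mem_univ _, hc⟩
  rw [← add_sum_erase _ _ hcmem, sub_self, zero_add]
  have hset : (univ.filter (fun a => x a < s a)).erase (c x) =
      univ.filter (fun a => x a < s a ∧ a ≠ c x) := by
    ext a; simp only [mem_erase, mem_filter, mem_univ, true_and]; tauto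
  rw [hset]
  refine sum_congr rfl fun a ha => ?_
  simp only [mem_filter, mem_univ, true_and] at ha
  have hac := ha.2
  have ht : ∑ b, up (up x a) (c x) b = r + 2 := by rw [sum_up, sum_up, hxs]
  have h1 : 1 ≤ up (up x a) (c x) a := by rw [up_ne _ hac, up_same]; omega
  have h2 : 1 ≤ up (up x a) (c x) (c x) := by rw [up_same]; omega
  have := Jf_diff u ht hac h1 h2
  rw [dn_up, up_comm x a (c x), dn_up] at this
  rw [up_comm x a (c x)]
  exact this

theorem bulk (s : ι → ℕ) (r : ℕ) (u : (ι → ℕ) → ℝ) (c : (ι → ℕ) → ι)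
    (hc : ∀ x ∈ lev s r, x (c x) < s (c x) ∧ ∀ a, x a < s a → x a ≤ x (c x)) :
    ∑ x ∈ lev s r, (GG s u x - Wf s r u c x) ^ 2
      ≤ 2 * (Fintype.card ι : ℝ) ^ 2 * (((r : ℝ) + 1) ^ 2 * YY s r u) := by
  set n : ℝ := (Fintype.card ι : ℝ) with hn
  -- the summand
  set φ : (ι → ℕ) → ι → ι → ℝ := fun t a b =>
    (t a : ℝ) * (t b : ℝ) * gd r u t a b ^ 2 + Gam r u t a ^ 2 with hφ
  have hφ0 : ∀ t a b, 0 ≤ φ t a b := fun t a b => by simp only [hφ]; positivity
  have hpt : ∀ x ∈ lev s r, (GG s u x - Wf s r u c x) ^ 2 ≤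
      2 * n * ((r : ℝ) + 1) ^ 2 * ∑ a ∈ univ.filter (fun a => x a < s a ∧ a ≠ c x),
        φ (up (up x a) (c x)) a (c x) := by
    intro x hx
    rw [bulk_pt s r u c hx (hc x hx).1, mul_pow]
    have h1 := sq_sum_le_card_mul_sum_sq (s := univ.filter (fun a => x a < s a ∧ a ≠ c x))
      (f := fun a => ((up (up x a) (c x) a : ℝ) * gd r u (up (up x a) (c x)) a (c x)
          + Gam r u (up (up x a) (c x)) a))
    have h2 : ((univ.filter (fun a => x a < s a ∧ a ≠ c x)).card : ℝ) ≤ n := by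
      rw [hn]; exact_mod_cast card_le_univ _
    have h3 : ∑ a ∈ univ.filter (fun a => x a < s a ∧ a ≠ c x),
        ((up (up x a) (c x) a : ℝ) * gd r u (up (up x a) (c x)) a (c x)
          + Gam r u (up (up x a) (c x)) a) ^ 2 ≤
        ∑ a ∈ univ.filter (fun a => x a < s a ∧ a ≠ c x), 2 * φ (up (up x a) (c x)) a (c x) := by
      refine sum_le_sum fun a ha => ?_
      simp only [mem_filter, mem_univ, true_and] at ha
      set t := up (up x a) (c x) with ht
      have hta : (t a : ℝ) ≤ (t (c x) : ℝ) := by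
        rw [ht, up_ne _ ha.2, up_same, up_same, up_ne _ (Ne.symm ha.2)]
        have := (hc x hx).2 a ha.1
        exact_mod_cast Nat.succ_le_succ this
      have hta0 : (0 : ℝ) ≤ t a := by positivity
      have h4 : (t a : ℝ) ^ 2 * gd r u t a (c x) ^ 2 ≤
          (t a : ℝ) * (t (c x) : ℝ) * gd r u t a (c x) ^ 2 := by
        have : (t a : ℝ) ^ 2 ≤ (t a : ℝ) * (t (c x) : ℝ) := by nlinarith
        exact mul_le_mul_of_nonneg_right this (sq_nonneg _)
      simp only [hφ]
      nlinarith [sq_nonneg ((t a : ℝ) * gd r u t a (c x) - Gam r u t a)]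
    rw [← mul_sum] at h3
    have h5 : 0 ≤ ∑ a ∈ univ.filter (fun a => x a < s a ∧ a ≠ c x),
        φ (up (up x a) (c x)) a (c x) := sum_nonneg fun a _ => hφ0 _ _ _
    have hn0 : 0 ≤ n := by positivity
    have h6 : (∑ a ∈ univ.filter (fun a => x a < s a ∧ a ≠ c x),
        ((up (up x a) (c x) a : ℝ) * gd r u (up (up x a) (c x)) a (c x)
          + Gam r u (up (up x a) (c x)) a)) ^ 2 ≤ n * (2 * ∑ a ∈ univ.filter (fun a => x a < s a ∧ a ≠ c x),
        φ (up (up x a) (c x)) a (c x)) := by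
      refine h1.trans ?_
      refine mul_le_mul h2 h3 (sum_nonneg fun _ _ => sq_nonneg _) hn0
    have h7 := mul_le_mul_of_nonneg_left h6 (sq_nonneg ((r : ℝ) + 1))
    linarith
  -- reindexing
  have hre : ∑ x ∈ lev s r, ∑ a ∈ univ.filter (fun a => x a < s a ∧ a ≠ c x),
        φ (up (up x a) (c x)) a (c x) ≤
      ∑ t ∈ lev s (r + 2), ∑ a ∈ univ.filter (fun a => 1 ≤ t a), ∑ b ∈ univ.erase a, φ t a b := by
    rw [sum_sigma', sum_sigma']
    have e2 : ∑ p ∈ (lev s (r + 2)).sigma (fun t => univ.filter (fun a => 1 ≤ t a)),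
        ∑ b ∈ univ.erase p.2, φ p.1 p.2 b =
        ∑ q ∈ ((lev s (r + 2)).sigma (fun t => univ.filter (fun a => 1 ≤ t a))).sigma
          (fun p => univ.erase p.2), φ q.1.1 q.1.2 q.2 := by
      rw [sum_sigma']
    rw [e2]
    have e1 : ∑ p ∈ (lev s r).sigma (fun x => univ.filter (fun a => x a < s a ∧ a ≠ c x)),
        φ (up (up p.1 p.2) (c p.1)) p.2 (c p.1) =
        ∑ q ∈ ((lev s r).sigma (fun x => univ.filter (fun a => x a < s a ∧ a ≠ c x))).image
          (fun p => (⟨⟨up (up p.1 p.2) (c p.1), p.2⟩, c p.1⟩ : (Σ _ : (Σ _ : ι → ℕ, ι), ι))),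
          φ q.1.1 q.1.2 q.2 := by
      rw [sum_image]
      rintro ⟨x, a⟩ _ ⟨y, b⟩ _ hxy
      simp only [Sigma.mk.injEq, heq_eq_eq] at hxy
      obtain ⟨⟨h1, h2⟩, h3⟩ := hxy
      subst h2
      have : x = y := by
        have e := congrArg (fun t => dn (dn t (c x)) a) h1
        simp only [dn_up] at e
        rw [h3, dn_up, dn_up] at e
        exact e
      subst this
      rfl
    rw [e1]
    apply sum_le_sum_of_subset_of_nonneg
    · intro q hq
      rw [mem_image] at hq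
      obtain ⟨⟨x, a⟩, hp, rfl⟩ := hq
      simp only [mem_sigma, mem_filter, mem_univ, true_and] at hp
      simp only [mem_sigma, mem_filter, mem_univ, true_and, mem_erase, and_true]
      obtain ⟨hx, ha1, ha2⟩ := hp
      refine ⟨⟨?_, ?_⟩, Ne.symm ha2⟩
      · apply up_mem (up_mem hx ha1)
        rw [up_ne _ (Ne.symm ha2)]
        exact (hc x hx).1
      · rw [up_ne _ ha2, up_same]; omega
    · exact fun q _ _ => hφ0 _ _ _
  have hfin : ∑ t ∈ lev s (r + 2), ∑ a ∈ univ.filter (fun a => 1 ≤ t a),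
      ∑ b ∈ univ.erase a, φ t a b ≤ n * YY s r u := by
    unfold YY
    rw [mul_sum]
    refine sum_le_sum fun t _ => ?_
    simp only [hφ, sum_add_distrib]
    have hn1 : ∀ a : ι, 1 ≤ n := by
      intro a; rw [hn]; exact_mod_cast Fintype.card_pos_iff.2 ⟨a⟩
    have h1 : ∑ a ∈ univ.filter (fun a => 1 ≤ t a),
        ∑ b ∈ univ.erase a, (t a : ℝ) * (t b : ℝ) * gd r u t a b ^ 2 ≤
        n * ∑ a, ∑ b ∈ univ.erase a, (t a : ℝ) * (t b : ℝ) * gd r u t a b ^ 2 := by
      rw [mul_sum]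
      refine le_trans (sum_le_sum_of_subset_of_nonneg (filter_subset _ _)
        fun a _ _ => sum_nonneg fun b _ => by positivity) ?_
      refine sum_le_sum fun a _ => ?_
      have : 0 ≤ ∑ b ∈ univ.erase a, (t a : ℝ) * (t b : ℝ) * gd r u t a b ^ 2 :=
        sum_nonneg fun b _ => by positivity
      nlinarith [hn1 a]
    have h2 : ∑ a ∈ univ.filter (fun a => 1 ≤ t a), ∑ _b ∈ univ.erase a, Gam r u t a ^ 2 ≤
        n * ∑ a ∈ univ.filter (fun a => 1 ≤ t a), Gam r u t a ^ 2 := by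
      rw [mul_sum]
      refine sum_le_sum fun a _ => ?_
      rw [sum_const, nsmul_eq_mul]
      refine mul_le_mul_of_nonneg_right ?_ (sq_nonneg _)
      rw [hn]; exact_mod_cast card_le_univ _
    linarith
  calc ∑ x ∈ lev s r, (GG s u x - Wf s r u c x) ^ 2
      ≤ ∑ x ∈ lev s r, 2 * n * ((r : ℝ) + 1) ^ 2 *
        ∑ a ∈ univ.filter (fun a => x a < s a ∧ a ≠ c x), φ (up (up x a) (c x)) a (c x) :=
        sum_le_sum hpt
    _ = 2 * n * ((r : ℝ) + 1) ^ 2 * ∑ x ∈ lev s r,
        ∑ a ∈ univ.filter (fun a => x a < s a ∧ a ≠ c x), φ (up (up x a) (c x)) a (c x) := by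
        rw [mul_sum]
    _ ≤ 2 * n * ((r : ℝ) + 1) ^ 2 * (n * YY s r u) :=
        mul_le_mul_of_nonneg_left (hre.trans hfin) (by positivity)
    _ = 2 * n ^ 2 * (((r : ℝ) + 1) ^ 2 * YY s r u) := by ring

end Vale.Agent.H27.CT
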