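import Vale.Agent.H27.CT.T2
import Vale.Agent.H27.CT.T3
import Vale.Agent.H27.CT.P3
import Vale.Agent.H27.CT.C1

/-!
# Row P4: the two-row theorem
-/

open Finset

namespace Vale.Agent.H27.CT

variable {ι : Type*} [Fintype ι] [DecidableEq ι]

theorem exists_choice [Nonempty ι] (s : ι → ℕ) (r : ℕ) (hr : r < ∑ b, s b) :
    ∃ c : (ι → ℕ) → ι, ∀ x ∈ lev s r, x (c x) < s (c x) ∧ ∀ a, x a < s a → x a ≤ x (c x) := by
  classical
  have h : ∀ x : ι → ℕ, ∃ c : ι, x ∈ lev s r → (x c < s c ∧ ∀ a, x a < s a → x a ≤ x c) := by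
    intro x
    by_cases hx : x ∈ lev s r
    · have hne : (univ.filter (fun a => x a < s a)).Nonempty := by
        by_contra hcon
        rw [not_nonempty_iff_eq_empty, filter_eq_empty_iff] at hcon
        have : ∑ b, s b ≤ ∑ b, x b := sum_le_sum fun b _ => by
          have := hcon (mem_univ b); omega
        rw [(mem_lev.1 hx).2] at this
        omega
      obtain ⟨c, hc, hmax⟩ := exists_max_image _ x hne
      rw [mem_filter] at hc
      exact ⟨c, fun _ => ⟨hc.2, fun a ha => hmax a (mem_filter.2 ⟨mem_univ a, ha⟩)⟩⟩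
    · exact ⟨Classical.arbitrary ι, fun h => absurd h hx⟩
  choose c hc using h
  exact ⟨c, fun x hx => hc x hx⟩

theorem Jf_zero (k : ℕ) (u : (ι → ℕ) → ℝ) {a : ι} {x : ι → ℕ} (h : x a = 0) :
    Jf k u a x = 0 := by
  unfold Jf; rw [h]; simp

theorem Wf_zero (s : ι → ℕ) (r : ℕ) (u : (ι → ℕ) → ℝ) (c : (ι → ℕ) → ι) {x : ι → ℕ}
    (hc : x (c x) < s (c x)) (h0 : full s x = 0) : Wf s r u c x = 0 := by
  unfold Wf
  rw [neg_eq_zero, mul_eq_zero]
  right
  refine sum_eq_zero fun a ha => ?_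
  rw [mem_filter] at ha
  apply Jf_zero
  have hac : a ≠ c x := by
    rintro rfl
    omega
  rw [up_ne _ hac]
  unfold full at h0
  rw [sum_eq_zero_iff] at h0
  exact h0 a (mem_filter.2 ha)

theorem Wf_sq_div (s : ι → ℕ) (r : ℕ) (u : (ι → ℕ) → ℝ) (c : (ι → ℕ) → ι) {x : ι → ℕ}
    (hc : x (c x) < s (c x)) :
    Wf s r u c x ^ 2 / (full s x : ℝ) ≤ ((r : ℝ) + 1) ^ 2 *
      ∑ a ∈ univ.filter (fun a => x a = s a), Jf (r + 1) u a (up x (c x)) ^ 2 / (s a : ℝ) := by
  have hcs := cs_sum (univ.filter (fun a => x a = s a))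
    (r := fun a => Jf (r + 1) u a (up x (c x))) (f := fun a => (x a : ℝ))
    (g := fun a => Jf (r + 1) u a (up x (c x)) ^ 2 / (s a : ℝ))
    (fun a _ => by positivity) (fun a _ => by positivity) (fun a ha => by
      rw [mem_filter] at ha
      have hac : a ≠ c x := by
        rintro h; rw [← h] at hc; omega
      by_cases h0 : s a = 0
      · have hx0 : x a = 0 := by omega
        rw [Jf_zero]
        · simp
        · rw [up_ne _ hac]; exact hx0
      · have : (s a : ℝ) ≠ 0 := by exact_mod_cast h0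
        rw [ha.2]
        field_simp)
  have hfull : (full s x : ℝ) = ∑ a ∈ univ.filter (fun a => x a = s a), (x a : ℝ) := by
    unfold full; push_cast; rfl
  rw [← hfull] at hcs
  have hRHS : 0 ≤ ∑ a ∈ univ.filter (fun a => x a = s a),
      Jf (r + 1) u a (up x (c x)) ^ 2 / (s a : ℝ) := sum_nonneg fun a _ => by positivity
  rcases (Nat.cast_nonneg (α := ℝ) (full s x)).eq_or_lt with h0 | h0
  · rw [← h0, div_zero]; positivity
  · rw [div_le_iff₀ h0]
    unfold Wf
    rw [neg_sq, mul_pow]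
    nlinarith [sq_nonneg ((r : ℝ) + 1)]

theorem sum_wall (s : ι → ℕ) (r : ℕ) (c : (ι → ℕ) → ι)
    (hc : ∀ x ∈ lev s r, x (c x) < s (c x)) (a : ι) (φ : (ι → ℕ) → ℝ) (hφ : ∀ x, 0 ≤ φ x) :
    ∑ x ∈ (lev s r).filter (fun x => x a = s a), φ (up x (c x)) ≤
      (Fintype.card ι : ℝ) * ∑ x ∈ Kc s (r + 1) a (s a), φ x := by
  have h1 : ∑ x ∈ (lev s r).filter (fun x => x a = s a), φ (up x (c x)) =
      ∑ p ∈ ((lev s r).filter (fun x => x a = s a)).image (fun x => (up x (c x), c x)), φ p.1 := by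
    rw [sum_image]
    intro x _ y _ hxy
    simp only [Prod.mk.injEq] at hxy
    have e1 := dn_up x (c x)
    have e2 := dn_up y (c y)
    rw [← e1, ← e2, hxy.1, hxy.2]
  rw [h1]
  have hsub : ((lev s r).filter (fun x => x a = s a)).image (fun x => (up x (c x), c x)) ⊆
      Kc s (r + 1) a (s a) ×ˢ univ := by
    intro p hp
    rw [mem_image] at hp
    obtain ⟨x, hx, rfl⟩ := hp
    rw [mem_filter] at hx
    rw [mem_product]
    refine ⟨?_, mem_univ _⟩
    unfold Kc
    rw [mem_filter]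
    have hac : a ≠ c x := by
      intro h; have := hc x hx.1; rw [← h] at this; omega
    exact ⟨up_mem hx.1 (hc x hx.1), by simpa only [up_ne x hac] using hx.2⟩
  refine (sum_le_sum_of_subset_of_nonneg hsub fun p _ _ => hφ p.1).trans (le_of_eq ?_)
  rw [sum_product]
  simp only [sum_const, card_univ, nsmul_eq_mul, ← mul_sum]

theorem YY_nonneg (s : ι → ℕ) (r : ℕ) (u : (ι → ℕ) → ℝ) : 0 ≤ YY s r u := by
  unfold YY
  refine sum_nonneg fun t _ => add_nonneg (sum_nonneg fun a _ => sum_nonneg fun c _ => ?_)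
    (sum_nonneg fun a _ => sq_nonneg _)
  positivity

theorem harmonic_nonneg (N : ℕ) : (0 : ℝ) ≤ (harmonic N : ℝ) := by
  have : (0 : ℚ) ≤ harmonic N := by
    unfold harmonic
    exact sum_nonneg fun i _ => by positivity
  exact_mod_cast this

theorem two_row (s : ι → ℕ) (r N : ℕ) (u : (ι → ℕ) → ℝ)
    (hr : 2 * r + 1 ≤ ∑ b, s b) (hN : ∀ b, s b ≤ N) :
    ∃ W B : (ι → ℕ) → ℝ,
      (∀ x ∈ lev s r, GG s u x = W x + B x) ∧
      (∑ x ∈ lev s r, B x ^ 2 ≤ 2 * (Fintype.card ι : ℝ) ^ 2 *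
        ∑ x ∈ lev s r, (GG s u x ^ 2
          - ∑ a ∈ univ.filter (fun a => x a + 1 = s a), hst u a x ^ 2)) ∧
      (∀ x ∈ lev s r, full s x = 0 → W x = 0) ∧
      (∑ x ∈ lev s r, W x ^ 2 / (full s x : ℝ) ≤
        12 * (Fintype.card ι : ℝ) ^ 5 * (1 + (Fintype.card ι : ℝ) * (harmonic N : ℝ)) *
        ∑ x ∈ lev s r, (GG s u x ^ 2
          - ∑ a ∈ univ.filter (fun a => x a + 1 = s a), hst u a x ^ 2)) := by
  have hne : Nonempty ι := by
    by_contra hcon
    rw [not_nonempty_iff] at hcon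
    simp at hr
  obtain ⟨c, hc⟩ := exists_choice s r (by omega)
  refine ⟨Wf s r u c, fun x => GG s u x - Wf s r u c x, fun x _ => by ring, ?_, ?_, ?_⟩
  · rw [b_identity]
    exact bulk s r u c hc
  · exact fun x hx h0 => Wf_zero s r u c (hc x hx).1 h0
  · rw [b_identity]
    set n : ℝ := (Fintype.card ι : ℝ) with hn
    set L : ℝ := 1 + n * (harmonic N : ℝ) with hL
    have hn0 : 0 ≤ n := by positivity
    have hL0 : 0 ≤ L := by
      have := harmonic_nonneg N
      positivity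
    have hY := YY_nonneg s r u
    calc ∑ x ∈ lev s r, Wf s r u c x ^ 2 / (full s x : ℝ)
        ≤ ∑ x ∈ lev s r, ((r : ℝ) + 1) ^ 2 *
          ∑ a ∈ univ.filter (fun a => x a = s a), Jf (r + 1) u a (up x (c x)) ^ 2 / (s a : ℝ) :=
          sum_le_sum fun x hx => Wf_sq_div s r u c (hc x hx).1
      _ = ((r : ℝ) + 1) ^ 2 * ∑ a, ∑ x ∈ (lev s r).filter (fun x => x a = s a),
          Jf (r + 1) u a (up x (c x)) ^ 2 / (s a : ℝ) := by
          rw [← mul_sum]
          congr 1
          rw [sum_comm' (t' := univ) (s' := fun a => (lev s r).filter (fun x => x a = s a))]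
          intro x a
          simp only [mem_filter, mem_univ, true_and, and_true]
      _ ≤ ((r : ℝ) + 1) ^ 2 * ∑ _a : ι, n * (12 * n ^ 3 * L * YY s r u) := by
          refine mul_le_mul_of_nonneg_left (sum_le_sum fun a _ => ?_) (by positivity)
          refine (sum_wall s r c (fun x hx => (hc x hx).1) a
            (fun x => Jf (r + 1) u a x ^ 2 / (s a : ℝ)) (fun x => by positivity)).trans ?_
          refine mul_le_mul_of_nonneg_left ?_ hn0
          rw [← sum_div]
          rcases (Nat.cast_nonneg (α := ℝ) (s a)).eq_or_lt with h0 | h0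
          · rw [← h0, div_zero]; positivity
          · rw [div_le_iff₀ h0]
            have := trace_bound s r N u a hr hN
            rw [← hn, ← hL] at this
            linarith
      _ = 12 * n ^ 5 * L * (((r : ℝ) + 1) ^ 2 * YY s r u) := by
          rw [sum_const, card_univ, nsmul_eq_mul, ← hn]
          ring

end Vale.Agent.H27.CT
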