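import Vale.Agent.H27.CT.M1
import Vale.Agent.H27.CT.M2
import Vale.Agent.H27.CT.M3
import Vale.Agent.H27.CT.C1
import Vale.Agent.H27.CT.P4

/-!
# Row G1: the spectral gap on `Om`
-/

open Finset

namespace Vale.Agent.H27.CT

open Vale.Agent.KTV

variable {κ ι : Type*} [Fintype κ] [DecidableEq κ] [Fintype ι] [DecidableEq ι]

/-- extension of a function on the tables by zero -/
noncomputable def ext0 (c : ι → ℕ) (rr : κ → ℕ) (F : {T // T ∈ Om c rr} → ℝ)
    (T : κ → ι → ℕ) : ℝ := if h : T ∈ Om c rr then F ⟨T, h⟩ else 0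

theorem ext0_val (c : ι → ℕ) (rr : κ → ℕ) (F : {T // T ∈ Om c rr} → ℝ)
    (T : {T // T ∈ Om c rr}) : ext0 c rr F T.1 = F T := by
  unfold ext0; rw [dif_pos T.2]

theorem sum_sub_eq (c : ι → ℕ) (rr : κ → ℕ) (f : (κ → ι → ℕ) → ℝ) :
    ∑ T : {T // T ∈ Om c rr}, f T.1 = ∑ T ∈ Om c rr, f T := by
  rw [← sum_coe_sort (Om c rr) f]

/-- agreement off rows `l` and `k` -/
def Ag (c : ι → ℕ) (rr : κ → ℕ) (l k : κ) (T T' : {T // T ∈ Om c rr}) : Prop :=
  ∀ j, j ≠ l → j ≠ k → T.1 j = T'.1 j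

theorem Ag_equiv (c : ι → ℕ) (rr : κ → ℕ) (l k : κ) : Equivalence (Ag c rr l k) :=
  ⟨fun _ _ _ _ => rfl, fun h j h1 h2 => (h j h1 h2).symm,
    fun h h' j h1 h2 => (h j h1 h2).trans (h' j h1 h2)⟩

/-- a function on `Om` invariant under `Ag l l` is invariant on sections -/
theorem inv_sec (c : ι → ℕ) (rr : κ → ℕ) (l : κ) (θ : {T // T ∈ Om c rr} → ℝ)
    (hθ : ∀ x y, Ag c rr l l x y → θ x = θ y) :
    ∀ T ∈ Om c rr, ∀ x ∈ lev (sec c T l) (rr l),
      ext0 c rr θ (Function.update T l x) = ext0 c rr θ T := by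
  intro T hT x hx
  have h1 := (upd_mem hT l x).2 hx
  unfold ext0
  rw [dif_pos h1, dif_pos hT]
  apply hθ
  intro j hj _
  simp [Function.update_of_ne hj]

theorem exists_split (c : ι → ℕ) (rr : κ → ℕ) (N : ℕ) (hR : ∀ l, ∑ k, rr k + rr l + 1 ≤ ∑ a, c a)
    (hN : ∀ a, c a ≤ N) (u : (κ → ι → ℕ) → ℝ) (l : κ) :
    ∃ W B : (κ → ι → ℕ) → ℝ,
      (∀ T ∈ Om c rr, Gl c l u T = W T + B T) ∧
      (∑ T ∈ Om c rr, B T ^ 2 ≤ 2 * (Fintype.card ι : ℝ) ^ 2 *
        ∑ T ∈ Om c rr, (Gl c l u T ^ 2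
          - ∑ a ∈ univ.filter (fun a => hub c T a = 1), hl l u a T ^ 2)) ∧
      (∀ T ∈ Om c rr, full (sec c T l) (T l) = 0 → W T = 0) ∧
      (∑ T ∈ Om c rr, W T ^ 2 / (full (sec c T l) (T l) : ℝ) ≤
        12 * (Fintype.card ι : ℝ) ^ 5 * (1 + (Fintype.card ι : ℝ) * (harmonic N : ℝ)) *
        ∑ T ∈ Om c rr, (Gl c l u T ^ 2
          - ∑ a ∈ univ.filter (fun a => hub c T a = 1), hl l u a T ^ 2)) := by
  classical
  -- choose the two-row splitting for every box and every function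
  have hex : ∀ (s : ι → ℕ) (v : (ι → ℕ) → ℝ), ∃ W B : (ι → ℕ) → ℝ,
      (2 * rr l + 1 ≤ ∑ b, s b → (∀ b, s b ≤ N) →
      ((∀ x ∈ lev s (rr l), GG s v x = W x + B x) ∧
      (∑ x ∈ lev s (rr l), B x ^ 2 ≤ 2 * (Fintype.card ι : ℝ) ^ 2 *
        ∑ x ∈ lev s (rr l), (GG s v x ^ 2
          - ∑ a ∈ univ.filter (fun a => x a + 1 = s a), hst v a x ^ 2)) ∧
      (∀ x ∈ lev s (rr l), full s x = 0 → W x = 0) ∧
      (∑ x ∈ lev s (rr l), W x ^ 2 / (full s x : ℝ) ≤
        12 * (Fintype.card ι : ℝ) ^ 5 * (1 + (Fintype.card ι : ℝ) * (harmonic N : ℝ)) *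
        ∑ x ∈ lev s (rr l), (GG s v x ^ 2
          - ∑ a ∈ univ.filter (fun a => x a + 1 = s a), hst v a x ^ 2)))) := by
    intro s v
    by_cases h : 2 * rr l + 1 ≤ ∑ b, s b ∧ (∀ b, s b ≤ N)
    · obtain ⟨W, B, hWB⟩ := two_row s (rr l) N v h.1 h.2
      exact ⟨W, B, fun _ _ => hWB⟩
    · exact ⟨0, 0, fun h1 h2 => absurd ⟨h1, h2⟩ h⟩
  choose W B hWB using hex
  have hcond : ∀ T ∈ Om c rr, 2 * rr l + 1 ≤ ∑ b, sec c T l b ∧ (∀ b, sec c T l b ≤ N) := by
    intro T hT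
    refine ⟨?_, fun b => (Nat.sub_le _ _).trans (hN b)⟩
    have := sum_sec hT l
    have := hR l
    omega
  have hmain := fun T hT => hWB (sec c T l) (res u T l) (hcond T hT).1 (hcond T hT).2
  have hGl : ∀ T x, Gl c l u (Function.update T l x) = GG (sec c T l) (res u T l) x := by
    intro T x
    unfold Gl
    rw [sec_upd, res_upd, Function.update_self]
  have hhl : ∀ T a x, hl l u a (Function.update T l x) = hst (res u T l) a x := by
    intro T a x
    unfold hl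
    rw [res_upd, Function.update_self]
  have hhub : ∀ T ∈ Om c rr, ∀ x ∈ lev (sec c T l) (rr l), ∀ a,
      (hub c (Function.update T l x) a = 1 ↔ x a + 1 = sec c T l a) := by
    intro T hT x hx a
    have h1 := (upd_mem hT l x).2 hx
    have h2 := sec_eq_hub_add h1 l a
    rw [sec_upd, Function.update_self] at h2
    omega
  -- the quadratic form on sections
  have hQ : ∀ T ∈ Om c rr, ∑ x ∈ lev (sec c T l) (rr l), (Gl c l u (Function.update T l x) ^ 2
          - ∑ a ∈ univ.filter (fun a => hub c (Function.update T l x) a = 1),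
            hl l u a (Function.update T l x) ^ 2) =
      ∑ x ∈ lev (sec c T l) (rr l), (GG (sec c T l) (res u T l) x ^ 2
          - ∑ a ∈ univ.filter (fun a => x a + 1 = sec c T l a), hst (res u T l) a x ^ 2) := by
    intro T hT
    refine sum_congr rfl fun x hx => ?_
    rw [hGl]
    congr 1
    rw [filter_congr (fun a _ => hhub T hT x hx a)]
    exact sum_congr rfl fun a _ => by rw [hhl]
  refine ⟨fun T => W (sec c T l) (res u T l) (T l), fun T => B (sec c T l) (res u T l) (T l),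
    ?_, ?_, ?_, ?_⟩
  · intro T hT
    exact (hmain T hT).1 (T l) (self_mem hT l)
  · rw [mul_sum]
    apply sum_le_sum_of_sec l
    intro T hT
    rw [← mul_sum, hQ T hT]
    refine le_trans (le_of_eq ?_) (hmain T hT).2.1
    refine sum_congr rfl fun x hx => ?_
    simp only [sec_upd, res_upd, Function.update_self]
  · intro T hT h0
    exact (hmain T hT).2.2.1 (T l) (self_mem hT l) h0
  · rw [mul_sum]
    apply sum_le_sum_of_sec l
    intro T hT
    rw [← mul_sum, hQ T hT]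
    refine le_trans (le_of_eq ?_) (hmain T hT).2.2.2
    refine sum_congr rfl fun x hx => ?_
    simp only [sec_upd, res_upd, Function.update_self]

theorem gap_Om (c : ι → ℕ) (rr : κ → ℕ) (hκ : 2 ≤ Fintype.card κ)
    (hR : ∀ l, ∑ k, rr k + rr l + 1 ≤ ∑ a, c a) (N : ℕ) (hN : ∀ a, c a ≤ N)
    (F : {T // T ∈ Om c rr} → ℝ) (hF : ∑ T, F T = 0) :
    ∑ T, F T ^ 2 ≤ (6 * (1 + (Fintype.card κ + 1) * (2 * (Fintype.card ι : ℝ) ^ 2))
        + 8 * (Fintype.card ι : ℝ) * (12 * (Fintype.card ι : ℝ) ^ 5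
          * (1 + (Fintype.card ι : ℝ) * (harmonic N : ℝ)))) *
      ∑ l, ∑ k ∈ univ.erase l, ∑ T,
        (F T - avg (fun T T' : {T // T ∈ Om c rr} =>
          ∀ j, j ≠ l → j ≠ k → T.1 j = T'.1 j) F T) ^ 2 := by
  classical
  set n : ℝ := (Fintype.card ι : ℝ) with hn
  have hn0 : 0 ≤ n := by positivity
  have hL0 := harmonic_nonneg N
  obtain ⟨l₀⟩ : Nonempty κ := Fintype.card_pos_iff.1 (by omega)
  have hR0 : ∑ k, rr k < ∑ a, c a := by have := hR l₀; omega
  have hF0 : ∑ T ∈ Om c rr, ext0 c rr F T = 0 := by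
    rw [← sum_sub_eq, ← hF]; exact sum_congr rfl fun T _ => ext0_val c rr F T
  obtain ⟨u, hu⟩ := solve c rr hR0 (ext0 c rr F) hF0
  choose W B h1 h2 h3 h4 using exists_split c rr N hR hN u
  have hboch := bochner c rr u
  have hsumF : ∑ T ∈ Om c rr, (∑ l, Gl c l u T) ^ 2 = ∑ T, F T ^ 2 := by
    rw [← sum_sub_eq]
    exact sum_congr rfl fun T _ => by rw [hu T.1 T.2, ext0_val]
  rw [hsumF] at hboch
  refine comb hκ (fun l => Ag c rr l l) (fun l k => Ag c rr l k) (fun l => Ag_equiv c rr l l)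
    (fun l k => Ag_equiv c rr l k) (fun l k x y h j hj hj' => h j hj' hj)
    (fun l k x y h j hj _ => h j hj hj)
    (fun l T => (full (sec c T.1 l) (T.1 l) : ℝ)) (fun l T => by positivity) n
    (2 * n ^ 2) (12 * n ^ 5 * (1 + n * (harmonic N : ℝ))) hn0 (by positivity) (by positivity)
    ?_ F (fun l T => W l T.1) (fun l T => B l T.1) ?_ ?_ ?_ ?_ ?_
  · intro l θ hθ
    have := wall_inv l (ext0 c rr θ) (by have := hR l; omega) (inv_sec c rr l θ hθ)
    rw [← sum_sub_eq, ← sum_sub_eq] at this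
    simpa only [ext0_val] using this
  · intro T
    rw [← ext0_val c rr F T, ← hu T.1 T.2]
    exact sum_congr rfl fun l _ => (h1 l T.1 T.2).symm
  · intro l θ hθ
    have := sum_inv_mul_Gl l u (ext0 c rr θ) (inv_sec c rr l θ hθ)
    rw [← sum_sub_eq] at this
    rw [← this]
    exact sum_congr rfl fun T _ => by rw [ext0_val, h1 l T.1 T.2]
  · have e1 : ∀ l, ∑ T : {T // T ∈ Om c rr}, B l T.1 ^ 2 = ∑ T ∈ Om c rr, B l T ^ 2 :=
      fun l => sum_sub_eq c rr (fun T => B l T ^ 2)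
    rw [sum_congr rfl fun l _ => e1 l]
    refine (sum_le_sum fun l _ => h2 l).trans ?_
    rw [← mul_sum]
    exact mul_le_mul_of_nonneg_left hboch (by positivity)
  · intro l T h0
    exact h3 l T.1 T.2 (by exact_mod_cast h0)
  · have e1 : ∀ l, ∑ T : {T // T ∈ Om c rr}, W l T.1 ^ 2 / (full (sec c T.1 l) (T.1 l) : ℝ) =
        ∑ T ∈ Om c rr, W l T ^ 2 / (full (sec c T l) (T l) : ℝ) :=
      fun l => sum_sub_eq c rr (fun T => W l T ^ 2 / (full (sec c T l) (T l) : ℝ))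
    rw [sum_congr rfl fun l _ => e1 l]
    refine (sum_le_sum fun l _ => h4 l).trans ?_
    rw [← mul_sum]
    exact mul_le_mul_of_nonneg_left hboch (by positivity)

end Vale.Agent.H27.CT
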