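import Vale.Agent.H27.CT.Defs

/-! Rows L1 (log-concavity) and `card_Kc` of L3. -/

open Finset

namespace Vale.Agent.H27.CT

section TwoRow
variable {ι : Type*} [Fintype ι] [DecidableEq ι]

theorem sum_update_zero (x : ι → ℕ) (a : ι) :
    ∑ b, Function.update x a 0 b + x a = ∑ b, x b := by
  have h1 : ∑ b ∈ univ.erase a, Function.update x a 0 b = ∑ b ∈ univ.erase a, x b :=
    sum_congr rfl (fun b hb => Function.update_of_ne (ne_of_mem_erase hb) _ _)
  rw [← add_sum_erase univ _ (mem_univ a), ← add_sum_erase univ x (mem_univ a), h1,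
    Function.update_self]
  ring

theorem card_Kc (s : ι → ℕ) {ρ k : ℕ} (a : ι) (hk : k ≤ s a) (hρ : k ≤ ρ) :
    (Kc s ρ a k).card = (lev (Function.update s a 0) (ρ - k)).card := by
  refine Finset.card_nbij' (fun x => Function.update x a 0) (fun x => Function.update x a k)
    ?_ ?_ ?_ ?_
  · intro x hx
    simp only [Kc, mem_filter, mem_lev, mem_coe] at hx ⊢
    obtain ⟨⟨h1, h2⟩, h3⟩ := hx
    refine ⟨fun b => ?_, ?_⟩
    · by_cases hb : b = a
      · subst hb; simp
      · rw [Function.update_of_ne hb, Function.update_of_ne hb]; exact h1 b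
    · have := sum_update_zero x a
      omega
  · intro x hx
    simp only [Kc, mem_filter, mem_lev, mem_coe] at hx ⊢
    obtain ⟨h1, h2⟩ := hx
    have hxa : x a = 0 := by
      have := h1 a
      rw [Function.update_self] at this
      omega
    refine ⟨⟨fun b => ?_, ?_⟩, by simp⟩
    · by_cases hb : b = a
      · subst hb; simpa using hk
      · rw [Function.update_of_ne hb]
        have := h1 b
        rwa [Function.update_of_ne hb] at this
    · have h3 := sum_update_zero (Function.update x a k) a
      rw [Function.update_idem, Function.update_self] at h3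
      have h4 : Function.update x a 0 = x := by
        rw [← hxa]; exact Function.update_eq_self a x
      rw [h4] at h3
      omega
  · intro x hx
    simp only [Kc, mem_filter, mem_lev, mem_coe] at hx
    simp only [Function.update_idem]
    rw [← hx.2]; exact Function.update_eq_self a x
  · intro x hx
    simp only [mem_coe, mem_lev] at hx
    have hxa : x a = 0 := by
      have := hx.1 a
      rw [Function.update_self] at this
      omega
    simp only [Function.update_idem]
    rw [← hxa]; exact Function.update_eq_self a x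

/-- number of points of level `k`, `k` an integer -/
def NZ (s : ι → ℕ) (k : ℤ) : ℤ := if 0 ≤ k then ((lev s k.toNat).card : ℤ) else 0

theorem NZ_nat (s : ι → ℕ) (k : ℕ) : NZ s (k : ℤ) = ((lev s k).card : ℤ) := by
  unfold NZ
  rw [if_pos (by omega)]
  simp

theorem NZ_nonneg (s : ι → ℕ) (k : ℤ) : 0 ≤ NZ s k := by
  unfold NZ
  split_ifs <;> omega

theorem NZ_neg (s : ι → ℕ) {k : ℤ} (hk : k < 0) : NZ s k = 0 := by
  unfold NZ
  rw [if_neg (by omega)]

theorem lev_eq_empty (s : ι → ℕ) {k : ℕ} (hk : ∑ a, s a < k) : lev s k = ∅ := by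
  rw [Finset.eq_empty_iff_forall_notMem]
  intro x hx
  rw [mem_lev] at hx
  have : ∑ a, x a ≤ ∑ a, s a := Finset.sum_le_sum fun a _ => hx.1 a
  omega

theorem NZ_big (s : ι → ℕ) {k : ℤ} (hk : ((∑ a, s a : ℕ) : ℤ) < k) : NZ s k = 0 := by
  unfold NZ
  rw [if_pos (by omega), lev_eq_empty s (by omega)]
  simp

theorem card_lev_eq_sum (s : ι → ℕ) (a : ι) (k : ℕ) :
    (lev s k).card = ∑ t ∈ range (s a + 1), (Kc s k a t).card := by
  rw [← Finset.card_biUnion]
  · congr 1
    ext x
    simp only [mem_biUnion, mem_range, Kc, mem_filter]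
    constructor
    · intro hx
      refine ⟨x a, ?_, hx, rfl⟩
      have := (mem_lev.1 hx).1 a
      omega
    · rintro ⟨t, _, hx, _⟩
      exact hx
  · intro t _ t' _ htt'
    change Disjoint (Kc s k a t) (Kc s k a t')
    rw [Finset.disjoint_left]
    intro x hx hx'
    simp only [Kc, mem_filter] at hx hx'
    exact htt' (hx.2.symm.trans hx'.2)

/-- peeling a column -/
theorem NZ_peel (s : ι → ℕ) (a : ι) (k : ℤ) :
    NZ s k = ∑ t ∈ range (s a + 1), NZ (Function.update s a 0) (k - t) := by
  rcases lt_or_ge k 0 with hk | hk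
  · rw [NZ_neg s hk]
    symm
    refine Finset.sum_eq_zero fun t _ => NZ_neg _ (by omega)
  · obtain ⟨n, rfl⟩ := Int.eq_ofNat_of_zero_le hk
    rw [NZ_nat, card_lev_eq_sum s a n]
    push_cast
    refine Finset.sum_congr rfl fun t ht => ?_
    rw [mem_range] at ht
    rcases le_or_gt t n with h | h
    · rw [card_Kc s a (by omega) h, ← NZ_nat]
      congr 1
      omega
    · rw [NZ_neg _ (by omega)]
      have : Kc s n a t = ∅ := by
        rw [Finset.eq_empty_iff_forall_notMem]
        intro x hx
        simp only [Kc, mem_filter, mem_lev] at hx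
        have : x a ≤ ∑ b, x b := Finset.single_le_sum (fun _ _ => Nat.zero_le _) (mem_univ a)
        omega
      rw [this]; simp

/-- log-concavity on the integers -/
def LCZ (g : ℤ → ℤ) : Prop := ∀ a b c d : ℤ, a ≤ b → a ≤ c → a + d = b + c → g a * g d ≤ g b * g c

theorem LCZ_of_step {g : ℤ → ℤ} (h : ∀ i j : ℤ, i ≤ j → g i * g (j + 1) ≤ g (i + 1) * g j) :
    LCZ g := by
  have key : ∀ (n : ℕ) (a d : ℤ), a + n ≤ d - n → g a * g d ≤ g (a + n) * g (d - n) := by
    intro n
    induction n with
    | zero => intro a d _; simp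
    | succ n ih =>
      intro a d hd
      have h1 := ih a d (by push_cast at hd; omega)
      have h2 := h (a + n) (d - n - 1) (by push_cast at hd; omega)
      have e1 : d - n - 1 + 1 = d - n := by ring
      rw [e1] at h2
      push_cast
      calc g a * g d ≤ g (a + n) * g (d - n) := h1
        _ ≤ g (a + n + 1) * g (d - n - 1) := h2
        _ = g (a + (n + 1)) * g (d - (n + 1)) := by
            rw [show a + (n : ℤ) + 1 = a + (n + 1) by ring, show d - (n : ℤ) - 1 = d - (n + 1) by ring]
  intro a b c d hab hac hs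
  rcases le_total b c with hbc | hbc
  · obtain ⟨n, hn⟩ := Int.eq_ofNat_of_zero_le (show 0 ≤ b - a by omega)
    have := key n a d (by omega)
    rw [show a + (n : ℤ) = b by omega, show d - (n : ℤ) = c by omega] at this
    exact this
  · obtain ⟨n, hn⟩ := Int.eq_ofNat_of_zero_le (show 0 ≤ c - a by omega)
    have := key n a d (by omega)
    rw [show a + (n : ℤ) = c by omega, show d - (n : ℤ) = b by omega] at this
    rw [mul_comm (g b)]
    exact this

theorem LCZ_window {g : ℤ → ℤ} (hg : LCZ g) (w : ℕ) :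
    LCZ fun k => ∑ t ∈ range (w + 1), g (k - t) := by
  apply LCZ_of_step
  intro i j hij
  have e1 : ∀ k : ℤ, ∑ t ∈ range (w + 1), g (k + 1 - t) =
      g (k + 1) + ∑ t ∈ range w, g (k - t) := by
    intro k
    rw [Finset.sum_range_succ', add_comm]
    congr 1
    · simp
    · refine Finset.sum_congr rfl fun t _ => ?_
      congr 1
      push_cast
      ring
  have e2 : ∀ k : ℤ, ∑ t ∈ range (w + 1), g (k - t) = ∑ t ∈ range w, g (k - t) + g (k - w) := by
    intro k
    rw [Finset.sum_range_succ]
  simp only [e1, e2]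
  set A := ∑ t ∈ range w, g (i - t) with hA
  set B := ∑ t ∈ range w, g (j - t) with hB
  have t1 : A * g (j + 1) ≤ g (i + 1) * B := by
    rw [hA, hB, Finset.sum_mul, Finset.mul_sum]
    refine Finset.sum_le_sum fun t _ => hg _ _ _ _ (by omega) (by omega) (by omega)
  have t2 : g (i - w) * B ≤ A * g (j - w) := by
    rw [hA, hB, Finset.sum_mul, Finset.mul_sum]
    refine Finset.sum_le_sum fun t ht => hg _ _ _ _ ?_ (by omega) (by omega)
    rw [mem_range] at ht
    omega
  have t3 : g (i - w) * g (j + 1) ≤ g (i + 1) * g (j - w) :=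
    hg _ _ _ _ (by omega) (by omega) (by omega)
  nlinarith [t1, t2, t3]

theorem LCZ_NZ_aux (S : Finset ι) : ∀ s : ι → ℕ, (∀ a, a ∉ S → s a = 0) → LCZ (NZ s) := by
  induction S using Finset.induction_on with
  | empty =>
    intro s hs
    apply LCZ_of_step
    intro i j hij
    have hS : ∑ a, s a = 0 := Finset.sum_eq_zero fun a _ => hs a (by simp)
    rcases lt_or_ge i 0 with hi | hi
    · rw [NZ_neg s hi, zero_mul]
      exact mul_nonneg (NZ_nonneg _ _) (NZ_nonneg _ _)
    · rw [NZ_big s (k := j + 1) (by rw [hS]; push_cast; omega), mul_zero]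
      exact mul_nonneg (NZ_nonneg _ _) (NZ_nonneg _ _)
  | insert a S haS ih =>
    intro s hs
    have h := LCZ_window (ih (Function.update s a 0) (fun b hb => by
      by_cases hba : b = a
      · subst hba; simp
      · rw [Function.update_of_ne hba]
        exact hs b (by simp [hba, hb]))) (s a)
    have e : (fun k : ℤ => ∑ t ∈ range (s a + 1), NZ (Function.update s a 0) (k - t)) = NZ s := by
      funext k
      exact (NZ_peel s a k).symm
    rwa [e] at h

theorem LCZ_NZ (s : ι → ℕ) : LCZ (NZ s) := LCZ_NZ_aux univ s (fun a ha => absurd (mem_univ a) ha)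

/-! ## Row L1 (log-concavity) -/

theorem lev_slc (s : ι → ℕ) {i j : ℕ} (hij : i ≤ j) :
    (lev s i).card * (lev s (j + 1)).card ≤ (lev s (i + 1)).card * (lev s j).card := by
  have h := LCZ_NZ s (i : ℤ) ((i + 1 : ℕ) : ℤ) (j : ℤ) ((j + 1 : ℕ) : ℤ) (by push_cast; omega)
    (by omega) (by push_cast; ring)
  rw [NZ_nat, NZ_nat, NZ_nat, NZ_nat] at h
  exact_mod_cast h

theorem lev_symm (s : ι → ℕ) {k : ℕ} (hk : k ≤ ∑ a, s a) :
    (lev s k).card = (lev s (∑ a, s a - k)).card := by
  have hsum : ∀ x : ι → ℕ, (∀ a, x a ≤ s a) → ∑ a, (s a - x a) + ∑ a, x a = ∑ a, s a := by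
    intro x hx
    rw [← Finset.sum_add_distrib]
    exact Finset.sum_congr rfl fun a _ => Nat.sub_add_cancel (hx a)
  refine Finset.card_nbij' (fun x a => s a - x a) (fun x a => s a - x a) ?_ ?_ ?_ ?_
  · intro x hx
    simp only [mem_coe, mem_lev] at hx ⊢
    refine ⟨fun a => Nat.sub_le _ _, ?_⟩
    have := hsum x hx.1
    omega
  · intro x hx
    simp only [mem_coe, mem_lev] at hx ⊢
    refine ⟨fun a => Nat.sub_le _ _, ?_⟩
    have := hsum x hx.1
    omega
  · intro x hx
    simp only [mem_coe, mem_lev] at hx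
    funext a
    have := hx.1 a
    simp only
    omega
  · intro x hx
    simp only [mem_coe, mem_lev] at hx
    funext a
    have := hx.1 a
    simp only
    omega

theorem NZ_symm (s : ι → ℕ) (k : ℤ) : NZ s k = NZ s (((∑ a, s a : ℕ) : ℤ) - k) := by
  rcases lt_or_ge k 0 with hk | hk
  · rw [NZ_neg s hk, NZ_big s (by omega)]
  · rcases lt_or_ge ((∑ a, s a : ℕ) : ℤ) k with h | h
    · rw [NZ_big s h, NZ_neg s (by omega)]
    · obtain ⟨n, rfl⟩ := Int.eq_ofNat_of_zero_le hk
      have hn : n ≤ ∑ a, s a := by omega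
      rw [NZ_nat, lev_symm s hn, ← NZ_nat]
      congr 1
      omega

theorem lev_mono (s : ι → ℕ) {i j : ℕ} (hij : i ≤ j) (hs : i + j ≤ ∑ a, s a) :
    (lev s i).card ≤ (lev s j).card := by
  have h := LCZ_NZ s (i : ℤ) (j : ℤ) (((∑ a, s a : ℕ) : ℤ) - j) (((∑ a, s a : ℕ) : ℤ) - i)
    (by omega) (by omega) (by ring)
  rw [← NZ_symm, ← NZ_symm, NZ_nat, NZ_nat] at h
  have h' : (lev s i).card * (lev s i).card ≤ (lev s j).card * (lev s j).card := by
    exact_mod_cast h
  exact Nat.mul_self_le_mul_self_iff.1 h'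

theorem NZ_peel_Icc (s : ι → ℕ) (a : ι) (k : ℤ) :
    NZ s k = ∑ x ∈ Icc (k - s a) k, NZ (Function.update s a 0) x := by
  rw [NZ_peel s a k]
  refine Finset.sum_nbij' (fun t : ℕ => k - (t : ℤ)) (fun x : ℤ => (k - x).toNat) ?_ ?_ ?_ ?_ ?_
  · intro t ht
    rw [mem_range] at ht
    rw [mem_Icc]
    omega
  · intro x hx
    rw [mem_Icc] at hx
    rw [mem_range]
    omega
  · intro t _
    simp
  · intro x hx
    rw [mem_Icc] at hx
    omega
  · intro t _
    rfl

theorem lev_half (s : ι → ℕ) (b : ι) {i j : ℕ} (hij : i ≤ j) (hj : 2 * j ≤ ∑ a, s a + s b) :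
    (lev s i).card ≤ 2 * (lev s j).card := by
  rcases le_or_gt (i + j) (∑ a, s a) with h | h
  · have := lev_mono s hij h
    omega
  · have hpos : ∀ x, 0 ≤ NZ (Function.update s b 0) x := fun x => NZ_nonneg _ _
    have hsym := NZ_symm (Function.update s b 0)
    have hS := sum_update_zero s b
    set S' := ∑ a, Function.update s b 0 a with hS'
    have hmain : NZ s (i : ℤ) ≤ 2 * NZ s (j : ℤ) := by
      rw [NZ_peel_Icc s b i, NZ_peel_Icc s b j]
      set g := NZ (Function.update s b 0) with hg
      -- split the window of `i`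
      have hsplit : ∑ x ∈ Icc ((i : ℤ) - s b) i, g x ≤
          ∑ x ∈ Icc ((j : ℤ) - s b) j, g x +
            ∑ x ∈ Ico ((i : ℤ) - s b) ((j : ℤ) - s b), g x := by
        rw [← Finset.sum_union]
        · refine Finset.sum_le_sum_of_subset_of_nonneg ?_ fun x _ _ => hpos x
          intro x hx
          rw [mem_Icc] at hx
          rw [mem_union, mem_Icc, mem_Ico]
          omega
        · rw [Finset.disjoint_left]
          intro x hx hx'
          rw [mem_Icc] at hx
          rw [mem_Ico] at hx'
          omega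
      have hrefl : ∑ x ∈ Ico ((i : ℤ) - s b) ((j : ℤ) - s b), g x ≤
          ∑ x ∈ Icc ((j : ℤ) - s b) j, g x := by
        calc ∑ x ∈ Ico ((i : ℤ) - s b) ((j : ℤ) - s b), g x
            = ∑ x ∈ (Ico ((i : ℤ) - s b) ((j : ℤ) - s b)).image (fun x => (S' : ℤ) - x), g x := by
              rw [Finset.sum_image]
              · exact Finset.sum_congr rfl fun x _ => hsym x
              · intro x _ y _ hxy
                simp only at hxy
                omega
          _ ≤ ∑ x ∈ Icc ((j : ℤ) - s b) j, g x := by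
              refine Finset.sum_le_sum_of_subset_of_nonneg ?_ fun x _ _ => hpos x
              intro y hy
              rw [mem_image] at hy
              obtain ⟨x, hx, rfl⟩ := hy
              rw [mem_Ico] at hx
              rw [mem_Icc]
              omega
      linarith
    rw [NZ_nat, NZ_nat] at hmain
    exact_mod_cast hmain

end TwoRow

end Vale.Agent.H27.CT
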