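import Vale.Agent.H27.CT.L1

/-!
# Row L2: flows between consecutive levels of a box
-/

open Finset

namespace Vale.Agent.H27.CT

namespace L2

/-! ### the real sequence computation -/

section Seq

variable {a b : ℕ → ℝ} {w : ℕ}

theorem F_nonneg (hslc : ∀ t t', t ≤ t' → a t' * b t ≤ a t * b t')
    (hB : 0 < ∑ t ∈ range (w + 1), b t) {i : ℕ} (hi : i ≤ w) :
    0 ≤ (∑ t ∈ range (i + 1), a t)
      - (∑ t ∈ range (w + 1), a t) / (∑ t ∈ range (w + 1), b t) * ∑ t ∈ range (i + 1), b t := by
  have h1 : ∑ t ∈ range (w + 1), a t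
      = ∑ t ∈ range (i + 1), a t + ∑ t ∈ Ico (i + 1) (w + 1), a t :=
    (sum_range_add_sum_Ico _ (by omega)).symm
  have h2 : ∑ t ∈ range (w + 1), b t
      = ∑ t ∈ range (i + 1), b t + ∑ t ∈ Ico (i + 1) (w + 1), b t :=
    (sum_range_add_sum_Ico _ (by omega)).symm
  have h3 : (∑ t ∈ Ico (i + 1) (w + 1), a t) * (∑ t ∈ range (i + 1), b t)
      ≤ (∑ t ∈ range (i + 1), a t) * (∑ t ∈ Ico (i + 1) (w + 1), b t) := by
    rw [mul_comm (∑ t ∈ Ico (i + 1) (w + 1), a t), sum_mul_sum, sum_mul_sum]
    apply sum_le_sum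
    intro t ht
    apply sum_le_sum
    intro t' ht'
    have := hslc t t' (by simp only [mem_range, mem_Ico] at ht ht'; omega)
    linarith
  rw [sub_nonneg, div_mul_eq_mul_div, div_le_iff₀ hB, h1, h2]
  nlinarith

theorem F_le (ha : ∀ t, 0 ≤ a t) (hb : ∀ t, 0 ≤ b t) (hab : ∀ t, b (t + 1) = a t)
    (hB : 0 < ∑ t ∈ range (w + 1), b t) {i : ℕ} (hi : i ≤ w) :
    (∑ t ∈ range (i + 1), a t)
      - (∑ t ∈ range (w + 1), a t) / (∑ t ∈ range (w + 1), b t) * ∑ t ∈ range (i + 1), b t
      ≤ a i := by
  have h1 : ∑ t ∈ range (i + 1), a t = ∑ t ∈ range i, a t + a i := sum_range_succ _ _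
  have h2 : ∑ t ∈ range (i + 1), b t = b 0 + ∑ t ∈ range i, a t := by
    rw [sum_range_succ' b i, add_comm]; simp [hab]
  have h3 : ∑ t ∈ range (w + 1), b t = b 0 + ∑ t ∈ range w, a t := by
    rw [sum_range_succ' b w, add_comm]; simp [hab]
  have h4 : ∑ t ∈ range w, a t ≤ ∑ t ∈ range (w + 1), a t :=
    sum_le_sum_of_subset_of_nonneg (range_subset_range.2 (by omega)) (fun t _ _ => ha t)
  have h5 : ∑ t ∈ range i, a t ≤ ∑ t ∈ range (w + 1), a t :=
    sum_le_sum_of_subset_of_nonneg (range_subset_range.2 (by omega)) (fun t _ _ => ha t)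
  have h6 : 0 ≤ ∑ t ∈ range i, a t := sum_nonneg (fun t _ => ha t)
  have h7 : ∑ t ∈ range i, a t
      ≤ (∑ t ∈ range (w + 1), a t) / (∑ t ∈ range (w + 1), b t) * ∑ t ∈ range (i + 1), b t := by
    rw [div_mul_eq_mul_div, le_div_iff₀ hB, h2, h3]
    nlinarith [hb 0, mul_le_mul_of_nonneg_right h5 (hb 0), mul_le_mul_of_nonneg_left h4 h6]
  linarith

end Seq

variable {ι : Type*} [Fintype ι] [DecidableEq ι]

theorem sum_upd (z : ι → ℕ) (b : ι) (i : ℕ) :
    ∑ c, Function.update z b i c + z b = ∑ c, z c + i := by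
  have h : ∑ c ∈ univ.erase b, Function.update z b i c = ∑ c ∈ univ.erase b, z c :=
    sum_congr rfl (fun c hc => Function.update_of_ne (ne_of_mem_erase hc) _ _)
  rw [← add_sum_erase univ _ (mem_univ b), ← add_sum_erase univ z (mem_univ b), h,
    Function.update_self]
  ring

theorem le_of_mem {s : ι → ℕ} {k : ℕ} {z : ι → ℕ} (hz : z ∈ lev s k) (b : ι) : z b ≤ k := by
  rw [mem_lev] at hz
  rw [← hz.2]
  exact single_le_sum (fun _ _ => Nat.zero_le _) (mem_univ b)

theorem zero_mem {s : ι → ℕ} {k : ℕ} {z : ι → ℕ} (hz : z ∈ lev s k) (b : ι) :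
    Function.update z b 0 ∈ lev (Function.update s b 0) (k - z b) := by
  have h1 := le_of_mem hz b
  rw [mem_lev] at hz ⊢
  refine ⟨fun c => ?_, ?_⟩
  · by_cases h : c = b
    · subst h; simp
    · rw [Function.update_of_ne h, Function.update_of_ne h]; exact hz.1 c
  · have := sum_upd z b 0
    omega

theorem set_mem {s : ι → ℕ} {k i : ℕ} {b : ι} {y : ι → ℕ} (hi : i ≤ s b) (hik : i ≤ k)
    (hy : y ∈ lev (Function.update s b 0) (k - i)) :
    Function.update y b i ∈ lev s k ∧ y b = 0 := by
  rw [mem_lev] at hy ⊢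
  have h0 : y b = 0 := by have := hy.1 b; simpa using this
  refine ⟨⟨fun c => ?_, ?_⟩, h0⟩
  · by_cases h : c = b
    · subst h; simpa using hi
    · rw [Function.update_of_ne h]
      have := hy.1 c
      rwa [Function.update_of_ne h] at this
  · have := sum_upd y b i
    omega

theorem card_cell (s : ι → ℕ) (b : ι) (k i : ℕ) (hi : i ≤ s b) :
    ((lev s k).filter (fun z => z b = i)).card
      = if i ≤ k then (lev (Function.update s b 0) (k - i)).card else 0 := by
  split_ifs with hik
  · apply Finset.card_nbij' (fun z => Function.update z b 0) (fun y => Function.update y b i)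
    · intro z hz
      rw [mem_coe, mem_filter] at hz
      have := zero_mem hz.1 b
      rw [hz.2] at this
      exact this
    · intro y hy
      rw [mem_coe] at hy
      rw [mem_coe, mem_filter]
      exact ⟨(set_mem hi hik hy).1, by simp⟩
    · intro z hz
      rw [mem_coe, mem_filter] at hz
      simp only [Function.update_idem]
      rw [← hz.2, Function.update_eq_self]
    · intro y hy
      rw [mem_coe] at hy
      simp only [Function.update_idem]
      rw [← (set_mem hi hik hy).2, Function.update_eq_self]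
  · rw [card_eq_zero, filter_eq_empty_iff]
    intro z hz h
    exact hik (h ▸ le_of_mem hz b)

/-- cell sizes as a real sequence -/
noncomputable def cs (s : ι → ℕ) (b : ι) (k i : ℕ) : ℝ :=
  if i ≤ k then ((lev (Function.update s b 0) (k - i)).card : ℝ) else 0

theorem card_lev (s : ι → ℕ) (b : ι) (k : ℕ) :
    ((lev s k).card : ℝ) = ∑ i ∈ range (s b + 1), cs s b k i := by
  have h := Finset.card_eq_sum_card_fiberwise (s := lev s k) (t := range (s b + 1))
    (f := fun z : ι → ℕ => z b) (by
      intro z hz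
      rw [mem_coe, mem_lev] at hz
      rw [mem_coe, mem_range, Nat.lt_succ_iff]
      exact hz.1 b)
  rw [h]
  push_cast
  apply sum_congr rfl
  intro i hi
  rw [card_cell s b k i (by simpa [Nat.lt_succ_iff] using hi)]
  unfold cs
  split_ifs <;> simp

theorem cs_nonneg (s : ι → ℕ) (b : ι) (k i : ℕ) : 0 ≤ cs s b k i := by
  unfold cs; split_ifs <;> simp

theorem cs_succ (s : ι → ℕ) (b : ι) (j i : ℕ) : cs s b (j + 1) (i + 1) = cs s b j i := by
  unfold cs
  by_cases h : i ≤ j
  · rw [if_pos h, if_pos (by omega), show j + 1 - (i + 1) = j - i by omega]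
  · rw [if_neg h, if_neg (by omega)]

theorem cs_slc (s : ι → ℕ) (b : ι) (j t t' : ℕ) (h : t ≤ t') :
    cs s b j t' * cs s b (j + 1) t ≤ cs s b j t * cs s b (j + 1) t' := by
  by_cases h' : t' ≤ j
  · unfold cs
    rw [if_pos h', if_pos (by omega), if_pos (by omega), if_pos (by omega)]
    have := lev_slc (Function.update s b 0) (i := j - t') (j := j - t) (by omega)
    rw [show j + 1 - t = j - t + 1 by omega, show j + 1 - t' = j - t' + 1 by omega]
    rw [mul_comm ((lev (Function.update s b 0) (j - t)).card : ℝ)]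
    exact_mod_cast this
  · have h0 : cs s b j t' = 0 := by unfold cs; rw [if_neg h']
    rw [h0, zero_mul]
    exact mul_nonneg (cs_nonneg _ _ _ _) (cs_nonneg _ _ _ _)

theorem cs_pos {s : ι → ℕ} {k : ℕ} {z : ι → ℕ} (hz : z ∈ lev s k) (b : ι) :
    0 < cs s b k (z b) := by
  unfold cs
  rw [if_pos (le_of_mem hz b)]
  exact_mod_cast card_pos.2 ⟨_, zero_mem hz b⟩

theorem lev_empty {s : ι → ℕ} {k : ℕ} (h : ∑ a, s a < k) : lev s k = ∅ := by
  rw [eq_empty_iff_forall_notMem]
  intro z hz
  rw [mem_lev] at hz
  have : ∑ a, z a ≤ ∑ a, s a := sum_le_sum (fun a _ => hz.1 a)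
  omega

theorem lev_nonempty (s : ι → ℕ) : ∀ k, k ≤ ∑ a, s a → (lev s k).Nonempty := by
  intro k
  induction k with
  | zero => exact fun _ => ⟨fun _ => 0, mem_lev.2 ⟨fun _ => Nat.zero_le _, by simp⟩⟩
  | succ k ih =>
    intro hk
    obtain ⟨z, hz⟩ := ih (by omega)
    have : ∃ c, z c < s c := by
      by_contra hcon
      push Not at hcon
      have h1 : ∑ a, s a ≤ ∑ a, z a := sum_le_sum (fun a _ => hcon a)
      rw [mem_lev] at hz
      omega
    obtain ⟨c, hc⟩ := this
    exact ⟨_, up_mem hz hc⟩

theorem cs_zero {s : ι → ℕ} {b : ι} {k i : ℕ} (h : ∑ a, Function.update s b 0 a < k - i) :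
    cs s b k i = 0 := by
  unfold cs
  split_ifs with hik
  · rw [lev_empty h]; simp
  · rfl

/-- the inductive step: add one column -/
theorem step (s : ι → ℕ) (b : ι) {j : ℕ} (hj : j + 1 ≤ ∑ a, s a)
    (ih : ∀ k, k + 1 ≤ ∑ a, Function.update s b 0 a → HasFlow (Function.update s b 0) k) :
    HasFlow s j := by
  classical
  -- the flows of the smaller system
  have ih' : ∀ k, ∃ q : (ι → ℕ) → ι → ℝ, k + 1 ≤ ∑ a, Function.update s b 0 a →
      (∀ z c, 0 ≤ q z c) ∧ (∀ z ∈ lev (Function.update s b 0) k, ∀ c,
        z c = Function.update s b 0 c → q z c = 0) ∧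
      (∀ z ∈ lev (Function.update s b 0) k, ∑ c, q z c = 1) ∧
      ∀ z ∈ lev (Function.update s b 0) (k + 1),
        ∑ c ∈ univ.filter (fun c => 1 ≤ z c), q (dn z c) c
          = ((lev (Function.update s b 0) k).card : ℝ)
            / ((lev (Function.update s b 0) (k + 1)).card : ℝ) := by
    intro k
    by_cases hk : k + 1 ≤ ∑ a, Function.update s b 0 a
    · obtain ⟨q, hq⟩ := ih k hk
      exact ⟨q, fun _ => hq⟩
    · exact ⟨fun _ _ => 0, fun h => absurd h hk⟩
  choose q' hq' using ih'
  have hsum : ∑ a, Function.update s b 0 a + s b = ∑ a, s a := by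
    have := sum_upd s b 0; omega
  -- nonempty levels
  have hNpos : 0 < ((lev s (j + 1)).card : ℝ) := by
    exact_mod_cast card_pos.2 (lev_nonempty s (j + 1) hj)
  have hBpos : 0 < ∑ i ∈ range (s b + 1), cs s b (j + 1) i := by
    rw [← card_lev]; exact hNpos
  set ρ : ℝ := ((lev s j).card : ℝ) / ((lev s (j + 1)).card : ℝ) with hρ
  set F : ℕ → ℝ := fun i => (∑ t ∈ range (i + 1), cs s b j t)
      - ρ * ∑ t ∈ range (i + 1), cs s b (j + 1) t with hF
  have hρ' : ρ = (∑ t ∈ range (s b + 1), cs s b j t) / (∑ t ∈ range (s b + 1), cs s b (j + 1) t) := by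
    rw [hρ, card_lev s b j, card_lev s b (j + 1)]
  have hF0 : ∀ i, i ≤ s b → 0 ≤ F i := by
    intro i hi
    simp only [hF, hρ']
    exact F_nonneg (fun t t' h => cs_slc s b j t t' h) hBpos hi
  have hF1 : ∀ i, i ≤ s b → F i ≤ cs s b j i := by
    intro i hi
    simp only [hF, hρ']
    exact F_le (fun t => cs_nonneg _ _ _ _) (fun t => cs_nonneg _ _ _ _)
      (fun t => cs_succ s b j t) hBpos hi
  have hFw : F (s b) = 0 := by
    simp only [hF, hρ']
    rw [div_mul_cancel₀ _ hBpos.ne', sub_self]
  -- the flow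
  set q : (ι → ℕ) → ι → ℝ := fun z c =>
    if z ∈ lev s j then
      (if c = b then F (z b) / cs s b j (z b)
        else (1 - F (z b) / cs s b j (z b)) * q' (j - z b) (Function.update z b 0) c)
    else 0 with hq
  have hτ0 : ∀ i, i ≤ s b → 0 ≤ F i / cs s b j i := fun i hi =>
    div_nonneg (hF0 i hi) (cs_nonneg _ _ _ _)
  have hτ1 : ∀ i, i ≤ s b → F i / cs s b j i ≤ 1 := fun i hi =>
    div_le_one_of_le₀ (hF1 i hi) (cs_nonneg _ _ _ _)
  have hτtop : ∀ z ∈ lev s j, ¬ (j - z b + 1 ≤ ∑ a, Function.update s b 0 a) →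
      F (z b) / cs s b j (z b) = 1 := by
    intro z hz hcon
    have hpos := cs_pos hz b
    have hzj := le_of_mem hz b
    have h1 : ∑ t ∈ range (z b + 1), cs s b (j + 1) t = 0 := by
      apply sum_eq_zero
      intro t ht
      rw [mem_range] at ht
      exact cs_zero (by omega)
    have h2 : ∑ t ∈ range (z b), cs s b j t = 0 := by
      apply sum_eq_zero
      intro t ht
      rw [mem_range] at ht
      rw [← cs_succ]
      exact cs_zero (by omega)
    have : F (z b) = cs s b j (z b) := by
      simp only [hF]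
      rw [h1, sum_range_succ, h2]; ring
    rw [this, div_self hpos.ne']
  have hzb : ∀ z ∈ lev s j, z b ≤ s b := fun z hz => (mem_lev.1 hz).1 b
  refine ⟨q, ?_, ?_, ?_, ?_⟩
  · intro z c
    simp only [hq]
    split_ifs with h1 h2
    · exact hτ0 _ (hzb z h1)
    · by_cases hk : j - z b + 1 ≤ ∑ a, Function.update s b 0 a
      · exact mul_nonneg (by have := hτ1 _ (hzb z h1); linarith) ((hq' _ hk).1 _ _)
      · rw [hτtop z h1 hk, sub_self, zero_mul]
    · exact le_refl 0
  · intro z hz c hc
    simp only [hq]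
    rw [if_pos hz]
    split_ifs with h2
    · subst h2
      rw [hc, hFw, zero_div]
    · by_cases hk : j - z b + 1 ≤ ∑ a, Function.update s b 0 a
      · rw [(hq' _ hk).2.1 _ (zero_mem hz b) c (by
          rw [Function.update_of_ne h2, Function.update_of_ne h2, hc]), mul_zero]
      · rw [hτtop z hz hk, sub_self, zero_mul]
  · intro z hz
    have h1 : ∑ c, q z c = F (z b) / cs s b j (z b) + ∑ c ∈ univ.erase b,
        (1 - F (z b) / cs s b j (z b)) * q' (j - z b) (Function.update z b 0) c := by
      rw [← add_sum_erase univ _ (mem_univ b)]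
      congr 1
      · simp only [hq]; rw [if_pos hz, if_pos trivial]
      · apply sum_congr rfl
        intro c hc
        simp only [hq]; rw [if_pos hz, if_neg (ne_of_mem_erase hc)]
    rw [h1, ← mul_sum]
    by_cases hk : j - z b + 1 ≤ ∑ a, Function.update s b 0 a
    · have h2 := (hq' _ hk).2.2.1 _ (zero_mem hz b)
      rw [← add_sum_erase univ _ (mem_univ b), (hq' _ hk).2.1 _ (zero_mem hz b) b (by simp),
        zero_add] at h2
      rw [h2]; ring
    · rw [hτtop z hz hk]; ring
  · intro z hz
    have hz1 : z b ≤ s b := (mem_lev.1 hz).1 b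
    have hz2 : z b ≤ j + 1 := le_of_mem hz b
    have hbpos := cs_pos hz b
    -- the part from the other columns
    have h1 : ∑ c ∈ (univ.filter (fun c => 1 ≤ z c)).erase b, q (dn z c) c
        = (cs s b j (z b) - F (z b)) / cs s b (j + 1) (z b) := by
      have h2 : ∀ c ∈ (univ.filter (fun c => 1 ≤ z c)).erase b, q (dn z c) c
          = (1 - F (z b) / cs s b j (z b)) *
            q' (j - z b) (dn (Function.update z b 0) c) c := by
        intro c hc
        rw [mem_erase, mem_filter] at hc
        have hmem : dn z c ∈ lev s j := dn_mem hz hc.2.2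
        simp only [hq]
        rw [if_pos hmem, if_neg hc.1, dn_ne z (Ne.symm hc.1)]
        congr 2
        funext d
        by_cases hd : d = b
        · subst hd
          rw [Function.update_self, dn_ne _ (Ne.symm hc.1), Function.update_self]
        · rw [Function.update_of_ne hd]
          by_cases hd' : d = c
          · subst hd'
            rw [dn_same, dn_same, Function.update_of_ne hd]
          · rw [dn_ne _ hd', dn_ne _ hd', Function.update_of_ne hd]
      rw [sum_congr rfl h2, ← mul_sum]
      by_cases hj' : z b ≤ j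
      · have hmem := zero_mem hz b
        rw [show j + 1 - z b = j - z b + 1 by omega] at hmem
        have hk : j - z b + 1 ≤ ∑ a, Function.update s b 0 a := by
          have := mem_lev.1 hmem
          rw [← this.2]
          exact sum_le_sum (fun a _ => this.1 a)
        have h3 := (hq' _ hk).2.2.2 _ hmem
        have h4 : univ.filter (fun c => 1 ≤ Function.update z b 0 c)
            = (univ.filter (fun c => 1 ≤ z c)).erase b := by
          ext c
          simp only [mem_filter, mem_univ, true_and, mem_erase]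
          by_cases hc : c = b
          · subst hc; simp
          · rw [Function.update_of_ne hc]; simp [hc]
        rw [h4] at h3
        rw [h3]
        have h5 : ((lev (Function.update s b 0) (j - z b)).card : ℝ) = cs s b j (z b) := by
          unfold cs; rw [if_pos hj']
        have h6 : ((lev (Function.update s b 0) (j - z b + 1)).card : ℝ)
            = cs s b (j + 1) (z b) := by
          unfold cs; rw [if_pos hz2, show j + 1 - z b = j - z b + 1 by omega]
        rw [h5, h6]
        by_cases h7 : cs s b j (z b) = 0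
        · have h8 : F (z b) = 0 := le_antisymm (h7 ▸ hF1 _ hz1) (hF0 _ hz1)
          rw [h7, h8]; simp
        · field_simp
      · have h7 : cs s b j (z b) = 0 := by unfold cs; rw [if_neg hj']
        have h8 : F (z b) = 0 := le_antisymm (h7 ▸ hF1 _ hz1) (hF0 _ hz1)
        have h9 : (univ.filter (fun c => 1 ≤ z c)).erase b = ∅ := by
          rw [eq_empty_iff_forall_notMem]
          intro c hc
          rw [mem_erase, mem_filter] at hc
          have h10 := (mem_lev.1 hz).2
          have h11 : z b + z c ≤ ∑ a, z a := by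
            rw [← add_sum_erase univ _ (mem_univ b)]
            have : z c ≤ ∑ a ∈ univ.erase b, z a :=
              single_le_sum (fun _ _ => Nat.zero_le _) (by simp [hc.1])
            omega
          omega
        rw [h9, h7, h8]; simp
    -- the part from column `b`
    by_cases hzb0 : 1 ≤ z b
    · obtain ⟨i, hi⟩ : ∃ i, z b = i + 1 := ⟨z b - 1, by omega⟩
      rw [← add_sum_erase (univ.filter (fun c => 1 ≤ z c)) _ (by simp [hzb0] : b ∈ _), h1]
      have h2 : q (dn z b) b = F i / cs s b j i := by
        simp only [hq]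
        rw [if_pos (dn_mem hz hzb0), if_pos trivial, dn_same, hi]; rfl
      rw [h2, hi, cs_succ]
      rw [hi, cs_succ] at hbpos
      have h3 : F i + (cs s b j (i + 1) - F (i + 1)) = ρ * cs s b j i := by
        simp only [hF]
        rw [sum_range_succ (fun t => cs s b j t) (i + 1),
          sum_range_succ (fun t => cs s b (j + 1) t) (i + 1), cs_succ]
        ring
      rw [← add_div, h3, mul_div_assoc, div_self hbpos.ne', mul_one]
    · have h0 : z b = 0 := by omega
      have h2 : (univ.filter (fun c => 1 ≤ z c)).erase b = univ.filter (fun c => 1 ≤ z c) := by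
        rw [erase_eq_self]; simp [h0]
      rw [h2] at h1
      rw [h1]
      rw [h0] at hbpos ⊢
      have h3 : cs s b j 0 - F 0 = ρ * cs s b (j + 1) 0 := by
        simp only [hF]; simp
      rw [h3, mul_div_assoc, div_self hbpos.ne', mul_one]

end L2

/-- between consecutive levels of a box there is a normalised flow -/
theorem hasFlow {ι : Type*} [Fintype ι] [DecidableEq ι] (s : ι → ℕ) {j : ℕ}
    (hj : j + 1 ≤ ∑ a, s a) : HasFlow s j := by
  have key : ∀ (S : Finset ι) (s : ι → ℕ), (∀ a, a ∉ S → s a = 0) → ∀ j, j + 1 ≤ ∑ a, s a →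
      HasFlow s j := by
    intro S
    induction S using Finset.induction_on with
    | empty =>
      intro s hs j hj
      have : ∑ a, s a = 0 := sum_eq_zero (fun a _ => hs a (by simp))
      omega
    | insert b S hb ih =>
      intro s hs j hj
      refine L2.step s b hj (fun k hk => ih (Function.update s b 0) (fun a ha => ?_) k hk)
      by_cases hab : a = b
      · subst hab; simp
      · rw [Function.update_of_ne hab]
        exact hs a (by simp [hab, ha])
  exact key univ s (fun a ha => absurd (mem_univ a) ha) j hj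

end Vale.Agent.H27.CT
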