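import Vale.Agent.H27.CT.Defs

/-!
# Contingency tables, row T1
-/

open Finset

namespace Vale.Agent.H27.CT

section TwoRow
variable {ι : Type*} [Fintype ι] [DecidableEq ι]

theorem sum_Jf {k : ℕ} (hk : k ≠ 0) (u : (ι → ℕ) → ℝ) {x : ι → ℕ} (hx : ∑ a, x a = k) :
    ∑ a, Jf k u a x = 0 := by
  have hk' : (k : ℝ) ≠ 0 := by exact_mod_cast hk
  unfold Jf
  have h1 : ∑ a, (x a : ℝ) * (u (dn x a) - Vop k u x)
      = ∑ a, (x a : ℝ) * u (dn x a) - (∑ a, (x a : ℝ)) * Vop k u x := by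
    rw [sum_mul, ← sum_sub_distrib]
    exact sum_congr rfl (fun a _ => by ring)
  rw [h1, ← Nat.cast_sum, hx, Vop]
  field_simp
  ring

theorem hst_eq_Jf {r : ℕ} (u : (ι → ℕ) → ℝ) (a : ι) {x : ι → ℕ} (hx : ∑ a, x a = r) :
    hst u a x = ((r : ℝ) + 1) * Jf (r + 1) u a (up x a) := by
  have hr : ((r : ℝ) + 1) ≠ 0 := by positivity
  have h1 : ∑ b, (up x a b : ℝ) * u (dn (up x a) b)
      = ((x a : ℝ) + 1) * u x + ∑ b ∈ univ.erase a, (x b : ℝ) * u (dn (up x a) b) := by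
    rw [← add_sum_erase univ _ (mem_univ a), up_same, dn_up]
    push_cast
    congr 1
    exact sum_congr rfl (fun b hb => by rw [up_ne x (ne_of_mem_erase hb)])
  have h2 : (r : ℝ) = (x a : ℝ) + ∑ b ∈ univ.erase a, (x b : ℝ) := by
    rw [← hx, ← add_sum_erase univ _ (mem_univ a)]
    push_cast
    rfl
  have h3 : hst u a x = ((x a : ℝ) + 1) * ((∑ b ∈ univ.erase a, (x b : ℝ)) * u x
      - ∑ b ∈ univ.erase a, (x b : ℝ) * u (dn (up x a) b)) := by
    unfold hst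
    rw [sum_mul, ← sum_sub_distrib, mul_sum]
    exact sum_congr rfl (fun b _ => by ring)
  rw [h3, Jf, Vop, h1, up_same, dn_up]
  push_cast
  have h4 : ∑ b ∈ univ.erase a, (x b : ℝ) = (r : ℝ) - x a := by linarith
  rw [h4]
  field_simp
  ring

/-- first-order difference `η_a = V u(t - e_a) - V² u(t)` -/
noncomputable def etaV (r : ℕ) (u : (ι → ℕ) → ℝ) (t : ι → ℕ) (a : ι) : ℝ :=
  Vop (r + 1) u (dn t a) - Vop (r + 2) (Vop (r + 1) u) t

theorem sum_etaV {r : ℕ} (u : (ι → ℕ) → ℝ) {t : ι → ℕ} (ht : ∑ a, t a = r + 2) :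
    ∑ a, (t a : ℝ) * etaV r u t a = 0 := by
  have := sum_Jf (k := r + 2) (by omega) (Vop (r + 1) u) ht
  simpa [Jf, etaV] using this

theorem gd_comm (r : ℕ) (u : (ι → ℕ) → ℝ) (t : ι → ℕ) (a c : ι) :
    gd r u t a c = gd r u t c a := by
  unfold gd
  rw [dn_comm]
  ring

theorem Jf_off {r : ℕ} (u : (ι → ℕ) → ℝ) (t : ι → ℕ) {a c : ι} (hac : a ≠ c) :
    Jf (r + 1) u a (dn t c) = (t a : ℝ) * (gd r u t a c + etaV r u t a) := by
  unfold Jf gd etaV
  rw [dn_ne _ hac, dn_comm t c a]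
  ring

theorem Jf_diag {r : ℕ} (u : (ι → ℕ) → ℝ) {t : ι → ℕ} (ht : ∑ a, t a = r + 2) {a : ι}
    (ha : 1 ≤ t a) :
    Jf (r + 1) u a (dn t a) = (t a : ℝ) * etaV r u t a - Gam r u t a := by
  have h1 : ∑ b, dn t a b = r + 1 := by have := sum_dn ha; omega
  have h2 := sum_Jf (by omega) u h1
  rw [← add_sum_erase univ _ (mem_univ a)] at h2
  have h3 : ∑ c ∈ univ.erase a, Jf (r + 1) u c (dn t a)
      = Gam r u t a + ∑ c ∈ univ.erase a, (t c : ℝ) * etaV r u t c := by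
    unfold Gam
    rw [← sum_add_distrib]
    refine sum_congr rfl (fun c hc => ?_)
    rw [Jf_off u t (ne_of_mem_erase hc), gd_comm]
    ring
  have h4 := sum_etaV u ht
  rw [← add_sum_erase univ _ (mem_univ a)] at h4
  linarith

theorem Jf_diff {r : ℕ} (u : (ι → ℕ) → ℝ) {t : ι → ℕ} (ht : ∑ a, t a = r + 2) {a c : ι}
    (hac : a ≠ c) (ha : 1 ≤ t a) (hc : 1 ≤ t c) :
    Jf (r + 1) u a (dn t c) - Jf (r + 1) u a (dn t a)
      = (t a : ℝ) * gd r u t a c + Gam r u t a := by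
  have _ := hc
  rw [Jf_off u t hac, Jf_diag u ht ha]
  ring

theorem sum_GG (s : ι → ℕ) (r : ℕ) (u : (ι → ℕ) → ℝ) : ∑ x ∈ lev s r, GG s u x = 0 := by
  classical
  set S : Finset ((ι → ℕ) × ι × ι) := (lev s r ×ˢ (univ ×ˢ univ)).filter
    (fun p => p.1 p.2.1 < s p.2.1 ∧ p.2.2 ≠ p.2.1 ∧ 1 ≤ p.1 p.2.2) with hS
  set f : (ι → ℕ) × ι × ι → ℝ := fun p => (p.1 p.2.2 : ℝ) * ((p.1 p.2.1 : ℝ) + 1) *
    (u p.1 - u (dn (up p.1 p.2.1) p.2.2)) with hf
  have h1 : ∑ x ∈ lev s r, GG s u x = ∑ p ∈ S, f p := by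
    rw [hS, sum_filter, sum_product]
    refine sum_congr rfl (fun x _ => ?_)
    rw [sum_product, GG, sum_filter]
    refine sum_congr rfl (fun a _ => ?_)
    unfold hst
    by_cases ha : x a < s a
    · rw [if_pos ha, ← filter_ne', sum_filter]
      refine sum_congr rfl (fun b _ => ?_)
      by_cases hb : b ≠ a
      · by_cases hxb : 1 ≤ x b
        · simp [ha, hb, hxb, hf]
        · have : x b = 0 := by omega
          simp [ha, hb, this]
      · simp [hb]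
    · simp [ha]
  rw [h1]
  have key : ∀ p ∈ S, (dn (up p.1 p.2.1) p.2.2) p.2.1 = p.1 p.2.1 + 1
      ∧ (dn (up p.1 p.2.1) p.2.2) p.2.2 = p.1 p.2.2 - 1
      ∧ dn (up (dn (up p.1 p.2.1) p.2.2) p.2.2) p.2.1 = p.1 := by
    rintro ⟨x, a, b⟩ hp
    simp only [hS, mem_filter, mem_product, mem_univ, and_true] at hp
    obtain ⟨hx, ha, hba, hb⟩ := hp
    refine ⟨?_, ?_, ?_⟩
    · simp only
      rw [dn_ne _ (Ne.symm hba), up_same]
    · simp only
      rw [dn_same, up_ne _ hba]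
    · simp only
      have : 1 ≤ up x a b := by rw [up_ne _ hba]; exact hb
      rw [up_dn this, dn_up]
  refine sum_involution (fun p _ => (dn (up p.1 p.2.1) p.2.2, p.2.2, p.2.1)) ?_ ?_ ?_ ?_
  · rintro ⟨x, a, b⟩ hp
    obtain ⟨k1, k2, k3⟩ := key _ hp
    simp only [hS, mem_filter, mem_product, mem_univ, and_true] at hp
    obtain ⟨hx, ha, hba, hb⟩ := hp
    simp only at k1 k2 k3
    simp only [hf]
    rw [k1, k2, k3, Nat.cast_sub hb]
    push_cast
    ring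
  · rintro ⟨x, a, b⟩ hp _ h
    simp only [hS, mem_filter, mem_product, mem_univ, and_true] at hp
    obtain ⟨hx, ha, hba, hb⟩ := hp
    simp only [Prod.mk.injEq] at h
    exact hba h.2.1
  · rintro ⟨x, a, b⟩ hp
    obtain ⟨k1, k2, k3⟩ := key _ hp
    simp only [hS, mem_filter, mem_product, mem_univ, and_true] at hp ⊢
    obtain ⟨hx, ha, hba, hb⟩ := hp
    simp only at k1 k2 k3
    refine ⟨?_, ?_, Ne.symm hba, ?_⟩
    · refine dn_mem (up_mem hx ha) ?_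
      rw [up_ne _ hba]; exact hb
    · rw [k2]
      have := (mem_lev.1 hx).1 b
      omega
    · rw [k1]; omega
  · rintro ⟨x, a, b⟩ hp
    obtain ⟨k1, k2, k3⟩ := key _ hp
    simp only at k3 ⊢
    rw [k3]

end TwoRow

end Vale.Agent.H27.CT
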