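import Vale.Agent.H27.CT.L3
import Vale.Agent.H27.CT.T1

/-! Row M1: sections of `Om`. -/

open Finset

namespace Vale.Agent.H27.CT

section Multi
variable {κ ι : Type*} [Fintype κ] [DecidableEq κ] [Fintype ι] [DecidableEq ι]

theorem sum_update_row (T : κ → ι → ℕ) (l : κ) (x : ι → ℕ) (a : ι) :
    ∑ k, Function.update T l x k a = x a + ∑ k ∈ univ.erase l, T k a := by
  rw [← add_sum_erase univ _ (mem_univ l), Function.update_self]
  congr 1
  exact sum_congr rfl fun k hk => by rw [Function.update_of_ne (ne_of_mem_erase hk)]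

theorem sum_erase_le {c : ι → ℕ} {rr : κ → ℕ} {T : κ → ι → ℕ} (hT : T ∈ Om c rr) (l : κ) (a : ι) :
    ∑ k ∈ univ.erase l, T k a + T l a ≤ c a := by
  have h := (mem_Om.1 hT).2 a
  rw [← add_sum_erase univ _ (mem_univ l)] at h
  omega

theorem upd_mem {c : ι → ℕ} {rr : κ → ℕ} {T : κ → ι → ℕ} (hT : T ∈ Om c rr) (l : κ)
    (x : ι → ℕ) : Function.update T l x ∈ Om c rr ↔ x ∈ lev (sec c T l) (rr l) := by
  have hT' := mem_Om.1 hT
  rw [mem_Om, mem_lev]
  constructor
  · rintro ⟨h1, h2⟩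
    refine ⟨fun a => ?_, ?_⟩
    · have h := h2 a
      rw [sum_update_row] at h
      unfold sec
      omega
    · have h := h1 l
      rwa [Function.update_self] at h
  · rintro ⟨h1, h2⟩
    refine ⟨fun k => ?_, fun a => ?_⟩
    · by_cases hk : k = l
      · subst hk
        rw [Function.update_self]; exact h2
      · rw [Function.update_of_ne hk]; exact hT'.1 k
    · rw [sum_update_row]
      have h := h1 a
      have h' := sum_erase_le hT l a
      unfold sec at h
      omega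

theorem self_mem {c : ι → ℕ} {rr : κ → ℕ} {T : κ → ι → ℕ} (hT : T ∈ Om c rr) (l : κ) :
    T l ∈ lev (sec c T l) (rr l) := by
  rw [← upd_mem hT l (T l), Function.update_eq_self]
  exact hT

theorem sec_upd (c : ι → ℕ) (T : κ → ι → ℕ) (l : κ) (x : ι → ℕ) :
    sec c (Function.update T l x) l = sec c T l := by
  funext a
  unfold sec
  congr 1
  exact sum_congr rfl fun k hk => by rw [Function.update_of_ne (ne_of_mem_erase hk)]

theorem res_upd (u : (κ → ι → ℕ) → ℝ) (T : κ → ι → ℕ) (l : κ) (x : ι → ℕ) :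
    res u (Function.update T l x) l = res u T l := by
  funext y
  unfold res
  rw [Function.update_idem]

theorem sec_eq_hub_add {c : ι → ℕ} {rr : κ → ℕ} {T : κ → ι → ℕ} (hT : T ∈ Om c rr) (l : κ)
    (a : ι) : sec c T l a = hub c T a + T l a := by
  have h := sum_erase_le hT l a
  unfold sec hub
  rw [← add_sum_erase univ (fun k => T k a) (mem_univ l)]
  omega

theorem sum_sec {c : ι → ℕ} {rr : κ → ℕ} {T : κ → ι → ℕ} (hT : T ∈ Om c rr) (l : κ) :
    ∑ a, sec c T l a + ∑ k, rr k = ∑ a, c a + rr l := by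
  have h1 : ∑ a, sec c T l a + ∑ a, ∑ k ∈ univ.erase l, T k a = ∑ a, c a := by
    rw [← sum_add_distrib]
    refine sum_congr rfl fun a _ => ?_
    have h := sum_erase_le hT l a
    unfold sec
    omega
  have h3 : ∑ a, ∑ k ∈ univ.erase l, T k a = ∑ k ∈ univ.erase l, rr k := by
    rw [sum_comm]
    exact sum_congr rfl (fun k _ => (mem_Om.1 hT).1 k)
  have h2 : ∑ k, rr k = rr l + ∑ k ∈ univ.erase l, rr k :=
    (add_sum_erase univ rr (mem_univ l)).symm
  omega

theorem fib_sum {c : ι → ℕ} {rr : κ → ℕ} (l : κ) (F : (κ → ι → ℕ) → ℝ) {T₁ : κ → ι → ℕ}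
    (hT₁ : T₁ ∈ Om c rr) :
    ∑ T ∈ (Om c rr).filter (fun T => Function.update T l 0 = Function.update T₁ l 0), F T
      = ∑ x ∈ lev (sec c T₁ l) (rr l), F (Function.update T₁ l x) := by
  have key : ∀ T : κ → ι → ℕ, Function.update T l 0 = Function.update T₁ l 0 →
      Function.update T₁ l (T l) = T := by
    intro T h
    funext k
    by_cases hk : k = l
    · subst hk; rw [Function.update_self]
    · rw [Function.update_of_ne hk]
      have := congrFun h k
      rw [Function.update_of_ne hk, Function.update_of_ne hk] at this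
      exact this.symm
  refine Finset.sum_nbij' (fun T => T l) (fun x => Function.update T₁ l x) ?_ ?_ ?_ ?_ ?_
  · intro T hT
    rw [mem_filter] at hT
    rw [← upd_mem hT₁ l, key T hT.2]
    exact hT.1
  · intro x hx
    rw [mem_filter]
    exact ⟨(upd_mem hT₁ l x).2 hx, by rw [Function.update_idem]⟩
  · intro T hT
    rw [mem_filter] at hT
    exact key T hT.2
  · intro x _
    exact Function.update_self _ _ _
  · intro T hT
    rw [mem_filter] at hT
    rw [key T hT.2]

theorem sum_le_sum_of_sec {c : ι → ℕ} {rr : κ → ℕ} (l : κ) {F G : (κ → ι → ℕ) → ℝ}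
    (hFG : ∀ T ∈ Om c rr, ∑ x ∈ lev (sec c T l) (rr l), F (Function.update T l x)
      ≤ ∑ x ∈ lev (sec c T l) (rr l), G (Function.update T l x)) :
    ∑ T ∈ Om c rr, F T ≤ ∑ T ∈ Om c rr, G T := by
  have hmaps : ∀ T ∈ Om c rr, Function.update T l 0 ∈
      (Om c rr).image (fun T => Function.update T l 0) := fun T hT => mem_image_of_mem _ hT
  rw [← Finset.sum_fiberwise_of_maps_to hmaps F, ← Finset.sum_fiberwise_of_maps_to hmaps G]
  refine sum_le_sum fun T₀ hT₀ => ?_
  obtain ⟨T₁, hT₁, rfl⟩ := mem_image.1 hT₀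
  rw [fib_sum l F hT₁, fib_sum l G hT₁]
  exact hFG T₁ hT₁

theorem sum_eq_zero_of_sec {c : ι → ℕ} {rr : κ → ℕ} (l : κ) {F : (κ → ι → ℕ) → ℝ}
    (hF : ∀ T ∈ Om c rr, ∑ x ∈ lev (sec c T l) (rr l), F (Function.update T l x) = 0) :
    ∑ T ∈ Om c rr, F T = 0 := by
  apply le_antisymm
  · have := sum_le_sum_of_sec (c := c) (rr := rr) l (F := F) (G := fun _ => 0)
      (fun T hT => by rw [hF T hT]; simp)
    simpa using this
  · have := sum_le_sum_of_sec (c := c) (rr := rr) l (F := fun _ => 0) (G := F)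
      (fun T hT => by rw [hF T hT]; simp)
    simpa using this

theorem sum_inv_mul_Gl_of {c : ι → ℕ} {rr : κ → ℕ} (l : κ) (u θ : (κ → ι → ℕ) → ℝ)
    (hGG : ∀ (s : ι → ℕ) (r : ℕ) (u : (ι → ℕ) → ℝ), ∑ x ∈ lev s r, GG s u x = 0)
    (hθ : ∀ T ∈ Om c rr, ∀ x ∈ lev (sec c T l) (rr l), θ (Function.update T l x) = θ T) :
    ∑ T ∈ Om c rr, θ T * Gl c l u T = 0 := by
  refine sum_eq_zero_of_sec l fun T hT => ?_
  have h : ∀ x ∈ lev (sec c T l) (rr l),
      θ (Function.update T l x) * Gl c l u (Function.update T l x)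
        = θ T * GG (sec c T l) (res u T l) x := by
    intro x hx
    rw [hθ T hT x hx]
    unfold Gl
    rw [sec_upd, res_upd, Function.update_self]
  rw [sum_congr rfl h, ← mul_sum, hGG, mul_zero]

theorem sum_inv_mul_Gl {c : ι → ℕ} {rr : κ → ℕ} (l : κ) (u θ : (κ → ι → ℕ) → ℝ)
    (hθ : ∀ T ∈ Om c rr, ∀ x ∈ lev (sec c T l) (rr l), θ (Function.update T l x) = θ T) :
    ∑ T ∈ Om c rr, θ T * Gl c l u T = 0 :=
  sum_inv_mul_Gl_of l u θ (fun s r u => sum_GG s r u) hθ

theorem sum_full_le (s : ι → ℕ) {r : ℕ} (hr : 2 * r ≤ ∑ b, s b) :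
    ∑ x ∈ lev s r, full s x ≤ Fintype.card ι * (lev s r).card := by
  have h1 : ∑ x ∈ lev s r, full s x = ∑ a, s a * (Kc s r a (s a)).card := by
    unfold full
    simp only [sum_filter]
    rw [sum_comm]
    refine sum_congr rfl fun a _ => ?_
    unfold Kc
    rw [← sum_filter, sum_congr rfl (g := fun _ => s a)
      (fun x hx => (mem_filter.1 hx).2), sum_const, smul_eq_mul, mul_comm]
  rw [h1]
  calc ∑ a, s a * (Kc s r a (s a)).card ≤ ∑ _a : ι, (lev s r).card := by
        refine sum_le_sum fun a _ => ?_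
        refine le_trans (Nat.mul_le_mul_right _ (Nat.le_succ _)) (uni1 s a hr)
    _ = Fintype.card ι * (lev s r).card := by
        rw [sum_const, card_univ, smul_eq_mul]

/-- uses L3 (`uni1`) -/
theorem wall_inv {c : ι → ℕ} {rr : κ → ℕ} (l : κ) (θ : (κ → ι → ℕ) → ℝ)
    (hR : ∑ k, rr k + rr l ≤ ∑ a, c a)
    (hθ : ∀ T ∈ Om c rr, ∀ x ∈ lev (sec c T l) (rr l), θ (Function.update T l x) = θ T) :
    ∑ T ∈ Om c rr, (full (sec c T l) (T l) : ℝ) * θ T ^ 2
      ≤ (Fintype.card ι : ℝ) * ∑ T ∈ Om c rr, θ T ^ 2 := by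
  rw [mul_sum]
  refine sum_le_sum_of_sec l fun T hT => ?_
  have h1 : ∀ x ∈ lev (sec c T l) (rr l),
      (full (sec c (Function.update T l x) l) (Function.update T l x l) : ℝ)
        * θ (Function.update T l x) ^ 2 = (full (sec c T l) x : ℝ) * θ T ^ 2 := by
    intro x hx
    rw [hθ T hT x hx, sec_upd, Function.update_self]
  have h2 : ∀ x ∈ lev (sec c T l) (rr l),
      (Fintype.card ι : ℝ) * θ (Function.update T l x) ^ 2 = (Fintype.card ι : ℝ) * θ T ^ 2 := by
    intro x hx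
    rw [hθ T hT x hx]
  rw [sum_congr rfl h1, sum_congr rfl h2, ← sum_mul, sum_const, nsmul_eq_mul, ← mul_assoc]
  refine mul_le_mul_of_nonneg_right ?_ (sq_nonneg _)
  have hs := sum_sec hT l
  have h3 := sum_full_le (sec c T l) (r := rr l) (by omega)
  rw [mul_comm]
  exact_mod_cast h3

end Multi

end Vale.Agent.H27.CT
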