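import Vale.Agent.H27.CT.FinDefs

/-!
# Nonemptiness of the set of contingency tables
-/

open Finset

namespace Vale.Agent.H27.CT

theorem tab_nonempty {m n : ℕ} : ∀ (N : ℕ) (r : Fin m → ℕ) (c : Fin n → ℕ), ∑ i, r i = N →
    ∑ j, c j = N → Nonempty (Tab r c) := by
  intro N
  induction N with
  | zero =>
    intro r c hr hc
    rw [sum_eq_zero_iff] at hr hc
    exact ⟨⟨fun _ _ => 0, fun i => by simp [hr i (mem_univ i)],
      fun j => by simp [hc j (mem_univ j)]⟩⟩
  | succ N ih =>
    intro r c hr hc
    obtain ⟨i, -, hi⟩ : ∃ i ∈ (univ : Finset (Fin m)), r i ≠ 0 := by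
      by_contra hcon
      push_neg at hcon
      rw [sum_eq_zero hcon] at hr
      omega
    obtain ⟨j, -, hj⟩ : ∃ j ∈ (univ : Finset (Fin n)), c j ≠ 0 := by
      by_contra hcon
      push_neg at hcon
      rw [sum_eq_zero hcon] at hc
      omega
    have e1 : ∀ {k : ℕ} (f : Fin k → ℕ) (a : Fin k), f a ≠ 0 →
        ∑ b, Function.update f a (f a - 1) b + 1 = ∑ b, f b := by
      intro k f a ha
      rw [sum_update_of_mem (mem_univ a), ← add_sum_erase univ f (mem_univ a), erase_eq]
      omega
    have hr' := e1 r i hi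
    have hc' := e1 c j hj
    obtain ⟨X⟩ := ih (Function.update r i (r i - 1)) (Function.update c j (c j - 1))
      (by omega) (by omega)
    refine ⟨⟨fun a b => X.1 a b + if a = i ∧ b = j then 1 else 0, fun a => ?_, fun b => ?_⟩⟩
    · rw [sum_add_distrib, X.2.1 a]
      by_cases ha : a = i
      · subst ha
        simp only [Function.update_self, true_and, sum_ite_eq', mem_univ, if_true]
        omega
      · simp [ha, Function.update_of_ne ha]
    · rw [sum_add_distrib, X.2.2 b]
      by_cases hb : b = j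
      · subst hb
        simp only [Function.update_self, and_true, sum_ite_eq', mem_univ, if_true]
        omega
      · simp [hb, Function.update_of_ne hb]

theorem ext_nonempty {m n : ℕ} (r : Fin m → ℕ) (c : Fin n → ℕ) (N : ℕ) (hr : ∑ i, r i = N)
    (hc : ∑ j, c j = N) (i₀ : Fin m) : Nonempty (Tab (rowPlus r i₀) (colPlus c)) := by
  obtain ⟨X⟩ := tab_nonempty N r c hr hc
  exact ⟨extend i₀ X⟩

end Vale.Agent.H27.CT
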