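import Vale.Agent.H27.CT.T1

/-!
# Contingency tables, row T2: the second-order identity
-/

open Finset

namespace Vale.Agent.H27.CT

section TwoRow
variable {ι : Type*} [Fintype ι] [DecidableEq ι]

/-- the identity at a fixed point `t` of level `r + 2` -/
theorem pt_identity {r : ℕ} (u : (ι → ℕ) → ℝ) {t : ι → ℕ} (ht : ∑ a, t a = r + 2) :
    (∑ a, if 2 ≤ t a then Jf (r + 1) u a (dn t a) ^ 2 else 0)
      + ∑ a, ∑ c, (if c ≠ a ∧ 1 ≤ t a ∧ 1 ≤ t c then
          Jf (r + 1) u a (dn t c) * Jf (r + 1) u c (dn t a) else 0)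
    = (∑ a, ∑ c ∈ univ.erase a, (t a : ℝ) * (t c : ℝ) * gd r u t a c ^ 2)
      + ∑ a ∈ univ.filter (fun a => 1 ≤ t a), Gam r u t a ^ 2 := by
  have e1 : (∑ a, if 2 ≤ t a then Jf (r + 1) u a (dn t a) ^ 2 else 0)
      = ∑ a, ((if 1 ≤ t a then Gam r u t a ^ 2 else 0) - 2 * ((t a : ℝ) * etaV r u t a * Gam r u t a)
        + ((t a : ℝ) * etaV r u t a) ^ 2) := by
    refine sum_congr rfl (fun a _ => ?_)
    by_cases h0 : t a = 0
    · simp [h0]
    by_cases h1 : t a = 1
    · have h2 := Jf_diag u ht (a := a) (by omega)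
      have h3 : Jf (r + 1) u a (dn t a) = 0 := by
        unfold Jf; rw [dn_same, h1]; simp
      rw [h3] at h2
      rw [if_neg (by omega), if_pos (by omega)]
      have h4 : Gam r u t a = (t a : ℝ) * etaV r u t a := by linarith
      rw [h4]
      ring
    · rw [if_pos (by omega), if_pos (by omega), Jf_diag u ht (by omega)]
      ring
  have e2 : ∑ a, ∑ c, (if c ≠ a ∧ 1 ≤ t a ∧ 1 ≤ t c then
          Jf (r + 1) u a (dn t c) * Jf (r + 1) u c (dn t a) else 0)
      = ∑ a, ∑ c ∈ univ.erase a, (t a : ℝ) * (t c : ℝ) *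
          ((gd r u t a c + etaV r u t a) * (gd r u t a c + etaV r u t c)) := by
    refine sum_congr rfl (fun a _ => ?_)
    rw [← filter_ne', sum_filter]
    refine sum_congr rfl (fun c _ => ?_)
    by_cases hca : c ≠ a
    · by_cases ha : 1 ≤ t a
      · by_cases hc : 1 ≤ t c
        · rw [if_pos ⟨hca, ha, hc⟩, if_pos hca, Jf_off u t (Ne.symm hca), Jf_off u t hca,
            gd_comm r u t c a]
          ring
        · have : t c = 0 := by omega
          simp [this]
      · have : t a = 0 := by omega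
        simp [this]
    · simp [hca]
  have e3 : ∑ a, ∑ c ∈ univ.erase a, (t a : ℝ) * (t c : ℝ) *
          ((gd r u t a c + etaV r u t a) * (gd r u t a c + etaV r u t c))
      = (∑ a, ∑ c ∈ univ.erase a, (t a : ℝ) * (t c : ℝ) * gd r u t a c ^ 2)
        + ∑ a, (t a : ℝ) * etaV r u t a * Gam r u t a
        + ∑ a, ∑ c ∈ univ.erase a, (t a : ℝ) * (t c : ℝ) * gd r u t a c * etaV r u t c
        + ∑ a, ∑ c ∈ univ.erase a, ((t a : ℝ) * etaV r u t a) * ((t c : ℝ) * etaV r u t c) := by
    rw [← sum_add_distrib, ← sum_add_distrib, ← sum_add_distrib]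
    refine sum_congr rfl (fun a _ => ?_)
    unfold Gam
    rw [mul_sum, ← sum_add_distrib, ← sum_add_distrib, ← sum_add_distrib]
    exact sum_congr rfl (fun c _ => by ring)
  have e4 : ∑ a, ∑ c ∈ univ.erase a, (t a : ℝ) * (t c : ℝ) * gd r u t a c * etaV r u t c
      = ∑ a, (t a : ℝ) * etaV r u t a * Gam r u t a := by
    have : ∀ a, ∑ c ∈ univ.erase a, (t a : ℝ) * (t c : ℝ) * gd r u t a c * etaV r u t c
        = ∑ c, if c ≠ a then (t a : ℝ) * (t c : ℝ) * gd r u t a c * etaV r u t c else 0 := by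
      intro a; rw [← filter_ne', sum_filter]
    rw [sum_congr rfl (fun a _ => this a), sum_comm]
    refine sum_congr rfl (fun c _ => ?_)
    unfold Gam
    rw [mul_sum, ← filter_ne', sum_filter]
    refine sum_congr rfl (fun a _ => ?_)
    by_cases hca : c ≠ a
    · rw [if_pos hca, if_pos (Ne.symm hca), gd_comm r u t a c]
      ring
    · rw [if_neg hca, if_neg (by simpa [eq_comm] using hca)]
  have e5 : ∑ a, ∑ c ∈ univ.erase a, ((t a : ℝ) * etaV r u t a) * ((t c : ℝ) * etaV r u t c)
      = - ∑ a, ((t a : ℝ) * etaV r u t a) ^ 2 := by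
    rw [← sum_neg_distrib]
    refine sum_congr rfl (fun a _ => ?_)
    rw [← mul_sum]
    have h4 := sum_etaV u ht
    rw [← add_sum_erase univ _ (mem_univ a)] at h4
    have h5 : ∑ c ∈ univ.erase a, (t c : ℝ) * etaV r u t c = - ((t a : ℝ) * etaV r u t a) := by
      linarith
    rw [h5]
    ring
  rw [e1, e2, e3, e4, e5, sum_filter, sum_add_distrib, sum_sub_distrib, ← mul_sum]
  ring

theorem b_identity (s : ι → ℕ) (r : ℕ) (u : (ι → ℕ) → ℝ) :
    ∑ x ∈ lev s r, (GG s u x ^ 2 - ∑ a ∈ univ.filter (fun a => x a + 1 = s a), hst u a x ^ 2)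
      = ((r : ℝ) + 1) ^ 2 * YY s r u := by
  -- step 1: expansion of the square
  have s1 : ∀ x ∈ lev s r, GG s u x ^ 2 - ∑ a ∈ univ.filter (fun a => x a + 1 = s a), hst u a x ^ 2
      = ((r : ℝ) + 1) ^ 2 * ((∑ a, if x a + 2 ≤ s a then Jf (r + 1) u a (up x a) ^ 2 else 0)
        + ∑ a, ∑ c, (if c ≠ a ∧ x a < s a ∧ x c < s c then
            Jf (r + 1) u a (up x a) * Jf (r + 1) u c (up x c) else 0)) := by
    intro x hx
    have hxs := (mem_lev.1 hx).2
    have e1 : GG s u x ^ 2 = ∑ a, ∑ c, (if x a < s a ∧ x c < s c then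
        hst u a x * hst u c x else 0) := by
      rw [GG, sq, sum_mul_sum, sum_filter]
      refine sum_congr rfl (fun a _ => ?_)
      rw [sum_filter]
      by_cases ha : x a < s a
      · simp [ha]
      · simp [ha]
    have e2 : ∑ a, ∑ c, (if x a < s a ∧ x c < s c then hst u a x * hst u c x else 0)
        = (∑ a, if x a < s a then hst u a x ^ 2 else 0)
          + ∑ a, ∑ c, (if c ≠ a ∧ x a < s a ∧ x c < s c then hst u a x * hst u c x else 0) := by
      rw [← sum_add_distrib]
      refine sum_congr rfl (fun a _ => ?_)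
      rw [← add_sum_erase univ _ (mem_univ a)]
      congr 1
      · by_cases ha : x a < s a
        · simp [ha, sq]
        · simp [ha]
      · rw [← filter_ne', sum_filter]
        refine sum_congr rfl (fun c _ => ?_)
        by_cases hca : c ≠ a
        · simp [hca]
        · simp [hca]
    have e3 : (∑ a, if x a < s a then hst u a x ^ 2 else 0)
        - ∑ a ∈ univ.filter (fun a => x a + 1 = s a), hst u a x ^ 2
        = ∑ a, if x a + 2 ≤ s a then hst u a x ^ 2 else 0 := by
      rw [sum_filter, ← sum_sub_distrib]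
      refine sum_congr rfl (fun a _ => ?_)
      by_cases h1 : x a + 2 ≤ s a
      · rw [if_pos (by omega), if_neg (by omega), if_pos h1]; ring
      · by_cases h2 : x a + 1 = s a
        · rw [if_pos (by omega), if_pos h2, if_neg h1]; ring
        · rw [if_neg (by omega), if_neg h2, if_neg h1]; ring
    rw [e1, e2]
    have e4 : (∑ a, if x a < s a then hst u a x ^ 2 else 0)
          + ∑ a, ∑ c, (if c ≠ a ∧ x a < s a ∧ x c < s c then hst u a x * hst u c x else 0)
          - ∑ a ∈ univ.filter (fun a => x a + 1 = s a), hst u a x ^ 2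
        = (∑ a, if x a + 2 ≤ s a then hst u a x ^ 2 else 0)
          + ∑ a, ∑ c, (if c ≠ a ∧ x a < s a ∧ x c < s c then hst u a x * hst u c x else 0) := by
      rw [← e3]; ring
    rw [e4, mul_add, mul_sum, mul_sum]
    congr 1
    · refine sum_congr rfl (fun a _ => ?_)
      rw [hst_eq_Jf u a hxs]
      split_ifs <;> ring
    · refine sum_congr rfl (fun a _ => ?_)
      rw [mul_sum]
      refine sum_congr rfl (fun c _ => ?_)
      rw [hst_eq_Jf u a hxs, hst_eq_Jf u c hxs]
      split_ifs <;> ring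
  rw [sum_congr rfl s1, ← mul_sum]
  congr 1
  rw [sum_add_distrib, YY]
  have s2 : ∀ t ∈ lev s (r + 2), ((∑ a, ∑ c ∈ univ.erase a, (t a : ℝ) * (t c : ℝ) * gd r u t a c ^ 2)
      + ∑ a ∈ univ.filter (fun a => 1 ≤ t a), Gam r u t a ^ 2)
      = (∑ a, if 2 ≤ t a then Jf (r + 1) u a (dn t a) ^ 2 else 0)
      + ∑ a, ∑ c, (if c ≠ a ∧ 1 ≤ t a ∧ 1 ≤ t c then
          Jf (r + 1) u a (dn t c) * Jf (r + 1) u c (dn t a) else 0) := by
    intro t ht
    rw [pt_identity u (mem_lev.1 ht).2]
  rw [sum_congr rfl s2, sum_add_distrib]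
  congr 1
  · -- diagonal part
    rw [sum_comm, sum_comm (s := lev s (r + 2))]
    refine sum_congr rfl (fun a _ => ?_)
    rw [← sum_filter, ← sum_filter]
    refine sum_nbij' (fun x => up (up x a) a) (fun t => dn (dn t a) a) ?_ ?_ ?_ ?_ ?_
    · intro x hx
      rw [mem_filter] at hx ⊢
      refine ⟨up_mem (up_mem hx.1 (by omega)) (by rw [up_same]; omega), by simp⟩
    · intro t ht
      rw [mem_filter] at ht ⊢
      refine ⟨dn_mem (dn_mem ht.1 (by omega)) (by rw [dn_same]; omega), ?_⟩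
      have := (mem_lev.1 ht.1).1 a
      simp only [dn_same]
      omega
    · intro x hx
      rw [dn_up, dn_up]
    · intro t ht
      rw [mem_filter] at ht
      rw [up_dn (by rw [dn_same]; omega), up_dn (by omega)]
    · intro x hx
      rw [dn_up]
  · -- off-diagonal part
    have c1 : ∑ x ∈ lev s r, ∑ a, ∑ c, (if c ≠ a ∧ x a < s a ∧ x c < s c then
            Jf (r + 1) u a (up x a) * Jf (r + 1) u c (up x c) else 0)
        = ∑ a, ∑ c, ∑ x ∈ lev s r, (if c ≠ a ∧ x a < s a ∧ x c < s c then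
            Jf (r + 1) u a (up x a) * Jf (r + 1) u c (up x c) else 0) := by
      rw [sum_comm]
      exact sum_congr rfl (fun a _ => sum_comm)
    have c2 : ∑ t ∈ lev s (r + 2), ∑ a, ∑ c, (if c ≠ a ∧ 1 ≤ t a ∧ 1 ≤ t c then
            Jf (r + 1) u a (dn t c) * Jf (r + 1) u c (dn t a) else 0)
        = ∑ a, ∑ c, ∑ t ∈ lev s (r + 2), (if c ≠ a ∧ 1 ≤ t a ∧ 1 ≤ t c then
            Jf (r + 1) u a (dn t c) * Jf (r + 1) u c (dn t a) else 0) := by
      rw [sum_comm]
      exact sum_congr rfl (fun a _ => sum_comm)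
    rw [c1, c2]
    refine sum_congr rfl (fun a _ => sum_congr rfl (fun c _ => ?_))
    by_cases hca : c ≠ a
    · rw [← sum_filter, ← sum_filter]
      refine sum_nbij' (fun x => up (up x a) c) (fun t => dn (dn t a) c) ?_ ?_ ?_ ?_ ?_
      · intro x hx
        rw [mem_filter] at hx ⊢
        obtain ⟨hx1, -, hxa, hxc⟩ := hx
        refine ⟨up_mem (up_mem hx1 hxa) (by rw [up_ne _ hca]; exact hxc), hca, ?_, ?_⟩
        · rw [up_ne _ (Ne.symm hca), up_same]; omega
        · rw [up_same]; omega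
      · intro t ht
        rw [mem_filter] at ht ⊢
        obtain ⟨ht1, -, hta, htc⟩ := ht
        have h1 := (mem_lev.1 ht1).1 a
        have h2 := (mem_lev.1 ht1).1 c
        refine ⟨dn_mem (dn_mem ht1 hta) (by rw [dn_ne _ hca]; exact htc), hca, ?_, ?_⟩
        · rw [dn_ne _ (Ne.symm hca), dn_same]; omega
        · rw [dn_same, dn_ne _ hca]; omega
      · intro x hx
        rw [up_comm, dn_up, dn_up]
      · intro t ht
        rw [mem_filter] at ht
        obtain ⟨ht1, -, hta, htc⟩ := ht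
        rw [up_comm, up_dn (by rw [dn_ne _ hca]; exact htc), up_dn hta]
      · intro x hx
        rw [dn_up, up_comm x a c, dn_up]
    · simp [hca]

end TwoRow

end Vale.Agent.H27.CT
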